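import Crest.Agent.R149.Defs

/-!
PIECE D (packing facts).
-/

set_option autoImplicit false

namespace Crest.Agent.R149

open MeasureTheory Crest.ProbabilityR.Continuum
open scoped ENNReal BigOperators

/-- a single coordinate difference is at most the distance -/
theorem pk_abs_coord_le_dist (x y : Pt) (k : Fin 3) : |x k - y k| ≤ dist x y := by
  rw [EuclideanSpace.dist_eq]
  apply Real.le_sqrt_of_sq_le
  rw [sq_abs]
  have : (x k - y k) ^ 2 = dist (x k) (y k) ^ 2 := by
    rw [Real.dist_eq, sq_abs]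
  rw [this]
  exact Finset.single_le_sum (f := fun i => dist (x i) (y i) ^ 2) (fun i _ => sq_nonneg _)
    (Finset.mem_univ k)

/-- points with all coordinate differences less than `a` are at distance less than `2 a` -/
theorem pk_dist_lt_of_coord {x y : Pt} {a : ℝ} (h : ∀ k, |x k - y k| < a) : dist x y < 2 * a := by
  have ha : 0 < a := lt_of_le_of_lt (abs_nonneg _) (h 0)
  rw [EuclideanSpace.dist_eq, Real.sqrt_lt' (by positivity)]
  rw [Fin.sum_univ_three]
  have hk : ∀ k, dist (x k) (y k) ^ 2 < a ^ 2 := by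
    intro k
    rw [Real.dist_eq]
    exact pow_lt_pow_left₀ (h k) (abs_nonneg _) (by norm_num)
  nlinarith [hk 0, hk 1, hk 2, sq_nonneg a]

/-- explicit upper bound for packings -/
theorem pk_packing_card_le {L : ℝ} (X : Finset Pt) (hX : ∀ x ∈ X, x ∈ cube L)
    (hd : ∀ x ∈ X, ∀ y ∈ X, x ≠ y → 1 ≤ dist x y) : X.card ≤ (⌊2 * L⌋₊ + 1) ^ 3 := by
  classical
  let f : Pt → (Fin 3 → ℕ) := fun x k => ⌊2 * x k⌋₊
  have hf : ∀ x ∈ X, f x ∈ Fintype.piFinset (fun _ : Fin 3 => Finset.range (⌊2 * L⌋₊ + 1)) := by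
    intro x hx
    rw [Fintype.mem_piFinset]
    intro k
    rw [Finset.mem_range]
    have := hX x hx k
    have h1 : ⌊2 * x k⌋₊ ≤ ⌊2 * L⌋₊ := Nat.floor_le_floor (by linarith [this.2])
    show ⌊2 * x k⌋₊ < _
    omega
  have hinj : Set.InjOn f (X : Set Pt) := by
    intro x hx y hy hxy
    by_contra hne
    have h1 := hd x hx y hy hne
    have h2 : dist x y < 2 * (1 / 2) := by
      apply pk_dist_lt_of_coord
      intro k
      have hk : ⌊2 * x k⌋₊ = ⌊2 * y k⌋₊ := congrFun hxy k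
      have hx0 := (hX x hx k).1
      have hy0 := (hX y hy k).1
      have a1 := Nat.floor_le (show (0 : ℝ) ≤ 2 * x k by linarith)
      have a2 := Nat.lt_floor_add_one (2 * x k)
      have b1 := Nat.floor_le (show (0 : ℝ) ≤ 2 * y k by linarith)
      have b2 := Nat.lt_floor_add_one (2 * y k)
      rw [hk] at a1 a2
      rw [abs_lt]
      constructor <;> linarith
    linarith
  have := Finset.card_le_card_of_injOn f hf hinj
  simpa using this

theorem packingSet_bdd (L : ℝ) : BddAbove (packingSet L) := by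
  refine ⟨(⌊2 * L⌋₊ + 1) ^ 3, ?_⟩
  rintro n ⟨X, rfl, hX, hd⟩
  exact pk_packing_card_le X hX hd

theorem card_le_packingNumber {L : ℝ} (X : Finset Pt) (hX : ∀ x ∈ X, x ∈ cube L)
    (hd : ∀ x ∈ X, ∀ y ∈ X, x ≠ y → 1 ≤ dist x y) : X.card ≤ packingNumber L :=
  le_csSup (packingSet_bdd L) ⟨X, rfl, hX, hd⟩

theorem pk_exists_packing (L : ℝ) : ∃ X : Finset Pt, X.card = packingNumber L ∧
    (∀ x ∈ X, x ∈ cube L) ∧ ∀ x ∈ X, ∀ y ∈ X, x ≠ y → 1 ≤ dist x y := by
  have hne : (packingSet L).Nonempty := ⟨0, ∅, by simp⟩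
  exact Nat.sSup_mem hne (packingSet_bdd L)

theorem exists_packing {L : ℝ} (hL : 0 ≤ L) : ∃ X : Finset Pt, X.card = packingNumber L ∧
    (∀ x ∈ X, x ∈ cube L) ∧ ∀ x ∈ X, ∀ y ∈ X, x ≠ y → 1 ≤ dist x y :=
  pk_exists_packing L

theorem packingNumber_le (L : ℝ) : packingNumber L ≤ (⌊2 * L⌋₊ + 1) ^ 3 := by
  obtain ⟨X, hc, hX, hd⟩ := pk_exists_packing L
  rw [← hc]
  exact pk_packing_card_le X hX hd

theorem packingNumber_mono {L L' : ℝ} (h : L ≤ L') : packingNumber L ≤ packingNumber L' := by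
  obtain ⟨X, hc, hX, hd⟩ := pk_exists_packing L
  rw [← hc]
  exact card_le_packingNumber X (fun x hx k => ⟨(hX x hx k).1, (hX x hx k).2.trans h⟩) hd

/-- the affine map `x ↦ σ x + t` -/
noncomputable def pkAff (σ : ℝ) (t : Pt) (x : Pt) : Pt := σ • x + t

theorem pkAff_apply (σ : ℝ) (t x : Pt) (k : Fin 3) : pkAff σ t x k = σ * x k + t k := by
  simp [pkAff]

theorem dist_pkAff (σ : ℝ) (t x y : Pt) : dist (pkAff σ t x) (pkAff σ t y) = |σ| * dist x y := by
  simp only [pkAff, dist_add_right]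
  rw [dist_smul₀, Real.norm_eq_abs]

theorem pkAff_injective {σ : ℝ} (hσ : σ ≠ 0) (t : Pt) : Function.Injective (pkAff σ t) := by
  intro x y h
  have h1 : dist (pkAff σ t x) (pkAff σ t y) = 0 := by rw [h]; simp
  rw [dist_pkAff] at h1
  rcases mul_eq_zero.1 h1 with h2 | h2
  · exact absurd (abs_eq_zero.1 h2) hσ
  · exact dist_eq_zero.1 h2

/-- the constant vector -/
noncomputable def pkVec (v : Fin 3 → ℝ) : Pt := WithLp.toLp 2 v

@[simp] theorem pkVec_apply (v : Fin 3 → ℝ) (k : Fin 3) : pkVec v k = v k := rfl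

/-- scaled and translated packings: separation `σ`, inside `[r, L-r]^3` -/
theorem exists_packing_scaled {L σ r : ℝ} (hσ : 0 < σ) (hL : 0 ≤ L - 2 * r) :
    ∃ X : Finset Pt, X.card = packingNumber ((L - 2 * r) / σ) ∧
    (∀ x ∈ X, ∀ k, r ≤ x k ∧ x k ≤ L - r) ∧ ∀ x ∈ X, ∀ y ∈ X, x ≠ y → σ ≤ dist x y := by
  classical
  obtain ⟨X, hc, hX, hd⟩ := pk_exists_packing ((L - 2 * r) / σ)
  refine ⟨X.image (pkAff σ (pkVec fun _ => r)), ?_, ?_, ?_⟩
  · rw [Finset.card_image_of_injective _ (pkAff_injective hσ.ne' _), hc]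
  · intro x hx k
    obtain ⟨y, hy, rfl⟩ := Finset.mem_image.1 hx
    rw [pkAff_apply, pkVec_apply]
    have := hX y hy k
    constructor
    · have := mul_nonneg hσ.le this.1
      linarith
    · have h2 := (le_div_iff₀ hσ).1 this.2
      linarith
  · intro x hx y hy hxy
    obtain ⟨x', hx', rfl⟩ := Finset.mem_image.1 hx
    obtain ⟨y', hy', rfl⟩ := Finset.mem_image.1 hy
    rw [dist_pkAff, abs_of_pos hσ]
    have hne : x' ≠ y' := fun h => hxy (by rw [h])
    have := hd x' hx' y' hy' hne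
    nlinarith

/-- superadditivity -/
theorem pk_packing_super {ℓ : ℝ} (hℓ : 0 ≤ ℓ) (M : ℕ) :
    M ^ 3 * packingNumber ℓ ≤ packingNumber (M * (ℓ + 1)) := by
  classical
  obtain ⟨X, hc, hX, hd⟩ := pk_exists_packing ℓ
  let I : Finset (Fin 3 → Fin M) := Finset.univ
  let F : (Fin 3 → Fin M) × Pt → Pt := fun p =>
    pkAff 1 (pkVec fun k => (p.1 k : ℕ) * (ℓ + 1)) p.2
  have hF : ∀ p k, F p k = p.2 k + (p.1 k : ℕ) * (ℓ + 1) := by
    intro p k
    simp [F, pkAff_apply]
  have hsep : ∀ p ∈ (I ×ˢ X), ∀ q ∈ (I ×ˢ X), p ≠ q → 1 ≤ dist (F p) (F q) := by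
    intro p hp q hq hpq
    obtain ⟨v, x⟩ := p
    obtain ⟨w, y⟩ := q
    simp only [Finset.mem_product] at hp hq
    by_cases hvw : v = w
    · subst hvw
      have hxy : x ≠ y := fun h => hpq (by rw [h])
      have h1 := hd x hp.2 y hq.2 hxy
      simp only [F]
      rw [dist_pkAff]
      simpa using h1
    · obtain ⟨k, hk⟩ := Function.ne_iff.1 hvw
      refine le_trans ?_ (pk_abs_coord_le_dist _ _ k)
      rw [hF, hF]
      simp only
      have hxk := hX x hp.2 k
      have hyk := hX y hq.2 k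
      have hk' : (v k : ℕ) ≠ (w k : ℕ) := fun h => hk (Fin.ext h)
      rcases lt_or_gt_of_ne hk' with h | h
      · have h2 : ((v k : ℕ) : ℝ) + 1 ≤ ((w k : ℕ) : ℝ) := by exact_mod_cast h
        rw [abs_sub_comm]
        refine le_trans ?_ (le_abs_self _)
        nlinarith [hxk.1, hxk.2, hyk.1, hyk.2]
      · have h2 : ((w k : ℕ) : ℝ) + 1 ≤ ((v k : ℕ) : ℝ) := by exact_mod_cast h
        refine le_trans ?_ (le_abs_self _)
        nlinarith [hxk.1, hxk.2, hyk.1, hyk.2]
  have hinj : Set.InjOn F ((I ×ˢ X : Finset _) : Set ((Fin 3 → Fin M) × Pt)) := by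
    intro p hp q hq h
    by_contra hne
    have := hsep p hp q hq hne
    rw [h, dist_self] at this
    linarith
  have hcard : ((I ×ˢ X).image F).card = M ^ 3 * packingNumber ℓ := by
    rw [Finset.card_image_of_injOn hinj, Finset.card_product, hc]
    simp [I]
  rw [← hcard]
  apply card_le_packingNumber
  · intro z hz k
    obtain ⟨⟨v, x⟩, hp, rfl⟩ := Finset.mem_image.1 hz
    simp only [Finset.mem_product] at hp
    rw [hF]
    simp only
    have hxk := hX x hp.2 k
    have h2 : ((v k : ℕ) : ℝ) + 1 ≤ (M : ℝ) := by exact_mod_cast (v k).2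
    have h3 : (0 : ℝ) ≤ ((v k : ℕ) : ℝ) := by positivity
    constructor
    · nlinarith [hxk.1]
    · nlinarith [hxk.2]
  · intro z hz z' hz' hne
    obtain ⟨p, hp, rfl⟩ := Finset.mem_image.1 hz
    obtain ⟨q, hq, rfl⟩ := Finset.mem_image.1 hz'
    exact hsep p hp q hq (fun h => hne (by rw [h]))

/-- Superadditivity: `packingNumber (M (ℓ+1)) ≥ M³ packingNumber ℓ`; hence
`P(L)/L³ → p = sup_ℓ P(ℓ)/(ℓ+1)³`. -/
theorem packing_limit : ∃ p : ℝ, 0 < p ∧
    Filter.Tendsto (fun L : ℝ => (packingNumber L : ℝ) / L ^ 3) Filter.atTop (nhds p) ∧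
    ∀ L : ℝ, 0 ≤ L → (packingNumber L : ℝ) ≤ p * (L + 1) ^ 3 := by
  let S : Set ℝ := {r | ∃ ℓ : ℝ, 0 ≤ ℓ ∧ r = (packingNumber ℓ : ℝ) / (ℓ + 1) ^ 3}
  have hSb : BddAbove S := by
    refine ⟨8, ?_⟩
    rintro r ⟨ℓ, hℓ, rfl⟩
    rw [div_le_iff₀ (by positivity)]
    have h1 : (packingNumber ℓ : ℝ) ≤ ((⌊2 * ℓ⌋₊ : ℝ) + 1) ^ 3 := by
      exact_mod_cast packingNumber_le ℓ
    have h2 : (⌊2 * ℓ⌋₊ : ℝ) + 1 ≤ 2 * (ℓ + 1) := by
      have := Nat.floor_le (show (0 : ℝ) ≤ 2 * ℓ by linarith)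
      linarith
    have h3 : ((⌊2 * ℓ⌋₊ : ℝ) + 1) ^ 3 ≤ (2 * (ℓ + 1)) ^ 3 :=
      pow_le_pow_left₀ (by positivity) h2 3
    nlinarith
  have hS1 : ∀ ℓ : ℝ, 0 ≤ ℓ → (packingNumber ℓ : ℝ) / (ℓ + 1) ^ 3 ≤ sSup S := fun ℓ hℓ =>
    le_csSup hSb ⟨ℓ, hℓ, rfl⟩
  have h0 : 1 ≤ packingNumber 0 := by
    have := card_le_packingNumber (L := 0) ({0} : Finset Pt) (by
      intro x hx k
      rw [Finset.mem_singleton.1 hx]
      simp) (by
      intro x hx y hy hxy
      rw [Finset.mem_singleton.1 hx, Finset.mem_singleton.1 hy] at hxy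
      exact absurd rfl hxy)
    simpa using this
  have hp : (1 : ℝ) ≤ sSup S := by
    have h1 := hS1 0 le_rfl
    have h2 : (1 : ℝ) ≤ (packingNumber 0 : ℝ) := by exact_mod_cast h0
    refine le_trans ?_ h1
    simpa using h2
  have hup : ∀ L : ℝ, 0 ≤ L → (packingNumber L : ℝ) ≤ sSup S * (L + 1) ^ 3 := by
    intro L hL
    exact (div_le_iff₀ (by positivity)).1 (hS1 L hL)
  refine ⟨sSup S, by linarith, ?_, hup⟩
  rw [Metric.tendsto_atTop]
  intro ε hε
  -- choose ℓ
  obtain ⟨r, ⟨ℓ, hℓ, rfl⟩, hr⟩ := exists_lt_of_lt_csSup (s := S) ⟨_, 0, le_rfl, rfl⟩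
    (show sSup S - ε / 2 < sSup S by linarith)
  -- lower bound tends to P(ℓ)/(ℓ+1)^3
  have hlow : Filter.Tendsto (fun L : ℝ => (1 / (ℓ + 1) - 1 / L) ^ 3 * (packingNumber ℓ : ℝ))
      Filter.atTop (nhds ((1 / (ℓ + 1) - 0) ^ 3 * (packingNumber ℓ : ℝ))) := by
    apply Filter.Tendsto.mul_const
    apply Filter.Tendsto.pow
    apply Filter.Tendsto.sub tendsto_const_nhds
    exact Filter.Tendsto.div_atTop tendsto_const_nhds Filter.tendsto_id
  have hhigh : Filter.Tendsto (fun L : ℝ => sSup S * (1 + 1 / L) ^ 3)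
      Filter.atTop (nhds (sSup S * (1 + 0) ^ 3)) := by
    apply Filter.Tendsto.const_mul
    apply Filter.Tendsto.pow
    apply Filter.Tendsto.add tendsto_const_nhds
    exact Filter.Tendsto.div_atTop tendsto_const_nhds Filter.tendsto_id
  have e1 : ∀ᶠ L : ℝ in Filter.atTop,
      sSup S - ε < (1 / (ℓ + 1) - 1 / L) ^ 3 * (packingNumber ℓ : ℝ) := by
    apply hlow.eventually (lt_mem_nhds _)
    rw [sub_zero]
    have : (1 / (ℓ + 1)) ^ 3 * (packingNumber ℓ : ℝ) = (packingNumber ℓ : ℝ) / (ℓ + 1) ^ 3 := by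
      field_simp
    rw [this]
    linarith
  have e2 : ∀ᶠ L : ℝ in Filter.atTop, sSup S * (1 + 1 / L) ^ 3 < sSup S + ε := by
    apply hhigh.eventually (gt_mem_nhds _)
    simpa using hε
  have e3 : ∀ᶠ L : ℝ in Filter.atTop, ℓ + 1 ≤ L := Filter.eventually_ge_atTop _
  obtain ⟨N, hN⟩ := Filter.eventually_atTop.1 (e1.and (e2.and e3))
  refine ⟨N, fun L hL => ?_⟩
  obtain ⟨g1, g2, g3⟩ := hN L hL
  have hLpos : 0 < L := by linarith
  have hL3 : 0 < L ^ 3 := by positivity
  rw [Real.dist_eq, abs_lt]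
  constructor
  · -- lower bound
    let M : ℕ := ⌊L / (ℓ + 1)⌋₊
    have hM1 : (M : ℝ) ≤ L / (ℓ + 1) := Nat.floor_le (by positivity)
    have hM2 : L / (ℓ + 1) - 1 ≤ (M : ℝ) := by
      have := Nat.lt_floor_add_one (L / (ℓ + 1))
      simp only [M]
      linarith
    have hM3 : (M : ℝ) * (ℓ + 1) ≤ L := (le_div_iff₀ (by positivity)).1 hM1
    have h1 : ((M ^ 3 * packingNumber ℓ : ℕ) : ℝ) ≤ (packingNumber L : ℝ) := by
      exact_mod_cast (pk_packing_super hℓ M).trans (packingNumber_mono hM3)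
    push_cast at h1
    have hb : 0 ≤ L / (ℓ + 1) - 1 := by
      rw [sub_nonneg, le_div_iff₀ (by positivity)]
      linarith
    have h2 : (L / (ℓ + 1) - 1) ^ 3 ≤ (M : ℝ) ^ 3 := pow_le_pow_left₀ hb hM2 3
    have h3 : (1 / (ℓ + 1) - 1 / L) ^ 3 * (packingNumber ℓ : ℝ) ≤
        (packingNumber L : ℝ) / L ^ 3 := by
      rw [le_div_iff₀ hL3]
      calc (1 / (ℓ + 1) - 1 / L) ^ 3 * (packingNumber ℓ : ℝ) * L ^ 3
          = (L / (ℓ + 1) - 1) ^ 3 * (packingNumber ℓ : ℝ) := by
            have : (L / (ℓ + 1) - 1) = (1 / (ℓ + 1) - 1 / L) * L := by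
              field_simp
            rw [this]; ring
        _ ≤ (M : ℝ) ^ 3 * (packingNumber ℓ : ℝ) :=
            mul_le_mul_of_nonneg_right h2 (by positivity)
        _ ≤ _ := h1
    linarith
  · have h1 := hup L hLpos.le
    have h2 : (packingNumber L : ℝ) / L ^ 3 ≤ sSup S * (1 + 1 / L) ^ 3 := by
      rw [div_le_iff₀ hL3]
      have : sSup S * (1 + 1 / L) ^ 3 * L ^ 3 = sSup S * (L + 1) ^ 3 := by
        field_simp
      rw [this]
      exact h1
    linarith

/-- cluster sets -/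
def pkClusterSet : Set ℕ :=
  {n | ∃ X : Finset Pt, X.card = n ∧ ∀ x ∈ X, ∀ y ∈ X, x ≠ y → 1 < dist x y ∧ dist x y < 2}

theorem pkClusterSet_bdd : BddAbove pkClusterSet := by
  classical
  refine ⟨packingNumber 4, ?_⟩
  rintro n ⟨X, rfl, hX⟩
  rcases X.eq_empty_or_nonempty with rfl | ⟨x0, hx0⟩
  · simp
  · let F : Pt → Pt := pkAff 1 (pkVec fun k => 2 - x0 k)
    rw [← Finset.card_image_of_injective X (pkAff_injective one_ne_zero (pkVec fun k => 2 - x0 k))]
    apply card_le_packingNumber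
    · intro z hz k
      obtain ⟨x, hx, rfl⟩ := Finset.mem_image.1 hz
      rw [pkAff_apply, pkVec_apply]
      have h1 : |x k - x0 k| ≤ 2 := by
        refine (pk_abs_coord_le_dist x x0 k).trans ?_
        by_cases h : x = x0
        · rw [h, dist_self]; norm_num
        · exact (hX x hx x0 hx0 h).2.le
      rw [abs_le] at h1
      constructor <;> linarith [h1.1, h1.2]
    · intro z hz z' hz' hne
      obtain ⟨x, hx, rfl⟩ := Finset.mem_image.1 hz
      obtain ⟨y, hy, rfl⟩ := Finset.mem_image.1 hz'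
      rw [dist_pkAff, abs_one, one_mul]
      exact (hX x hx y hy (fun h => hne (by rw [h]))).1.le

/-- The maximal size `m` of a set with pairwise distances in the open interval `(1,2)`, together
with an extremal set and the margin `η`. -/
theorem exists_cluster : ∃ (m : ℕ) (η : ℝ) (z : Fin m → Pt), 2 ≤ m ∧ 0 < η ∧ η ≤ 1 / 2 ∧
    (∀ i j, i ≠ j → 1 + η ≤ dist (z i) (z j) ∧ dist (z i) (z j) ≤ 2 - η) ∧
    ∀ X : Finset Pt, (∀ x ∈ X, ∀ y ∈ X, x ≠ y → 1 < dist x y ∧ dist x y < 2) → X.card ≤ m := by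
  classical
  obtain ⟨X, hc, hX⟩ := Nat.sSup_mem (s := pkClusterSet) ⟨0, ∅, by simp⟩ pkClusterSet_bdd
  have hmax : ∀ X : Finset Pt, (∀ x ∈ X, ∀ y ∈ X, x ≠ y → 1 < dist x y ∧ dist x y < 2) →
      X.card ≤ sSup pkClusterSet := fun X hX => le_csSup pkClusterSet_bdd ⟨X, rfl, hX⟩
  set m := sSup pkClusterSet with hm
  let e : Fin m ≃ X := (Fin.castOrderIso hc.symm).toEquiv.trans X.equivFin.symm
  let z : Fin m → Pt := fun i => (e i : Pt)
  have hz : ∀ i j, i ≠ j → 1 < dist (z i) (z j) ∧ dist (z i) (z j) < 2 := by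
    intro i j hij
    apply hX _ (e i).2 _ (e j).2
    intro h
    exact hij (e.injective (Subtype.ext h))
  -- margin
  obtain ⟨η, hη0, hη1, hη⟩ : ∃ η : ℝ, 0 < η ∧ η ≤ 1 / 2 ∧
      ∀ p ∈ (Finset.univ : Finset (Fin m × Fin m)), p.1 ≠ p.2 →
        η ≤ dist (z p.1) (z p.2) - 1 ∧ η ≤ 2 - dist (z p.1) (z p.2) := by
    have : ∀ s : Finset (Fin m × Fin m), ∃ η : ℝ, 0 < η ∧ η ≤ 1 / 2 ∧
      ∀ p ∈ s, p.1 ≠ p.2 →
        η ≤ dist (z p.1) (z p.2) - 1 ∧ η ≤ 2 - dist (z p.1) (z p.2) := by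
      intro s
      induction s using Finset.induction_on with
      | empty => exact ⟨1 / 2, by norm_num, le_rfl, by simp⟩
      | insert p s hp ih =>
        obtain ⟨η, h0, h1, h2⟩ := ih
        by_cases hpp : p.1 = p.2
        · refine ⟨η, h0, h1, ?_⟩
          intro q hq hqq
          rcases Finset.mem_insert.1 hq with rfl | hq
          · exact absurd hpp hqq
          · exact h2 q hq hqq
        · have h3 := hz _ _ hpp
          refine ⟨min η (min (dist (z p.1) (z p.2) - 1) (2 - dist (z p.1) (z p.2))),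
            lt_min h0 (lt_min (by linarith) (by linarith)), (min_le_left _ _).trans h1, ?_⟩
          intro q hq hqq
          rcases Finset.mem_insert.1 hq with rfl | hq
          · exact ⟨(min_le_right _ _).trans (min_le_left _ _),
              (min_le_right _ _).trans (min_le_right _ _)⟩
          · exact ⟨(min_le_left _ _).trans (h2 q hq hqq).1,
              (min_le_left _ _).trans (h2 q hq hqq).2⟩
    exact this _
  refine ⟨m, η, z, ?_, hη0, hη1, ?_, hmax⟩
  · -- a pair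
    let a : Pt := 0
    let b : Pt := pkVec fun k => if k = 0 then 3 / 2 else 0
    have hab : dist a b = 3 / 2 := by
      rw [EuclideanSpace.dist_eq, Fin.sum_univ_three]
      have h10 : ¬ ((1 : Fin 3) = 0) := by decide
      have h20 : ¬ ((2 : Fin 3) = 0) := by decide
      simp only [a, b, pkVec_apply, PiLp.zero_apply, h10, h20, if_true, if_false, Real.dist_eq]
      rw [Real.sqrt_eq_iff_mul_self_eq (by positivity) (by norm_num)]
      norm_num
    have hne : a ≠ b := by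
      intro h
      rw [h, dist_self] at hab
      norm_num at hab
    have h2 : ({a, b} : Finset Pt).card = 2 := Finset.card_pair hne
    rw [← h2]
    apply hmax
    intro x hx y hy hxy
    simp only [Finset.mem_insert, Finset.mem_singleton] at hx hy
    rcases hx with rfl | rfl <;> rcases hy with rfl | rfl
    · exact absurd rfl hxy
    · rw [hab]; norm_num
    · rw [dist_comm, hab]; norm_num
    · exact absurd rfl hxy
  · intro i j hij
    have := hη (i, j) (Finset.mem_univ _) hij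
    simp only at this
    constructor <;> linarith [this.1, this.2]

/-- Points of the cube with all distances in `(δ,2δ) ∪ (1,∞)`: at most `m · packingNumber L`.
(Take a maximal subset with distances `> 1`; each point is within `2δ` of it; the points within
`2δ` of one of them have pairwise distances `< 4δ ≤ 1`, hence in `(δ, 2δ)`: at most `m`.) -/
theorem card_good_le {m : ℕ}
    (hm : ∀ X : Finset Pt, (∀ x ∈ X, ∀ y ∈ X, x ≠ y → 1 < dist x y ∧ dist x y < 2) → X.card ≤ m)
    {δ L : ℝ} (hδ : 0 < δ) (hδ' : δ ≤ 1 / 8) (X : Finset Pt) (hX : ∀ x ∈ X, x ∈ cube L)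
    (hd : ∀ x ∈ X, ∀ y ∈ X, x ≠ y → (δ < dist x y ∧ dist x y < 2 * δ) ∨ 1 < dist x y) :
    X.card ≤ m * packingNumber L := by
  classical
  let P : Finset (Finset Pt) := X.powerset.filter
    (fun Y => ∀ x ∈ Y, ∀ y ∈ Y, x ≠ y → 1 < dist x y)
  obtain ⟨Y, hYP, hYmax⟩ := Finset.exists_max_image P Finset.card
    ⟨∅, by simp [P]⟩
  simp only [P, Finset.mem_filter, Finset.mem_powerset] at hYP hYmax
  obtain ⟨hYX, hYd⟩ := hYP
  have hcov : ∀ x ∈ X, ∃ y ∈ Y, dist x y < 2 * δ := by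
    intro x hx
    by_contra hcon
    push Not at hcon
    have hxY : x ∉ Y := by
      intro h
      have := hcon x h
      rw [dist_self] at this
      linarith
    have hfar : ∀ y ∈ Y, 1 < dist x y := by
      intro y hy
      have hne : x ≠ y := fun h => hxY (h ▸ hy)
      rcases hd x hx y (hYX hy) hne with h | h
      · have := hcon y hy
        linarith [h.2]
      · exact h
    have h1 := hYmax (insert x Y) ⟨Finset.insert_subset hx hYX, by
      intro a ha b hb hab
      rcases Finset.mem_insert.1 ha with rfl | ha' <;> rcases Finset.mem_insert.1 hb with rfl | hb'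
      · exact absurd rfl hab
      · exact hfar b hb'
      · rw [dist_comm]; exact hfar a ha'
      · exact hYd a ha' b hb' hab⟩
    rw [Finset.card_insert_of_notMem hxY] at h1
    omega
  have hYc : Y.card ≤ packingNumber L :=
    card_le_packingNumber Y (fun x hx => hX x (hYX hx))
      (fun x hx y hy hxy => (hYd x hx y hy hxy).le)
  choose! f hf1 hf2 using hcov
  have hfib : ∀ y ∈ Y, (X.filter (fun x => f x = y)).card ≤ m := by
    intro y hy
    rw [← Finset.card_image_of_injective (X.filter (fun x => f x = y))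
      (pkAff_injective (show δ⁻¹ ≠ 0 by positivity) (0 : Pt))]
    apply hm
    intro a ha b hb hab
    obtain ⟨x, hx, rfl⟩ := Finset.mem_image.1 ha
    obtain ⟨x', hx', rfl⟩ := Finset.mem_image.1 hb
    have hne : x ≠ x' := fun h => hab (by rw [h])
    rw [Finset.mem_filter] at hx hx'
    have h1 := hf2 x hx.1
    have h2 := hf2 x' hx'.1
    rw [hx.2] at h1
    rw [hx'.2] at h2
    have h3 : dist x x' < 4 * δ := by
      calc dist x x' ≤ dist x y + dist x' y := dist_triangle_right x x' y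
        _ < 4 * δ := by linarith
    have h4 : δ < dist x x' ∧ dist x x' < 2 * δ := by
      rcases hd x hx.1 x' hx'.1 hne with h | h
      · exact h
      · linarith
    rw [dist_pkAff, abs_of_pos (inv_pos.2 hδ)]
    constructor
    · rw [inv_mul_eq_div, lt_div_iff₀ hδ]; linarith [h4.1]
    · rw [inv_mul_eq_div, div_lt_iff₀ hδ]; linarith [h4.2]
  calc X.card = ∑ y ∈ Y, (X.filter (fun x => f x = y)).card :=
        Finset.card_eq_sum_card_fiberwise (fun x hx => hf1 x hx)
    _ ≤ ∑ _y ∈ Y, m := Finset.sum_le_sum hfib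
    _ = m * Y.card := by rw [Finset.sum_const, smul_eq_mul, mul_comm]
    _ ≤ m * packingNumber L := Nat.mul_le_mul_left _ hYc

end Crest.Agent.R149
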