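import Crest.Agent.R149.Config
import Crest.Agent.R149.Packing

/-!
PIECE F (lower bound for the core partition function: clusters at the sites of a packing).

`z : Fin q → Pt` (q ≥ 1) with pairwise distances in `[1+η, 2-η]`.  Sites `X` with separation
`σ = 1 + 2 r + 8 δ` in `[ρ, L-ρ]³`, `ρ = r + 3 δ`.  Cluster at the site `x`: labelled points
`y_0 ∈ ball x r`, `y_j ∈ ball (y_0 + δ (z_j - z_0)) (δ η / 4)` (`1 ≤ j < q`).
-/

set_option autoImplicit false

namespace Crest.Agent.R149

open MeasureTheory Crest.ProbabilityR.Continuum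
open scoped ENNReal BigOperators

/-- volume of the labelled cluster set -/
theorem cluster_volume (m : ℕ) (x : Pt) (v : Fin m → Pt) (r e : ℝ) :
    volume {y : Fin (m + 1) → Pt | y 0 ∈ Metric.ball x r ∧
      ∀ j : Fin m, y j.succ ∈ Metric.ball (y 0 + v j) e} =
      volume (Metric.ball (0 : Pt) r) * volume (Metric.ball (0 : Pt) e) ^ m := by
  set S : Set (Pt × (Fin m → Pt)) :=
    {p | p.1 ∈ Metric.ball x r ∧ ∀ j, p.2 j ∈ Metric.ball (p.1 + v j) e} with hS
  have hmp := volume_preserving_piFinSuccAbove (fun _ : Fin (m + 1) => Pt) 0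
  have hpre : {y : Fin (m + 1) → Pt | y 0 ∈ Metric.ball x r ∧
      ∀ j : Fin m, y j.succ ∈ Metric.ball (y 0 + v j) e} =
      (MeasurableEquiv.piFinSuccAbove (fun _ : Fin (m + 1) => Pt) 0) ⁻¹' S := by
    ext y
    simp only [hS, MeasurableEquiv.piFinSuccAbove, Set.mem_preimage]
    rfl
  have hSo : IsOpen S := by
    have : S = {p | dist p.1 x < r} ∩ ⋂ j : Fin m, {p | dist (p.2 j) (p.1 + v j) < e} := by
      ext p
      simp [hS]
    rw [this]
    refine IsOpen.inter (isOpen_lt (by fun_prop) (by fun_prop)) ?_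
    refine isOpen_iInter_of_finite fun j => isOpen_lt (by fun_prop) (by fun_prop)
  rw [hpre, hmp.measure_preimage hSo.measurableSet.nullMeasurableSet]
  have hprod : (volume : Measure (Pt × (Fin m → Pt))) = (volume : Measure Pt).prod volume :=
    Measure.volume_eq_prod _ _
  have hslice : ∀ a : Pt, volume (Prod.mk a ⁻¹' S) =
      (Metric.ball x r).indicator (fun _ => volume (Metric.ball (0 : Pt) e) ^ m) a := by
    intro a
    by_cases ha : a ∈ Metric.ball x r
    · rw [Set.indicator_of_mem ha]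
      have : Prod.mk a ⁻¹' S = Set.pi Set.univ (fun j => Metric.ball (a + v j) e) := by
        ext p
        simp only [hS, Set.mem_preimage, Set.mem_ofPred_eq, Set.mem_pi, Set.mem_univ, true_implies]
        exact ⟨fun h => h.2, fun h => ⟨ha, h⟩⟩
      rw [this, volume_pi_pi]
      have : ∀ j : Fin m, volume (Metric.ball (a + v j) e) = volume (Metric.ball (0 : Pt) e) :=
        fun j => Measure.addHaar_ball_center volume (a + v j) e
      simp only [this, Finset.prod_const, Finset.card_univ, Fintype.card_fin]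
    · rw [Set.indicator_of_notMem ha]
      have : Prod.mk a ⁻¹' S = ∅ := by
        ext p
        simp only [hS, Set.mem_preimage, Set.mem_ofPred_eq, Set.mem_empty_iff_false, iff_false]
        exact fun h => ha h.1
      rw [this, measure_empty]
  have h2 : volume S = ∫⁻ a, volume (Prod.mk a ⁻¹' S) := by
    rw [hprod, Measure.prod_apply hSo.measurableSet]
  rw [h2]
  simp_rw [hslice]
  rw [lintegral_indicator measurableSet_ball, lintegral_const, Measure.restrict_apply MeasurableSet.univ,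
    Set.univ_inter, Measure.addHaar_ball_center volume x r, mul_comm]

theorem energy_cluster_zero {φ₀ : ℝ → ℝ} {δ c η : ℝ} (h : CoreHyp φ₀ δ c η) {m : ℕ}
    (z : Fin (m + 1) → Pt)
    (hz : ∀ i j, i ≠ j → 1 + η ≤ dist (z i) (z j) ∧ dist (z i) (z j) ≤ 2 - η)
    (y : Fin (m + 1) → Pt)
    (hy : ∀ j : Fin m, y j.succ ∈ Metric.ball (y 0 + δ • (z j.succ - z 0)) (δ * η / 4)) :
    energy φ₀ y = 0 := by
  have hδ := h.δpos
  have hη := h.ηpos
  have hpos : 0 ≤ δ * η / 4 := by positivity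
  have hc : ∀ i, dist (y i) (y 0 + δ • (z i - z 0)) ≤ δ * η / 4 := by
    intro i
    refine Fin.cases ?_ (fun j => ?_) i
    · simpa using hpos
    · exact (Metric.mem_ball.1 (hy j)).le
  unfold energy
  refine Finset.sum_eq_zero fun p _ => ?_
  obtain ⟨⟨i, j⟩, hij⟩ := p
  simp only at hij ⊢
  have hne : i ≠ j := ne_of_lt hij
  have hd := hz i j hne
  have ht : dist (y 0 + δ • (z i - z 0)) (y 0 + δ • (z j - z 0)) = δ * dist (z i) (z j) := by
    rw [dist_add_left, dist_eq_norm, ← smul_sub, norm_smul, Real.norm_eq_abs, abs_of_pos hδ,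
      dist_eq_norm]
    congr 2
    abel
  have h1 := hc i
  have h2 := hc j
  have htri1 := dist_triangle4 (y i) (y 0 + δ • (z i - z 0)) (y 0 + δ • (z j - z 0)) (y j)
  have htri2 := dist_triangle4 (y 0 + δ • (z i - z 0)) (y i) (y j) (y 0 + δ • (z j - z 0))
  rw [dist_comm (y 0 + δ • (z j - z 0)) (y j)] at htri1
  rw [dist_comm (y 0 + δ • (z i - z 0)) (y i)] at htri2
  rw [ht] at htri1 htri2
  refine h.mid _ ?_ ?_
  · nlinarith [hd.1, mul_le_mul_of_nonneg_left hd.1 hδ.le]
  · nlinarith [hd.2, mul_le_mul_of_nonneg_left hd.2 hδ.le]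

/-- lower bound for one cluster -/
theorem Jn_cluster_lower {φ₀ : ℝ → ℝ} {δ c η : ℝ} (h : CoreHyp φ₀ δ c η) {m : ℕ}
    (z : Fin (m + 1) → Pt)
    (hz : ∀ i j, i ≠ j → 1 + η ≤ dist (z i) (z j) ∧ dist (z i) (z j) ≤ 2 - η)
    {r : ℝ} (x : Pt) (β : ℝ) :
    ((Nat.factorial (m + 1) : ℕ) : ℝ≥0∞)⁻¹ *
      (volume (Metric.ball (0 : Pt) r) * volume (Metric.ball (0 : Pt) (δ * η / 4)) ^ m) ≤
    Jn (wt φ₀ β) (Metric.ball x (r + 3 * δ)) (m + 1) := by
  have hδ := h.δpos
  have hη := h.ηpos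
  have hη2 := h.ηle
  rw [← cluster_volume m x (fun j => δ • (z j.succ - z 0)) r (δ * η / 4)]
  unfold Jn
  gcongr
  set G : Set (Fin (m + 1) → Pt) := {y : Fin (m + 1) → Pt | y 0 ∈ Metric.ball x r ∧
      ∀ j : Fin m, y j.succ ∈ Metric.ball (y 0 + δ • (z j.succ - z 0)) (δ * η / 4)} with hG
  have hGo : IsOpen G := by
    have : G = {y | dist (y 0) x < r} ∩
        ⋂ j : Fin m, {y | dist (y j.succ) (y 0 + δ • (z j.succ - z 0)) < δ * η / 4} := by
      ext p
      simp [hG]
    rw [this]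
    refine IsOpen.inter (isOpen_lt (by fun_prop) (by fun_prop)) ?_
    refine isOpen_iInter_of_finite fun j => isOpen_lt (by fun_prop) (by fun_prop)
  have hsub : G ⊆ Set.pi Set.univ (fun _ : Fin (m + 1) => Metric.ball x (r + 3 * δ)) := by
    intro y hy i _
    have hy0 : dist (y 0) x < r := hy.1
    rw [Metric.mem_ball]
    revert i
    intro i
    refine Fin.cases ?_ (fun j => ?_) i
    · intro _; linarith
    · intro _
      have h1 : dist (y j.succ) (y 0 + δ • (z j.succ - z 0)) < δ * η / 4 := hy.2 j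
      have h2 : dist (y 0 + δ • (z j.succ - z 0)) (y 0) = δ * dist (z j.succ) (z 0) := by
        rw [dist_eq_norm, add_sub_cancel_left, norm_smul, Real.norm_eq_abs, abs_of_pos hδ,
          ← dist_eq_norm]
      have h3 := (hz j.succ 0 (Fin.succ_ne_zero j)).2
      have h4 := dist_triangle4 (y j.succ) (y 0 + δ • (z j.succ - z 0)) (y 0) x
      rw [h2] at h4
      nlinarith [mul_le_mul_of_nonneg_left h3 hδ.le]
  calc volume G = ∫⁻ y in G, 1 := by simp
    _ = ∫⁻ y in G, wt φ₀ β (conf y) := by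
        refine setLIntegral_congr_fun hGo.measurableSet fun y hy => ?_
        simp only [wt]
        rw [← energy_eq_En, energy_cluster_zero h z hz y hy.2]
        simp
    _ ≤ _ := lintegral_mono_set hsub

theorem cut_congr_mem {A B : Set Pt} {s : Multiset Pt} (h : ∀ a ∈ s, a ∈ A ↔ a ∈ B) :
    cut A s = cut B s := by
  classical
  unfold cut
  exact Multiset.filter_congr h

/-- the volume in closed form -/
theorem cluster_vol_eq (m : ℕ) {r η δ : ℝ} (hr : 0 < r) (hη : 0 < η) (hδ : 0 < δ) :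
    ((Nat.factorial (m + 1) : ℕ) : ℝ≥0∞)⁻¹ *
      (volume (Metric.ball (0 : Pt) r) * volume (Metric.ball (0 : Pt) (δ * η / 4)) ^ m) =
    ENNReal.ofReal (r ^ 3 * (volume (Metric.ball (0 : Pt) 1)).toReal *
      ((η / 4) ^ 3 * (volume (Metric.ball (0 : Pt) 1)).toReal) ^ m / (Nat.factorial (m + 1) : ℝ) *
      (δ ^ 3) ^ m) := by
  set v : ℝ≥0∞ := volume (Metric.ball (0 : Pt) 1) with hv
  have hvt : v ≠ ∞ := measure_ball_lt_top.ne
  have hfr : Module.finrank ℝ Pt = 3 := by simp [Pt]
  have hb : ∀ e : ℝ, 0 < e → volume (Metric.ball (0 : Pt) e) = ENNReal.ofReal (e ^ 3 * v.toReal) := by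
    intro e he
    rw [Measure.addHaar_ball volume (0 : Pt) he.le, hfr, ENNReal.ofReal_mul (by positivity),
      ENNReal.ofReal_toReal hvt]
  rw [hb r hr, hb (δ * η / 4) (by positivity)]
  have hvn : 0 ≤ v.toReal := ENNReal.toReal_nonneg
  rw [← ENNReal.ofReal_pow (by positivity), ← ENNReal.ofReal_mul (by positivity)]
  have hf : ((Nat.factorial (m + 1) : ℕ) : ℝ≥0∞)⁻¹ =
      ENNReal.ofReal ((Nat.factorial (m + 1) : ℝ)⁻¹) := by
    rw [ENNReal.ofReal_inv_of_pos (by exact_mod_cast Nat.factorial_pos _), ENNReal.ofReal_natCast]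
  rw [hf, ← ENNReal.ofReal_mul (by positivity)]
  congr 1
  rw [mul_pow, mul_pow, div_eq_mul_inv]
  ring

/-- The constant `C` depends on `q, η, r` only (not on `δ, c, β, L`). -/
theorem base_lower (q : ℕ) (hq : 1 ≤ q) {η r : ℝ} (hη : 0 < η) (hη' : η ≤ 1 / 2) (hr : 0 < r)
    (z : Fin q → Pt) (hz : ∀ i j, i ≠ j → 1 + η ≤ dist (z i) (z j) ∧ dist (z i) (z j) ≤ 2 - η) :
    ∃ C : ℝ, 0 < C ∧ ∀ (φ₀ : ℝ → ℝ) (δ c : ℝ), CoreHyp φ₀ δ c η → ∀ (β L : ℝ), 0 < β →
      0 ≤ L - 2 * (r + 3 * δ) →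
      ENNReal.ofReal (Real.exp
        (-(C + ((q : ℝ) - 1) * (3 * Real.log (1 / δ))) *
          (packingNumber ((L - 2 * (r + 3 * δ)) / (1 + 2 * r + 8 * δ)) : ℝ))) ≤
      Jn (wt φ₀ β) (cube L)
        (q * packingNumber ((L - 2 * (r + 3 * δ)) / (1 + 2 * r + 8 * δ))) := by
  classical
  obtain ⟨m, rfl⟩ : ∃ m, q = m + 1 := ⟨q - 1, by omega⟩
  set K : ℝ := r ^ 3 * (volume (Metric.ball (0 : Pt) 1)).toReal *
      ((η / 4) ^ 3 * (volume (Metric.ball (0 : Pt) 1)).toReal) ^ m / (Nat.factorial (m + 1) : ℝ)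
    with hK
  have hv : 0 < (volume (Metric.ball (0 : Pt) 1)).toReal :=
    ENNReal.toReal_pos (Metric.measure_ball_pos volume _ one_pos).ne' measure_ball_lt_top.ne
  have hKpos : 0 < K := by
    have : (0 : ℝ) < (Nat.factorial (m + 1) : ℝ) := by exact_mod_cast Nat.factorial_pos _
    positivity
  refine ⟨|Real.log K| + 1, by positivity, ?_⟩
  intro φ₀ δ c h β L hβ hL
  have hδ := h.δpos
  set ρ : ℝ := r + 3 * δ with hρ
  set σ : ℝ := 1 + 2 * r + 8 * δ with hσ
  have hσpos : 0 < σ := by positivity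
  obtain ⟨X, hXc, hXin, hXd⟩ := exists_packing_scaled hσpos hL
  rw [← hXc]
  -- one cluster
  have hone : ∀ x : Pt, ENNReal.ofReal (Real.exp (-((|Real.log K| + 1) +
      (((m + 1 : ℕ) : ℝ) - 1) * (3 * Real.log (1 / δ))))) ≤
      Jn (wt φ₀ β) (Metric.ball x ρ) (m + 1) := by
    intro x
    refine le_trans ?_ (Jn_cluster_lower h z hz x β)
    rw [cluster_vol_eq m hr hη hδ]
    refine ENNReal.ofReal_le_ofReal ?_
    rw [← hK]
    have e1 : K * (δ ^ 3) ^ m = Real.exp (Real.log K - (m : ℝ) * (3 * Real.log (1 / δ))) := by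
      rw [Real.exp_sub, Real.exp_log hKpos, div_eq_mul_inv, ← Real.exp_neg, one_div, Real.log_inv]
      congr 1
      rw [show -((m : ℝ) * (3 * -Real.log δ)) = ((3 * m : ℕ) : ℝ) * Real.log δ by push_cast; ring,
        Real.exp_nat_mul, Real.exp_log hδ, pow_mul]
    rw [e1]
    refine Real.exp_le_exp.2 ?_
    have := neg_abs_le (Real.log K)
    push_cast
    linarith
  -- the blocks
  have hdisj : ∀ v ∈ X, ∀ u ∈ X, v ≠ u → Disjoint (Metric.ball v ρ) (Metric.ball u ρ) := by
    intro v hv u hu hvu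
    refine Metric.ball_disjoint_ball ?_
    have := hXd v hv u hu hvu
    linarith
  have hsubA : ∀ v ∈ X, Metric.ball v ρ ⊆ cube L := by
    intro v hv y hy k
    have h1 := hXin v hv k
    have h2 : |y k - v k| ≤ dist y v := by
      rw [dist_eq_norm]
      have := PiLp.norm_apply_le (y - v) k
      simpa using this
    have h3 : dist y v < ρ := hy
    have h4 := abs_lt.1 (lt_of_le_of_lt h2 h3)
    constructor <;> linarith [h1.1, h1.2, h4.1, h4.2]
  have hmain := blocks_le_Jn X (fun v => Metric.ball v ρ) (fun v _ => measurableSet_ball) hdisj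
    (fun _ => wt φ₀ β) (fun _ _ => MeasW_wt h.meas β) (wt φ₀ β) (cube L) (measurableSet_cube L)
    hsubA (fun _ => m + 1) ?_
  · rw [Finset.sum_const, smul_eq_mul, mul_comm X.card] at hmain
    refine le_trans ?_ hmain
    calc ENNReal.ofReal (Real.exp (-((|Real.log K| + 1) +
            (((m + 1 : ℕ) : ℝ) - 1) * (3 * Real.log (1 / δ))) * (X.card : ℝ)))
        = ∏ _v ∈ X, ENNReal.ofReal (Real.exp (-((|Real.log K| + 1) +
            (((m + 1 : ℕ) : ℝ) - 1) * (3 * Real.log (1 / δ))))) := by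
          rw [Finset.prod_const, ← ENNReal.ofReal_pow (Real.exp_pos _).le, ← Real.exp_nat_mul]
          congr 2
          ring
      _ ≤ _ := Finset.prod_le_prod' fun x _ => hone x
  · intro s hs _
    set cell : Pt → Pt := fun a => if hh : ∃ v ∈ X, a ∈ Metric.ball v ρ then hh.choose else 0
      with hcell
    have hcs : ∀ a ∈ s, cell a ∈ X ∧ a ∈ Metric.ball (cell a) ρ := by
      intro a ha
      have hh := hs a ha
      simp only [hcell, dif_pos hh]
      exact hh.choose_spec
    have hcu : ∀ a ∈ s, ∀ v ∈ X, (cell a = v ↔ a ∈ Metric.ball v ρ) := by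
      intro a ha v hv
      constructor
      · rintro rfl
        exact (hcs a ha).2
      · intro hav
        by_contra hne
        exact Set.disjoint_left.1 (hdisj _ (hcs a ha).1 v hv hne) (hcs a ha).2 hav
    have hcut : ∀ v ∈ X, cut {x | cell x = v} s = cut (Metric.ball v ρ) s := by
      intro v hv
      exact cut_congr_mem fun a ha => hcu a ha v hv
    have hE := En_le_sum_En cell X φ₀ s (fun a ha => (hcs a ha).1) (by
      intro a ha b hb hab
      have h1 := hXd _ (hcs a ha).1 _ (hcs b hb).1 hab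
      have h2 : dist a (cell a) < ρ := (hcs a ha).2
      have h3 : dist b (cell b) < ρ := (hcs b hb).2
      have h4 := dist_triangle4 (cell a) a b (cell b)
      rw [dist_comm (cell a) a] at h4
      refine (h.far _ ?_).le
      linarith)
    rw [Finset.sum_congr rfl fun v hv => by rw [hcut v hv]] at hE
    unfold wt
    rw [← ENNReal.ofReal_prod_of_nonneg (fun v _ => (Real.exp_pos _).le), ← Real.exp_sum]
    refine ENNReal.ofReal_le_ofReal (Real.exp_le_exp.2 ?_)
    rw [← Finset.mul_sum]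
    nlinarith

end Crest.Agent.R149
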