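import Crest.Agent.R149.Basic

/-!
PIECE A1b (measure theoretic facts on `Jn`).
`MeasW_cut`: `fun x => W (cut A (conf x))` is the finite sum over `S ⊆ Fin n` of the indicator of
`{x | ∀ i, x i ∈ A ↔ i ∈ S}` times `W (conf (fun i : S => x i))`.
-/

set_option autoImplicit false

namespace Crest.Agent.R149

open MeasureTheory Crest.ProbabilityR.Continuum
open scoped ENNReal BigOperators

theorem bm_measurable_coord (k : Fin 3) : Measurable (fun x : Pt => x k) :=
  (EuclideanSpace.proj (𝕜 := ℝ) k).continuous.measurable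

theorem measurableSet_cube (L : ℝ) : MeasurableSet (cube L) := by
  have : cube L = ⋂ k : Fin 3, {x : Pt | 0 ≤ x k ∧ x k ≤ L} := by
    ext x
    simp [cube]
  rw [this]
  refine MeasurableSet.iInter fun k => ?_
  exact (measurableSet_le measurable_const (bm_measurable_coord k)).inter
    (measurableSet_le (bm_measurable_coord k) measurable_const)

theorem measurable_cellIdx (t ℓ : ℝ) : Measurable (cellIdx t ℓ) := by
  refine measurable_pi_lambda _ fun k => ?_
  exact Int.measurable_floor.comp (((bm_measurable_coord k).add_const t).div_const ℓ)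

theorem volume_cube {L : ℝ} (hL : 0 ≤ L) : volume (cube L) = ENNReal.ofReal (L ^ 3) := by
  have h : cube L = (@WithLp.ofLp 2 (Fin 3 → ℝ)) ⁻¹' (Set.pi Set.univ fun _ => Set.Icc 0 L) := by
    ext x
    simp only [cube, Set.mem_ofPred_eq, Set.mem_preimage, Set.mem_pi, Set.mem_univ, true_implies,
      Set.mem_Icc]
  rw [h, (PiLp.volume_preserving_ofLp (Fin 3)).measure_preimage
    (MeasurableSet.univ_pi fun _ => measurableSet_Icc).nullMeasurableSet, volume_pi_pi]
  simp only [Real.volume_Icc, sub_zero, Finset.prod_const, Finset.card_univ, Fintype.card_fin]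
  rw [ENNReal.ofReal_pow hL]

theorem MeasW_wt {φ : ℝ → ℝ} (hφ : Measurable φ) (β : ℝ) : MeasW (wt φ β) := by
  intro n
  unfold wt En
  have : (fun x : Fin n → Pt => ENNReal.ofReal (Real.exp (-β *
      ((dbl φ (conf x) - (Multiset.card (conf x) : ℝ) * φ 0) / 2)))) =
      fun x : Fin n → Pt => ENNReal.ofReal (Real.exp (-β *
      ((∑ i, ∑ j, φ (dist (x i) (x j)) - (n : ℝ) * φ 0) / 2))) := by
    funext x
    rw [dbl_conf, card_conf, Fintype.card_fin]
  rw [this]
  have hm : Measurable fun x : Fin n → Pt => ∑ i, ∑ j, φ (dist (x i) (x j)) := by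
    refine Finset.measurable_sum _ fun i _ => Finset.measurable_sum _ fun j _ => ?_
    exact hφ.comp ((measurable_pi_apply i).dist (measurable_pi_apply j))
  exact ENNReal.measurable_ofReal.comp (Real.measurable_exp.comp
    (((hm.sub_const _).div_const _).const_mul _))

/-- multiplying by a function of the number of points preserves `MeasW` -/
theorem MeasW_mul_card {W : Multiset Pt → ℝ≥0∞} (hW : MeasW W) (g : ℕ → ℝ≥0∞) :
    MeasW (fun s => g (Multiset.card s) * W s) := by
  intro n
  simp only [card_conf]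
  exact (hW n).const_mul _

theorem bm_MeasW_fintype {W : Multiset Pt → ℝ≥0∞} (hW : MeasW W) {ι : Type} [Fintype ι] :
    Measurable (fun x : ι → Pt => W (conf x)) := by
  have e : Fin (Fintype.card ι) ≃ ι := (Fintype.equivFin ι).symm
  have h : (fun x : ι → Pt => W (conf x)) =
      (fun y : Fin (Fintype.card ι) → Pt => W (conf y)) ∘ (fun x : ι → Pt => fun i => x (e i)) := by
    funext x
    simp only [Function.comp]
    rw [conf_comp_equiv e x]
  rw [h]
  exact (hW _).comp (measurable_pi_lambda _ fun i => measurable_pi_apply _)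

theorem bm_cut_conf_eq {ι : Type} [Fintype ι] {A : Set Pt} (S : Finset ι) (x : ι → Pt)
    (h : ∀ i, x i ∈ A ↔ i ∈ S) : cut A (conf x) = conf (fun i : {i // i ∈ S} => x i) := by
  classical
  unfold cut conf
  rw [Multiset.filter_map]
  have h1 : (Finset.univ : Finset ι).val.filter ((fun a => a ∈ A) ∘ x) = S.val := by
    have : (Finset.univ.filter fun i => x i ∈ A) = S := by
      ext i; simp [h]
    rw [← this]
    rfl
  rw [h1]
  have h2 : S.val = (Finset.univ : Finset {i // i ∈ S}).val.map Subtype.val := by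
    have := Finset.attach_map_val (s := S)
    conv_lhs => rw [← this]
    rfl
  conv_lhs => rw [h2]
  rw [Multiset.map_map]
  rfl

theorem MeasW_cut {W : Multiset Pt → ℝ≥0∞} (hW : MeasW W) {A : Set Pt} (hA : MeasurableSet A) :
    MeasW (fun s => W (cut A s)) := by
  classical
  intro n
  have h : (fun x : Fin n → Pt => W (cut A (conf x))) = fun x : Fin n → Pt =>
      ∑ S : Finset (Fin n), Set.indicator {x : Fin n → Pt | ∀ i, x i ∈ A ↔ i ∈ S}
        (fun x => W (conf (fun i : {i // i ∈ S} => x i))) x := by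
    funext x
    rw [Finset.sum_eq_single (Finset.univ.filter fun i => x i ∈ A)]
    · rw [Set.indicator_of_mem]
      · rw [bm_cut_conf_eq (Finset.univ.filter fun i => x i ∈ A) x (fun i => by simp)]
      · intro i; simp
    · intro S _ hS
      rw [Set.indicator_of_notMem]
      intro hx
      apply hS
      ext i
      simp [hx i]
    · intro h; exact absurd (Finset.mem_univ _) h
  rw [h]
  refine Finset.measurable_sum _ fun S _ => ?_
  refine Measurable.indicator ?_ ?_
  · exact (bm_MeasW_fintype hW).comp (measurable_pi_lambda _ fun i => measurable_pi_apply _)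
  · have : {x : Fin n → Pt | ∀ i, x i ∈ A ↔ i ∈ S} =
        ⋂ i, (fun x : Fin n → Pt => x i) ⁻¹' (if i ∈ S then A else Aᶜ) := by
      ext x
      simp only [Set.mem_ofPred_eq, Set.mem_iInter, Set.mem_preimage]
      refine forall_congr' fun i => ?_
      by_cases hi : i ∈ S <;> simp [hi]
    rw [this]
    refine MeasurableSet.iInter fun i => measurable_pi_apply i ?_
    split_ifs
    · exact hA
    · exact hA.compl

theorem MeasW_prod {I : Type} (S : Finset I) (W : I → Multiset Pt → ℝ≥0∞)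
    (hW : ∀ i ∈ S, MeasW (W i)) : MeasW (fun s => ∏ i ∈ S, W i s) := by
  intro n
  exact Finset.measurable_prod S fun i hi => hW i hi n

theorem partitionFn_eq {φ : ℝ → ℝ} (hφ : Measurable φ) (L : ℝ) (N : ℕ) (β : ℝ) :
    partitionFn φ L N β = (Jn (wt φ β) (cube L) N).toReal := by
  unfold partitionFn Jn
  rw [ENNReal.toReal_mul, ENNReal.toReal_inv, ENNReal.toReal_natCast, one_div]
  congr 1
  have hm : Measurable fun x : Fin N → Pt => Real.exp (-β * energy φ x) := by
    have : (fun x : Fin N → Pt => Real.exp (-β * energy φ x)) =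
        fun x => (wt φ β (conf x)).toReal := by
      funext x
      rw [wt, ENNReal.toReal_ofReal (Real.exp_pos _).le, energy_eq_En]
    rw [this]
    exact (MeasW_wt hφ β N).ennreal_toReal
  rw [integral_eq_lintegral_of_nonneg_ae (Filter.Eventually.of_forall fun x => (Real.exp_pos _).le)
    hm.aestronglyMeasurable]
  congr 1
  refine lintegral_congr fun x => ?_
  rw [wt, energy_eq_En]

theorem bm_measurableSet_pi {A : Set Pt} (hA : MeasurableSet A) (n : ℕ) :
    MeasurableSet (Set.pi Set.univ (fun _ : Fin n => A)) :=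
  MeasurableSet.univ_pi fun _ => hA

theorem bm_mem_conf {ι : Type} [Fintype ι] {x : ι → Pt} {a : Pt} : a ∈ conf x ↔ ∃ i, x i = a := by
  simp [conf]

theorem Jn_mono {W W' : Multiset Pt → ℝ≥0∞} {A A' : Set Pt} (hA : A ⊆ A') (hAm : MeasurableSet A)
    (n : ℕ) (h : ∀ s : Multiset Pt, (∀ a ∈ s, a ∈ A) → Multiset.card s = n → W s ≤ W' s) :
    Jn W A n ≤ Jn W' A' n := by
  unfold Jn
  refine mul_le_mul' le_rfl ?_
  calc ∫⁻ x in Set.pi Set.univ (fun _ : Fin n => A), W (conf x)
      ≤ ∫⁻ x in Set.pi Set.univ (fun _ : Fin n => A), W' (conf x) := by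
        refine setLIntegral_mono' (bm_measurableSet_pi hAm n) fun x hx => ?_
        refine h _ (fun a ha => ?_) (by rw [card_conf, Fintype.card_fin])
        obtain ⟨i, rfl⟩ := bm_mem_conf.1 ha
        exact hx i (Set.mem_univ _)
    _ ≤ ∫⁻ x in Set.pi Set.univ (fun _ : Fin n => A'), W' (conf x) :=
        lintegral_mono_set (Set.pi_mono fun _ _ => hA)

/-- Translation invariance of `Jn`. -/
theorem Jn_translate {W : Multiset Pt → ℝ≥0∞} (v : Pt)
    (hinv : ∀ s : Multiset Pt, W (s.map fun a => a + v) = W s) (A : Set Pt) (n : ℕ) :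
    Jn W ((fun a => a + v) '' A) n = Jn W A n := by
  unfold Jn
  congr 1
  have hmp := measurePreserving_add_right (volume : Measure (Fin n → Pt)) (fun _ => v)
  have h := hmp.setLIntegral_comp_preimage_emb (measurableEmbedding_addRight (fun _ : Fin n => v))
    (fun x => W (conf x)) (Set.pi Set.univ (fun _ : Fin n => (fun a => a + v) '' A))
  rw [← h]
  have hpre : (fun x : Fin n → Pt => x + fun _ => v) ⁻¹'
      (Set.pi Set.univ (fun _ : Fin n => (fun a => a + v) '' A)) =
      Set.pi Set.univ (fun _ : Fin n => A) := by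
    ext x
    simp
  rw [hpre]
  refine lintegral_congr fun x => ?_
  rw [← hinv (conf x)]
  congr 1
  unfold conf
  rw [Multiset.map_map]
  rfl

theorem Jn_const (c : ℝ≥0∞) (A : Set Pt) (n : ℕ) :
    Jn (fun _ => c) A n = ((Nat.factorial n : ℕ) : ℝ≥0∞)⁻¹ * (volume A) ^ n * c := by
  unfold Jn
  rw [setLIntegral_const, volume_pi_pi]
  simp only [Finset.prod_const, Finset.card_univ, Fintype.card_fin]
  ring

theorem Jn_mul_card (g : ℕ → ℝ≥0∞) (W : Multiset Pt → ℝ≥0∞) (hg : ∀ n, g n ≠ ∞) (A : Set Pt)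
    (n : ℕ) :
    Jn (fun s => g (Multiset.card s) * W s) A n = g n * Jn W A n := by
  unfold Jn
  simp only [card_conf, Fintype.card_fin]
  rw [lintegral_const_mul' _ _ (hg n)]
  ring

theorem Jn_zero (W : Multiset Pt → ℝ≥0∞) (A : Set Pt) : Jn W A 0 = W 0 := by
  unfold Jn
  have h1 : Set.pi Set.univ (fun _ : Fin 0 => A) = Set.univ := by
    ext x; simp
  rw [h1, Measure.restrict_univ, Measure.volume_pi_eq_dirac 0, lintegral_dirac]
  simp [conf]

/-- a stable potential: finite partition functions, with the a priori bound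
`Z_L(N) ≤ exp (β B N) * V^N/N!` -/
theorem Jn_wt_le {φ : ℝ → ℝ} {B : ℝ}
    (hst : ∀ s : Multiset Pt, -B * (Multiset.card s : ℝ) ≤ En φ s) {β : ℝ} (hβ : 0 ≤ β) {L : ℝ}
    (hL : 0 ≤ L) (N : ℕ) :
    Jn (wt φ β) (cube L) N ≤
      ENNReal.ofReal (Real.exp (β * B * N) * ((L ^ 3) ^ N / (Nat.factorial N : ℝ))) := by
  have h1 : Jn (wt φ β) (cube L) N ≤ Jn (fun _ => ENNReal.ofReal (Real.exp (β * B * N)))
      (cube L) N := by
    refine Jn_mono (le_refl _) (measurableSet_cube L) N fun s _ hs => ?_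
    unfold wt
    refine ENNReal.ofReal_le_ofReal (Real.exp_le_exp.2 ?_)
    have := hst s
    rw [hs] at this
    nlinarith
  refine h1.trans (le_of_eq ?_)
  rw [Jn_const, volume_cube hL, ENNReal.ofReal_mul (Real.exp_pos _).le,
    ENNReal.ofReal_div_of_pos (by exact_mod_cast Nat.factorial_pos _), ENNReal.ofReal_natCast,
    ENNReal.ofReal_pow (show 0 ≤ L ^ 3 by positivity), ENNReal.div_eq_inv_mul]
  generalize ENNReal.ofReal (L ^ 3) = y
  ring

theorem Jn_wt_pos {φ : ℝ → ℝ} (hφ : Measurable φ) (β : ℝ) {A : Set Pt}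
    (hA : volume A ≠ 0) (N : ℕ) : 0 < Jn (wt φ β) A N := by
  unfold Jn
  refine ENNReal.mul_pos (ENNReal.inv_ne_zero.2 (ENNReal.natCast_ne_top _)) ?_
  intro h
  rw [lintegral_eq_zero_iff (MeasW_wt hφ β N)] at h
  have hne : ∀ x : Fin N → Pt, wt φ β (conf x) ≠ 0 := by
    intro x
    unfold wt
    rw [Ne, ENNReal.ofReal_eq_zero, not_le]
    exact Real.exp_pos _
  have h2 : ∀ᵐ x ∂(volume : Measure (Fin N → Pt)).restrict (Set.pi Set.univ fun _ => A), False := by
    filter_upwards [h] with x hx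
    exact hne x hx
  rw [Filter.eventually_false_iff_eq_bot, ae_eq_bot, Measure.restrict_eq_zero, volume_pi_pi] at h2
  simp only [Finset.prod_const, Finset.card_univ, Fintype.card_fin] at h2
  exact pow_ne_zero N hA h2

theorem partitionFn_pos {φ : ℝ → ℝ} (hφ : Measurable φ) {B : ℝ}
    (hst : ∀ s : Multiset Pt, -B * (Multiset.card s : ℝ) ≤ En φ s) {β : ℝ} (hβ : 0 ≤ β) {L : ℝ}
    (hL : 0 < L) (N : ℕ) : 0 < partitionFn φ L N β := by
  rw [partitionFn_eq hφ]
  refine ENNReal.toReal_pos (Jn_wt_pos hφ β ?_ N).ne'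
    (ne_top_of_le_ne_top ENNReal.ofReal_ne_top (Jn_wt_le hst hβ hL.le N))
  rw [volume_cube hL.le]
  simp only [ne_eq, ENNReal.ofReal_eq_zero, not_le]
  positivity

/-- Hölder's inequality for `Jn`. -/
theorem Jn_holder (f g : Multiset Pt → ℝ)
    (hf : ∀ n : ℕ, Measurable (fun x : Fin n → Pt => f (conf x)))
    (hg : ∀ n : ℕ, Measurable (fun x : Fin n → Pt => g (conf x)))
    {θ : ℝ} (h0 : 0 ≤ θ) (h1 : θ ≤ 1) (A : Set Pt) (n : ℕ) :
    Jn (fun s => ENNReal.ofReal (Real.exp ((1 - θ) * f s + θ * g s))) A n ≤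
      (Jn (fun s => ENNReal.ofReal (Real.exp (f s))) A n) ^ (1 - θ) *
      (Jn (fun s => ENNReal.ofReal (Real.exp (g s))) A n) ^ θ := by
  unfold Jn
  have h1' : 0 ≤ 1 - θ := by linarith
  rw [ENNReal.mul_rpow_of_nonneg _ _ h1', ENNReal.mul_rpow_of_nonneg _ _ h0]
  set c : ℝ≥0∞ := ((Nat.factorial n : ℕ) : ℝ≥0∞)⁻¹ with hc
  have hcpow : c ^ (1 - θ) * c ^ θ = c := by
    rw [← ENNReal.rpow_add_of_nonneg _ _ h1' h0]
    simp
  have key := ENNReal.lintegral_mul_norm_pow_le
    (μ := (volume : Measure (Fin n → Pt)).restrict (Set.pi Set.univ fun _ => A))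
    (f := fun x => ENNReal.ofReal (Real.exp (f (conf x))))
    (g := fun x => ENNReal.ofReal (Real.exp (g (conf x))))
    (ENNReal.measurable_ofReal.comp (Real.measurable_exp.comp (hf n))).aemeasurable
    (ENNReal.measurable_ofReal.comp (Real.measurable_exp.comp (hg n))).aemeasurable
    h1' h0 (by ring)
  have hfun : ∀ x : Fin n → Pt,
      ENNReal.ofReal (Real.exp ((1 - θ) * f (conf x) + θ * g (conf x))) =
      ENNReal.ofReal (Real.exp (f (conf x))) ^ (1 - θ) *
        ENNReal.ofReal (Real.exp (g (conf x))) ^ θ := by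
    intro x
    rw [ENNReal.ofReal_rpow_of_pos (Real.exp_pos _), ENNReal.ofReal_rpow_of_pos (Real.exp_pos _),
      ← ENNReal.ofReal_mul (by positivity), ← Real.exp_mul, ← Real.exp_mul, ← Real.exp_add]
    congr 2
    ring
  simp only [hfun]
  calc c * ∫⁻ x in Set.pi Set.univ (fun _ : Fin n => A),
        ENNReal.ofReal (Real.exp (f (conf x))) ^ (1 - θ) *
          ENNReal.ofReal (Real.exp (g (conf x))) ^ θ
      ≤ c * ((∫⁻ x in Set.pi Set.univ (fun _ : Fin n => A),
          ENNReal.ofReal (Real.exp (f (conf x)))) ^ (1 - θ) *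
          (∫⁻ x in Set.pi Set.univ (fun _ : Fin n => A),
          ENNReal.ofReal (Real.exp (g (conf x)))) ^ θ) := mul_le_mul' le_rfl key
    _ = (c ^ (1 - θ) * c ^ θ) * ((∫⁻ x in Set.pi Set.univ (fun _ : Fin n => A),
          ENNReal.ofReal (Real.exp (f (conf x)))) ^ (1 - θ) *
          (∫⁻ x in Set.pi Set.univ (fun _ : Fin n => A),
          ENNReal.ofReal (Real.exp (g (conf x)))) ^ θ) := by rw [hcpow]
    _ = _ := by ring

end Crest.Agent.R149
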