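import Crest.Agent.R149.Tail
import Crest.Agent.R149.BasicM

/-!
PIECE S (superstability).  Tiny cells of side `s₀ = δ/2` (diagonal `< δ`): two points in the same
cell have `φ₀ ≥ c`, so `En φ₀ s ≥ (c/2) (sqCnt 0 s₀ s - card s)`.  With `dbl_tail_full_le` (k = 0)
`En (λ T) s ≤ (λ/2) a (1+4s₀/R_0)^4 / s₀³ · sqCnt ≤ λ · 8a · 8/δ³ · sqCnt` (as `4 s₀/R_0 ≤ 1`).
With `c ≥ 1024 a/δ³` and `λ ≤ 2`: `En ≥ (c/4) sqCnt - (c/2) card`, and `sqCnt ≥ card²/K` with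
`K ≤ (⌊ℓ/s₀⌋ + 2)³ ≤ (2ℓ/s₀)³...` cells (for `ℓ ≥ 1`).
-/

set_option autoImplicit false

namespace Crest.Agent.R149

open MeasureTheory Crest.ProbabilityR.Continuum
open scoped ENNReal BigOperators

theorem card_filter_mul_le_sum (c : ℝ) (p : Pt → Prop) [DecidablePred p] (f : Pt → ℝ)
    (h0 : ∀ b, 0 ≤ f b) (h : ∀ b, p b → c ≤ f b) (s : Multiset Pt) :
    c * (Multiset.card (s.filter p) : ℝ) ≤ (s.map f).sum := by
  induction s using Multiset.induction_on with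
  | empty => simp
  | cons a s ih =>
    by_cases hp : p a
    · rw [Multiset.filter_cons_of_pos _ hp]
      simp only [Multiset.card_cons, Nat.cast_add, Nat.cast_one, Multiset.map_cons,
        Multiset.sum_cons]
      have := h a hp
      linarith
    · rw [Multiset.filter_cons_of_neg _ hp]
      simp only [Multiset.map_cons, Multiset.sum_cons]
      have := h0 a
      linarith

theorem dist_lt_of_cellIdx_eq {δ : ℝ} (hδ : 0 < δ) {a b : Pt}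
    (h : cellIdx 0 (δ / 2) a = cellIdx 0 (δ / 2) b) : dist a b ≤ δ := by
  have hk : ∀ k : Fin 3, |a k - b k| < δ / 2 := by
    intro k
    have h1 := congrFun h k
    simp only [cellIdx, add_zero] at h1
    have h2 := Int.abs_sub_lt_one_of_floor_eq_floor h1
    rw [← sub_div, abs_div, abs_of_pos (by positivity : 0 < δ / 2), div_lt_one (by positivity)] at h2
    exact h2
  rw [EuclideanSpace.dist_eq]
  have h0 := hk 0
  have h1 := hk 1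
  have h2 := hk 2
  have e : ∀ k : Fin 3, dist (a k) (b k) ^ 2 ≤ (δ / 2) ^ 2 := by
    intro k
    rw [Real.dist_eq]
    exact pow_le_pow_left₀ (abs_nonneg _) (hk k).le 2
  rw [Fin.sum_univ_three]
  calc √(dist (a 0) (b 0) ^ 2 + dist (a 1) (b 1) ^ 2 + dist (a 2) (b 2) ^ 2)
      ≤ √(δ ^ 2) := by
        apply Real.sqrt_le_sqrt
        nlinarith [e 0, e 1, e 2]
    _ = δ := Real.sqrt_sq hδ.le

theorem En_core_ge {φ₀ : ℝ → ℝ} {δ c η : ℝ} (hφ : CoreHyp φ₀ δ c η) (s : Multiset Pt) :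
    c / 2 * (sqCnt 0 (δ / 2) s - (Multiset.card s : ℝ)) ≤ En φ₀ s := by
  classical
  have hδ := hφ.δpos
  have hc := hφ.cpos
  set g : ℝ → ℝ := fun r => if r ≤ δ then c else 0 with hg
  have hg0 : ∀ r, 0 ≤ g r := by
    intro r; simp only [hg]; split_ifs
    · exact hc.le
    · exact le_rfl
  have h1 : En g s ≤ En φ₀ s := by
    apply En_mono
    intro r hr
    simp only [hg]
    split_ifs with h
    · exact hφ.core r hr h
    · exact hφ.nonneg r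
  refine le_trans ?_ h1
  have h2 : c * sqCnt 0 (δ / 2) s ≤ dbl g s := by
    unfold sqCnt dbl
    rw [← Multiset.sum_map_mul_left]
    apply Multiset.sum_map_le_sum_map
    intro a _
    have key := card_filter_mul_le_sum c
      (fun b => b ∈ {x | cellIdx 0 (δ / 2) x = cellIdx 0 (δ / 2) a})
      (fun b => g (dist a b)) (fun b => hg0 _) (fun b hb => by
        have hb' : cellIdx 0 (δ / 2) b = cellIdx 0 (δ / 2) a := hb
        have : dist a b ≤ δ := dist_lt_of_cellIdx_eq hδ hb'.symm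
        simp [hg, this]) s
    unfold cnt cut
    refine le_trans (le_of_eq ?_) key
    congr!
  unfold En
  have h3 : g 0 = c := by simp [hg, hδ.le]
  rw [h3]
  linarith

theorem sqCnt_nonneg (t ℓ : ℝ) (s : Multiset Pt) : 0 ≤ sqCnt t ℓ s := by
  unfold sqCnt
  apply Multiset.sum_nonneg
  intro x hx
  obtain ⟨a, _, rfl⟩ := Multiset.mem_map.mp hx
  positivity

theorem En_ge_sqCnt {φ₀ : ℝ → ℝ} {δ c η a : ℝ} (hφ : CoreHyp φ₀ δ c η) (ha : 0 < a)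
    (hc : 1024 * a / δ ^ 3 ≤ c) {x0 : ℕ} (h : 2 ≤ x0) {lam : ℝ} (h0 : 0 ≤ lam) (h2 : lam ≤ 2)
    {T : ℝ → ℝ} (hT : ∀ r, T r ≤ Tfull a x0 r) (s : Multiset Pt) :
    c / 4 * sqCnt 0 (δ / 2) s - c / 2 * (Multiset.card s : ℝ) ≤
      En (fun r => φ₀ r - lam * T r) s := by
  have hδ := hφ.δpos
  have hδ8 := hφ.δle
  have hcp := hφ.cpos
  have hQ := sqCnt_nonneg 0 (δ / 2) s
  have h1 := En_core_ge hφ s
  have e1 : En (fun r => φ₀ r - lam * T r) s = En φ₀ s - lam * En T s := by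
    rw [En_sub, En_smul]
  have e2 : En T s ≤ En (Tfull a x0) s := En_mono (fun r _ => hT r) s
  have hT0 := Tfull_nonneg ha h 0
  have e3 : En (Tfull a x0) s ≤ dbl (Tfull a x0) s / 2 := by
    unfold En
    have : 0 ≤ (Multiset.card s : ℝ) * Tfull a x0 0 := by positivity
    linarith
  have e4 := dbl_tail_full_le ha h 0 (ℓ := δ / 2) (by positivity) 0 s
  have hTk : ∀ r, Tk a x0 0 r = 0 := by intro r; simp [Tk]
  simp only [hTk, sub_zero] at e4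
  rw [bs_zero (by omega)] at e4
  have hR : (1 : ℝ) ≤ (Rs x0 0 : ℝ) := by
    have : 1 ≤ Rs x0 0 := by
      unfold Rs xs
      exact Nat.one_le_pow _ _ (Nat.pos_of_ne_zero (by positivity))
    exact_mod_cast this
  have hfac : (1 + 4 * (δ / 2) / (Rs x0 0 : ℝ)) ^ 4 ≤ 16 := by
    have : 4 * (δ / 2) / (Rs x0 0 : ℝ) ≤ 1 := by
      rw [div_le_one (by linarith)]; linarith
    have h' : 0 ≤ 4 * (δ / 2) / (Rs x0 0 : ℝ) := by positivity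
    calc (1 + 4 * (δ / 2) / (Rs x0 0 : ℝ)) ^ 4 ≤ 2 ^ 4 := by
          apply pow_le_pow_left₀ (by linarith); linarith
      _ = 16 := by norm_num
  have e5 : a * (1 + 4 * (δ / 2) / (Rs x0 0 : ℝ)) ^ 4 / (δ / 2) ^ 3 * sqCnt 0 (δ / 2) s ≤
      c / 8 * sqCnt 0 (δ / 2) s := by
    apply mul_le_mul_of_nonneg_right _ hQ
    calc a * (1 + 4 * (δ / 2) / (Rs x0 0 : ℝ)) ^ 4 / (δ / 2) ^ 3 ≤ a * 16 / (δ / 2) ^ 3 := by
          gcongr
      _ = (1024 * a / δ ^ 3) / 8 := by field_simp; ring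
      _ ≤ c / 8 := by linarith
  rw [e1]
  have e6 : lam * En T s ≤ lam * (c / 16 * sqCnt 0 (δ / 2) s) := by
    apply mul_le_mul_of_nonneg_left _ h0
    linarith
  have e7 : lam * (c / 16 * sqCnt 0 (δ / 2) s) ≤ 2 * (c / 16 * sqCnt 0 (δ / 2) s) := by
    apply mul_le_mul_of_nonneg_right h2 (by positivity)
  nlinarith [mul_nonneg hcp.le hQ]

/-- stability, uniformly in `λ ≤ 2` and in the configuration -/
theorem stable_of_core {φ₀ : ℝ → ℝ} {δ c η a : ℝ} (hφ : CoreHyp φ₀ δ c η) (ha : 0 < a)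
    (hc : 1024 * a / δ ^ 3 ≤ c) {x0 : ℕ} (h : 2 ≤ x0) {lam : ℝ} (h0 : 0 ≤ lam) (h2 : lam ≤ 2)
    {T : ℝ → ℝ} (hT : ∀ r, T r ≤ Tfull a x0 r) (s : Multiset Pt) :
    -(c / 2) * (Multiset.card s : ℝ) ≤ En (fun r => φ₀ r - lam * T r) s := by
  have h1 := En_ge_sqCnt hφ ha hc h h0 h2 hT s
  have hQ := sqCnt_nonneg 0 (δ / 2) s
  have hcp := hφ.cpos
  nlinarith [mul_nonneg hcp.le hQ]

/-- superstability in the cube of side `ℓ ≥ 1` -/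
theorem super_of_core {φ₀ : ℝ → ℝ} {δ c η a : ℝ} (hφ : CoreHyp φ₀ δ c η) (ha : 0 < a)
    (hc : 1024 * a / δ ^ 3 ≤ c) {x0 : ℕ} (h : 2 ≤ x0) {lam : ℝ} (h0 : 0 ≤ lam) (h2 : lam ≤ 2)
    {T : ℝ → ℝ} (hT : ∀ r, T r ≤ Tfull a x0 r) {ℓ : ℝ} (hℓ : 1 ≤ ℓ) (s : Multiset Pt)
    (hs : ∀ x ∈ s, x ∈ cube ℓ) :
    c * δ ^ 3 / 256 * (Multiset.card s : ℝ) ^ 2 / ℓ ^ 3 - c / 2 * (Multiset.card s : ℝ) ≤
      En (fun r => φ₀ r - lam * T r) s := by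
  have h1 := En_ge_sqCnt hφ ha hc h h0 h2 hT s
  refine le_trans ?_ h1
  have hδ := hφ.δpos
  have hδ8 := hφ.δle
  have hcp := hφ.cpos
  have hQ := card_sq_le_sqCnt 0 (δ / 2) s
    (Fintype.piFinset (fun _ : Fin 3 => Finset.Icc (0 : ℤ) (⌊ℓ / (δ / 2)⌋₊ + 1)))
    (fun x hx => cellIdx_mem (by positivity) le_rfl (by positivity) (hs x hx))
  rw [card_cells] at hQ
  have hfl : (⌊ℓ / (δ / 2)⌋₊ : ℝ) ≤ ℓ / (δ / 2) := Nat.floor_le (by positivity)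
  have hK : ((⌊ℓ / (δ / 2)⌋₊ : ℝ) + 2) ≤ 9 / 4 * (ℓ / δ) := by
    have : (2 : ℝ) ≤ 1 / 4 * (ℓ / δ) := by
      rw [← mul_div_assoc, le_div_iff₀ hδ]; nlinarith
    have h3 : ℓ / (δ / 2) = 2 * (ℓ / δ) := by field_simp
    linarith
  have hK3 : (((⌊ℓ / (δ / 2)⌋₊ + 2) ^ 3 : ℕ) : ℝ) ≤ 64 * (ℓ ^ 3 / δ ^ 3) := by
    push_cast
    calc ((⌊ℓ / (δ / 2)⌋₊ : ℝ) + 2) ^ 3 ≤ (9 / 4 * (ℓ / δ)) ^ 3 := by
          apply pow_le_pow_left₀ (by positivity) hK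
      _ = (9 / 4) ^ 3 * (ℓ ^ 3 / δ ^ 3) := by rw [mul_pow, div_pow ℓ δ]
      _ ≤ 64 * (ℓ ^ 3 / δ ^ 3) := by
          apply mul_le_mul_of_nonneg_right (by norm_num) (by positivity)
  have hQ0 := sqCnt_nonneg 0 (δ / 2) s
  have hQ' : (Multiset.card s : ℝ) ^ 2 ≤ 64 * (ℓ ^ 3 / δ ^ 3) * sqCnt 0 (δ / 2) s :=
    hQ.trans (mul_le_mul_of_nonneg_right hK3 hQ0)
  have hfin : c * δ ^ 3 / 256 * (Multiset.card s : ℝ) ^ 2 / ℓ ^ 3 ≤
      c / 4 * sqCnt 0 (δ / 2) s := by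
    calc c * δ ^ 3 / 256 * (Multiset.card s : ℝ) ^ 2 / ℓ ^ 3
        ≤ c * δ ^ 3 / 256 * (64 * (ℓ ^ 3 / δ ^ 3) * sqCnt 0 (δ / 2) s) / ℓ ^ 3 := by gcongr
      _ = c / 4 * sqCnt 0 (δ / 2) s := by
          field_simp; ring
  linarith

theorem Jn_le_of_En_ge {φ : ℝ → ℝ} {ℓ β E : ℝ} (hℓ : 0 ≤ ℓ) (hβ : 0 ≤ β) (n : ℕ)
    (hE : ∀ s : Multiset Pt, (∀ x ∈ s, x ∈ cube ℓ) → Multiset.card s = n → E ≤ En φ s) :
    Jn (wt φ β) (cube ℓ) n ≤ ENNReal.ofReal (Real.exp (ℓ ^ 3 - β * E)) := by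
  have h1 : Jn (wt φ β) (cube ℓ) n ≤
      Jn (fun _ => ENNReal.ofReal (Real.exp (-β * E))) (cube ℓ) n := by
    apply Jn_mono le_rfl (measurableSet_cube ℓ)
    intro s hs hn
    unfold wt
    apply ENNReal.ofReal_le_ofReal
    apply Real.exp_le_exp.mpr
    have := mul_le_mul_of_nonneg_left (hE s hs hn) hβ
    linarith
  refine h1.trans ?_
  rw [Jn_const, volume_cube hℓ]
  have hfac : (0 : ℝ) < (Nat.factorial n : ℝ) := by exact_mod_cast Nat.factorial_pos n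
  have hV : (0 : ℝ) ≤ ℓ ^ 3 := by positivity
  calc ((Nat.factorial n : ℕ) : ℝ≥0∞)⁻¹ * ENNReal.ofReal (ℓ ^ 3) ^ n *
        ENNReal.ofReal (Real.exp (-β * E))
      = ENNReal.ofReal ((ℓ ^ 3) ^ n / (Nat.factorial n : ℝ) * Real.exp (-β * E)) := by
        rw [ENNReal.ofReal_mul (by positivity), ENNReal.ofReal_div_of_pos hfac,
          ENNReal.ofReal_pow hV, ENNReal.ofReal_natCast, ENNReal.div_eq_inv_mul]
    _ ≤ ENNReal.ofReal (Real.exp (ℓ ^ 3) * Real.exp (-β * E)) := by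
        apply ENNReal.ofReal_le_ofReal
        gcongr
        exact Real.pow_div_factorial_le_exp _ hV n
    _ = _ := by rw [← Real.exp_add]; congr 2; ring

/-- consequence for partition functions: for `n ≥ rmax δ · ℓ³` -/
theorem Jn_large {φ₀ : ℝ → ℝ} {δ c η a : ℝ} (hφ : CoreHyp φ₀ δ c η) (ha : 0 < a)
    (hc : 1024 * a / δ ^ 3 ≤ c) {x0 : ℕ} (h : 2 ≤ x0) {lam : ℝ} (h0 : 0 ≤ lam) (h2 : lam ≤ 2)
    {T : ℝ → ℝ} (hT : ∀ r, T r ≤ Tfull a x0 r) {ℓ : ℝ} (hℓ : 1 ≤ ℓ) {β : ℝ}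
    (hβ : 0 ≤ β) (n : ℕ) (hn : rmax δ * ℓ ^ 3 ≤ n) :
    Jn (wt (fun r => φ₀ r - lam * T r) β) (cube ℓ) n ≤
      ENNReal.ofReal (Real.exp (ℓ ^ 3 - β * (c * δ ^ 3 / 512) * (n : ℝ) ^ 2 / ℓ ^ 3)) := by
  have hδ := hφ.δpos
  have hcp := hφ.cpos
  have key := Jn_le_of_En_ge (φ := fun r => φ₀ r - lam * T r) (ℓ := ℓ) (β := β)
    (E := c * δ ^ 3 / 512 * (n : ℝ) ^ 2 / ℓ ^ 3) (by linarith) hβ n ?_
  · refine key.trans (le_of_eq ?_)
    congr 2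
    ring
  · intro s hs hcard
    have h1 := super_of_core hφ ha hc h h0 h2 hT hℓ s hs
    rw [hcard] at h1
    refine le_trans ?_ h1
    have hn' : 256 / δ ^ 3 * ℓ ^ 3 ≤ n := hn
    have h3 : c / 2 * (n : ℝ) ≤ c * δ ^ 3 / 512 * (n : ℝ) ^ 2 / ℓ ^ 3 := by
      rw [le_div_iff₀ (by positivity)]
      have h4 : 256 * ℓ ^ 3 ≤ n * δ ^ 3 := by
        have := mul_le_mul_of_nonneg_right hn' (by positivity : 0 ≤ δ ^ 3)
        calc 256 * ℓ ^ 3 = 256 / δ ^ 3 * ℓ ^ 3 * δ ^ 3 := by field_simp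
          _ ≤ _ := this
      have h5 : c * (n : ℝ) * (256 * ℓ ^ 3) ≤ c * (n : ℝ) * (n * δ ^ 3) := by gcongr
      nlinarith
    have h6 : c * δ ^ 3 / 256 * (n : ℝ) ^ 2 / ℓ ^ 3 =
        c * δ ^ 3 / 512 * (n : ℝ) ^ 2 / ℓ ^ 3 + c * δ ^ 3 / 512 * (n : ℝ) ^ 2 / ℓ ^ 3 := by ring
    rw [h6]
    linarith

/-- and for all `n`: `Z ≤ exp ((1 + β c · rmax/2) ℓ³)` -/
theorem Jn_all {φ₀ : ℝ → ℝ} {δ c η a : ℝ} (hφ : CoreHyp φ₀ δ c η) (ha : 0 < a)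
    (hc : 1024 * a / δ ^ 3 ≤ c) {x0 : ℕ} (h : 2 ≤ x0) {lam : ℝ} (h0 : 0 ≤ lam) (h2 : lam ≤ 2)
    {T : ℝ → ℝ} (hT : ∀ r, T r ≤ Tfull a x0 r) {ℓ : ℝ} (hℓ : 1 ≤ ℓ) {β : ℝ}
    (hβ : 0 ≤ β) (n : ℕ) :
    Jn (wt (fun r => φ₀ r - lam * T r) β) (cube ℓ) n ≤
      ENNReal.ofReal (Real.exp ((1 + β * c * rmax δ / 2) * ℓ ^ 3)) := by
  have hδ := hφ.δpos
  have hcp := hφ.cpos
  have key := Jn_le_of_En_ge (φ := fun r => φ₀ r - lam * T r) (ℓ := ℓ) (β := β)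
    (E := -(c * rmax δ / 2 * ℓ ^ 3)) (by linarith) hβ n ?_
  · refine key.trans (le_of_eq ?_)
    congr 2
    ring
  · intro s hs hcard
    have h1 := super_of_core hφ ha hc h h0 h2 hT hℓ s hs
    rw [hcard] at h1
    refine le_trans ?_ h1
    unfold rmax
    have hk : (0 : ℝ) < δ ^ 3 := by positivity
    have hV : (0 : ℝ) < ℓ ^ 3 := by positivity
    have e : c * δ ^ 3 / 256 * (n : ℝ) ^ 2 / ℓ ^ 3 - c / 2 * (n : ℝ) +
        c * (256 / δ ^ 3) / 2 * ℓ ^ 3 =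
        c / (256 * ℓ ^ 3 * δ ^ 3) * ((δ ^ 3 * n - 64 * ℓ ^ 3) ^ 2 + 28672 * (ℓ ^ 3) ^ 2) := by
      field_simp
      ring
    have e2 : 0 ≤ c / (256 * ℓ ^ 3 * δ ^ 3) *
        ((δ ^ 3 * n - 64 * ℓ ^ 3) ^ 2 + 28672 * (ℓ ^ 3) ^ 2) := by positivity
    linarith

end Crest.Agent.R149
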