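import Crest.Agent.R149.Kernel

/-!
PIECE B2 (scales and the tail).  `x_{k+1} = x_k²`, `ls (k+1) = (ls k)²`,
`b_k = a x₀²/x_k²`, `Rs k = x_k^64`.
-/

set_option autoImplicit false

namespace Crest.Agent.R149

open MeasureTheory Crest.ProbabilityR.Continuum
open scoped ENNReal BigOperators

theorem xs_zero (x0 : ℕ) : xs x0 0 = x0 := by
  simp [xs]

theorem xs_succ (x0 k : ℕ) : xs x0 (k + 1) = (xs x0 k) ^ 2 := by
  simp only [xs]
  rw [← pow_mul, pow_succ]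

theorem ls_succ (x0 k : ℕ) : ls x0 (k + 1) = (ls x0 k) ^ 2 := by
  simp only [ls, xs_succ]
  rw [← pow_mul, ← pow_mul, mul_comm]

theorem le_xs {x0 : ℕ} (h : 1 ≤ x0) (k : ℕ) : x0 ≤ xs x0 k := by
  simp only [xs]
  exact Nat.le_self_pow (by positivity) x0

theorem xs_pos_tl {x0 : ℕ} (h : 1 ≤ x0) (k : ℕ) : 0 < xs x0 k :=
  lt_of_lt_of_le h (le_xs h k)

theorem xs_mono_tl {x0 : ℕ} (h : 1 ≤ x0) : Monotone (xs x0) := by
  apply monotone_nat_of_le_succ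
  intro k
  rw [xs_succ]
  exact Nat.le_self_pow (by norm_num) _

theorem xs_ge_pow {x0 : ℕ} (h : 2 ≤ x0) (k : ℕ) : x0 * 2 ^ k ≤ xs x0 k := by
  induction k with
  | zero => simp [xs]
  | succ k ih =>
    rw [xs_succ]
    have h1 := le_xs (show 1 ≤ x0 by omega) k
    calc x0 * 2 ^ (k + 1) = (x0 * 2 ^ k) * 2 := by ring
      _ ≤ xs x0 k * xs x0 k := Nat.mul_le_mul ih (h.trans h1)
      _ = (xs x0 k) ^ 2 := by ring

theorem bs_zero {a : ℝ} {x0 : ℕ} (h : 1 ≤ x0) : bs a x0 0 = a := by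
  have h0 : (x0 : ℝ) ≠ 0 := by
    have : (1 : ℝ) ≤ x0 := by exact_mod_cast h
    linarith
  simp only [bs, xs_zero]
  field_simp

theorem bs_pos {a : ℝ} (ha : 0 < a) {x0 : ℕ} (h : 1 ≤ x0) (k : ℕ) : 0 < bs a x0 k := by
  have h0 : (0 : ℝ) < x0 := by exact_mod_cast h
  have h1 : (0 : ℝ) < xs x0 k := by exact_mod_cast xs_pos_tl h k
  simp only [bs]
  positivity

theorem bs_antitone_tl {a : ℝ} (ha : 0 ≤ a) {x0 : ℕ} (h : 1 ≤ x0) : Antitone (bs a x0) := by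
  intro i j hij
  simp only [bs]
  have h1 : (0 : ℝ) < xs x0 i := by exact_mod_cast xs_pos_tl h i
  have h2 : (xs x0 i : ℝ) ≤ xs x0 j := by exact_mod_cast xs_mono_tl h hij
  apply div_le_div_of_nonneg_left (by positivity) (by positivity)
  exact pow_le_pow_left₀ h1.le h2 2

theorem bs_le {a : ℝ} (ha : 0 < a) {x0 : ℕ} (h : 1 ≤ x0) (k : ℕ) : bs a x0 k ≤ a := by
  have := bs_antitone_tl ha.le h (Nat.zero_le k)
  rwa [bs_zero h] at this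

theorem bs_succ_le {a : ℝ} (ha : 0 < a) {x0 : ℕ} (h : 1 ≤ x0) (k : ℕ) :
    bs a x0 (k + 1) ≤ bs a x0 k :=
  bs_antitone_tl ha.le h (Nat.le_succ k)

theorem tendsto_xs_tl {x0 : ℕ} (h : 2 ≤ x0) :
    Filter.Tendsto (fun k => (xs x0 k : ℝ)) Filter.atTop Filter.atTop := by
  apply Filter.tendsto_atTop_mono (f := fun k : ℕ => (2 : ℝ) ^ k)
  · intro k
    have h1 : 2 ^ k ≤ xs x0 k := by
      refine le_trans ?_ (xs_ge_pow h k)
      exact Nat.le_mul_of_pos_left _ (by omega)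
    exact_mod_cast h1
  · exact tendsto_pow_atTop_atTop_of_one_lt (by norm_num)

theorem bs_tendsto (a : ℝ) {x0 : ℕ} (h : 2 ≤ x0) :
    Filter.Tendsto (bs a x0) Filter.atTop (nhds 0) := by
  have h1 : Filter.Tendsto (fun k => (xs x0 k : ℝ) ^ 2) Filter.atTop Filter.atTop :=
    (Filter.tendsto_pow_atTop (by norm_num)).comp (tendsto_xs_tl h)
  exact Filter.Tendsto.div_atTop tendsto_const_nhds h1

theorem aj_nonneg {a : ℝ} (ha : 0 < a) {x0 : ℕ} (h : 1 ≤ x0) (k : ℕ) : 0 ≤ aj a x0 k :=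
  sub_nonneg.2 (bs_succ_le ha h k)

theorem sum_aj (a : ℝ) (x0 : ℕ) (k K : ℕ) (h : k ≤ K) :
    ∑ j ∈ Finset.Ico k K, aj a x0 j = bs a x0 k - bs a x0 K := by
  induction K, h using Nat.le_induction with
  | base => simp
  | succ K hK ih =>
    rw [Finset.sum_Ico_succ_top hK, ih]
    simp only [aj]
    ring

theorem Rs_pos_tl {x0 : ℕ} (h : 1 ≤ x0) (k : ℕ) : (0 : ℝ) < Rs x0 k := by
  have : 0 < Rs x0 k := by
    simp only [Rs]
    exact pow_pos (xs_pos_tl h k) _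
  exact_mod_cast this

theorem Rs_mono_tl {x0 : ℕ} (h : 1 ≤ x0) : Monotone (Rs x0) := by
  intro i j hij
  simp only [Rs]
  exact Nat.pow_le_pow_left (xs_mono_tl h hij) _

theorem Rs_succ_tl (x0 k : ℕ) : Rs x0 (k + 1) = (Rs x0 k) ^ 2 := by
  simp only [Rs, xs_succ]
  rw [← pow_mul, ← pow_mul, mul_comm]

theorem two_le_Rs_tl {x0 : ℕ} (h : 2 ≤ x0) (k : ℕ) : 2 ≤ Rs x0 k := by
  simp only [Rs]
  calc 2 ≤ x0 := h
    _ ≤ xs x0 k := le_xs (by omega) k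
    _ ≤ (xs x0 k) ^ 64 := Nat.le_self_pow (by norm_num) _

theorem pow_mul_Rs_le_tl {x0 : ℕ} (h : 2 ≤ x0) (j i : ℕ) :
    2 ^ i * Rs x0 j ≤ Rs x0 (i + j) := by
  induction i with
  | zero => simp
  | succ i ih =>
    have e : i + 1 + j = (i + j) + 1 := by ring
    rw [e, Rs_succ_tl]
    calc 2 ^ (i + 1) * Rs x0 j = 2 * (2 ^ i * Rs x0 j) := by ring
      _ ≤ Rs x0 (i + j) * Rs x0 (i + j) := Nat.mul_le_mul (two_le_Rs_tl h _) ih
      _ = (Rs x0 (i + j)) ^ 2 := by ring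

theorem measurable_Tk (a : ℝ) (x0 k : ℕ) : Measurable (Tk a x0 k) := by
  unfold Tk
  apply Finset.measurable_sum
  intro j _
  exact ((continuous_psi _).measurable).const_mul _

theorem continuous_Tk_tl (a : ℝ) (x0 k : ℕ) : Continuous (Tk a x0 k) := by
  unfold Tk
  apply continuous_finsetSum
  intro j _
  exact (continuous_psi _).const_mul _ 

theorem Tk_nonneg {a : ℝ} (ha : 0 < a) {x0 : ℕ} (h : 1 ≤ x0) (k : ℕ) (r : ℝ) :
    0 ≤ Tk a x0 k r := by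
  unfold Tk
  exact Finset.sum_nonneg fun j _ => mul_nonneg (aj_nonneg ha h j) (psi_nonneg (Rs_pos_tl h j) r)

/-- range of `T_k` : `x_k^32 = R_{k-1}` -/
theorem Tk_eq_zero {a : ℝ} {x0 : ℕ} (h : 2 ≤ x0) (k : ℕ) {r : ℝ}
    (hr : ((xs x0 k : ℕ) : ℝ) ^ 32 ≤ r) : Tk a x0 k r = 0 := by
  unfold Tk
  apply Finset.sum_eq_zero
  intro j hj
  rw [Finset.mem_range] at hj
  rw [psi_eq_zero (Rs_pos_tl (by omega) j), mul_zero]
  refine le_trans ?_ hr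
  have h1 : Rs x0 j = (xs x0 (j + 1)) ^ 32 := by
    simp only [Rs, xs_succ]
    rw [← pow_mul]
  rw [h1]
  have h2 : xs x0 (j + 1) ≤ xs x0 k := xs_mono_tl (by omega) hj
  exact_mod_cast Nat.pow_le_pow_left h2 32

/-- geometric bound of the terms -/
theorem term_bound_tl (a : ℝ) {x0 : ℕ} (h : 2 ≤ x0) (j : ℕ) (r : ℝ) :
    ‖aj a x0 j * psi (Rs x0 j) r‖ ≤ (2 * |a| * kap) * (1 / 2) ^ j := by
  have h1 : 1 ≤ x0 := by omega
  have hb : ∀ k, |bs a x0 k| ≤ |a| := by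
    intro k
    have e : |bs a x0 k| = bs |a| x0 k := by
      simp only [bs]
      rw [abs_div, abs_mul, abs_of_nonneg (show (0 : ℝ) ≤ (x0 : ℝ) ^ 2 by positivity),
        abs_of_nonneg (show (0 : ℝ) ≤ (xs x0 k : ℝ) ^ 2 by positivity)]
    rw [e]
    have := bs_antitone_tl (abs_nonneg a) h1 (Nat.zero_le k)
    rwa [bs_zero h1] at this
  have ha : |aj a x0 j| ≤ 2 * |a| := by
    simp only [aj]
    calc |bs a x0 j - bs a x0 (j + 1)| ≤ |bs a x0 j| + |bs a x0 (j + 1)| := abs_sub _ _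
      _ ≤ 2 * |a| := by linarith [hb j, hb (j + 1)]
  have hR := Rs_pos_tl h1 j
  have hp : |psi (Rs x0 j) r| ≤ kap * (1 / 2) ^ j := by
    rw [abs_of_nonneg (psi_nonneg hR r)]
    refine (psi_le hR r).trans ?_
    have h2 : (2 : ℝ) ^ j ≤ (Rs x0 j : ℝ) ^ 3 := by
      have h3 : 2 ^ j * Rs x0 0 ≤ Rs x0 j := by simpa using pow_mul_Rs_le_tl h 0 j
      have h4 : 2 ^ j ≤ Rs x0 j :=
        le_trans (Nat.le_mul_of_pos_right _ (by have := two_le_Rs_tl h 0; omega)) h3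
      have h5 : 2 ^ j ≤ (Rs x0 j) ^ 3 := h4.trans (Nat.le_self_pow (by norm_num) _)
      exact_mod_cast h5
    rw [div_eq_mul_inv]
    apply mul_le_mul_of_nonneg_left _ kap_pos.le
    rw [one_div, inv_pow]
    exact inv_anti₀ (by positivity) h2
  rw [Real.norm_eq_abs, abs_mul]
  calc |aj a x0 j| * |psi (Rs x0 j) r| ≤ (2 * |a|) * (kap * (1 / 2) ^ j) :=
        mul_le_mul ha hp (abs_nonneg _) (by positivity)
    _ = _ := by ring

theorem summable_geo_tl (c : ℝ) : Summable (fun j : ℕ => c * (1 / 2 : ℝ) ^ j) :=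
  (summable_geometric_of_lt_one (by norm_num) (by norm_num)).mul_left c

theorem summable_T (a : ℝ) {x0 : ℕ} (h : 2 ≤ x0) (r : ℝ) :
    Summable (fun j : ℕ => aj a x0 j * psi (Rs x0 j) r) :=
  Summable.of_norm_bounded (summable_geo_tl _) (fun j => term_bound_tl a h j r)

theorem continuous_Tfull (a : ℝ) {x0 : ℕ} (h : 2 ≤ x0) : Continuous (Tfull a x0) := by
  unfold Tfull
  exact continuous_tsum (fun j => (continuous_psi _).const_mul _) (summable_geo_tl _)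
    (fun j r => term_bound_tl a h j r)

theorem Tfull_nonneg {a : ℝ} (ha : 0 < a) {x0 : ℕ} (h : 2 ≤ x0) (r : ℝ) :
    0 ≤ Tfull a x0 r :=
  tsum_nonneg fun j =>
    mul_nonneg (aj_nonneg ha (by omega) j) (psi_nonneg (Rs_pos_tl (by omega) j) r)

theorem Tk_le_Tfull {a : ℝ} (ha : 0 < a) {x0 : ℕ} (h : 2 ≤ x0) (k : ℕ) (r : ℝ) :
    Tk a x0 k r ≤ Tfull a x0 r :=
  (summable_T a h r).sum_le_tsum _ fun j _ =>
    mul_nonneg (aj_nonneg ha (by omega) j) (psi_nonneg (Rs_pos_tl (by omega) j) r)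

theorem Tfull_bdd (a : ℝ) {x0 : ℕ} (h : 2 ≤ x0) : ∃ M : ℝ, ∀ r : ℝ, |Tfull a x0 r| ≤ M := by
  refine ⟨∑' j : ℕ, (2 * |a| * kap) * (1 / 2 : ℝ) ^ j, fun r => ?_⟩
  exact tsum_of_norm_bounded (summable_geo_tl _).hasSum (fun j => term_bound_tl a h j r)

/-- decay: for `r ≤ R_j` we have `a_j R_j^{-3} ≤ a x₀² x_j^{-2} x_j^{-192} ≤ a x₀² r^{-97/32}` -/
theorem Tfull_decay {a : ℝ} (ha : 0 < a) {x0 : ℕ} (h : 2 ≤ x0) :
    ∃ C : ℝ, ∀ r : ℝ, 1 ≤ r → |Tfull a x0 r| ≤ C * r ^ (-(3 + 1 / 32 : ℝ)) := by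
  have h1 : 1 ≤ x0 := by omega
  refine ⟨2 * (a * x0 ^ 2 * kap), fun r hr => ?_⟩
  have hr0 : 0 < r := by linarith
  rw [abs_of_nonneg (Tfull_nonneg ha h r)]
  -- smallest `j0` with `r < R_{j0}`
  have hex : ∃ j, r < Rs x0 j := by
    have h2 : Filter.Tendsto (fun k : ℕ => (Rs x0 k : ℝ)) Filter.atTop Filter.atTop := by
      apply Filter.tendsto_atTop_mono (f := fun k : ℕ => (2 : ℝ) ^ k)
      · intro k
        have h3 : 2 ^ k * Rs x0 0 ≤ Rs x0 k := by simpa using pow_mul_Rs_le_tl h 0 k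
        have h4 : 2 ^ k ≤ Rs x0 k :=
          le_trans (Nat.le_mul_of_pos_right _ (by have := two_le_Rs_tl h 0; omega)) h3
        exact_mod_cast h4
      · exact tendsto_pow_atTop_atTop_of_one_lt (by norm_num)
    exact (h2.eventually_gt_atTop r).exists
  classical
  set j0 := Nat.find hex with hj0
  have hj0r : r < Rs x0 j0 := Nat.find_spec hex
  have hlt : ∀ j, j < j0 → (Rs x0 j : ℝ) ≤ r := fun j hj => not_lt.1 (Nat.find_min hex hj)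
  unfold Tfull
  rw [← (summable_T a h r).sum_add_tsum_nat_add j0]
  rw [Finset.sum_eq_zero (fun j hj => by
    rw [psi_eq_zero (Rs_pos_tl h1 j) (hlt j (Finset.mem_range.1 hj)), mul_zero]), zero_add]
  have hterm : ∀ i : ℕ, aj a x0 (i + j0) * psi (Rs x0 (i + j0)) r ≤
      (a * x0 ^ 2 * kap * r ^ (-(3 + 1 / 32 : ℝ))) * (1 / 2) ^ i := by
    intro i
    set j := i + j0
    have hR := Rs_pos_tl h1 j
    have hx : (0 : ℝ) < xs x0 j := by exact_mod_cast xs_pos_tl h1 j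
    have h2 : aj a x0 j ≤ a * x0 ^ 2 / (xs x0 j : ℝ) ^ 2 := by
      have := bs_pos ha h1 (j + 1)
      simp only [aj]
      have e : bs a x0 j = a * x0 ^ 2 / (xs x0 j : ℝ) ^ 2 := rfl
      linarith
    have h3 : psi (Rs x0 j) r ≤ kap / (Rs x0 j : ℝ) ^ 3 := psi_le hR r
    have h4 : aj a x0 j * psi (Rs x0 j) r ≤
        (a * x0 ^ 2 / (xs x0 j : ℝ) ^ 2) * (kap / (Rs x0 j : ℝ) ^ 3) :=
      mul_le_mul h2 h3 (psi_nonneg hR r) (by positivity)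
    refine h4.trans ?_
    have hRx : (Rs x0 j : ℝ) = (xs x0 j : ℝ) ^ 64 := by simp [Rs]
    have h5 : (a * x0 ^ 2 / (xs x0 j : ℝ) ^ 2) * (kap / (Rs x0 j : ℝ) ^ 3) =
        a * x0 ^ 2 * kap * (Rs x0 j : ℝ) ^ (-(3 + 1 / 32 : ℝ)) := by
      have e1 : (Rs x0 j : ℝ) ^ (-(3 + 1 / 32 : ℝ)) = ((xs x0 j : ℝ) ^ 194)⁻¹ := by
        rw [hRx, ← Real.rpow_natCast, ← Real.rpow_natCast, ← Real.rpow_mul hx.le,
          ← Real.rpow_neg hx.le]
        norm_num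
      rw [e1, hRx]
      field_simp
    rw [h5]
    have h6 : (Rs x0 j : ℝ) ^ (-(3 + 1 / 32 : ℝ)) ≤
        r ^ (-(3 + 1 / 32 : ℝ)) * (1 / 2) ^ i := by
      have h7 : (2 : ℝ) ^ i * r ≤ Rs x0 j := by
        have h8 : ((2 ^ i * Rs x0 j0 : ℕ) : ℝ) ≤ Rs x0 j := by
          exact_mod_cast pow_mul_Rs_le_tl h j0 i
        push_cast at h8
        have h9 : (2 : ℝ) ^ i * r ≤ 2 ^ i * Rs x0 j0 :=
          mul_le_mul_of_nonneg_left hj0r.le (by positivity)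
        linarith
      have h8 : (Rs x0 j : ℝ) ^ (-(3 + 1 / 32 : ℝ)) ≤ ((2 : ℝ) ^ i * r) ^ (-(3 + 1 / 32 : ℝ)) :=
        Real.rpow_le_rpow_of_nonpos (by positivity) h7 (by norm_num)
      refine h8.trans ?_
      rw [Real.mul_rpow (by positivity) hr0.le, mul_comm]
      apply mul_le_mul_of_nonneg_left _ (by positivity)
      have h9 : ((2 : ℝ) ^ i) ^ (-(3 + 1 / 32 : ℝ)) ≤ ((2 : ℝ) ^ i) ^ (-1 : ℝ) :=
        Real.rpow_le_rpow_of_exponent_le (one_le_pow₀ (by norm_num)) (by norm_num)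
      refine h9.trans (le_of_eq ?_)
      rw [Real.rpow_neg_one, one_div, inv_pow]
    calc a * x0 ^ 2 * kap * (Rs x0 j : ℝ) ^ (-(3 + 1 / 32 : ℝ))
        ≤ a * x0 ^ 2 * kap * (r ^ (-(3 + 1 / 32 : ℝ)) * (1 / 2) ^ i) :=
          mul_le_mul_of_nonneg_left h6 (by have := kap_pos; positivity)
      _ = _ := by ring
  have hs1 : Summable (fun i : ℕ => aj a x0 (i + j0) * psi (Rs x0 (i + j0)) r) :=
    (summable_nat_add_iff j0).2 (summable_T a h r)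
  refine (hs1.tsum_le_tsum hterm (summable_geo_tl _)).trans (le_of_eq ?_)
  rw [tsum_mul_left, tsum_geometric_of_lt_one (by norm_num) (by norm_num)]
  norm_num
  ring

/-- lower bound of the tail on `[0,3]` by its first term -/
theorem Tfull_ge {a : ℝ} (ha : 0 < a) {x0 : ℕ} (h : 2 ≤ x0) :
    ∃ t₀ : ℝ, 0 < t₀ ∧ ∀ r : ℝ, |r| ≤ 3 → t₀ ≤ Tfull a x0 r := by
  have h1 : 1 ≤ x0 := by omega
  have hR4 : (4 : ℝ) ≤ Rs x0 0 := by
    have h2 : 4 ≤ Rs x0 0 := by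
      simp only [Rs, xs_zero]
      calc 4 = 2 ^ 2 := by norm_num
        _ ≤ x0 ^ 2 := Nat.pow_le_pow_left h 2
        _ ≤ x0 ^ 64 := Nat.pow_le_pow_right h1 (by norm_num)
    exact_mod_cast h2
  have hR := Rs_pos_tl h1 0
  have haj : 0 < aj a x0 0 := by
    simp only [aj]
    rw [bs_zero h1, sub_pos]
    simp only [bs]
    rw [zero_add, show xs x0 1 = x0 ^ 2 by rw [show (1 : ℕ) = 0 + 1 from rfl, xs_succ, xs_zero]]
    have hx : (2 : ℝ) ≤ x0 := by exact_mod_cast h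
    push_cast
    rw [div_lt_iff₀ (by positivity)]
    have h3 : (1 : ℝ) < (x0 : ℝ) ^ 2 := by nlinarith
    have h4 : 0 < a * (x0 : ℝ) ^ 2 := by positivity
    nlinarith
  refine ⟨aj a x0 0 * (kap / (Rs x0 0 : ℝ) ^ 3 * (1 - 3 / Rs x0 0)), ?_, ?_⟩
  · have : 0 < 1 - 3 / (Rs x0 0 : ℝ) := by
      rw [sub_pos, div_lt_one hR]
      linarith
    have := kap_pos
    positivity
  · intro r hr
    refine le_trans ?_ (Tk_le_Tfull ha h 1 r)
    unfold Tk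
    rw [Finset.sum_range_one]
    apply mul_le_mul_of_nonneg_left _ haj.le
    unfold psi
    apply mul_le_mul_of_nonneg_left _ (by have := kap_pos; positivity)
    refine le_trans ?_ (le_max_right _ _)
    have : |r| / (Rs x0 0 : ℝ) ≤ 3 / Rs x0 0 := by
      apply div_le_div_of_nonneg_right hr hR.le
    linarith

theorem aj_le {a : ℝ} (ha : 0 < a) {x0 : ℕ} (h : 1 ≤ x0) (k : ℕ) : aj a x0 k ≤ bs a x0 k := by
  have := bs_pos ha h (k + 1)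
  simp only [aj]
  linarith

theorem sqCnt_nonneg_tl (t ℓ : ℝ) (s : Multiset Pt) : 0 ≤ sqCnt t ℓ s := by
  unfold sqCnt
  apply Multiset.sum_nonneg
  intro y hy
  obtain ⟨b, _, rfl⟩ := Multiset.mem_map.1 hy
  positivity

theorem dbl_sum_tl {ι : Type} (S : Finset ι) (c : ι → ℝ) (f : ι → ℝ → ℝ) (s : Multiset Pt) :
    dbl (fun r => ∑ j ∈ S, c j * f j r) s = ∑ j ∈ S, c j * dbl (f j) s := by
  obtain ⟨x, hx⟩ := exists_conf s
  rw [← hx, dbl_conf]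
  simp_rw [dbl_conf]
  calc ∑ i, ∑ i', ∑ j ∈ S, c j * f j (dist (x i) (x i'))
      = ∑ i, ∑ j ∈ S, ∑ i', c j * f j (dist (x i) (x i')) := by
        apply Finset.sum_congr rfl; intro i _; rw [Finset.sum_comm]
    _ = ∑ j ∈ S, ∑ i, ∑ i', c j * f j (dist (x i) (x i')) := by rw [Finset.sum_comm]
    _ = ∑ j ∈ S, c j * ∑ i, ∑ i', f j (dist (x i) (x i')) := by
        apply Finset.sum_congr rfl; intro j _
        rw [Finset.mul_sum]
        apply Finset.sum_congr rfl; intro i _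
        rw [Finset.mul_sum]

theorem Tk_sub_tl (a : ℝ) (x0 k K : ℕ) (hkK : k ≤ K) (r : ℝ) :
    Tk a x0 K r - Tk a x0 k r = ∑ j ∈ Finset.Ico k K, aj a x0 j * psi (Rs x0 j) r := by
  unfold Tk
  rw [Finset.sum_Ico_eq_sub _ hkK]

/-- (Up) for the piece `Σ_{k ≤ j < K} a_j ψ_{R_j}` of the tail, at scale `ℓ ≤ R_k/4`:
in particular for the whole `T_K` with a tiny `ℓ ≤ 1/4`. -/
theorem dbl_tail_le {a : ℝ} (ha : 0 < a) {x0 : ℕ} (h : 2 ≤ x0) (k K : ℕ) (hkK : k ≤ K) {ℓ : ℝ}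
    (hℓ : 0 < ℓ) (t : ℝ) (s : Multiset Pt) :
    dbl (fun r => Tk a x0 K r - Tk a x0 k r) s ≤
      (bs a x0 k - bs a x0 K) * (1 + 4 * ℓ / Rs x0 k) ^ 4 / ℓ ^ 3 * sqCnt t ℓ s := by
  have h1 : 1 ≤ x0 := by omega
  simp_rw [Tk_sub_tl a x0 k K hkK]
  rw [dbl_sum_tl (Finset.Ico k K) (aj a x0) (fun j => psi (Rs x0 j)) s]
  rw [← sum_aj a x0 k K hkK, Finset.sum_mul, Finset.sum_div, Finset.sum_mul]
  apply Finset.sum_le_sum
  intro j hj
  rw [Finset.mem_Ico] at hj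
  have hRj := Rs_pos_tl h1 j
  have hRk := Rs_pos_tl h1 k
  have hle : (Rs x0 k : ℝ) ≤ Rs x0 j := by exact_mod_cast Rs_mono_tl h1 hj.1
  have h2 := dbl_psi_le hRj hℓ t s
  have h3 : (1 + 4 * ℓ / (Rs x0 j : ℝ)) ^ 4 ≤ (1 + 4 * ℓ / Rs x0 k) ^ 4 := by
    apply pow_le_pow_left₀ (by positivity)
    have : 4 * ℓ / (Rs x0 j : ℝ) ≤ 4 * ℓ / Rs x0 k :=
      div_le_div_of_nonneg_left (by positivity) hRk hle
    linarith
  have h4 : (1 + 4 * ℓ / (Rs x0 j : ℝ)) ^ 4 / ℓ ^ 3 * sqCnt t ℓ s ≤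
      (1 + 4 * ℓ / Rs x0 k) ^ 4 / ℓ ^ 3 * sqCnt t ℓ s := by
    apply mul_le_mul_of_nonneg_right _ (sqCnt_nonneg_tl t ℓ s)
    apply div_le_div_of_nonneg_right h3 (by positivity)
  calc aj a x0 j * dbl (psi (Rs x0 j)) s
      ≤ aj a x0 j * ((1 + 4 * ℓ / Rs x0 k) ^ 4 / ℓ ^ 3 * sqCnt t ℓ s) :=
        mul_le_mul_of_nonneg_left (h2.trans h4) (aj_nonneg ha h1 j)
    _ = _ := by ring

theorem tendsto_Tk_tl (a : ℝ) {x0 : ℕ} (h : 2 ≤ x0) (r : ℝ) :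
    Filter.Tendsto (fun K => Tk a x0 K r) Filter.atTop (nhds (Tfull a x0 r)) :=
  (summable_T a h r).hasSum.tendsto_sum_nat

/-- (Up) for the whole tail beyond `k`. -/
theorem dbl_tail_full_le {a : ℝ} (ha : 0 < a) {x0 : ℕ} (h : 2 ≤ x0) (k : ℕ) {ℓ : ℝ}
    (hℓ : 0 < ℓ) (t : ℝ) (s : Multiset Pt) :
    dbl (fun r => Tfull a x0 r - Tk a x0 k r) s ≤
      bs a x0 k * (1 + 4 * ℓ / Rs x0 k) ^ 4 / ℓ ^ 3 * sqCnt t ℓ s := by
  have h1 : 1 ≤ x0 := by omega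
  have htend : Filter.Tendsto (fun K => dbl (fun r => Tk a x0 K r - Tk a x0 k r) s) Filter.atTop
      (nhds (dbl (fun r => Tfull a x0 r - Tk a x0 k r) s)) := by
    obtain ⟨x, hx⟩ := exists_conf s
    rw [← hx]
    simp_rw [dbl_conf]
    apply tendsto_finsetSum
    intro i _
    apply tendsto_finsetSum
    intro i' _
    exact (tendsto_Tk_tl a h _).sub_const _
  refine le_of_tendsto htend ?_
  filter_upwards [Filter.eventually_ge_atTop k] with K hK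
  refine (dbl_tail_le ha h k K hK hℓ t s).trans ?_
  apply mul_le_mul_of_nonneg_right _ (sqCnt_nonneg_tl t ℓ s)
  apply div_le_div_of_nonneg_right _ (by positivity)
  apply mul_le_mul_of_nonneg_right _ (by positivity)
  have := bs_pos ha h1 K
  linarith

/-- (Low) for the piece `Σ_{k ≤ j < K} a_j ψ_{R_j}` of the tail. -/
theorem le_dbl_tail {a : ℝ} (ha : 0 < a) {x0 : ℕ} (h : 2 ≤ x0) (k K : ℕ) (hkK : k ≤ K) {ℓ' X : ℝ}
    (hℓ' : 0 < ℓ') (hk : 4 * ℓ' < Rs x0 k) (hX : ∀ j, k ≤ j → j < K → (Rs x0 j : ℝ) ≤ X)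
    (hX0 : 0 ≤ X) {M n : ℕ} (hM : 2 * X ≤ M * ℓ')
    (s : Multiset Pt)
    (hs : ∀ v : Fin 3 → ℤ, (∀ k, 0 ≤ v k ∧ v k < M) → cnt 0 ℓ' s v = n) :
    (bs a x0 k - bs a x0 K) * (1 - 4 * ℓ' / Rs x0 k) ^ 4 * ((n : ℝ) / ℓ' ^ 3) ^ 2
        * (M * ℓ' - 2 * X) ^ 3 ≤
      dbl (fun r => Tk a x0 K r - Tk a x0 k r) s := by
  have h1 : 1 ≤ x0 := by omega
  simp_rw [Tk_sub_tl a x0 k K hkK]
  rw [dbl_sum_tl (Finset.Ico k K) (aj a x0) (fun j => psi (Rs x0 j)) s]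
  rw [← sum_aj a x0 k K hkK, Finset.sum_mul, Finset.sum_mul, Finset.sum_mul]
  apply Finset.sum_le_sum
  intro j hj
  rw [Finset.mem_Ico] at hj
  have hRj := Rs_pos_tl h1 j
  have hRk := Rs_pos_tl h1 k
  have hle : (Rs x0 k : ℝ) ≤ Rs x0 j := by exact_mod_cast Rs_mono_tl h1 hj.1
  have hjX := hX j hj.1 hj.2
  have h2 := le_dbl_psi (R := Rs x0 j) hℓ' (lt_of_lt_of_le hk hle) (M := M) (n := n)
    (by linarith) s hs
  have h3 : (1 - 4 * ℓ' / (Rs x0 k : ℝ)) ^ 4 ≤ (1 - 4 * ℓ' / (Rs x0 j : ℝ)) ^ 4 := by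
    have h5 : 4 * ℓ' / (Rs x0 j : ℝ) ≤ 4 * ℓ' / Rs x0 k :=
      div_le_div_of_nonneg_left (by positivity) hRk hle
    have h6 : 4 * ℓ' / (Rs x0 k : ℝ) < 1 := (div_lt_one hRk).2 hk
    apply pow_le_pow_left₀ (by linarith)
    linarith
  have h4 : (M * ℓ' - 2 * X) ^ 3 ≤ (M * ℓ' - 2 * (Rs x0 j : ℝ)) ^ 3 := by
    apply pow_le_pow_left₀ (by linarith)
    linarith
  have h5 : (1 - 4 * ℓ' / (Rs x0 k : ℝ)) ^ 4 * ((n : ℝ) / ℓ' ^ 3) ^ 2 * (M * ℓ' - 2 * X) ^ 3 ≤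
      (1 - 4 * ℓ' / (Rs x0 j : ℝ)) ^ 4 * ((n : ℝ) / ℓ' ^ 3) ^ 2 *
        (M * ℓ' - 2 * (Rs x0 j : ℝ)) ^ 3 := by
    apply mul_le_mul _ h4 (pow_nonneg (by linarith) 3) (by positivity)
    exact mul_le_mul_of_nonneg_right h3 (by positivity)
  calc aj a x0 j * (1 - 4 * ℓ' / (Rs x0 k : ℝ)) ^ 4 * ((n : ℝ) / ℓ' ^ 3) ^ 2 *
        (M * ℓ' - 2 * X) ^ 3
      = aj a x0 j * ((1 - 4 * ℓ' / (Rs x0 k : ℝ)) ^ 4 * ((n : ℝ) / ℓ' ^ 3) ^ 2 *
        (M * ℓ' - 2 * X) ^ 3) := by ring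
    _ ≤ aj a x0 j * dbl (psi (Rs x0 j)) s :=
        mul_le_mul_of_nonneg_left (h5.trans h2) (aj_nonneg ha h1 j)

end Crest.Agent.R149
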