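import Crest.Agent.R149.BaseUpper
import Crest.Agent.R149.BaseLower
import Crest.Agent.R149.Tail
import Crest.Agent.R149.Super

/-!
PIECE B0 (analysis of the level `0`).

`Λ = 3 log (1/δ)`, `a = 2Λ/(m p)`, `v = (0, p, mp)`, `s = (0, Λp/m, Λmp)`, `t = (0, 0, Λ(m-1)p)`,
`h_i(β,ν) = ν v_i + β s_i - t_i`.  `V_0(n) = [ν n + log Z_{ℓ₀}^{φ₀}(n)]/ℓ₀³ + β a ρ²/2`, `ρ = n/ℓ₀³`
(`T_0 = 0`, `b_0 = a`).  `F(ρ) = ν ρ + β a ρ²/2 - Λ (ρ-p)₊`: `F(v_i) = h_i`.
Upper bound (`base_upper`, `P(ℓ₀) ≤ p(ℓ₀+1)³ ≤ (p + small) ℓ₀³` for `x0` large, *after* `c`):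
`V_0 ≤ F(ρ) + 1 + 64ρ + 1 - (βc-Λ)(ρ-mp)₊ `.
* `ρ ≤ mp`: `F` is convex on `[0,p]` and on `[p,mp]` with `F'' = βa ≥ a/2`, so outside the windows of
  half width `τ/2` it is `≤ max h - (a/4)(τ/2)(p-τ/2) ≤ max h - Λτ/(8m)`; in the window `i` it is
  `≤ h_i + const·Λτ`.
* `mp ≤ ρ ≤ rmax`: slope `≤ 2Λ + (3/4)a(rmax+mp) + 64 - (c/2 - Λ)`, very negative for `c ≥ c₀`.
Lower bound at `i = 0`: `n = 0`, `V_0 = 0 = h_0`.  `i = 1`: `base_lower` with `q = 1`; `i = 2`: `q = m`;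
the number of sites is `packingNumber(ℓ₀/(1+2r+8δ) - …) ≥ (p - small(r,δ)) ℓ₀³`.
Order of the choices: `τ` (small, in terms of `ε₁, p, m`), `γ = τ/(64 m)`… , then `r` (small in terms of
`γ`), then `δ` small (so that `64, C(q,η,r) ≪ γ Λ` and `8δ ≪ γ`), then `c₀`, then (given `φ₀`) `X0`.
-/

set_option autoImplicit false

namespace Crest.Agent.R149

open MeasureTheory Crest.ProbabilityR.Continuum
open scoped ENNReal BigOperators

/-! pure real lemmas -/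

theorem quad_seg {A κ x y ρ : ℝ} (hx : x ≤ ρ) (hy : ρ ≤ y) :
    A * ρ + κ / 2 * ρ ^ 2 ≤ A * x + κ / 2 * x ^ 2 - κ / 2 * ((ρ - x) * (y - ρ)) ∨
    A * ρ + κ / 2 * ρ ^ 2 ≤ A * y + κ / 2 * y ^ 2 - κ / 2 * ((ρ - x) * (y - ρ)) := by
  rcases le_total 0 (A + κ / 2 * (x + y)) with hs | hs
  · right
    have h1 : 0 ≤ (y - ρ) * (A + κ / 2 * (x + y)) := mul_nonneg (by linarith) hs
    nlinarith [h1]
  · left
    have h1 : 0 ≤ (ρ - x) * (-(A + κ / 2 * (x + y))) := mul_nonneg (by linarith) (by linarith)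
    nlinarith [h1]

theorem prod_gap {τ p u w : ℝ} (hτ : 0 < τ) (hτp : τ ≤ p) (hu : τ / 2 ≤ u) (hw : τ / 2 ≤ w)
    (huw : p ≤ u + w) : τ * p / 4 ≤ u * w := by
  rcases le_total u w with h | h
  · have hw' : p / 2 ≤ w := by linarith
    have : τ / 2 * (p / 2) ≤ u * w := mul_le_mul hu hw' (by linarith) (by linarith)
    linarith
  · have hw' : p / 2 ≤ u := by linarith
    have : (p / 2) * (τ / 2) ≤ u * w := mul_le_mul hw' hw (by linarith) (by linarith)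
    linarith

/-- the level function -/
theorem kap_vals {p M Λ a β : ℝ} (hp : 0 < p) (hM : 2 ≤ M) (ha : a = 2 * Λ / (M * p)) :
    β * a / 2 * p ^ 2 = β * (Λ * p / M) ∧ β * a / 2 * (M * p) ^ 2 = β * (Λ * M * p) := by
  have hM0 : M ≠ 0 := by linarith
  have hp0 : p ≠ 0 := hp.ne'
  subst ha
  constructor
  · field_simp
  · field_simp

theorem gap_low {p M Λ a β ν τ ρ : ℝ} (hp : 0 < p) (hM : 2 ≤ M) (hΛ : 0 < Λ)
    (ha : a = 2 * Λ / (M * p)) (hβ : 1 / 2 ≤ β) (hτ : 0 < τ) (hτp : τ ≤ p)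
    (h0 : 0 ≤ ρ) (h1 : ρ ≤ M * p)
    (hw0 : τ / 2 < |ρ - 0|) (hw1 : τ / 2 < |ρ - p|) (hw2 : τ / 2 < |ρ - M * p|) :
    ν * ρ + β * a / 2 * ρ ^ 2 - Λ * max 0 (ρ - p) ≤ 0 - Λ * τ / (8 * M) ∨
    ν * ρ + β * a / 2 * ρ ^ 2 - Λ * max 0 (ρ - p) ≤ ν * p + β * (Λ * p / M) - Λ * τ / (8 * M) ∨
    ν * ρ + β * a / 2 * ρ ^ 2 - Λ * max 0 (ρ - p) ≤
      ν * (M * p) + β * (Λ * M * p) - Λ * (M - 1) * p - Λ * τ / (8 * M) := by
  obtain ⟨hk1, hk2⟩ := kap_vals (β := β) hp hM ha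
  have hM0 : 0 < M := by linarith
  have hκ : Λ / (2 * (M * p)) ≤ β * a / 2 := by
    rw [ha, div_le_iff₀ (by positivity)]
    have : β * (2 * Λ / (M * p)) / 2 * (2 * (M * p)) = 2 * β * Λ := by
      field_simp
    rw [this]
    nlinarith
  have hgap : ∀ u w : ℝ, τ / 2 ≤ u → τ / 2 ≤ w → p ≤ u + w →
      Λ * τ / (8 * M) ≤ β * a / 2 * (u * w) := by
    intro u w hu hw huw
    have h2 := prod_gap hτ hτp hu hw huw
    have h3 : Λ / (2 * (M * p)) * (τ * p / 4) ≤ β * a / 2 * (u * w) :=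
      mul_le_mul hκ h2 (by positivity) (le_trans (by positivity) hκ)
    have h4 : Λ / (2 * (M * p)) * (τ * p / 4) = Λ * τ / (8 * M) := by
      field_simp; ring
    linarith
  have hρ0 : τ / 2 ≤ ρ := by
    rw [sub_zero, abs_of_nonneg h0] at hw0; exact hw0.le
  have hρ2 : τ / 2 ≤ M * p - ρ := by
    rw [abs_sub_comm, abs_of_nonneg (by linarith)] at hw2; exact hw2.le
  rcases le_total ρ p with hc | hc
  · have hmax : max 0 (ρ - p) = 0 := max_eq_left (by linarith)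
    rw [hmax]
    have hρ1 : τ / 2 ≤ p - ρ := by
      rw [abs_sub_comm, abs_of_nonneg (by linarith)] at hw1; exact hw1.le
    have hg := hgap (ρ - 0) (p - ρ) (by linarith) hρ1 (by linarith)
    rcases quad_seg (A := ν) (κ := β * a) (x := 0) (y := p) h0 hc with h | h
    · left; linarith
    · right; left; linarith
  · have hmax : max 0 (ρ - p) = ρ - p := max_eq_right (by linarith)
    rw [hmax]
    have hρ1 : τ / 2 ≤ ρ - p := by
      rw [abs_of_nonneg (by linarith)] at hw1; exact hw1.le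
    have hg := hgap (ρ - p) (M * p - ρ) hρ1 hρ2 (by nlinarith)
    rcases quad_seg (A := ν - Λ) (κ := β * a) (x := p) (y := M * p) hc h1 with h | h
    · right; left; linarith
    · right; right; linarith

theorem lip_low {p M Λ a β ν ρ : ℝ} (hp : 0 < p) (hM : 2 ≤ M) (hΛ : 0 < Λ)
    (ha : a = 2 * Λ / (M * p)) (hβ : 1 / 2 ≤ β) (hβ' : β ≤ 3 / 2) (hν : |ν| ≤ 2 * Λ)
    (h0 : 0 ≤ ρ) (h1 : ρ ≤ M * p) :
    ν * ρ + β * a / 2 * ρ ^ 2 - Λ * max 0 (ρ - p) ≤ 0 + 6 * Λ * |ρ - 0| ∧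
    ν * ρ + β * a / 2 * ρ ^ 2 - Λ * max 0 (ρ - p) ≤
      ν * p + β * (Λ * p / M) + 6 * Λ * |ρ - p| ∧
    ν * ρ + β * a / 2 * ρ ^ 2 - Λ * max 0 (ρ - p) ≤
      ν * (M * p) + β * (Λ * M * p) - Λ * (M - 1) * p + 6 * Λ * |ρ - M * p| := by
  obtain ⟨hk1, hk2⟩ := kap_vals (β := β) hp hM ha
  have hM0 : 0 < M := by linarith
  have haM : a * (M * p) = 2 * Λ := by rw [ha]; field_simp
  have ha0 : 0 < a := by rw [ha]; positivity
  -- general Lipschitz estimate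
  have key : ∀ v : ℝ, 0 ≤ v → v ≤ M * p →
      ν * ρ + β * a / 2 * ρ ^ 2 - Λ * max 0 (ρ - p) ≤
        ν * v + β * a / 2 * v ^ 2 - Λ * max 0 (v - p) + 6 * Λ * |ρ - v| := by
    intro v hv0 hv1
    have e1 : ν * ρ - ν * v ≤ 2 * Λ * |ρ - v| := by
      calc ν * ρ - ν * v = ν * (ρ - v) := by ring
        _ ≤ |ν * (ρ - v)| := le_abs_self _
        _ = |ν| * |ρ - v| := abs_mul _ _
        _ ≤ 2 * Λ * |ρ - v| := mul_le_mul_of_nonneg_right hν (abs_nonneg _)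
    have e2 : β * a / 2 * ρ ^ 2 - β * a / 2 * v ^ 2 ≤ 3 * Λ * |ρ - v| := by
      have : β * a / 2 * ρ ^ 2 - β * a / 2 * v ^ 2 = (β * a / 2 * (ρ + v)) * (ρ - v) := by ring
      rw [this]
      have hb : 0 ≤ β * a / 2 * (ρ + v) := by positivity
      have hb2 : β * a / 2 * (ρ + v) ≤ 3 * Λ := by
        have : β * a / 2 * (ρ + v) ≤ (3 / 2) * a / 2 * (2 * (M * p)) := by
          apply mul_le_mul _ (by linarith) (by linarith) (by positivity)
          nlinarith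
        nlinarith
      calc (β * a / 2 * (ρ + v)) * (ρ - v) ≤ (β * a / 2 * (ρ + v)) * |ρ - v| :=
            mul_le_mul_of_nonneg_left (le_abs_self _) hb
        _ ≤ 3 * Λ * |ρ - v| := mul_le_mul_of_nonneg_right hb2 (abs_nonneg _)
    have e3 : max 0 (v - p) - max 0 (ρ - p) ≤ |ρ - v| := by
      have : max 0 (v - p) ≤ max 0 (ρ - p) + |ρ - v| := by
        apply max_le
        · have := le_max_left 0 (ρ - p)
          have := abs_nonneg (ρ - v)
          linarith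
        · have := le_max_right 0 (ρ - p)
          have := neg_abs_le (ρ - v)
          linarith
      linarith
    have e4 : Λ * max 0 (v - p) - Λ * max 0 (ρ - p) ≤ Λ * |ρ - v| := by
      rw [← mul_sub]; exact mul_le_mul_of_nonneg_left e3 hΛ.le
    linarith
  have hpM : p ≤ M * p := by nlinarith
  refine ⟨?_, ?_, ?_⟩
  · have := key 0 le_rfl (by positivity)
    rw [max_eq_left (by linarith : (0:ℝ) - p ≤ 0)] at this
    linarith
  · have := key p hp.le hpM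
    rw [max_eq_left (by linarith : p - p ≤ 0)] at this
    linarith
  · have := key (M * p) (by positivity) le_rfl
    rw [max_eq_right (by linarith : 0 ≤ M * p - p)] at this
    linarith

theorem high_bound {p M Λ a β ν ρ c D B : ℝ} (hp : 0 < p) (hM : 2 ≤ M) (hΛ : 0 < Λ)
    (ha : a = 2 * Λ / (M * p)) (hβ : 1 / 2 ≤ β) (hβ' : β ≤ 3 / 2) (hν : |ν| ≤ 2 * Λ)
    (h1 : M * p ≤ ρ) (hD : ρ ≤ D)
    (hc : 2 * (2 * Λ + a * (D + M * p) + 64 + B) ≤ c) (hc0 : 0 ≤ c) :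
    ν * ρ + β * a / 2 * ρ ^ 2 - Λ * max 0 (ρ - p) - (β * c - Λ) * max 0 (ρ - M * p) + 64 * ρ ≤
      ν * (M * p) + β * (Λ * M * p) - Λ * (M - 1) * p + 64 * (M * p) - B * (ρ - M * p) := by
  obtain ⟨hk1, hk2⟩ := kap_vals (β := β) hp hM ha
  have hM0 : 0 < M := by linarith
  have ha0 : 0 < a := by rw [ha]; positivity
  have hpM : p ≤ M * p := by nlinarith
  rw [max_eq_right (by linarith : 0 ≤ ρ - p), max_eq_right (by linarith : 0 ≤ ρ - M * p)]
  have hν' : ν ≤ 2 * Λ := le_trans (le_abs_self _) hν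
  have hMp : 0 < M * p := by positivity
  have e1 : β * a / 2 * (ρ + M * p) ≤ a * (D + M * p) := by
    have : β * a / 2 ≤ a := by nlinarith
    calc β * a / 2 * (ρ + M * p) ≤ a * (ρ + M * p) :=
          mul_le_mul_of_nonneg_right this (by linarith)
      _ ≤ a * (D + M * p) := mul_le_mul_of_nonneg_left (by linarith) ha0.le
  have e2 : c / 2 ≤ β * c := by nlinarith
  have e3 : ν - Λ + β * a / 2 * (ρ + M * p) + 64 - (β * c - Λ) ≤ -B := by
    linarith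
  have e4 := mul_le_mul_of_nonneg_right e3 (by linarith : 0 ≤ ρ - M * p)
  nlinarith [e4, hk2]

theorem ls_zero_eq (x0 : ℕ) : ls x0 0 = x0 ^ 48 := by simp [ls, xs]

theorem le_ls_zero {x0 : ℕ} : x0 ≤ ls x0 0 := by
  rw [ls_zero_eq]; exact Nat.le_self_pow (by norm_num) _

theorem Vk_zero_eq {φ₀ : ℝ → ℝ} {a : ℝ} {x0 : ℕ} (h : 1 ≤ x0) (β ν : ℝ) (n : ℕ) :
    Vk φ₀ a x0 0 β ν n = ν * dens x0 0 n + β * a / 2 * (dens x0 0 n) ^ 2 +
      Real.log (partitionFn φ₀ (ls x0 0) n β) / (ls x0 0 : ℝ) ^ 3 := by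
  have hT : (fun r => φ₀ r - Tk a x0 0 r) = φ₀ := by funext r; simp [Tk]
  have hl : (0 : ℝ) < (ls x0 0 : ℝ) := by
    exact_mod_cast lt_of_lt_of_le h le_ls_zero
  rw [Vk, hT, bs_zero h, dens]
  field_simp
  ring

theorem core_En_nonneg {φ₀ : ℝ → ℝ} {δ c η : ℝ} (hφ : CoreHyp φ₀ δ c η) (s : Multiset Pt) :
    -(0 : ℝ) * (Multiset.card s : ℝ) ≤ En φ₀ s := by
  have := En_nonneg (fun r _ => hφ.nonneg r) s
  simpa using this

theorem logZ_upper {φ₀ : ℝ → ℝ} {δ c η : ℝ} (hφ : CoreHyp φ₀ δ c η) {m : ℕ}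
    (hm : ∀ X : Finset Pt, (∀ x ∈ X, ∀ y ∈ X, x ≠ y → 1 < dist x y ∧ dist x y < 2) → X.card ≤ m)
    {β : ℝ} (hβ : 0 < β) (hβc : 3 * Real.log (1 / δ) ≤ β * c) {L : ℝ} (hL : 0 < L) (N : ℕ) :
    Real.log (partitionFn φ₀ L N β) ≤
      L ^ 3 + 64 * N - 3 * Real.log (1 / δ) * max 0 ((N : ℝ) - packingNumber L)
        - (β * c - 3 * Real.log (1 / δ)) * max 0 ((N : ℝ) - m * packingNumber L) := by
  have hpos := partitionFn_pos hφ.meas (core_En_nonneg hφ) hβ.le hL N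
  have h := base_upper hφ hm hβ hβc hL.le N
  rw [Real.log_le_iff_le_exp hpos, partitionFn_eq hφ.meas]
  exact ENNReal.toReal_le_of_le_ofReal (Real.exp_pos _).le h

theorem bl_logZ_lower {φ₀ : ℝ → ℝ} {δ c η : ℝ} (hφ : CoreHyp φ₀ δ c η) {β : ℝ} (hβ : 0 < β)
    {L : ℝ} (hL : 0 < L) (N : ℕ) {K : ℝ}
    (h : ENNReal.ofReal (Real.exp K) ≤ Jn (wt φ₀ β) (cube L) N) :
    K ≤ Real.log (partitionFn φ₀ L N β) := by
  have hpos := partitionFn_pos hφ.meas (core_En_nonneg hφ) hβ.le hL N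
  rw [Real.le_log_iff_exp_le hpos, partitionFn_eq hφ.meas]
  have hne : Jn (wt φ₀ β) (cube L) N ≠ ⊤ :=
    ne_top_of_le_ne_top ENNReal.ofReal_ne_top (Jn_wt_le (core_En_nonneg hφ) hβ.le hL.le N)
  exact (ENNReal.ofReal_le_iff_le_toReal hne).1 h

/-- the packing number of the shrunk and rescaled cube -/
theorem tendsto_shrunk {p : ℝ}
    (hlim : Filter.Tendsto (fun L : ℝ => (packingNumber L : ℝ) / L ^ 3) Filter.atTop (nhds p))
    {u s : ℝ} (hs : 0 < s) :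
    Filter.Tendsto (fun L : ℝ => (packingNumber ((L - u) / s) : ℝ) / L ^ 3) Filter.atTop
      (nhds (p / s ^ 3)) := by
  have h1 : Filter.Tendsto (fun L : ℝ => (L - u) / s) Filter.atTop Filter.atTop :=
    (Filter.tendsto_atTop_add_const_right _ (-u) Filter.tendsto_id).atTop_div_const hs
  have h2 := hlim.comp h1
  have h3 : Filter.Tendsto (fun L : ℝ => ((L - u) / s) / L) Filter.atTop (nhds (1 / s)) := by
    have h4 : Filter.Tendsto (fun L : ℝ => (1 - u / L) / s) Filter.atTop (nhds ((1 - 0) / s)) := by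
      apply Filter.Tendsto.div_const
      apply Filter.Tendsto.sub tendsto_const_nhds
      exact Filter.Tendsto.div_atTop tendsto_const_nhds Filter.tendsto_id
    rw [sub_zero] at h4
    refine h4.congr' ?_
    filter_upwards [Filter.eventually_gt_atTop 0] with L hL
    field_simp
  have h5 := h2.mul (h3.pow 3)
  have h6 : p * (1 / s) ^ 3 = p / s ^ 3 := by field_simp
  rw [h6] at h5
  refine h5.congr' ?_
  filter_upwards [Filter.eventually_gt_atTop (max 0 u)] with L hL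
  have hL0 : 0 < L := lt_of_le_of_lt (le_max_left _ _) hL
  have hLu : 0 < L - u := by linarith [le_max_right 0 u]
  simp only [Function.comp]
  field_simp

/-- densities of the three phases -/
noncomputable def vv (m : ℕ) (p : ℝ) : Fin 3 → ℝ := ![0, p, m * p]

/-- `β`-slopes of the three phases -/
noncomputable def ss (m : ℕ) (p Λ : ℝ) : Fin 3 → ℝ := ![0, Λ * p / m, Λ * m * p]

/-- entropy costs of the three phases -/
noncomputable def tt (m : ℕ) (p Λ : ℝ) : Fin 3 → ℝ := ![0, 0, Λ * (m - 1) * p]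

theorem inv_cube_ge {s : ℝ} (hs : 1 ≤ s) : 1 - 3 * (s - 1) ≤ 1 / s ^ 3 := by
  rw [le_div_iff₀ (by positivity)]
  nlinarith [mul_nonneg (sq_nonneg (s - 1)) (by positivity : 0 ≤ 3 * s ^ 2 + 2 * s + 1)]

/-- upper bound for `V_0` for a fixed large `L` -/
theorem V0_upper_abs {V ρ p M Λ a β ν c e Q lz : ℝ} (hM : 2 ≤ M) (hΛ : 0 < Λ)
    (hβ : 1 / 2 ≤ β) (hβ' : β ≤ 3 / 2) (hc : 2 * Λ ≤ c) (he : 0 ≤ e)
    (hee : Λ * e + 3 / 2 * c * (M * e) ≤ 1) (hQ : Q ≤ p + e)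
    (hlz : lz ≤ 1 + 64 * ρ - Λ * max 0 (ρ - Q) - (β * c - Λ) * max 0 (ρ - M * Q))
    (hV : V = ν * ρ + β * a / 2 * ρ ^ 2 + lz) :
    V ≤ (ν * ρ + β * a / 2 * ρ ^ 2 - Λ * max 0 (ρ - p)) - (β * c - Λ) * max 0 (ρ - M * p)
      + 64 * ρ + 2 := by
  have h1 : max 0 (ρ - p) - e ≤ max 0 (ρ - Q) := by
    have : max 0 (ρ - p) ≤ max 0 (ρ - Q) + e := by
      apply max_le
      · have := le_max_left 0 (ρ - Q)
        linarith
      · have := le_max_right 0 (ρ - Q)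
        linarith
    linarith
  have h2 : max 0 (ρ - M * p) - M * e ≤ max 0 (ρ - M * Q) := by
    have hMe : 0 ≤ M * e := by positivity
    have hMQ : M * Q ≤ M * p + M * e := by
      rw [← mul_add]; exact mul_le_mul_of_nonneg_left hQ (by linarith)
    have : max 0 (ρ - M * p) ≤ max 0 (ρ - M * Q) + M * e := by
      apply max_le
      · have := le_max_left 0 (ρ - M * Q)
        linarith
      · have := le_max_right 0 (ρ - M * Q)
        linarith
    linarith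
  have h3 := mul_le_mul_of_nonneg_left h1 hΛ.le
  have hc0 : 0 ≤ c := by linarith
  have h4 : 0 ≤ β * c - Λ := by nlinarith
  have h5 := mul_le_mul_of_nonneg_left h2 h4
  have h6 : (β * c - Λ) * (M * e) ≤ 3 / 2 * c * (M * e) := by
    apply mul_le_mul_of_nonneg_right _ (by positivity)
    nlinarith
  rw [hV]
  linarith

/-- lower bounds for `V_0` -/
theorem V0_lower_abs {p M Λ a β ν C w ρ lz1 : ℝ} (hp : 0 < p) (hM : 2 ≤ M) (hΛ : 0 < Λ)
    (ha : a = 2 * Λ / (M * p)) (hβ : 1 / 2 ≤ β) (hβ' : β ≤ 3 / 2) (hν : |ν| ≤ 2 * Λ)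
    (hC : 0 < C) (hw : |ρ - p| ≤ w) (hwp : w ≤ p) (hlz : -(C * ρ) ≤ lz1) :
    ν * p + β * (Λ * p / M) - 0 - (5 * Λ * w + 2 * C * p) ≤ ν * ρ + β * a / 2 * ρ ^ 2 + lz1 := by
  obtain ⟨hk1, hk2⟩ := kap_vals (β := β) hp hM ha
  have hM0 : 0 < M := by linarith
  have ha0 : 0 < a := by rw [ha]; positivity
  have hap : a * p ≤ Λ := by
    rw [ha]
    have : 2 * Λ / (M * p) * p = 2 * Λ / M := by field_simp
    rw [this, div_le_iff₀ hM0]; nlinarith
  have hw0 : 0 ≤ w := le_trans (abs_nonneg _) hw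
  have hρ2 : ρ ≤ 2 * p := by have := le_abs_self (ρ - p); linarith
  have hρ0 : 0 ≤ ρ := by have := neg_abs_le (ρ - p); linarith
  have e1 : ν * p - ν * ρ ≤ 2 * Λ * w := by
    calc ν * p - ν * ρ = -(ν * (ρ - p)) := by ring
      _ ≤ |ν * (ρ - p)| := neg_le_abs _
      _ = |ν| * |ρ - p| := abs_mul _ _
      _ ≤ 2 * Λ * w := mul_le_mul hν hw (abs_nonneg _) (by positivity)
  have e2 : β * a / 2 * p ^ 2 - β * a / 2 * ρ ^ 2 ≤ 9 / 4 * Λ * w := by
    have hb2 : β * a / 2 * (ρ + p) ≤ 9 / 4 * Λ := by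
      have : β * a / 2 * (ρ + p) ≤ (3 / 2) * a / 2 * (3 * p) := by
        apply mul_le_mul _ (by linarith) (by linarith) (by positivity)
        nlinarith
      nlinarith
    have hb0 : 0 ≤ β * a / 2 * (ρ + p) := by positivity
    calc β * a / 2 * p ^ 2 - β * a / 2 * ρ ^ 2 = (β * a / 2 * (ρ + p)) * (-(ρ - p)) := by ring
      _ ≤ (β * a / 2 * (ρ + p)) * |ρ - p| := mul_le_mul_of_nonneg_left (neg_le_abs _) hb0
      _ ≤ 9 / 4 * Λ * w := mul_le_mul hb2 hw (abs_nonneg _) (by positivity)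
  have e3 : C * ρ ≤ 2 * C * p := by nlinarith
  have e4 : 0 ≤ Λ * w := by positivity
  linarith

theorem V0_lower_abs2 {p M Λ a β ν C w ρ lz2 : ℝ} (hp : 0 < p) (hM : 2 ≤ M) (hΛ : 0 < Λ)
    (ha : a = 2 * Λ / (M * p)) (hβ : 1 / 2 ≤ β) (hβ' : β ≤ 3 / 2) (hν : |ν| ≤ 2 * Λ)
    (hC : 0 < C) (hw : |ρ - p| ≤ w) (hwp : w ≤ p)
    (hlz : -((C + (M - 1) * Λ) * ρ) ≤ lz2) :
    ν * (M * p) + β * (Λ * M * p) - Λ * (M - 1) * p - (8 * M * Λ * w + 2 * C * p) ≤
      ν * (M * ρ) + β * a / 2 * (M * ρ) ^ 2 + lz2 := by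
  obtain ⟨hk1, hk2⟩ := kap_vals (β := β) hp hM ha
  have hM0 : 0 < M := by linarith
  have ha0 : 0 < a := by rw [ha]; positivity
  have hap : a * (M * p) = 2 * Λ := by rw [ha]; field_simp
  have hw0 : 0 ≤ w := le_trans (abs_nonneg _) hw
  have hρ2 : ρ ≤ 2 * p := by have := le_abs_self (ρ - p); linarith
  have hρ0 : 0 ≤ ρ := by have := neg_abs_le (ρ - p); linarith
  have e1 : ν * (M * p) - ν * (M * ρ) ≤ 2 * M * Λ * w := by
    calc ν * (M * p) - ν * (M * ρ) = M * (-(ν * (ρ - p))) := by ring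
      _ ≤ M * |ν * (ρ - p)| := mul_le_mul_of_nonneg_left (neg_le_abs _) hM0.le
      _ = M * (|ν| * |ρ - p|) := by rw [abs_mul]
      _ ≤ M * (2 * Λ * w) := mul_le_mul_of_nonneg_left
          (mul_le_mul hν hw (abs_nonneg _) (by positivity)) hM0.le
      _ = 2 * M * Λ * w := by ring
  have e2 : β * a / 2 * (M * p) ^ 2 - β * a / 2 * (M * ρ) ^ 2 ≤ 9 / 2 * M * Λ * w := by
    have hb2 : β * a / 2 * (M * (ρ + p)) ≤ 9 / 2 * Λ := by
      have : β * a / 2 * (M * (ρ + p)) ≤ (3 / 2) * a / 2 * (3 * (M * p)) := by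
        apply mul_le_mul _ (by nlinarith) (by positivity) (by positivity)
        nlinarith
      nlinarith
    have hb0 : 0 ≤ β * a / 2 * (M * (ρ + p)) := by positivity
    calc β * a / 2 * (M * p) ^ 2 - β * a / 2 * (M * ρ) ^ 2
        = M * ((β * a / 2 * (M * (ρ + p))) * (-(ρ - p))) := by ring
      _ ≤ M * ((β * a / 2 * (M * (ρ + p))) * |ρ - p|) :=
          mul_le_mul_of_nonneg_left (mul_le_mul_of_nonneg_left (neg_le_abs _) hb0) hM0.le
      _ ≤ M * (9 / 2 * Λ * w) := mul_le_mul_of_nonneg_left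
          (mul_le_mul hb2 hw (abs_nonneg _) (by positivity)) hM0.le
      _ = 9 / 2 * M * Λ * w := by ring
  have e3 : C * ρ ≤ 2 * C * p := by nlinarith
  have e5 : (M - 1) * Λ * (ρ - p) ≤ M * Λ * w := by
    have : ρ - p ≤ w := le_trans (le_abs_self _) hw
    calc (M - 1) * Λ * (ρ - p) ≤ (M - 1) * Λ * w :=
          mul_le_mul_of_nonneg_left this (by nlinarith)
      _ ≤ M * Λ * w := mul_le_mul_of_nonneg_right (by nlinarith) hw0
  have e4 : 0 ≤ M * Λ * w := by positivity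
  nlinarith [e1, e2, e3, e4, e5, hk2, hlz]

set_option maxHeartbeats 4000000 in
theorem base_level {p : ℝ} (hp : 0 < p)
    (hlim : Filter.Tendsto (fun L : ℝ => (packingNumber L : ℝ) / L ^ 3) Filter.atTop (nhds p))
    (hple : ∀ L : ℝ, 0 ≤ L → (packingNumber L : ℝ) ≤ p * (L + 1) ^ 3)
    {m : ℕ} {η : ℝ} (hm2 : 2 ≤ m) (hη : 0 < η) (hη' : η ≤ 1 / 2) (z : Fin m → Pt)
    (hz : ∀ i j, i ≠ j → 1 + η ≤ dist (z i) (z j) ∧ dist (z i) (z j) ≤ 2 - η)
    (hm : ∀ X : Finset Pt, (∀ x ∈ X, ∀ y ∈ X, x ≠ y → 1 < dist x y ∧ dist x y < 2) → X.card ≤ m)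
    {ε₁ : ℝ} (hε₁ : 0 < ε₁) :
    ∃ τ γ δ c₀ : ℝ, 0 < τ ∧ τ ≤ ε₁ ∧ 0 < γ ∧ γ ≤ ε₁ ∧ 0 < δ ∧ δ ≤ 1 / 8 ∧
      ∀ c : ℝ, c₀ ≤ c → ∀ φ₀ : ℝ → ℝ, CoreHyp φ₀ δ c η → ∃ X0 : ℕ, ∀ x0 : ℕ, X0 ≤ x0 →
        ∀ Λ a : ℝ, Λ = 3 * Real.log (1 / δ) → a = 2 * Λ / (m * p) →
        ∀ β ν : ℝ, 1 / 2 ≤ β → β ≤ 3 / 2 → |ν| ≤ 2 * Λ →
          (∀ n : ℕ, dens x0 0 n ≤ rmax δ → ∀ i : Fin 3, |dens x0 0 n - vv m p i| ≤ τ / 2 →
            Vk φ₀ a x0 0 β ν n ≤ ν * vv m p i + β * ss m p Λ i - tt m p Λ i + ε₁ * Λ) ∧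
          (∀ n : ℕ, dens x0 0 n ≤ rmax δ → (∀ i : Fin 3, τ / 2 < |dens x0 0 n - vv m p i|) →
            ∃ i : Fin 3,
              Vk φ₀ a x0 0 β ν n ≤ ν * vv m p i + β * ss m p Λ i - tt m p Λ i - 4 * γ * Λ) ∧
          (∀ i : Fin 3, ∃ n : ℕ, dens x0 0 n ≤ rmax δ ∧ |dens x0 0 n - vv m p i| ≤ τ / 2 ∧
            ν * vv m p i + β * ss m p Λ i - tt m p Λ i - γ * Λ ≤ Vk φ₀ a x0 0 β ν n) := by
  obtain ⟨M, hMdef⟩ : ∃ M : ℝ, M = (m : ℝ) := ⟨_, rfl⟩
  have hM : 2 ≤ M := by rw [hMdef]; exact_mod_cast hm2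
  have hM0 : 0 < M := by linarith
  have hMp : 0 < M * p := by positivity
  obtain ⟨τ, hτ0, hτε, hτp, hτε6⟩ : ∃ τ : ℝ, 0 < τ ∧ τ ≤ ε₁ ∧ τ ≤ p ∧ τ ≤ ε₁ / 6 :=
    ⟨min (min ε₁ p) (ε₁ / 6), by positivity, le_trans (min_le_left _ _) (min_le_left _ _),
      le_trans (min_le_left _ _) (min_le_right _ _), min_le_right _ _⟩
  obtain ⟨γ, hγ0, hγε, hγτ⟩ : ∃ γ : ℝ, 0 < γ ∧ γ ≤ ε₁ ∧ γ ≤ τ / (64 * M) :=
    ⟨min ε₁ (τ / (64 * M)), by positivity, min_le_left _ _, min_le_right _ _⟩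
  obtain ⟨w, hw0, hwτ, hwγ, hwp⟩ : ∃ w : ℝ, 0 < w ∧ w ≤ τ / (4 * M) ∧ w ≤ γ / (16 * M) ∧ w ≤ p :=
    ⟨min (min (τ / (4 * M)) (γ / (16 * M))) p, by positivity,
      le_trans (min_le_left _ _) (min_le_left _ _),
      le_trans (min_le_left _ _) (min_le_right _ _), min_le_right _ _⟩
  obtain ⟨r, hr0, hrw⟩ : ∃ r : ℝ, 0 < r ∧ 12 * p * r ≤ w / 2 :=
    ⟨w / (24 * p), by positivity, by
      have : 12 * p * (w / (24 * p)) = w / 2 := by field_simp; norm_num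
      linarith⟩
  obtain ⟨C₁, hC₁, hlow₁⟩ := base_lower 1 le_rfl hη hη' hr0 (fun _ => (0 : Pt))
    (by intro i j hij; exact absurd (Subsingleton.elim i j) hij)
  obtain ⟨C₂, hC₂, hlow₂⟩ := base_lower m (by omega) hη hη' hr0 z hz
  -- the constant δ
  obtain ⟨Λ₀, hΛ₀⟩ : ∃ Λ₀ : ℝ, Λ₀ = 4 * C₁ * p / γ + 4 * C₂ * p / γ + (2 + 64 * (M * p)) * 2 / ε₁ +
    (2 + 64 * (M * p)) * (16 * M) / τ + 3 * ((M + 1) * p) + 1 := ⟨_, rfl⟩
  have q1 : 0 < 4 * C₁ * p / γ := by positivity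
  have q2 : 0 < 4 * C₂ * p / γ := by positivity
  have q3 : 0 < (2 + 64 * (M * p)) * 2 / ε₁ := by positivity
  have q4 : 0 < (2 + 64 * (M * p)) * (16 * M) / τ := by positivity
  have q5 : 0 < 3 * ((M + 1) * p) := by positivity
  obtain ⟨δ, hδ0, hδ8, hδr, hδΛ⟩ : ∃ δ : ℝ, 0 < δ ∧ δ ≤ 1 / 8 ∧ δ ≤ r / 4 ∧
      Λ₀ ≤ 3 * Real.log (1 / δ) := by
    refine ⟨min (min (1 / 8) (r / 4)) (Real.exp (-(Λ₀ / 3))), by positivity,
      le_trans (min_le_left _ _) (min_le_left _ _),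
      le_trans (min_le_left _ _) (min_le_right _ _), ?_⟩
    have h0 : 0 < min (min (1 / 8) (r / 4)) (Real.exp (-(Λ₀ / 3))) := by positivity
    have h1 : Real.log (min (min (1 / 8) (r / 4)) (Real.exp (-(Λ₀ / 3)))) ≤ -(Λ₀ / 3) := by
      have := Real.log_le_log h0 (min_le_right (min (1 / 8) (r / 4)) (Real.exp (-(Λ₀ / 3))))
      rwa [Real.log_exp] at this
    rw [one_div, Real.log_inv]
    linarith
  obtain ⟨Λ, hΛdef⟩ : ∃ Λ : ℝ, Λ = 3 * Real.log (1 / δ) := ⟨_, rfl⟩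
  rw [← hΛdef] at hδΛ
  have hΛ0 : 0 < Λ := by linarith
  have hΛ1 : 4 * C₁ * p ≤ γ * Λ := by
    have : 4 * C₁ * p / γ ≤ Λ := by linarith
    rw [div_le_iff₀ hγ0] at this; linarith
  have hΛ2 : 4 * C₂ * p ≤ γ * Λ := by
    have : 4 * C₂ * p / γ ≤ Λ := by linarith
    rw [div_le_iff₀ hγ0] at this; linarith
  have hΛ3 : (2 + 64 * (M * p)) * 2 ≤ ε₁ * Λ := by
    have : (2 + 64 * (M * p)) * 2 / ε₁ ≤ Λ := by linarith
    rw [div_le_iff₀ hε₁] at this; linarith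
  have hΛ4 : (2 + 64 * (M * p)) * (16 * M) ≤ τ * Λ := by
    have : (2 + 64 * (M * p)) * (16 * M) / τ ≤ Λ := by linarith
    rw [div_le_iff₀ hτ0] at this; linarith
  have hΛ5 : (M + 1) * p ≤ 1 / δ := by
    have h1 : Real.log (1 / δ) ≤ 1 / δ - 1 := Real.log_le_sub_one_of_pos (by positivity)
    linarith
  have hrmax : (M + 1) * p ≤ rmax δ := by
    refine le_trans hΛ5 ?_
    unfold rmax
    rw [div_le_div_iff₀ hδ0 (by positivity)]
    have : δ ^ 3 ≤ δ := by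
      have hd2 : δ ^ 2 ≤ 1 := pow_le_one₀ hδ0.le (by linarith)
      calc δ ^ 3 = δ * δ ^ 2 := by ring
        _ ≤ δ * 1 := mul_le_mul_of_nonneg_left hd2 hδ0.le
        _ = δ := mul_one δ
    linarith
  -- gap: `2 + 64 M p + 4 γ Λ ≤ Λ τ / (8 M)`
  have hgap : 2 + 64 * (M * p) + 4 * γ * Λ ≤ Λ * τ / (8 * M) := by
    rw [le_div_iff₀ (by positivity)]
    have hγM : γ * (64 * M) ≤ τ := by
      rwa [le_div_iff₀ (by positivity)] at hγτ
    have : 4 * γ * Λ * (8 * M) ≤ Λ * τ / 2 := by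
      nlinarith only [mul_le_mul_of_nonneg_right hγM hΛ0.le]
    nlinarith only [this, hΛ4]
  obtain ⟨a, hadef⟩ : ∃ a : ℝ, a = 2 * Λ / (M * p) := ⟨_, rfl⟩
  have ha0 : 0 < a := by rw [hadef]; positivity
  obtain ⟨B, hBdef⟩ : ∃ B : ℝ, B = 2 / τ * (2 + 64 * (M * p) + 4 * γ * Λ) := ⟨_, rfl⟩
  have hB0 : 0 < B := by rw [hBdef]; positivity
  have hrm0 : 0 < rmax δ := lt_of_lt_of_le (by positivity) hrmax
  refine ⟨τ, γ, δ, 2 * (2 * Λ + a * (rmax δ + M * p) + 64 + B), hτ0, hτε, hγ0, hγε, hδ0, hδ8, ?_⟩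
  intro c hc φ₀ hφ
  have harM : 0 < a * (rmax δ + M * p) := by positivity
  have hcΛ : 2 * Λ ≤ c := by linarith
  have hc0 : 0 < c := by linarith
  -- the thresholds for L
  obtain ⟨e, hedef⟩ : ∃ e : ℝ, e = 1 / (Λ + 3 / 2 * c * M) := ⟨_, rfl⟩
  have he0 : 0 < e := by rw [hedef]; positivity
  have hee : Λ * e + 3 / 2 * c * (M * e) ≤ 1 := by
    have : Λ * e + 3 / 2 * c * (M * e) = (Λ + 3 / 2 * c * M) * e := by ring
    rw [this, hedef, mul_one_div_cancel (by positivity)]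
  obtain ⟨L₁, hL₁⟩ := Metric.tendsto_atTop.1 hlim e he0
  obtain ⟨sg, hsg⟩ : ∃ sg : ℝ, sg = 1 + 2 * r + 8 * δ := ⟨_, rfl⟩
  obtain ⟨u, hu⟩ : ∃ u : ℝ, u = 2 * (r + 3 * δ) := ⟨_, rfl⟩
  have hsg1 : 1 ≤ sg := by rw [hsg]; linarith
  have hsg2 : sg ≤ 1 + 4 * r := by rw [hsg]; linarith
  obtain ⟨L₂, hL₂⟩ := Metric.tendsto_atTop.1 (tendsto_shrunk hlim (u := u) (s := sg)
    (by linarith)) (w / 2) (by linarith)
  refine ⟨max 1 ⌈max (max L₁ L₂) u⌉₊, ?_⟩
  intro x0 hx0 Λ' a' hΛ' ha'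
  obtain rfl : Λ' = Λ := by rw [hΛ', hΛdef]
  obtain rfl : a' = a := by rw [ha', hadef, hMdef]
  intro β ν hβ hβ' hν
  have hx01 : 1 ≤ x0 := le_trans (le_max_left _ _) hx0
  have hx0L : max (max L₁ L₂) u ≤ (ls x0 0 : ℝ) := by
    calc max (max L₁ L₂) u ≤ (⌈max (max L₁ L₂) u⌉₊ : ℝ) := Nat.le_ceil _
      _ ≤ (x0 : ℝ) := by exact_mod_cast le_trans (le_max_right _ _) hx0
      _ ≤ (ls x0 0 : ℝ) := by exact_mod_cast le_ls_zero
  obtain ⟨L, hLdef⟩ : ∃ L : ℝ, L = (ls x0 0 : ℝ) := ⟨_, rfl⟩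
  rw [← hLdef] at hx0L
  have hL1 : 1 ≤ L := by
    rw [hLdef]; exact_mod_cast le_trans hx01 le_ls_zero
  have hL0 : 0 < L := by linarith
  have hL3 : 0 < L ^ 3 := by positivity
  have hLL₁ : L₁ ≤ L := le_trans (le_trans (le_max_left _ _) (le_max_left _ _)) hx0L
  have hLL₂ : L₂ ≤ L := le_trans (le_trans (le_max_right _ _) (le_max_left _ _)) hx0L
  have hLu : u ≤ L := le_trans (le_max_right _ _) hx0L
  have hQe : (packingNumber L : ℝ) / L ^ 3 ≤ p + e := by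
    have := hL₁ L hLL₁
    rw [Real.dist_eq] at this
    have := le_of_lt (lt_of_le_of_lt (le_abs_self _) this)
    linarith
  have hβ0 : 0 < β := by linarith
  have hβc : 3 * Real.log (1 / δ) ≤ β * c := by
    rw [← hΛdef]
    have : 0 ≤ (β - 1 / 2) * c := mul_nonneg (by linarith) hc0.le
    linarith
  -- upper bound
  have hup : ∀ n : ℕ, Vk φ₀ a' x0 0 β ν n ≤
      (ν * dens x0 0 n + β * a' / 2 * dens x0 0 n ^ 2 - Λ' * max 0 (dens x0 0 n - p))
        - (β * c - Λ') * max 0 (dens x0 0 n - M * p) + 64 * dens x0 0 n + 2 := by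
    intro n
    have h1 := logZ_upper hφ hm hβ0 hβc hL0 n
    refine V0_upper_abs (Q := (packingNumber L : ℝ) / L ^ 3)
      (lz := Real.log (partitionFn φ₀ (ls x0 0) n β) / (ls x0 0 : ℝ) ^ 3)
      hM hΛ0 hβ hβ' hcΛ he0.le hee hQe ?_ (Vk_zero_eq hx01 β ν n)
    rw [← hLdef, div_le_iff₀ hL3]
    refine le_trans h1 (le_of_eq ?_)
    have hd : dens x0 0 n * L ^ 3 = n := by
      rw [dens, ← hLdef]; field_simp
    have hm1 : max 0 (dens x0 0 n - (packingNumber L : ℝ) / L ^ 3) * L ^ 3 =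
        max 0 ((n : ℝ) - packingNumber L) := by
      rw [max_mul_of_nonneg _ _ hL3.le, zero_mul, sub_mul, hd, div_mul_cancel₀ _ hL3.ne']
    have hm2 : max 0 (dens x0 0 n - M * ((packingNumber L : ℝ) / L ^ 3)) * L ^ 3 =
        max 0 ((n : ℝ) - m * packingNumber L) := by
      rw [max_mul_of_nonneg _ _ hL3.le, zero_mul, sub_mul, hd, mul_assoc,
        div_mul_cancel₀ _ hL3.ne', hMdef]
    rw [← hΛdef]
    calc L ^ 3 + 64 * (n : ℝ) - Λ' * max 0 ((n : ℝ) - packingNumber L)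
        - (β * c - Λ') * max 0 ((n : ℝ) - m * packingNumber L)
        = L ^ 3 + 64 * (dens x0 0 n * L ^ 3)
          - Λ' * (max 0 (dens x0 0 n - (packingNumber L : ℝ) / L ^ 3) * L ^ 3)
          - (β * c - Λ') *
            (max 0 (dens x0 0 n - M * ((packingNumber L : ℝ) / L ^ 3)) * L ^ 3) := by
          rw [hm1, hm2, hd]
      _ = _ := by ring
  have hdens0 : ∀ n : ℕ, 0 ≤ dens x0 0 n := by
    intro n; rw [dens]; positivity
  have h3τ : 3 * Λ' * τ ≤ ε₁ * Λ' / 2 := by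
    have := mul_le_mul_of_nonneg_left hτε6 hΛ0.le
    linarith
  have hv0 : vv m p 0 = 0 := rfl
  have hv1 : vv m p 1 = p := rfl
  have hv2 : vv m p 2 = M * p := by rw [hMdef]; rfl
  have hs0 : ss m p Λ' 0 = 0 := rfl
  have hs1 : ss m p Λ' 1 = Λ' * p / M := by rw [hMdef]; rfl
  have hs2 : ss m p Λ' 2 = Λ' * M * p := by rw [hMdef]; rfl
  have ht0 : tt m p Λ' 0 = 0 := rfl
  have ht1 : tt m p Λ' 1 = 0 := rfl
  have ht2 : tt m p Λ' 2 = Λ' * (M - 1) * p := by rw [hMdef]; rfl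
  refine ⟨?_, ?_, ?_⟩
  · intro n hn i hi
    have h0 := hdens0 n
    have hV := hup n
    obtain ⟨ρ, hρ⟩ : ∃ ρ : ℝ, ρ = dens x0 0 n := ⟨_, rfl⟩
    rw [← hρ] at hn hi h0 hV
    rcases le_total ρ (M * p) with hc1 | hc1
    · obtain ⟨k0, k1, k2⟩ := lip_low (ν := ν) hp hM hΛ0 hadef hβ hβ' hν h0 hc1
      rw [max_eq_left (by linarith : ρ - M * p ≤ 0)] at hV
      have h6 : ∀ x : ℝ, x ≤ τ / 2 → 6 * Λ' * x ≤ 3 * Λ' * τ := by
        intro x hx
        have := mul_le_mul_of_nonneg_left hx hΛ0.le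
        linarith
      fin_cases i
      · simp only [Fin.zero_eta, Fin.isValue] at hi ⊢
        rw [hv0] at hi
        rw [hv0, hs0, ht0]
        have := h6 _ hi
        linarith
      · simp only [Fin.mk_one, Fin.isValue] at hi ⊢
        rw [hv1] at hi
        rw [hv1, hs1, ht1]
        have := h6 _ hi
        linarith
      · simp only [Fin.reduceFinMk, Fin.isValue] at hi ⊢
        rw [hv2] at hi
        rw [hv2, hs2, ht2]
        have := h6 _ hi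
        linarith
    · have hh := high_bound (ν := ν) hp hM hΛ0 hadef hβ hβ' hν hc1 hn hc hc0.le
      have hB1 : 0 ≤ B * (ρ - M * p) := mul_nonneg hB0.le (by linarith)
      have hpM : 2 * p ≤ M * p := mul_le_mul_of_nonneg_right hM hp.le
      fin_cases i
      · simp only [Fin.zero_eta, Fin.isValue] at hi ⊢
        rw [hv0] at hi
        exfalso
        have := le_trans (le_abs_self _) hi
        linarith
      · simp only [Fin.mk_one, Fin.isValue] at hi ⊢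
        rw [hv1] at hi
        exfalso
        have := le_trans (le_abs_self _) hi
        linarith
      · simp only [Fin.reduceFinMk, Fin.isValue] at hi ⊢
        rw [hv2, hs2, ht2]
        linarith
  · intro n hn hi
    have h0 := hdens0 n
    have hV := hup n
    obtain ⟨ρ, hρ⟩ : ∃ ρ : ℝ, ρ = dens x0 0 n := ⟨_, rfl⟩
    rw [← hρ] at hn hi h0 hV
    have hi0 := hi 0
    have hi1 := hi 1
    have hi2 := hi 2
    rw [hv0] at hi0
    rw [hv1] at hi1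
    rw [hv2] at hi2
    rcases le_total ρ (M * p) with hc1 | hc1
    · rw [max_eq_left (by linarith : ρ - M * p ≤ 0)] at hV
      rcases gap_low (ν := ν) hp hM hΛ0 hadef hβ hτ0 hτp h0 hc1 hi0 hi1 hi2 with k | k | k
      · refine ⟨0, ?_⟩
        rw [hv0, hs0, ht0]
        linarith
      · refine ⟨1, ?_⟩
        rw [hv1, hs1, ht1]
        linarith
      · refine ⟨2, ?_⟩
        rw [hv2, hs2, ht2]
        linarith
    · have hh := high_bound (ν := ν) hp hM hΛ0 hadef hβ hβ' hν hc1 hn hc hc0.le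
      refine ⟨2, ?_⟩
      rw [hv2, hs2, ht2]
      rw [abs_of_nonneg (by linarith)] at hi2
      have hB1 : 2 + 64 * (M * p) + 4 * γ * Λ' ≤ B * (ρ - M * p) := by
        have : B * (τ / 2) = 2 + 64 * (M * p) + 4 * γ * Λ' := by
          rw [hBdef]; field_simp
        rw [← this]
        exact mul_le_mul_of_nonneg_left hi2.le hB0.le
      linarith
  · -- lower bounds
    obtain ⟨P', hP'⟩ : ∃ P' : ℕ, P' = packingNumber ((L - u) / sg) := ⟨_, rfl⟩
    obtain ⟨ρ, hρ⟩ : ∃ ρ : ℝ, ρ = (P' : ℝ) / L ^ 3 := ⟨_, rfl⟩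
    have hρw : |ρ - p| ≤ w := by
      have h1 := hL₂ L hLL₂
      rw [Real.dist_eq, ← hP', ← hρ] at h1
      have h2 : |p / sg ^ 3 - p| ≤ w / 2 := by
        have h3 : p * (1 / sg ^ 3) ≤ p * 1 := by
          apply mul_le_mul_of_nonneg_left _ hp.le
          rw [div_le_one (by positivity)]
          exact one_le_pow₀ hsg1
        have h4 : p * (1 - 3 * (sg - 1)) ≤ p * (1 / sg ^ 3) :=
          mul_le_mul_of_nonneg_left (inv_cube_ge hsg1) hp.le
        have h5 : p * (1 / sg ^ 3) = p / sg ^ 3 := by ring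
        rw [h5] at h3 h4
        rw [abs_le]
        constructor
        · have h6 : p * (sg - 1) ≤ p * (4 * r) :=
            mul_le_mul_of_nonneg_left (by linarith) hp.le
          linarith
        · linarith
      calc |ρ - p| = |(ρ - p / sg ^ 3) + (p / sg ^ 3 - p)| := by ring_nf
        _ ≤ |ρ - p / sg ^ 3| + |p / sg ^ 3 - p| := abs_add_le _ _
        _ ≤ w := by linarith
    have hwM : M * w ≤ τ / 2 := by
      rw [le_div_iff₀ (by positivity)] at hwτ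
      linarith
    have hwγ' : w * (16 * M) ≤ γ := by
      rwa [le_div_iff₀ (by positivity)] at hwγ
    have hden1 : dens x0 0 (1 * P') = ρ := by
      rw [dens, ← hLdef, hρ]; push_cast; ring
    have hden2 : dens x0 0 (m * P') = M * ρ := by
      rw [dens, ← hLdef, hρ, hMdef]; push_cast; ring
    have hρ1 : ρ ≤ p + w := by have := le_abs_self (ρ - p); linarith
    have hPρ : (P' : ℝ) = ρ * L ^ 3 := by rw [hρ]; field_simp
    have hb : 0 ≤ L - 2 * (r + 3 * δ) := by rw [← hu]; linarith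
    intro i
    fin_cases i
    · refine ⟨0, ?_, ?_, ?_⟩
      · have : dens x0 0 0 = 0 := by simp [dens]
        rw [this]; exact hrm0.le
      · have : dens x0 0 0 = 0 := by simp [dens]
        simp only [Fin.zero_eta, Fin.isValue]
        rw [this, hv0]; simp; linarith
      · simp only [Fin.zero_eta, Fin.isValue]
        rw [hv0, hs0, ht0, Vk_zero_eq hx01]
        have h1 : dens x0 0 0 = 0 := by simp [dens]
        have h2 : 0 ≤ Real.log (partitionFn φ₀ (ls x0 0) 0 β) := by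
          apply bl_logZ_lower hφ hβ0 (by rw [← hLdef]; exact hL0)
          rw [Jn_zero]
          simp [wt, En, dbl]
        have h3 : 0 ≤ Real.log (partitionFn φ₀ (ls x0 0) 0 β) / (ls x0 0 : ℝ) ^ 3 :=
          div_nonneg h2 (by positivity)
        have h4 : 0 < γ * Λ' := by positivity
        rw [h1]
        linarith
    · refine ⟨1 * P', ?_, ?_, ?_⟩
      · rw [hden1]
        have : 2 * p ≤ M * p := mul_le_mul_of_nonneg_right hM hp.le
        linarith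
      · simp only [Fin.mk_one, Fin.isValue]
        rw [hden1, hv1]
        have : 2 * w ≤ M * w := mul_le_mul_of_nonneg_right hM hw0.le
        linarith
      · simp only [Fin.mk_one, Fin.isValue]
        rw [hv1, hs1, ht1, Vk_zero_eq hx01, hden1]
        have h1 := hlow₁ φ₀ δ c hφ β L hβ0 hb
        rw [← hu, ← hsg, ← hP'] at h1
        have h2 := bl_logZ_lower hφ hβ0 hL0 _ h1
        have h3 : -(C₁ * ρ) ≤ Real.log (partitionFn φ₀ (ls x0 0) (1 * P') β) / (ls x0 0 : ℝ) ^ 3 := by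
          rw [← hLdef, le_div_iff₀ hL3]
          refine le_trans (le_of_eq ?_) h2
          rw [hPρ]; push_cast; ring
        have h4 := V0_lower_abs (ν := ν) hp hM hΛ0 hadef hβ hβ' hν hC₁ hρw hwp h3
        have h5 : 5 * Λ' * w ≤ γ * Λ' / 2 := by
          have g1 : 2 * w ≤ M * w := mul_le_mul_of_nonneg_right hM hw0.le
          have g2 : 32 * w ≤ γ := by linarith
          have g3 := mul_le_mul_of_nonneg_left g2 hΛ0.le
          have g4 : 0 < Λ' * w := by positivity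
          linarith
        linarith
    · refine ⟨m * P', ?_, ?_, ?_⟩
      · rw [hden2]
        have g1 := mul_le_mul_of_nonneg_left hρ1 hM0.le
        linarith
      · simp only [Fin.reduceFinMk, Fin.isValue]
        rw [hden2, hv2, ← mul_sub, abs_mul, abs_of_pos hM0]
        have g1 := mul_le_mul_of_nonneg_left hρw hM0.le
        linarith
      · simp only [Fin.reduceFinMk, Fin.isValue]
        rw [hv2, hs2, ht2, Vk_zero_eq hx01, hden2]
        have h1 := hlow₂ φ₀ δ c hφ β L hβ0 hb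
        rw [← hu, ← hsg, ← hP'] at h1
        have h2 := bl_logZ_lower hφ hβ0 hL0 _ h1
        have h3 : -((C₂ + (M - 1) * Λ') * ρ) ≤
            Real.log (partitionFn φ₀ (ls x0 0) (m * P') β) / (ls x0 0 : ℝ) ^ 3 := by
          rw [← hLdef, le_div_iff₀ hL3]
          refine le_trans (le_of_eq ?_) h2
          rw [hPρ, hMdef, hΛdef]; ring
        have h4 := V0_lower_abs2 (ν := ν) hp hM hΛ0 hadef hβ hβ' hν hC₂ hρw hwp h3
        have h5 : 8 * M * Λ' * w ≤ γ * Λ' / 2 := by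
          have g3 := mul_le_mul_of_nonneg_left hwγ' hΛ0.le
          linarith
        linarith

end Crest.Agent.R149
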