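import Crest.Agent.R149.Defs

/-!
Auxiliary facts for PIECE E: successive integration of the product
`∏ i, (1 + K · #{j < i : |x_i - x_j| < r})`.
-/

set_option autoImplicit false

namespace Crest.Agent.R149

open MeasureTheory Crest.ProbabilityR.Continuum
open scoped ENNReal BigOperators

/-- number of earlier points within distance `r` -/
noncomputable def nbr (r : ℝ) {n : ℕ} (x : Fin n → Pt) (i : Fin n) : ℝ≥0∞ :=
  ∑ j : Fin n, if j < i ∧ dist (x i) (x j) < r then 1 else 0

noncomputable def prodW (r : ℝ) (K : ℝ≥0∞) {n : ℕ} (x : Fin n → Pt) : ℝ≥0∞ :=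
  ∏ i : Fin n, (1 + K * nbr r x i)

theorem measurable_nbr (r : ℝ) {n : ℕ} (i : Fin n) :
    Measurable (fun x : Fin n → Pt => nbr r x i) := by
  unfold nbr
  refine Finset.measurable_sum _ (fun j _ => ?_)
  refine Measurable.ite ?_ measurable_const measurable_const
  by_cases h : j < i
  · simp only [h, true_and]
    exact measurableSet_lt (by fun_prop) measurable_const
  · simp only [h, false_and]
    exact MeasurableSet.const _

theorem measurable_prodW (r : ℝ) (K : ℝ≥0∞) (n : ℕ) :
    Measurable (fun x : Fin n → Pt => prodW r K x) := by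
  unfold prodW
  exact Finset.measurable_prod _ (fun i _ => (measurable_nbr r i).const_mul K |>.const_add 1)

theorem prodW_snoc (r : ℝ) (K : ℝ≥0∞) {n : ℕ} (y : Fin n → Pt) (z : Pt) :
    prodW r K ((Fin.last n).insertNth z y : Fin (n + 1) → Pt) =
      prodW r K y * (1 + K * ∑ j : Fin n, if dist z (y j) < r then 1 else 0) := by
  have h0 : ((Fin.last n).insertNth z y : Fin (n + 1) → Pt) = Fin.snoc y z := by
    rw [Fin.insertNth_last']
  rw [h0]
  unfold prodW nbr
  rw [Fin.prod_univ_castSucc]
  congr 1
  · refine Finset.prod_congr rfl (fun i _ => ?_)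
    congr 2
    rw [Fin.sum_univ_castSucc]
    have : ¬ (Fin.last n < Fin.castSucc i) := by
      simp [Fin.lt_def]
    simp [Fin.snoc_castSucc, this]
  · congr 2
    rw [Fin.sum_univ_castSucc]
    simp [Fin.snoc_castSucc, Fin.snoc_last, Fin.castSucc_lt_last]

theorem lintegral_one_add_nbr (r : ℝ) (K : ℝ≥0∞) {n : ℕ} (y : Fin n → Pt) (A : Set Pt)
    (V b : ℝ≥0∞) (hV : volume A ≤ V) (hb : ∀ p : Pt, K * volume (Metric.ball p r) ≤ b) :
    ∫⁻ z in A, (1 + K * ∑ j : Fin n, if dist z (y j) < r then (1 : ℝ≥0∞) else 0) ≤ V + b * n := by
  have hm : ∀ j : Fin n, Measurable (fun z : Pt => if dist z (y j) < r then (1 : ℝ≥0∞) else 0) := by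
    intro j
    refine Measurable.ite ?_ measurable_const measurable_const
    exact measurableSet_lt (by fun_prop) measurable_const
  rw [lintegral_add_left measurable_const]
  refine add_le_add ?_ ?_
  · simpa using hV
  · rw [lintegral_const_mul _ (Finset.measurable_sum _ (fun j _ => hm j))]
    rw [lintegral_finsetSum _ (fun j _ => hm j)]
    rw [Finset.mul_sum]
    calc ∑ j : Fin n, K * ∫⁻ z in A, (if dist z (y j) < r then (1 : ℝ≥0∞) else 0)
        ≤ ∑ j : Fin n, b := by
          refine Finset.sum_le_sum (fun j _ => ?_)
          refine le_trans ?_ (hb (y j))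
          gcongr
          calc ∫⁻ z in A, (if dist z (y j) < r then (1 : ℝ≥0∞) else 0)
              ≤ ∫⁻ z, (if dist z (y j) < r then (1 : ℝ≥0∞) else 0) := setLIntegral_le_lintegral _ _
            _ = ∫⁻ z, (Metric.ball (y j) r).indicator 1 z := by
                refine lintegral_congr (fun z => ?_)
                simp [Set.indicator, Metric.mem_ball]
            _ = volume (Metric.ball (y j) r) := lintegral_indicator_one measurableSet_ball
      _ = b * n := by simp [mul_comm]

theorem lintegral_prodW (r : ℝ) (K : ℝ≥0∞) (A : Set Pt)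
    (V b : ℝ≥0∞) (hV : volume A ≤ V) (hb : ∀ p : Pt, K * volume (Metric.ball p r) ≤ b)
    (N : ℕ) (n : ℕ) (hn : n ≤ N) :
    ∫⁻ x in Set.pi Set.univ (fun _ : Fin n => A), prodW r K x ≤ (V + b * N) ^ n := by
  induction n with
  | zero =>
    simp only [prodW, Finset.univ_eq_empty, Finset.prod_empty, pow_zero,
      lintegral_one, Measure.restrict_apply_univ]
    rw [MeasureTheory.volume_pi_pi]
    simp
  | succ n ih =>
    have hmp := (volume_preserving_piFinSuccAbove (fun _ : Fin (n + 1) => Pt) (Fin.last n)).symm
    have hpre : (MeasurableEquiv.piFinSuccAbove (fun _ : Fin (n + 1) => Pt) (Fin.last n)).symm ⁻¹'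
        (Set.pi Set.univ (fun _ : Fin (n + 1) => A)) =
        A ×ˢ (Set.pi Set.univ (fun _ : Fin n => A)) := by
      ext ⟨z, y⟩
      simp only [Set.mem_preimage, Set.mem_pi, Set.mem_univ, forall_true_left, Set.mem_prod,
        MeasurableEquiv.piFinSuccAbove_symm_apply]
      rw [Fin.forall_iff_succAbove (Fin.last n)]
      simp
    rw [← hmp.setLIntegral_comp_preimage_emb
      (MeasurableEquiv.measurableEmbedding _) (prodW r K), hpre]
    rw [Measure.volume_eq_prod, ← Measure.prod_restrict]
    rw [lintegral_prod_symm']
    · calc ∫⁻ y, ∫⁻ z, prodW r K ((MeasurableEquiv.piFinSuccAbove (fun _ : Fin (n + 1) => Pt)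
            (Fin.last n)).symm (z, y)) ∂(volume.restrict A)
            ∂(volume.restrict (Set.pi Set.univ (fun _ : Fin n => A)))
          ≤ ∫⁻ y, prodW r K y * (V + b * N)
            ∂(volume.restrict (Set.pi Set.univ (fun _ : Fin n => A))) := by
            refine lintegral_mono (fun y => ?_)
            have hz : ∀ z : Pt, prodW r K ((MeasurableEquiv.piFinSuccAbove
                (fun _ : Fin (n + 1) => Pt) (Fin.last n)).symm (z, y)) =
                prodW r K y * (1 + K * ∑ j : Fin n, if dist z (y j) < r then 1 else 0) :=
              fun z => prodW_snoc r K y z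
            simp only [hz]
            rw [lintegral_const_mul]
            · gcongr
              refine le_trans (lintegral_one_add_nbr r K y A V b hV hb) ?_
              gcongr
              exact_mod_cast (by omega : n ≤ N)
            · refine Measurable.const_add (Measurable.const_mul ?_ _) _
              refine Finset.measurable_sum _ (fun j _ => ?_)
              refine Measurable.ite ?_ measurable_const measurable_const
              exact measurableSet_lt (by fun_prop) measurable_const
        _ = (∫⁻ y, prodW r K y ∂(volume.restrict (Set.pi Set.univ (fun _ : Fin n => A)))) *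
              (V + b * N) := by
            rw [lintegral_mul_const _ (measurable_prodW r K n)]
        _ ≤ (V + b * N) ^ n * (V + b * N) := by
            gcongr
            exact ih (by omega)
        _ = (V + b * N) ^ (n + 1) := by rw [pow_succ]
    · exact (measurable_prodW r K (n + 1)).comp (MeasurableEquiv.measurable _)

end Crest.Agent.R149
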