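import Crest.Agent.R149.BasicM
import Crest.Agent.R149.Packing
import Crest.Agent.R149.BaseUpperAux

/-!
PIECE E (upper bound for the core partition function).

Pointwise bound: for `x ∈ cube^N` call `i` *bad* if some `j < i` has `φ₀ |x_i-x_j| ≥ c`
(in particular if `|x_i-x_j| ∈ [0,δ] ∪ [2δ,1]`), *attached* if not bad and some `j<i` has
`|x_i-x_j| < 2δ`, *free* otherwise.  Let `s, t, f` be the numbers of the three kinds.
* `E₀(x) ≥ c s` (each bad `i` has its own pair).
* free points have pairwise distances `> 1`, so `f ≤ P = packingNumber L`;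
* the points that are not bad have all pairwise distances in `(δ,2δ) ∪ (1,∞)`, so
  `f + t ≤ m P` (`card_good_le`).
With `Λ = 3 log (1/δ)` and `β c ≥ Λ`:
`exp (-β E₀) ≤ exp (-β c s) ≤ exp (-(βc-Λ)(N-mP)₊ - Λ (N-P)₊) * exp (Λ t)`, since `s ≥ (N-mP)₊` and
`s + t = N - f ≥ (N-P)₊`.  And `exp (Λ t) ≤ ∏_i (1 + e^Λ · #{j<i : |x_i-x_j| < 2δ})`.
Integrate the product successively over `x_{N-1}, x_{N-2}, …`
(`volume_preserving_piFinSuccAbove`/`Fin.snoc`): each factor gives at most
`V + e^Λ (i) vol (ball 2δ) ≤ V + 64 N`, as `vol (ball (2δ)) ≤ (4δ)³ = 64 e^{-Λ}`.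
So `∫ ≤ exp(…) (V + 64 N)^N`, and `(V+64N)^N/N! ≤ exp (V + 64 N)`.
-/

set_option autoImplicit false

namespace Crest.Agent.R149

open MeasureTheory Crest.ProbabilityR.Continuum
open scoped ENNReal BigOperators

section pointwise

variable {N : ℕ}

/-- `i` is bad: some earlier point is at a distance where the core is at least `c`. -/
def badPt (φ₀ : ℝ → ℝ) (c : ℝ) (x : Fin N → Pt) (i : Fin N) : Prop :=
  ∃ j : Fin N, j < i ∧ c ≤ φ₀ (dist (x i) (x j))

/-- `i` has an earlier neighbour at distance less than `r`. -/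
def nearPt (r : ℝ) (x : Fin N → Pt) (i : Fin N) : Prop :=
  ∃ j : Fin N, j < i ∧ dist (x i) (x j) < r

open Classical in
theorem energy_ge_bad {φ₀ : ℝ → ℝ} (h0 : ∀ r, 0 ≤ φ₀ r) (c : ℝ) (x : Fin N → Pt) :
    c * ((Finset.univ.filter (fun i => badPt φ₀ c x i)).card : ℝ) ≤ energy φ₀ x := by
  classical
  have hch : ∀ i : {i : Fin N // badPt φ₀ c x i}, ∃ j : Fin N, j < i.1 ∧
      c ≤ φ₀ (dist (x i.1) (x j)) := fun i => i.2
  choose g hg1 hg2 using hch
  let G : {i : Fin N // badPt φ₀ c x i} → {p : Fin N × Fin N // p.1 < p.2} :=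
    fun i => ⟨(g i, i.1), hg1 i⟩
  have hG : Function.Injective G := by
    intro a b hab
    have := congrArg (fun p => p.1.2) hab
    exact Subtype.ext this
  have h1 : ∑ i : {i : Fin N // badPt φ₀ c x i}, c ≤
      ∑ i : {i : Fin N // badPt φ₀ c x i}, φ₀ (dist (x (G i).1.1) (x (G i).1.2)) := by
    refine Finset.sum_le_sum (fun i _ => ?_)
    have := hg2 i
    rw [dist_comm] at this
    exact this
  have h2 : ∑ i : {i : Fin N // badPt φ₀ c x i}, φ₀ (dist (x (G i).1.1) (x (G i).1.2)) ≤
      energy φ₀ x := by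
    unfold energy
    have h3 : ∑ i : {i : Fin N // badPt φ₀ c x i}, φ₀ (dist (x (G i).1.1) (x (G i).1.2)) =
        ∑ p ∈ (Finset.univ : Finset {i : Fin N // badPt φ₀ c x i}).map ⟨G, hG⟩,
          φ₀ (dist (x p.1.1) (x p.1.2)) := by
      rw [Finset.sum_map]; rfl
    rw [h3]
    exact Finset.sum_le_univ_sum_of_nonneg (fun p => h0 _)
  have h4 : ∑ i : {i : Fin N // badPt φ₀ c x i}, c =
      c * ((Finset.univ.filter (fun i => badPt φ₀ c x i)).card : ℝ) := by
    rw [Finset.sum_const, nsmul_eq_mul, mul_comm, Finset.card_univ, Fintype.card_subtype]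
  linarith

theorem not_bad_dist {φ₀ : ℝ → ℝ} {δ c η : ℝ} (hφ : CoreHyp φ₀ δ c η) {x : Fin N → Pt}
    {i j : Fin N} (hji : j < i) (hi : ¬ badPt φ₀ c x i) :
    (δ < dist (x i) (x j) ∧ dist (x i) (x j) < 2 * δ) ∨ 1 < dist (x i) (x j) := by
  by_contra hcon
  push Not at hcon
  obtain ⟨h1, h2⟩ := hcon
  apply hi
  refine ⟨j, hji, ?_⟩
  by_cases h : dist (x i) (x j) ≤ δ
  · exact hφ.core _ dist_nonneg h
  · exact hφ.shell _ (h1 (not_le.mp h)) h2

open Classical in
theorem pointwise_count {φ₀ : ℝ → ℝ} {δ c η : ℝ} (hφ : CoreHyp φ₀ δ c η) {m : ℕ}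
    (hm : ∀ X : Finset Pt, (∀ x ∈ X, ∀ y ∈ X, x ≠ y → 1 < dist x y ∧ dist x y < 2) → X.card ≤ m)
    {L : ℝ} {x : Fin N → Pt} (hx : ∀ i, x i ∈ cube L) :
    ∃ s t f : ℕ, s + t + f = N ∧ s = (Finset.univ.filter (fun i => badPt φ₀ c x i)).card ∧
      t = (Finset.univ.filter (fun i => ¬ badPt φ₀ c x i ∧ nearPt (2 * δ) x i)).card ∧
      f ≤ packingNumber L ∧ t + f ≤ m * packingNumber L := by
  have hdist : ∀ i j : Fin N, i ≠ j → ¬ badPt φ₀ c x i → ¬ badPt φ₀ c x j →
      (δ < dist (x i) (x j) ∧ dist (x i) (x j) < 2 * δ) ∨ 1 < dist (x i) (x j) := by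
    intro i j hij hi hj
    rcases lt_or_gt_of_ne hij with h | h
    · have := not_bad_dist hφ h hj
      rwa [dist_comm (x j) (x i)] at this
    · exact not_bad_dist hφ h hi
  have hinj : ∀ i j : Fin N, ¬ badPt φ₀ c x i → ¬ badPt φ₀ c x j → x i = x j → i = j := by
    intro i j hi hj hxx
    by_contra hij
    have := hdist i j hij hi hj
    rw [hxx, dist_self] at this
    have := hφ.δpos
    rcases ‹_ ∨ _› with h | h <;> linarith [h]
  set F := Finset.univ.filter (fun i => ¬ badPt φ₀ c x i ∧ ¬ nearPt (2 * δ) x i) with hF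
  set T := Finset.univ.filter (fun i => ¬ badPt φ₀ c x i ∧ nearPt (2 * δ) x i) with hT
  set B := Finset.univ.filter (fun i => badPt φ₀ c x i) with hB
  refine ⟨B.card, T.card, F.card, ?_, rfl, rfl, ?_, ?_⟩
  · have h1 := Finset.card_filter_add_card_filter_not (s := (Finset.univ : Finset (Fin N)))
      (fun i => badPt φ₀ c x i)
    have h2 := Finset.card_filter_add_card_filter_not
      (s := (Finset.univ : Finset (Fin N)).filter (fun i => ¬ badPt φ₀ c x i))
      (fun i => nearPt (2 * δ) x i)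
    rw [Finset.filter_filter, Finset.filter_filter] at h2
    simp only [Finset.card_univ, Fintype.card_fin] at h1
    simp only [hB, hT, hF]
    omega
  · have hcard : (F.image x).card = F.card := by
      apply Finset.card_image_of_injOn
      intro i hi j hj hxx
      simp only [hF, Finset.coe_filter, Finset.mem_univ, true_and, Set.mem_ofPred_eq] at hi hj
      exact hinj i j hi.1 hj.1 hxx
    rw [← hcard]
    apply card_le_packingNumber
    · intro z hz
      obtain ⟨i, -, rfl⟩ := Finset.mem_image.mp hz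
      exact hx i
    · intro z hz w hw hzw
      obtain ⟨i, hi, rfl⟩ := Finset.mem_image.mp hz
      obtain ⟨j, hj, rfl⟩ := Finset.mem_image.mp hw
      simp only [hF, Finset.mem_filter, Finset.mem_univ, true_and] at hi hj
      have hij : i ≠ j := fun h => hzw (by rw [h])
      rcases lt_or_gt_of_ne hij with h | h
      · rcases not_bad_dist hφ h hj.1 with h' | h'
        · exact absurd ⟨i, h, h'.2⟩ hj.2
        · rw [dist_comm]; exact h'.le
      · rcases not_bad_dist hφ h hi.1 with h' | h'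
        · exact absurd ⟨j, h, h'.2⟩ hi.2
        · exact h'.le
  · set G := Finset.univ.filter (fun i => ¬ badPt φ₀ c x i) with hG
    have hTF : T.card + F.card = G.card := by
      have h2 := Finset.card_filter_add_card_filter_not
        (s := (Finset.univ : Finset (Fin N)).filter (fun i => ¬ badPt φ₀ c x i))
        (fun i => nearPt (2 * δ) x i)
      rw [Finset.filter_filter, Finset.filter_filter] at h2
      exact h2
    rw [hTF]
    have hcard : (G.image x).card = G.card := by
      apply Finset.card_image_of_injOn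
      intro i hi j hj hxx
      simp only [hG, Finset.coe_filter, Finset.mem_univ, true_and, Set.mem_ofPred_eq] at hi hj
      exact hinj i j hi hj hxx
    rw [← hcard]
    apply card_good_le hm hφ.δpos hφ.δle
    · intro z hz
      obtain ⟨i, -, rfl⟩ := Finset.mem_image.mp hz
      exact hx i
    · intro z hz w hw hzw
      obtain ⟨i, hi, rfl⟩ := Finset.mem_image.mp hz
      obtain ⟨j, hj, rfl⟩ := Finset.mem_image.mp hw
      simp only [hG, Finset.mem_filter, Finset.mem_univ, true_and] at hi hj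
      exact hdist i j (fun h => hzw (by rw [h])) hi hj

open Classical in
theorem pow_near_le_prodW (r : ℝ) (K : ℝ≥0∞) (x : Fin N → Pt) (S : Finset (Fin N))
    (hS : ∀ i ∈ S, nearPt r x i) : K ^ S.card ≤ prodW r K x := by
  unfold prodW
  calc K ^ S.card = ∏ i : Fin N, (if i ∈ S then K else 1) := by
        rw [Finset.prod_ite_mem, Finset.univ_inter, Finset.prod_const]
    _ ≤ ∏ i : Fin N, (1 + K * nbr r x i) := by
        refine Finset.prod_le_prod' (fun i _ => ?_)
        split_ifs with h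
        · obtain ⟨j, hj, hd⟩ := hS i h
          have h1 : (1 : ℝ≥0∞) ≤ nbr r x i := by
            unfold nbr
            refine le_trans ?_ (Finset.single_le_sum (fun _ _ => zero_le) (Finset.mem_univ j))
            simp [hj, hd]
          calc K = K * 1 := (mul_one K).symm
            _ ≤ K * nbr r x i := by gcongr
            _ ≤ 1 + K * nbr r x i := le_add_self
        · exact le_self_add

end pointwise

theorem base_upper {φ₀ : ℝ → ℝ} {δ c η : ℝ} (hφ : CoreHyp φ₀ δ c η) {m : ℕ}
    (hm : ∀ X : Finset Pt, (∀ x ∈ X, ∀ y ∈ X, x ≠ y → 1 < dist x y ∧ dist x y < 2) → X.card ≤ m)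
    {β : ℝ} (hβ : 0 < β) (hβc : 3 * Real.log (1 / δ) ≤ β * c) {L : ℝ} (hL : 0 ≤ L) (N : ℕ) :
    Jn (wt φ₀ β) (cube L) N ≤ ENNReal.ofReal (Real.exp
      (L ^ 3 + 64 * N - 3 * Real.log (1 / δ) * max 0 ((N : ℝ) - packingNumber L)
        - (β * c - 3 * Real.log (1 / δ)) * max 0 ((N : ℝ) - m * packingNumber L))) := by
  classical
  set Λ : ℝ := 3 * Real.log (1 / δ) with hΛ
  have hδ := hφ.δpos
  have hδ8 := hφ.δle
  have hΛ0 : 0 ≤ Λ := by
    have : 0 ≤ Real.log (1 / δ) := Real.log_nonneg (by rw [le_div_iff₀ hδ]; linarith)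
    positivity
  have hexpΛ : Real.exp Λ = (1 / δ) ^ 3 := by
    have : Λ = Real.log ((1 / δ) ^ 3) := by
      rw [Real.log_pow]; push_cast; rfl
    rw [this, Real.exp_log (by positivity)]
  set D : ℝ := Λ * max 0 ((N : ℝ) - packingNumber L) +
    (β * c - Λ) * max 0 ((N : ℝ) - m * packingNumber L) with hD
  set K : ℝ≥0∞ := ENNReal.ofReal (Real.exp Λ) with hK
  -- pointwise bound
  have hpt : ∀ x ∈ Set.pi Set.univ (fun _ : Fin N => cube L),
      wt φ₀ β (conf x) ≤ ENNReal.ofReal (Real.exp (-D)) * prodW (2 * δ) K x := by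
    intro x hx
    have hx' : ∀ i, x i ∈ cube L := fun i => hx i (Set.mem_univ i)
    obtain ⟨s, t, f, hsum, hs, ht, hf, htf⟩ := pointwise_count hφ hm hx'
    have hE := energy_ge_bad hφ.nonneg c x
    rw [← hs] at hE
    have hK' : K ^ t ≤ prodW (2 * δ) K x := by
      rw [ht]
      apply pow_near_le_prodW
      intro i hi
      exact (Finset.mem_filter.mp hi).2.2
    refine le_trans ?_ (mul_le_mul_right hK' _)
    unfold wt
    rw [← energy_eq_En, hK, ← ENNReal.ofReal_pow (Real.exp_pos _).le,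
      ← ENNReal.ofReal_mul (Real.exp_pos _).le, ← Real.exp_nat_mul, ← Real.exp_add]
    apply ENNReal.ofReal_le_ofReal
    apply Real.exp_le_exp.mpr
    have hsN : (s : ℝ) + t + f = N := by exact_mod_cast hsum
    have hf' : (f : ℝ) ≤ packingNumber L := by exact_mod_cast hf
    have htf' : (t : ℝ) + f ≤ m * packingNumber L := by exact_mod_cast htf
    have hs0 : (0 : ℝ) ≤ s := Nat.cast_nonneg _
    have ht0 : (0 : ℝ) ≤ t := Nat.cast_nonneg _
    have h1 : max 0 ((N : ℝ) - packingNumber L) ≤ s + t := max_le (by linarith) (by linarith)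
    have h2 : max 0 ((N : ℝ) - m * packingNumber L) ≤ s := max_le hs0 (by linarith)
    have h3 : Λ * max 0 ((N : ℝ) - packingNumber L) ≤ Λ * (s + t) := by gcongr
    have h4 : (β * c - Λ) * max 0 ((N : ℝ) - m * packingNumber L) ≤ (β * c - Λ) * s :=
      mul_le_mul_of_nonneg_left h2 (by linarith)
    have h5 : β * (c * s) ≤ β * energy φ₀ x := by gcongr
    rw [hD]
    nlinarith
  have hb : ∀ p : Pt, K * volume (Metric.ball p (2 * δ)) ≤ 64 := by
    intro p
    rw [EuclideanSpace.volume_ball_fin_three, hK, hexpΛ, ← ENNReal.ofReal_pow (by positivity),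
      ← ENNReal.ofReal_mul (by positivity), ← ENNReal.ofReal_mul (by positivity)]
    have : (64 : ℝ≥0∞) = ENNReal.ofReal 64 := by norm_num
    rw [this]
    apply ENNReal.ofReal_le_ofReal
    have hpi := Real.pi_lt_d2
    have : (1 / δ) ^ 3 * ((2 * δ) ^ 3 * (Real.pi * 4 / 3)) = 32 / 3 * Real.pi := by
      field_simp; ring
    rw [this]; linarith
  have hint := lintegral_prodW (2 * δ) K (cube L) (ENNReal.ofReal (L ^ 3)) 64
    (volume_cube hL).le hb N N le_rfl
  have hA : (ENNReal.ofReal (L ^ 3) + 64 * (N : ℝ≥0∞)) = ENNReal.ofReal (L ^ 3 + 64 * N) := by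
    rw [ENNReal.ofReal_add (by positivity) (by positivity), ENNReal.ofReal_mul (by norm_num)]
    simp
  rw [hA] at hint
  have hmeas : MeasurableSet (Set.pi Set.univ (fun _ : Fin N => cube L)) :=
    MeasurableSet.univ_pi (fun _ => measurableSet_cube L)
  have hX : (0 : ℝ) ≤ L ^ 3 + 64 * N := by positivity
  calc Jn (wt φ₀ β) (cube L) N
      ≤ ((Nat.factorial N : ℕ) : ℝ≥0∞)⁻¹ *
        (ENNReal.ofReal (Real.exp (-D)) * (ENNReal.ofReal (L ^ 3 + 64 * N)) ^ N) := by
        unfold Jn
        gcongr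
        calc ∫⁻ x in Set.pi Set.univ (fun _ : Fin N => cube L), wt φ₀ β (conf x)
            ≤ ∫⁻ x in Set.pi Set.univ (fun _ : Fin N => cube L),
                ENNReal.ofReal (Real.exp (-D)) * prodW (2 * δ) K x :=
              setLIntegral_mono' hmeas hpt
          _ = ENNReal.ofReal (Real.exp (-D)) *
                ∫⁻ x in Set.pi Set.univ (fun _ : Fin N => cube L), prodW (2 * δ) K x :=
              lintegral_const_mul _ (measurable_prodW _ _ _)
          _ ≤ _ := by gcongr
    _ = ENNReal.ofReal (Real.exp (-D) * ((L ^ 3 + 64 * N) ^ N / (Nat.factorial N : ℝ))) := by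
        have hfac : (0 : ℝ) < (Nat.factorial N : ℝ) := by exact_mod_cast Nat.factorial_pos N
        rw [ENNReal.ofReal_mul (Real.exp_pos _).le, ENNReal.ofReal_div_of_pos hfac,
          ENNReal.ofReal_pow hX, ENNReal.ofReal_natCast, ENNReal.div_eq_inv_mul]
        ring
    _ ≤ _ := by
        apply ENNReal.ofReal_le_ofReal
        calc Real.exp (-D) * ((L ^ 3 + 64 * N) ^ N / (Nat.factorial N : ℝ))
            ≤ Real.exp (-D) * Real.exp (L ^ 3 + 64 * N) := by
              gcongr
              exact Real.pow_div_factorial_le_exp _ hX N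
          _ = Real.exp (L ^ 3 + 64 * N - Λ * max 0 ((N : ℝ) - packingNumber L) -
                (β * c - Λ) * max 0 ((N : ℝ) - m * packingNumber L)) := by
              rw [← Real.exp_add]; congr 1; rw [hD]; ring

end Crest.Agent.R149
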