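import Crest.Agent.R149.Defs

/-!
PIECE A1a (algebraic facts on configurations and grid cells).

Owner: replace the `sorry`s.  All statements are elementary.
-/

set_option autoImplicit false

namespace Crest.Agent.R149

open MeasureTheory Crest.ProbabilityR.Continuum
open scoped ENNReal BigOperators

theorem card_conf {ι : Type} [Fintype ι] (x : ι → Pt) :
    Multiset.card (conf x) = Fintype.card ι := by
  simp [conf]

theorem exists_conf (s : Multiset Pt) : ∃ x : Fin (Multiset.card s) → Pt, conf x = s := by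
  induction s using Quotient.inductionOn with
  | h l =>
    refine ⟨fun i => l.get i, ?_⟩
    have h1 : (Finset.univ : Finset (Fin l.length)).val = (List.finRange l.length : Multiset _) := rfl
    show Multiset.map (fun i => l.get i) (Finset.univ : Finset (Fin l.length)).val = (l : Multiset Pt)
    rw [h1, Multiset.map_coe]
    congr 1
    exact List.map_get_finRange l

theorem conf_comp_equiv {ι κ : Type} [Fintype ι] [Fintype κ] (e : ι ≃ κ) (x : κ → Pt) :
    conf (fun i => x (e i)) = conf x := by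
  unfold conf
  have h : (Finset.univ : Finset κ).val = (Finset.univ : Finset ι).val.map e := by
    have := congrArg Finset.val (Finset.map_univ_equiv e)
    rw [Finset.map_val] at this
    exact this.symm
  rw [h, Multiset.map_map]
  rfl

theorem dbl_conf {ι : Type} [Fintype ι] (f : ℝ → ℝ) (x : ι → Pt) :
    dbl f (conf x) = ∑ i, ∑ j, f (dist (x i) (x j)) := by
  simp only [dbl, conf, Multiset.map_map]
  rfl

theorem energy_eq_En (φ : ℝ → ℝ) {N : ℕ} (x : Fin N → Pt) : energy φ x = En φ (conf x) := by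
  classical
  unfold En energy
  rw [dbl_conf, card_conf, Fintype.card_fin]
  set F : Fin N → Fin N → ℝ := fun i j => φ (dist (x i) (x j)) with hF
  have hsymm : ∀ i j, F i j = F j i := fun i j => by simp only [hF, dist_comm]
  have hdiag : ∀ i, F i i = φ 0 := fun i => by simp only [hF, dist_self]
  have h1 : ∑ p : {p : Fin N × Fin N // p.1 < p.2}, F p.1.1 p.1.2 =
      ∑ i, ∑ j, if i < j then F i j else 0 := by
    have h5 : ∑ i, ∑ j, (if i < j then F i j else 0) =
        ∑ p : Fin N × Fin N, if p.1 < p.2 then F p.1 p.2 else 0 := by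
      rw [Fintype.sum_prod_type]
    rw [h5, ← Finset.sum_filter]
    symm
    apply Finset.sum_subtype
    intro p
    simp
  have h2 : ∑ i, ∑ j, F i j = ∑ i, ∑ j, (if i < j then F i j else 0) +
      ∑ i, ∑ j, (if j < i then F i j else 0) + ∑ i, F i i := by
    rw [← Finset.sum_add_distrib, ← Finset.sum_add_distrib]
    refine Finset.sum_congr rfl fun i _ => ?_
    have h3 : F i i = ∑ j, if i = j then F i j else 0 := by simp
    rw [h3, ← Finset.sum_add_distrib, ← Finset.sum_add_distrib]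
    refine Finset.sum_congr rfl fun j _ => ?_
    rcases lt_trichotomy i j with h | h | h
    · simp [h, h.ne, not_lt.mpr h.le]
    · simp [h]
    · simp [h, h.ne', not_lt.mpr h.le]
  have h3 : ∑ i, ∑ j, (if j < i then F i j else 0) = ∑ i, ∑ j, (if i < j then F i j else 0) := by
    rw [Finset.sum_comm]
    refine Finset.sum_congr rfl fun i _ => Finset.sum_congr rfl fun j _ => ?_
    rw [hsymm j i]
  have h4 : ∑ i, F i i = (N : ℝ) * φ 0 := by simp [hdiag]
  show ∑ p : {p : Fin N × Fin N // p.1 < p.2}, F p.1.1 p.1.2 = _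
  show _ = ((∑ i, ∑ j, F i j) - (N : ℝ) * φ 0) / 2
  rw [h2, h3, h4, h1]
  ring

theorem En_sub (φ ψ : ℝ → ℝ) (s : Multiset Pt) :
    En (fun r => φ r - ψ r) s = En φ s - En ψ s := by
  simp only [En, dbl, Multiset.sum_map_sub]
  ring

theorem En_add (φ ψ : ℝ → ℝ) (s : Multiset Pt) :
    En (fun r => φ r + ψ r) s = En φ s + En ψ s := by
  simp only [En, dbl, Multiset.sum_map_add]
  ring

theorem En_smul (c : ℝ) (φ : ℝ → ℝ) (s : Multiset Pt) :
    En (fun r => c * φ r) s = c * En φ s := by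
  simp only [En, dbl, Multiset.sum_map_mul_left]
  ring

theorem En_nonneg {φ : ℝ → ℝ} (h : ∀ r, 0 ≤ r → 0 ≤ φ r) (s : Multiset Pt) : 0 ≤ En φ s := by
  obtain ⟨x, hx⟩ := exists_conf s
  rw [← hx, ← energy_eq_En]
  exact Finset.sum_nonneg fun p _ => h _ dist_nonneg

theorem En_mono {φ ψ : ℝ → ℝ} (h : ∀ r, 0 ≤ r → φ r ≤ ψ r) (s : Multiset Pt) :
    En φ s ≤ En ψ s := by
  obtain ⟨x, hx⟩ := exists_conf s
  rw [← hx, ← energy_eq_En, ← energy_eq_En]
  exact Finset.sum_le_sum fun p _ => h _ dist_nonneg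

theorem dbl_mono {φ ψ : ℝ → ℝ} (h : ∀ r, 0 ≤ r → φ r ≤ ψ r) (s : Multiset Pt) :
    dbl φ s ≤ dbl ψ s := by
  obtain ⟨x, hx⟩ := exists_conf s
  rw [← hx, dbl_conf, dbl_conf]
  exact Finset.sum_le_sum fun i _ => Finset.sum_le_sum fun j _ => h _ dist_nonneg

theorem dbl_nonneg {φ : ℝ → ℝ} (h : ∀ r, 0 ≤ r → 0 ≤ φ r) (s : Multiset Pt) : 0 ≤ dbl φ s := by
  obtain ⟨x, hx⟩ := exists_conf s
  rw [← hx, dbl_conf]
  exact Finset.sum_nonneg fun i _ => Finset.sum_nonneg fun j _ => h _ dist_nonneg

/-- Translation invariance of the energy. -/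
theorem En_map_add (φ : ℝ → ℝ) (s : Multiset Pt) (v : Pt) :
    En φ (s.map fun a => a + v) = En φ s := by
  simp only [En, dbl, Multiset.map_map, Multiset.card_map, Function.comp_def, dist_add_right]

theorem cut_cons_pos {A : Set Pt} {a : Pt} {s : Multiset Pt} (h : a ∈ A) :
    cut A (a ::ₘ s) = a ::ₘ cut A s := by
  classical
  unfold cut
  exact Multiset.filter_cons_of_pos (p := fun a => a ∈ A) s h

theorem cut_cons_neg {A : Set Pt} {a : Pt} {s : Multiset Pt} (h : a ∉ A) :
    cut A (a ::ₘ s) = cut A s := by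
  classical
  unfold cut
  exact Multiset.filter_cons_of_neg (p := fun a => a ∈ A) s h

/-- fibrewise sums -/
theorem sum_cut {I : Type} [DecidableEq I] (cell : Pt → I) (S : Finset I) (g : Pt → ℝ)
    (s : Multiset Pt) (hs : ∀ a ∈ s, cell a ∈ S) :
    (s.map g).sum = ∑ v ∈ S, ((cut {x | cell x = v} s).map g).sum := by
  classical
  induction s using Multiset.induction_on with
  | empty => simp [cut]
  | cons a s ih =>
    have ih' := ih fun b hb => hs b (Multiset.mem_cons_of_mem hb)
    have ha : cell a ∈ S := hs a (Multiset.mem_cons_self a s)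
    have h1 : ∀ v ∈ S, ((cut {x | cell x = v} (a ::ₘ s)).map g).sum =
        (if cell a = v then g a else 0) + ((cut {x | cell x = v} s).map g).sum := by
      intro v _
      by_cases h : cell a = v
      · rw [cut_cons_pos (A := {x | cell x = v}) h]
        simp [h]
      · rw [cut_cons_neg (A := {x | cell x = v}) h]
        simp [h]
    rw [Finset.sum_congr rfl h1, Finset.sum_add_distrib, ← ih', Multiset.map_cons,
      Multiset.sum_cons, Finset.sum_ite_eq, if_pos ha]

theorem card_cut {I : Type} [DecidableEq I] (cell : Pt → I) (S : Finset I)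
    (s : Multiset Pt) (hs : ∀ a ∈ s, cell a ∈ S) :
    (Multiset.card s : ℝ) = ∑ v ∈ S, (Multiset.card (cut {x | cell x = v} s) : ℝ) := by
  have := sum_cut cell S (fun _ => (1:ℝ)) s hs
  simpa using this

theorem mem_cut {A : Set Pt} {s : Multiset Pt} {a : Pt} : a ∈ cut A s ↔ a ∈ s ∧ a ∈ A := by
  classical
  unfold cut
  exact Multiset.mem_filter

theorem cut_add_cut (A B : Set Pt) (hAB : ∀ a, a ∈ B ↔ a ∉ A) (s : Multiset Pt) :
    cut A s + cut B s = s := by
  classical
  unfold cut
  have : (Multiset.filter (fun a => a ∈ B) s) = Multiset.filter (fun a => ¬ (a ∈ A)) s :=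
    Multiset.filter_congr fun a _ => hAB a
  rw [this]
  exact Multiset.filter_add_not _ _

/-- Splitting of the double sum along the classes of a function `cell`: pairs in the same class,
and pairs in different classes. -/
theorem dbl_split {I : Type} [DecidableEq I] (cell : Pt → I) (S : Finset I) (f : ℝ → ℝ)
    (s : Multiset Pt) (hs : ∀ a ∈ s, cell a ∈ S) :
    dbl f s = ∑ v ∈ S, dbl f (cut {x | cell x = v} s) +
      (s.map fun a => ((cut {x | cell x ≠ cell a} s).map fun b => f (dist a b)).sum).sum := by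
  have h1 : ∀ a, (s.map fun b => f (dist a b)).sum =
      ((cut {x | cell x = cell a} s).map fun b => f (dist a b)).sum +
      ((cut {x | cell x ≠ cell a} s).map fun b => f (dist a b)).sum := by
    intro a
    rw [← Multiset.sum_add, ← Multiset.map_add, cut_add_cut]
    intro b; rfl
  unfold dbl
  simp only [h1, Multiset.sum_map_add]
  congr 1
  rw [sum_cut cell S _ s hs]
  refine Finset.sum_congr rfl fun v _ => ?_
  congr 1
  refine Multiset.map_congr rfl fun a ha => ?_
  have hav : cell a = v := (mem_cut.mp ha).2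
  rw [hav]

/-- The energy is at least the sum of the block energies if the cross terms are nonnegative. -/
theorem sum_En_le_En {I : Type} [DecidableEq I] (cell : Pt → I) (S : Finset I) (f : ℝ → ℝ)
    (s : Multiset Pt) (hs : ∀ a ∈ s, cell a ∈ S)
    (hf : ∀ a ∈ s, ∀ b ∈ s, cell a ≠ cell b → 0 ≤ f (dist a b)) :
    ∑ v ∈ S, En f (cut {x | cell x = v} s) ≤ En f s := by
  have hcross : 0 ≤ (s.map fun a => ((cut {x | cell x ≠ cell a} s).map fun b => f (dist a b)).sum).sum := by
    apply Multiset.sum_nonneg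
    intro y hy
    obtain ⟨a, ha, rfl⟩ := Multiset.mem_map.mp hy
    apply Multiset.sum_nonneg
    intro z hz
    obtain ⟨b, hb, rfl⟩ := Multiset.mem_map.mp hz
    obtain ⟨hb1, hb2⟩ := mem_cut.mp hb
    exact hf a ha b hb1 (fun h => hb2 h.symm)
  unfold En
  rw [dbl_split cell S f s hs, card_cut cell S s hs, ← Finset.sum_div, Finset.sum_sub_distrib,
    Finset.sum_mul]
  linarith

/-- The energy is at most the sum of the block energies if the cross terms are nonpositive. -/
theorem En_le_sum_En {I : Type} [DecidableEq I] (cell : Pt → I) (S : Finset I) (f : ℝ → ℝ)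
    (s : Multiset Pt) (hs : ∀ a ∈ s, cell a ∈ S)
    (hf : ∀ a ∈ s, ∀ b ∈ s, cell a ≠ cell b → f (dist a b) ≤ 0) :
    En f s ≤ ∑ v ∈ S, En f (cut {x | cell x = v} s) := by
  have h := sum_En_le_En cell S (fun r => (-1) * f r) s hs (fun a ha b hb hab => by
    have := hf a ha b hb hab
    show 0 ≤ (-1) * f (dist a b)
    linarith)
  simp only [En_smul] at h
  rw [← Finset.mul_sum] at h
  linarith

/-- `sqCnt` is the sum of the squares of the occupation numbers. -/
theorem sqCnt_eq (t ℓ : ℝ) (s : Multiset Pt) (S : Finset (Fin 3 → ℤ))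
    (hs : ∀ a ∈ s, cellIdx t ℓ a ∈ S) :
    sqCnt t ℓ s = ∑ v ∈ S, (cnt t ℓ s v : ℝ) ^ 2 := by
  unfold sqCnt
  rw [sum_cut (cellIdx t ℓ) S _ s hs]
  refine Finset.sum_congr rfl fun v _ => ?_
  have h1 : (cut {x | cellIdx t ℓ x = v} s).map (fun a => (cnt t ℓ s (cellIdx t ℓ a) : ℝ)) =
      (cut {x | cellIdx t ℓ x = v} s).map (fun _ => (cnt t ℓ s v : ℝ)) := by
    refine Multiset.map_congr rfl fun a ha => ?_
    have hav : cellIdx t ℓ a = v := (mem_cut.mp ha).2
    rw [hav]
  rw [h1, Multiset.map_const', Multiset.sum_replicate, nsmul_eq_mul, sq]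
  rfl

/-- Cauchy-Schwarz: `(card s)² ≤ |S| · Σ N_Q²`. -/
theorem card_sq_le_sqCnt (t ℓ : ℝ) (s : Multiset Pt) (S : Finset (Fin 3 → ℤ))
    (hs : ∀ a ∈ s, cellIdx t ℓ a ∈ S) :
    (Multiset.card s : ℝ) ^ 2 ≤ S.card * sqCnt t ℓ s := by
  rw [sqCnt_eq t ℓ s S hs, card_cut (cellIdx t ℓ) S s hs]
  exact sq_sum_le_card_mul_sum_sq

/-- the cells meeting the cube `[0,L]^3` with a shift `0 ≤ t < ℓ` -/
theorem cellIdx_mem {t ℓ L : ℝ} (hℓ : 0 < ℓ) (ht : 0 ≤ t) (htℓ : t < ℓ) {x : Pt}
    (hx : x ∈ cube L) :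
    cellIdx t ℓ x ∈ Fintype.piFinset (fun _ : Fin 3 => Finset.Icc (0 : ℤ) (⌊L / ℓ⌋₊ + 1)) := by
  rw [Fintype.mem_piFinset]
  intro k
  rw [Finset.mem_Icc]
  obtain ⟨h0, h1⟩ := hx k
  unfold cellIdx
  constructor
  · apply Int.floor_nonneg.mpr
    positivity
  · have h2 : (x k + t) / ℓ < ((⌊L / ℓ⌋₊ : ℤ) + 1 + 1 : ℤ) := by
      have h3 : L / ℓ < ⌊L / ℓ⌋₊ + 1 := Nat.lt_floor_add_one _
      have h4 : (x k + t) / ℓ ≤ L / ℓ + 1 := by
        rw [div_add_one hℓ.ne']
        gcongr
      push_cast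
      linarith
    have h3 := Int.floor_lt.mpr h2
    linarith

theorem card_cells (K : ℕ) :
    (Fintype.piFinset (fun _ : Fin 3 => Finset.Icc (0 : ℤ) (K + 1))).card = (K + 2) ^ 3 := by
  rw [Fintype.card_piFinset_const, Int.card_Icc]
  simp
  congr 1

end Crest.Agent.R149
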