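import Crest.Agent.R149.BasicM

/-!
PIECE A2 (decomposition of configuration integrals over disjoint blocks).

Proof of `Jn_two`: `(A ∪ B)^N` is the disjoint union over `S ⊆ Fin N` of
`{x | ∀ i ∈ S, x i ∈ A, ∀ i ∉ S, x i ∈ B}`; on that piece `cut A (conf x) = conf (x|_S)`,
`cut B (conf x) = conf (x|_{Sᶜ})`; use `MeasurableEquiv.piEquivPiSubtypeProd` (volume preserving)
and `lintegral_prod_mul`, then transport `S → Pt` to `Fin |S| → Pt`
(`volume_preserving_piCongrLeft` or `measurePreserving_piCongrLeft`); finally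
`Finset.sum_powerset_apply_card`.
`Jn_blocks`: induction on the finset of blocks, using `MeasW_cut`, `MeasW_prod`.
-/

set_option autoImplicit false

namespace Crest.Agent.R149

open MeasureTheory Crest.ProbabilityR.Continuum
open scoped ENNReal BigOperators

/-! ### auxiliary lemmas -/

theorem cf_measurable_conf {W : Multiset Pt → ℝ≥0∞} (hW : MeasW W) {ι : Type} [Fintype ι] :
    Measurable (fun x : ι → Pt => W (conf x)) := by
  have e : Fin (Fintype.card ι) ≃ ι := (Fintype.equivFin ι).symm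
  have h : (fun x : ι → Pt => W (conf x)) =
      (fun y : Fin (Fintype.card ι) → Pt => W (conf y)) ∘ (fun x : ι → Pt => fun i => x (e i)) := by
    funext x
    simp only [Function.comp]
    rw [conf_comp_equiv e x]
  rw [h]
  exact (hW _).comp (measurable_pi_lambda _ fun i => measurable_pi_apply _)

theorem cf_lintegral_reindex (W : Multiset Pt → ℝ≥0∞) {A : Set Pt} {ι : Type} [Fintype ι] :
    ∫⁻ x in Set.pi Set.univ (fun _ : ι => A), W (conf x) =
      ((Nat.factorial (Fintype.card ι) : ℕ) : ℝ≥0∞) * Jn W A (Fintype.card ι) := by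
  unfold Jn
  rw [← mul_assoc, ENNReal.mul_inv_cancel (by exact_mod_cast (Nat.factorial_pos _).ne')
    (ENNReal.natCast_ne_top _), one_mul]
  set e : Fin (Fintype.card ι) ≃ ι := (Fintype.equivFin ι).symm with he
  have hmp := volume_measurePreserving_piCongrLeft (fun _ : ι => Pt) e
  rw [← hmp.setLIntegral_comp_preimage_emb (MeasurableEquiv.measurableEmbedding _)]
  have hset : (MeasurableEquiv.piCongrLeft (fun _ : ι => Pt) e) ⁻¹'
      (Set.pi Set.univ (fun _ : ι => A)) = Set.pi Set.univ (fun _ => A) := by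
    ext y
    simp only [Set.mem_preimage, Set.mem_pi, Set.mem_univ, true_implies]
    constructor
    · intro h i
      have := h (e i)
      rwa [MeasurableEquiv.coe_piCongrLeft, Equiv.piCongrLeft_apply_apply] at this
    · intro h i
      obtain ⟨j, rfl⟩ := e.surjective i
      rw [MeasurableEquiv.coe_piCongrLeft, Equiv.piCongrLeft_apply_apply]
      exact h j
  rw [hset]
  refine lintegral_congr fun y => ?_
  congr 1
  rw [← conf_comp_equiv e]
  congr 1
  funext i
  rw [MeasurableEquiv.coe_piCongrLeft, Equiv.piCongrLeft_apply_apply]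

theorem cf_cut_conf_subset {ι : Type} [Fintype ι] {A : Set Pt} (S : Finset ι) (x : ι → Pt)
    (h : ∀ i, x i ∈ A ↔ i ∈ S) : cut A (conf x) = conf (fun i : {i // i ∈ S} => x i) := by
  classical
  unfold cut conf
  rw [Multiset.filter_map]
  have h1 : (Finset.univ : Finset ι).val.filter ((fun a => a ∈ A) ∘ x) = S.val := by
    have : (Finset.univ.filter fun i => x i ∈ A) = S := by
      ext i; simp [h]
    rw [← this]
    rfl
  rw [h1]
  have h2 : S.val = (Finset.univ : Finset {i // i ∈ S}).val.map Subtype.val := by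
    have := Finset.attach_map_val (s := S)
    conv_lhs => rw [← this]
    rfl
  conv_lhs => rw [h2]
  rw [Multiset.map_map]
  rfl

theorem cf_cut_conf_compl {ι : Type} [Fintype ι] [DecidableEq ι] {A : Set Pt} (S : Finset ι)
    (x : ι → Pt) (h : ∀ i, x i ∈ A ↔ i ∉ S) :
    cut A (conf x) = conf (fun i : {i // ¬ i ∈ S} => x i) := by
  rw [cf_cut_conf_subset (Sᶜ) x (fun i => by rw [h, Finset.mem_compl])]
  exact @conf_comp_equiv _ _ (Finset.Subtype.fintype Sᶜ) _
    (Equiv.subtypeEquivRight fun i => Finset.mem_compl) fun i : {i // ¬ i ∈ S} => x i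

theorem cf_lintegral_reindexP (W : Multiset Pt → ℝ≥0∞) {A : Set Pt} {ι : Type} (hι : Fintype ι)
    (n : ℕ) (hn : Fintype.card ι = n) :
    ∫⁻ x, W (conf x) ∂((volume : Measure (ι → Pt)).restrict (Set.pi Set.univ (fun _ : ι => A))) =
      ((Nat.factorial n : ℕ) : ℝ≥0∞) * Jn W A n := by
  subst hn
  exact cf_lintegral_reindex W

theorem cf_Jn_two_piece {W₁ W₂ : Multiset Pt → ℝ≥0∞} (h₁ : MeasW W₁) (h₂ : MeasW W₂) {A B : Set Pt}
    (hA : MeasurableSet A) (hB : MeasurableSet B) (hAB : Disjoint A B) {N : ℕ}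
    (S : Finset (Fin N)) :
    ∫⁻ x in Set.pi Set.univ (fun i : Fin N => if i ∈ S then A else B),
      W₁ (cut A (conf x)) * W₂ (cut B (conf x)) =
      (((Nat.factorial S.card : ℕ) : ℝ≥0∞) * Jn W₁ A S.card) *
        (((Nat.factorial (N - S.card) : ℕ) : ℝ≥0∞) * Jn W₂ B (N - S.card)) := by
  classical
  have hmp := volume_preserving_piEquivPiSubtypeProd (fun _ : Fin N => Pt) (fun i => i ∈ S)
  set T : Set (({i // i ∈ S} → Pt) × ({i // ¬ i ∈ S} → Pt)) :=
    (Set.pi Set.univ (fun _ => A)) ×ˢ (Set.pi Set.univ (fun _ => B)) with hT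
  have hpre : (MeasurableEquiv.piEquivPiSubtypeProd (fun _ : Fin N => Pt) (fun i => i ∈ S)) ⁻¹' T =
      Set.pi Set.univ (fun i : Fin N => if i ∈ S then A else B) := by
    ext x
    simp only [hT, Set.mem_preimage, Set.mem_prod, Set.mem_pi, Set.mem_univ, true_implies]
    constructor
    · rintro ⟨h1, h2⟩ i
      by_cases hi : i ∈ S
      · rw [if_pos hi]; exact h1 ⟨i, hi⟩
      · rw [if_neg hi]; exact h2 ⟨i, hi⟩
    · intro h
      refine ⟨fun i => ?_, fun i => ?_⟩
      · have := h i.1; rw [if_pos i.2] at this; exact this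
      · have := h i.1; rw [if_neg i.2] at this; exact this
  have hTm : MeasurableSet T :=
    (MeasurableSet.univ_pi fun _ => hA).prod (MeasurableSet.univ_pi fun _ => hB)
  have hPm : MeasurableSet (Set.pi Set.univ (fun i : Fin N => if i ∈ S then A else B)) := by
    refine MeasurableSet.univ_pi fun i => ?_
    split_ifs
    · exact hA
    · exact hB
  have hcongr : ∫⁻ x in Set.pi Set.univ (fun i : Fin N => if i ∈ S then A else B),
      W₁ (cut A (conf x)) * W₂ (cut B (conf x)) =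
      ∫⁻ x in Set.pi Set.univ (fun i : Fin N => if i ∈ S then A else B),
        (fun q : ({i // i ∈ S} → Pt) × ({i // ¬ i ∈ S} → Pt) => W₁ (conf q.1) * W₂ (conf q.2))
          (MeasurableEquiv.piEquivPiSubtypeProd (fun _ : Fin N => Pt) (fun i => i ∈ S) x) := by
    refine setLIntegral_congr_fun hPm ?_
    intro x hx
    simp only [Set.mem_pi, Set.mem_univ, true_implies] at hx
    have hd := Set.disjoint_left.1 hAB
    have hxA : ∀ i, x i ∈ A ↔ i ∈ S := by
      intro i
      have := hx i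
      by_cases hi : i ∈ S
      · rw [if_pos hi] at this; exact ⟨fun _ => hi, fun _ => this⟩
      · rw [if_neg hi] at this
        exact ⟨fun h => absurd this (hd h), fun h => absurd h hi⟩
    have hxB : ∀ i, x i ∈ B ↔ i ∉ S := by
      intro i
      have := hx i
      by_cases hi : i ∈ S
      · rw [if_pos hi] at this
        exact ⟨fun h => absurd h (hd this), fun h => absurd hi h⟩
      · rw [if_neg hi] at this; exact ⟨fun _ => hi, fun _ => this⟩
    show W₁ (cut A (conf x)) * W₂ (cut B (conf x)) = _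
    rw [cf_cut_conf_subset S x hxA, cf_cut_conf_compl S x hxB]
    rfl
  rw [hcongr, ← hpre]
  rw [hmp.setLIntegral_comp_preimage_emb (MeasurableEquiv.measurableEmbedding _)
    (fun q : ({i // i ∈ S} → Pt) × ({i // ¬ i ∈ S} → Pt) => W₁ (conf q.1) * W₂ (conf q.2)) T]
  rw [hT, Measure.volume_eq_prod, ← Measure.prod_restrict]
  rw [lintegral_prod_mul (cf_measurable_conf h₁).aemeasurable
    (cf_measurable_conf h₂).aemeasurable]
  have c1 : Fintype.card {i // i ∈ S} = S.card := Fintype.card_coe S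
  have c2 : Fintype.card {i // ¬ i ∈ S} = N - S.card := by
    rw [Fintype.card_subtype_compl, Fintype.card_fin, Fintype.card_coe]
  congr 1
  · have hinst : (Subtype.fintype fun i => i ∈ S) = Finset.Subtype.fintype S :=
      Subsingleton.elim _ _
    rw [hinst]
    exact cf_lintegral_reindexP W₁ (A := A) (ι := {i // i ∈ S}) (Finset.Subtype.fintype S) S.card c1
  · exact cf_lintegral_reindexP W₂ (A := B) (ι := {i // ¬ i ∈ S}) inferInstance (N - S.card) c2

theorem Jn_two {W₁ W₂ : Multiset Pt → ℝ≥0∞} (h₁ : MeasW W₁) (h₂ : MeasW W₂) {A B : Set Pt}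
    (hA : MeasurableSet A) (hB : MeasurableSet B) (hAB : Disjoint A B) (N : ℕ) :
    Jn (fun s => W₁ (cut A s) * W₂ (cut B s)) (A ∪ B) N =
      ∑ p ∈ Finset.HasAntidiagonal.antidiagonal N, Jn W₁ A p.1 * Jn W₂ B p.2 := by
  classical
  have hd := Set.disjoint_left.1 hAB
  have hunion : Set.pi Set.univ (fun _ : Fin N => A ∪ B) =
      ⋃ S ∈ (Finset.univ : Finset (Finset (Fin N))),
        Set.pi Set.univ (fun i : Fin N => if i ∈ S then A else B) := by
    ext x
    simp only [Set.mem_pi, Set.mem_univ, true_implies, Finset.mem_univ, Set.iUnion_true,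
      Set.mem_iUnion]
    constructor
    · intro h
      refine ⟨Finset.univ.filter fun i => x i ∈ A, fun i => ?_⟩
      by_cases hi : x i ∈ A
      · rw [if_pos (by simp [hi])]; exact hi
      · rw [if_neg (by simp [hi])]; exact (h i).resolve_left hi
    · rintro ⟨S, hS⟩ i
      have := hS i
      by_cases hi : i ∈ S
      · rw [if_pos hi] at this; exact Or.inl this
      · rw [if_neg hi] at this; exact Or.inr this
  have hdis : Set.PairwiseDisjoint ((Finset.univ : Finset (Finset (Fin N))) : Set (Finset (Fin N)))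
      (fun S => Set.pi Set.univ (fun i : Fin N => if i ∈ S then A else B)) := by
    intro S _ T _ hST
    rw [Function.onFun, Set.disjoint_left]
    intro x hxS hxT
    apply hST
    ext i
    have h1 := hxS i (Set.mem_univ _)
    have h2 := hxT i (Set.mem_univ _)
    by_cases hi : i ∈ S
    · by_cases hi' : i ∈ T
      · simp [hi, hi']
      · simp only [hi, hi', if_true, if_false] at h1 h2
        exact absurd h2 (hd h1)
    · by_cases hi' : i ∈ T
      · simp only [hi, hi', if_true, if_false] at h1 h2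
        exact absurd h1 (hd h2)
      · simp [hi, hi']
  have hmeas : ∀ S ∈ (Finset.univ : Finset (Finset (Fin N))),
      MeasurableSet (Set.pi Set.univ (fun i : Fin N => if i ∈ S then A else B)) := by
    intro S _
    refine MeasurableSet.univ_pi fun i => ?_
    split_ifs
    · exact hA
    · exact hB
  have hsum : ∫⁻ x in Set.pi Set.univ (fun _ : Fin N => A ∪ B),
      W₁ (cut A (conf x)) * W₂ (cut B (conf x)) =
      ∑ S : Finset (Fin N), (((Nat.factorial S.card : ℕ) : ℝ≥0∞) * Jn W₁ A S.card) *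
        (((Nat.factorial (N - S.card) : ℕ) : ℝ≥0∞) * Jn W₂ B (N - S.card)) := by
    rw [hunion, lintegral_biUnion_finset hdis hmeas]
    exact Finset.sum_congr rfl fun S _ => cf_Jn_two_piece h₁ h₂ hA hB hAB S
  have hps : ∑ S : Finset (Fin N), (((Nat.factorial S.card : ℕ) : ℝ≥0∞) * Jn W₁ A S.card) *
        (((Nat.factorial (N - S.card) : ℕ) : ℝ≥0∞) * Jn W₂ B (N - S.card)) =
      ∑ m ∈ Finset.range (N + 1), (N.choose m) • ((((Nat.factorial m : ℕ) : ℝ≥0∞) * Jn W₁ A m) *
        (((Nat.factorial (N - m) : ℕ) : ℝ≥0∞) * Jn W₂ B (N - m))) := by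
    have := Finset.sum_powerset_apply_card (fun m => (((Nat.factorial m : ℕ) : ℝ≥0∞) * Jn W₁ A m) *
        (((Nat.factorial (N - m) : ℕ) : ℝ≥0∞) * Jn W₂ B (N - m))) (x := (Finset.univ : Finset (Fin N)))
    rw [Finset.powerset_univ, Finset.card_univ, Fintype.card_fin] at this
    exact this
  show ((Nat.factorial N : ℕ) : ℝ≥0∞)⁻¹ * ∫⁻ x in Set.pi Set.univ (fun _ : Fin N => A ∪ B),
      W₁ (cut A (conf x)) * W₂ (cut B (conf x)) = _
  rw [hsum, hps, Finset.mul_sum, Finset.Nat.sum_antidiagonal_eq_sum_range_succ_mk]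
  refine Finset.sum_congr rfl fun m hm => ?_
  have hm' : m ≤ N := Nat.lt_succ_iff.1 (Finset.mem_range.1 hm)
  have hfac : ((Nat.factorial N : ℕ) : ℝ≥0∞)⁻¹ *
      (((N.choose m : ℕ) : ℝ≥0∞) * (((Nat.factorial m : ℕ) : ℝ≥0∞) *
        ((Nat.factorial (N - m) : ℕ) : ℝ≥0∞))) = 1 := by
    have h : N.choose m * (m.factorial * (N - m).factorial) = N.factorial := by
      rw [← mul_assoc]; exact Nat.choose_mul_factorial_mul_factorial hm'
    have h' : ((N.choose m : ℕ) : ℝ≥0∞) * (((Nat.factorial m : ℕ) : ℝ≥0∞) *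
        ((Nat.factorial (N - m) : ℕ) : ℝ≥0∞)) = ((Nat.factorial N : ℕ) : ℝ≥0∞) := by
      rw [← h]; push_cast; ring
    rw [h']
    exact ENNReal.inv_mul_cancel (by exact_mod_cast (Nat.factorial_pos _).ne')
      (ENNReal.natCast_ne_top _)
  calc ((Nat.factorial N : ℕ) : ℝ≥0∞)⁻¹ * (N.choose m • ((((Nat.factorial m : ℕ) : ℝ≥0∞) *
          Jn W₁ A m) * (((Nat.factorial (N - m) : ℕ) : ℝ≥0∞) * Jn W₂ B (N - m))))
      = (((Nat.factorial N : ℕ) : ℝ≥0∞)⁻¹ *
      (((N.choose m : ℕ) : ℝ≥0∞) * (((Nat.factorial m : ℕ) : ℝ≥0∞) *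
        ((Nat.factorial (N - m) : ℕ) : ℝ≥0∞)))) * (Jn W₁ A m * Jn W₂ B (N - m)) := by
        rw [nsmul_eq_mul]; ring
    _ = Jn W₁ A m * Jn W₂ B (N - m) := by rw [hfac, one_mul]

theorem cf_cut_cut_of_subset {A B : Set Pt} (h : A ⊆ B) (s : Multiset Pt) :
    cut A (cut B s) = cut A s := by
  classical
  unfold cut
  rw [Multiset.filter_filter]
  refine Multiset.filter_congr fun a _ => ?_
  exact ⟨fun h' => h'.1, fun h' => ⟨h', h h'⟩⟩

theorem cf_cut_empty (s : Multiset Pt) : cut ∅ s = 0 := by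
  classical
  unfold cut
  simp

theorem cf_Jn_empty (W : Multiset Pt → ℝ≥0∞) (N : ℕ) : Jn W ∅ N = if N = 0 then W 0 else 0 := by
  split_ifs with h
  · subst h
    exact Jn_zero W ∅
  · unfold Jn
    have : Set.pi Set.univ (fun _ : Fin N => (∅ : Set Pt)) = ∅ := by
      obtain ⟨n, rfl⟩ := Nat.exists_eq_succ_of_ne_zero h
      rw [Set.univ_pi_eq_empty_iff]
      exact ⟨0, rfl⟩
    rw [this]
    simp

theorem Jn_blocks {I : Type} [DecidableEq I] (S : Finset I) (Q : I → Set Pt)
    (hQ : ∀ v ∈ S, MeasurableSet (Q v)) (hdisj : ∀ v ∈ S, ∀ u ∈ S, v ≠ u → Disjoint (Q v) (Q u))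
    (w : I → Multiset Pt → ℝ≥0∞) (hw : ∀ v ∈ S, MeasW (w v)) (N : ℕ) :
    Jn (fun s => ∏ v ∈ S, w v (cut (Q v) s)) (⋃ v ∈ S, Q v) N =
      PowerSeries.coeff N (∏ v ∈ S, PowerSeries.mk fun n => Jn (w v) (Q v) n) := by
  induction S using Finset.induction_on generalizing N with
  | empty =>
    simp only [Finset.prod_empty, Finset.notMem_empty, Set.iUnion_of_empty, Set.iUnion_empty]
    rw [cf_Jn_empty, PowerSeries.coeff_one]
  | insert v S hv ih =>
    have hQ' : ∀ u ∈ S, MeasurableSet (Q u) := fun u hu => hQ u (Finset.mem_insert_of_mem hu)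
    have hw' : ∀ u ∈ S, MeasW (w u) := fun u hu => hw u (Finset.mem_insert_of_mem hu)
    have ih' := fun N => ih hQ' (fun a ha b hb => hdisj a (Finset.mem_insert_of_mem ha) b
      (Finset.mem_insert_of_mem hb)) hw' N
    have hU : (⋃ u ∈ insert v S, Q u) = Q v ∪ ⋃ u ∈ S, Q u := by
      rw [Finset.set_biUnion_insert]
    have hUm : MeasurableSet (⋃ u ∈ S, Q u) := Finset.measurableSet_biUnion S hQ'
    have hdU : Disjoint (Q v) (⋃ u ∈ S, Q u) := by
      rw [Set.disjoint_iUnion₂_right]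
      intro u hu
      refine hdisj v (Finset.mem_insert_self _ _) u (Finset.mem_insert_of_mem hu) ?_
      rintro rfl
      exact hv hu
    have hfun : (fun s : Multiset Pt => ∏ u ∈ insert v S, w u (cut (Q u) s)) =
        fun s => w v (cut (Q v) s) *
          (fun s' => ∏ u ∈ S, w u (cut (Q u) s')) (cut (⋃ u ∈ S, Q u) s) := by
      funext s
      rw [Finset.prod_insert hv]
      congr 1
      refine Finset.prod_congr rfl fun u hu => ?_
      have hsub : Q u ⊆ ⋃ u ∈ S, Q u := fun a ha => Set.mem_iUnion₂.2 ⟨u, hu, ha⟩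
      show w u (cut (Q u) s) = w u (cut (Q u) (cut (⋃ u ∈ S, Q u) s))
      rw [cf_cut_cut_of_subset hsub]
    rw [hfun, hU, Jn_two (hw v (Finset.mem_insert_self _ _))
      (MeasW_prod S (fun u s => w u (cut (Q u) s)) fun u hu => MeasW_cut (hw' u hu) (hQ' u hu))
      (hQ v (Finset.mem_insert_self _ _)) hUm hdU, Finset.prod_insert hv, PowerSeries.coeff_mul]
    refine Finset.sum_congr rfl fun p _ => ?_
    rw [PowerSeries.coeff_mk, ih']

/-- evaluation of power series with nonnegative coefficients is multiplicative -/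
theorem cf_tsum_coeff_mul (z : ℝ≥0∞) (f g : PowerSeries ℝ≥0∞) :
    ∑' n : ℕ, z ^ n * PowerSeries.coeff n (f * g) =
      (∑' n : ℕ, z ^ n * PowerSeries.coeff n f) * ∑' n : ℕ, z ^ n * PowerSeries.coeff n g := by
  have h1 : ∀ n : ℕ, z ^ n * PowerSeries.coeff n (f * g) =
      ∑' p : Finset.HasAntidiagonal.antidiagonal n,
        (z ^ (p : ℕ × ℕ).1 * PowerSeries.coeff (p : ℕ × ℕ).1 f) *
          (z ^ (p : ℕ × ℕ).2 * PowerSeries.coeff (p : ℕ × ℕ).2 g) := by
    intro n
    rw [PowerSeries.coeff_mul, Finset.mul_sum, tsum_fintype,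
      ← Finset.sum_coe_sort (Finset.HasAntidiagonal.antidiagonal n)]
    refine Finset.sum_congr rfl fun p _ => ?_
    have hp : (p : ℕ × ℕ).1 + (p : ℕ × ℕ).2 = n := Finset.HasAntidiagonal.mem_antidiagonal.1 p.2
    have hz : z ^ n = z ^ (p : ℕ × ℕ).1 * z ^ (p : ℕ × ℕ).2 := by rw [← pow_add, hp]
    rw [hz]
    ring
  simp_rw [h1]
  rw [← ENNReal.tsum_sigma' (f := fun x : Σ n : ℕ, Finset.HasAntidiagonal.antidiagonal n =>
    (z ^ (x.2 : ℕ × ℕ).1 * PowerSeries.coeff (x.2 : ℕ × ℕ).1 f) *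
          (z ^ (x.2 : ℕ × ℕ).2 * PowerSeries.coeff (x.2 : ℕ × ℕ).2 g))]
  have h2 := Finset.HasAntidiagonal.sigmaAntidiagonalEquivProd.tsum_eq
    (fun p : ℕ × ℕ => (z ^ p.1 * PowerSeries.coeff p.1 f) * (z ^ p.2 * PowerSeries.coeff p.2 g))
  refine Eq.trans h2 ?_
  rw [ENNReal.tsum_prod', ← ENNReal.tsum_mul_right]
  refine tsum_congr fun i => ?_
  rw [← ENNReal.tsum_mul_left]

/-- Upper bound by blocks, with a fugacity `z`. -/
theorem Jn_le_blocks {I : Type} [DecidableEq I] (S : Finset I) (Q : I → Set Pt)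
    (hQ : ∀ v ∈ S, MeasurableSet (Q v)) (hdisj : ∀ v ∈ S, ∀ u ∈ S, v ≠ u → Disjoint (Q v) (Q u))
    (w : I → Multiset Pt → ℝ≥0∞) (hw : ∀ v ∈ S, MeasW (w v))
    (W : Multiset Pt → ℝ≥0∞) (A : Set Pt) (hAm : MeasurableSet A) (hA : A ⊆ ⋃ v ∈ S, Q v) (N : ℕ)
    (hW : ∀ s : Multiset Pt, (∀ a ∈ s, a ∈ A) → W s ≤ ∏ v ∈ S, w v (cut (Q v) s)) (z : ℝ≥0∞) :
    z ^ N * Jn W A N ≤ ∏ v ∈ S, ∑' n : ℕ, z ^ n * Jn (w v) (Q v) n := by
  have h1 : Jn W A N ≤ PowerSeries.coeff N (∏ v ∈ S, PowerSeries.mk fun n => Jn (w v) (Q v) n) := by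
    rw [← Jn_blocks S Q hQ hdisj w hw]
    exact Jn_mono hA hAm N fun s hs _ => hW s hs
  have h2 : ∑' n : ℕ, z ^ n * PowerSeries.coeff n
      (∏ v ∈ S, PowerSeries.mk fun n => Jn (w v) (Q v) n) =
      ∏ v ∈ S, ∑' n : ℕ, z ^ n * Jn (w v) (Q v) n := by
    clear h1 hW hA hw hdisj hQ
    induction S using Finset.induction_on with
    | empty =>
      simp only [Finset.prod_empty]
      rw [tsum_eq_single 0]
      · simp
      · intro n hn
        rw [PowerSeries.coeff_one, if_neg hn, mul_zero]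
    | insert v S hv ih =>
      rw [Finset.prod_insert hv, Finset.prod_insert hv, cf_tsum_coeff_mul, ih]
      simp only [PowerSeries.coeff_mk]
  rw [← h2]
  refine le_trans ?_ (ENNReal.le_tsum N)
  gcongr

/-- Lower bound by blocks with prescribed numbers of particles. -/
theorem blocks_le_Jn {I : Type} [DecidableEq I] (S : Finset I) (Q : I → Set Pt)
    (hQ : ∀ v ∈ S, MeasurableSet (Q v)) (hdisj : ∀ v ∈ S, ∀ u ∈ S, v ≠ u → Disjoint (Q v) (Q u))
    (w : I → Multiset Pt → ℝ≥0∞) (hw : ∀ v ∈ S, MeasW (w v))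
    (W : Multiset Pt → ℝ≥0∞) (A : Set Pt) (hAm : MeasurableSet A) (hA : ∀ v ∈ S, Q v ⊆ A)
    (n : I → ℕ)
    (hW : ∀ s : Multiset Pt, (∀ a ∈ s, ∃ v ∈ S, a ∈ Q v) →
      (∀ v ∈ S, Multiset.card (cut (Q v) s) = n v) → ∏ v ∈ S, w v (cut (Q v) s) ≤ W s) :
    ∏ v ∈ S, Jn (w v) (Q v) (n v) ≤ Jn W A (∑ v ∈ S, n v) := by
  classical
  set w' : I → Multiset Pt → ℝ≥0∞ := fun v s => (if Multiset.card s = n v then 1 else 0) * w v s
    with hw'
  have hw'm : ∀ v ∈ S, MeasW (w' v) := fun v hv =>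
    MeasW_mul_card (hw v hv) (fun k => if k = n v then 1 else 0)
  have hw'J : ∀ v ∈ S, ∀ k, Jn (w' v) (Q v) k = (if k = n v then 1 else 0) * Jn (w v) (Q v) k := by
    intro v _ k
    exact Jn_mul_card (fun k => if k = n v then 1 else 0) (w v)
      (fun k => by split_ifs <;> simp) (Q v) k
  have h1 : Jn (fun s => ∏ v ∈ S, w' v (cut (Q v) s)) (⋃ v ∈ S, Q v) (∑ v ∈ S, n v) ≤
      Jn W A (∑ v ∈ S, n v) := by
    refine Jn_mono (Set.iUnion₂_subset hA) (Finset.measurableSet_biUnion S hQ) _ fun s hs _ => ?_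
    by_cases hc : ∀ v ∈ S, Multiset.card (cut (Q v) s) = n v
    · have h2 : ∏ v ∈ S, w' v (cut (Q v) s) = ∏ v ∈ S, w v (cut (Q v) s) := by
        refine Finset.prod_congr rfl fun v hv => ?_
        simp only [hw', if_pos (hc v hv), one_mul]
      rw [h2]
      refine hW s (fun a ha => ?_) hc
      have := hs a ha
      simpa using this
    · push Not at hc
      obtain ⟨v, hv, hne⟩ := hc
      have h2 : ∏ v ∈ S, w' v (cut (Q v) s) = 0 := by
        refine Finset.prod_eq_zero hv ?_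
        simp only [hw', if_neg hne, zero_mul]
      rw [h2]
      exact zero_le
  refine le_trans ?_ h1
  rw [Jn_blocks S Q hQ hdisj w' hw'm]
  clear h1 hW hA hdisj hQ
  induction S using Finset.induction_on with
  | empty => simp
  | insert v S hv ih =>
    rw [Finset.prod_insert hv, Finset.prod_insert hv, Finset.sum_insert hv, PowerSeries.coeff_mul]
    refine le_trans ?_ (Finset.single_le_sum (f := fun p : ℕ × ℕ =>
      PowerSeries.coeff p.1 (PowerSeries.mk fun n => Jn (w' v) (Q v) n) *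
      PowerSeries.coeff p.2 (∏ x ∈ S, PowerSeries.mk fun n => Jn (w' x) (Q x) n))
      (fun _ _ => zero_le) (a := (n v, ∑ u ∈ S, n u)) (by simp))
    simp only [PowerSeries.coeff_mk]
    rw [hw'J v (Finset.mem_insert_self _ _), if_pos rfl, one_mul]
    gcongr
    exact ih (fun u hu => hw u (Finset.mem_insert_of_mem hu))
      (fun u hu => hw'm u (Finset.mem_insert_of_mem hu))
      (fun u hu => hw'J u (Finset.mem_insert_of_mem hu))

end Crest.Agent.R149
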