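import Mathlib

/-!
Two facts on convex functions of one variable (helper50, for `Main.lean`).
-/

set_option autoImplicit false

namespace Crest.Agent.R149

theorem subgrad_of_convex {f : ℝ → ℝ} (hf : ConvexOn ℝ (Set.Ioi 0) f) {x : ℝ} (hx : 0 < x) :
    ∃ u : ℝ, ∀ y : ℝ, 0 < y → f x + u * (y - x) ≤ f y := by
  have hxi : x ∈ interior (Set.Ioi (0 : ℝ)) := by
    rw [interior_Ioi]; exact hx
  refine ⟨derivWithin f (Set.Ioi x) x, fun y hy => ?_⟩
  rcases lt_trichotomy x y with h | h | h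
  · have h1 := hf.rightDeriv_le_slope_of_mem_interior hxi (show y ∈ Set.Ioi (0 : ℝ) from hy) h
    rw [slope_def_field, le_div_iff₀ (by linarith)] at h1
    linarith
  · subst h; simp
  · have h1 := hf.slope_le_leftDeriv_of_mem_interior (show y ∈ Set.Ioi (0 : ℝ) from hy) hxi h
    have h2 := hf.leftDeriv_le_rightDeriv_of_mem_interior hxi
    have h3 := h1.trans h2
    rw [slope_def_field, div_le_iff₀ (by linarith)] at h3
    nlinarith

theorem lip_of_convex {f : ℝ → ℝ} (hf : ConvexOn ℝ (Set.Icc (1 / 2) (3 / 2)) f) {K : ℝ}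
    (hK : ∀ x : ℝ, 1 / 2 ≤ x → x ≤ 3 / 2 → |f x| ≤ K) {x y : ℝ} (hx : 3 / 4 ≤ x) (hx' : x ≤ 5 / 4)
    (hy : 3 / 4 ≤ y) (hy' : y ≤ 5 / 4) : |f x - f y| ≤ 8 * K * |x - y| := by
  have key : ∀ x y : ℝ, 3 / 4 ≤ x → x ≤ 5 / 4 → 3 / 4 ≤ y → y ≤ 5 / 4 → x < y →
      |f x - f y| ≤ 8 * K * |x - y| := by
    intro x y hx hx' hy hy' hxy
    have m1 : (1 / 2 : ℝ) ∈ Set.Icc (1 / 2 : ℝ) (3 / 2) := by constructor <;> norm_num
    have m2 : (3 / 2 : ℝ) ∈ Set.Icc (1 / 2 : ℝ) (3 / 2) := by constructor <;> norm_num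
    have mx : x ∈ Set.Icc (1 / 2 : ℝ) (3 / 2) := ⟨by linarith, by linarith⟩
    have my : y ∈ Set.Icc (1 / 2 : ℝ) (3 / 2) := ⟨by linarith, by linarith⟩
    have s1 := hf.slope_mono_adjacent mx m2 hxy (show y < 3 / 2 by linarith)
    have s2 := hf.slope_mono_adjacent m1 my (show 1 / 2 < x by linarith) hxy
    have b1 := abs_le.mp (hK (3 / 2) (by norm_num) le_rfl)
    have b2 := abs_le.mp (hK (1 / 2) le_rfl (by norm_num))
    have b3 := abs_le.mp (hK x mx.1 mx.2)
    have b4 := abs_le.mp (hK y my.1 my.2)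
    have hK0 : 0 ≤ K := by linarith [b1.1, b1.2]
    have t1 : (f (3 / 2) - f y) / (3 / 2 - y) ≤ 8 * K := by
      rw [div_le_iff₀ (by linarith)]
      nlinarith
    have t2 : -(8 * K) ≤ (f x - f (1 / 2)) / (x - 1 / 2) := by
      rw [le_div_iff₀ (by linarith)]
      nlinarith
    have u1 := s1.trans t1
    have u2 := t2.trans s2
    rw [div_le_iff₀ (by linarith)] at u1
    rw [le_div_iff₀ (by linarith)] at u2
    rw [abs_sub_comm x y, abs_of_pos (by linarith : 0 < y - x), abs_sub_comm, abs_le]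
    constructor <;> linarith
  rcases lt_trichotomy x y with h | h | h
  · exact key x y hx hx' hy hy' h
  · subst h; simp
  · rw [abs_sub_comm, abs_sub_comm x y]
    exact key y x hy hy' hx hx' h

end Crest.Agent.R149
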