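import Crest.Agent.R149.Defs

/-!
PIECE C0 (construction of the two cores).

Bounded continuous core, for `S0209`: `φ₀ = c * g(|r|)`, `g` continuous, `0 ≤ g ≤ 1`, `g = 1` on
`[0,δ] ∪ [2δ,1]`, `g = 0` on `[(1+η/2)δ,(2-η/2)δ] ∪ [1+δ,∞)` (piecewise linear: e.g.
`max (max 0 (1 - max 0 (r-δ)/(η/2·δ))) (min (…) (…))`, any formula).
Divergent core for `S0210`: add `max 0 (1/r - 1/δ)` for `r > 0` (zero for `r ≥ δ`), nothing at `r ≤ 0`.
-/

set_option autoImplicit false

namespace Crest.Agent.R149

/-- the inner bump of the bounded core -/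
noncomputable def coreA (δ η r : ℝ) : ℝ := max 0 (min 1 (1 - (r - δ) / (η / 2 * δ)))

/-- the shell bump of the bounded core -/
noncomputable def coreB (δ η r : ℝ) : ℝ :=
  max 0 (min 1 (min (1 - (2 * δ - r) / (η / 2 * δ)) (1 - (r - 1) / δ)))

/-- the bounded core -/
noncomputable def coreF (δ c η r : ℝ) : ℝ := c * max (coreA δ η r) (coreB δ η r)

theorem coreF_continuous {δ c η : ℝ} : Continuous (coreF δ c η) := by
  unfold coreF coreA coreB
  fun_prop

theorem coreF_le {δ c η : ℝ} (hc : 0 < c) (r : ℝ) : coreF δ c η r ≤ c := by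
  unfold coreF
  have h1 : coreA δ η r ≤ 1 := by
    unfold coreA; exact max_le zero_le_one (min_le_left _ _)
  have h2 : coreB δ η r ≤ 1 := by
    unfold coreB; exact max_le zero_le_one (min_le_left _ _)
  calc c * max (coreA δ η r) (coreB δ η r) ≤ c * 1 :=
        mul_le_mul_of_nonneg_left (max_le h1 h2) hc.le
    _ = c := mul_one c

theorem coreF_hyp {δ c η : ℝ} (hδ : 0 < δ) (hδ' : δ ≤ 1 / 8) (hη : 0 < η)
    (hη' : η ≤ 1 / 2) (hc : 0 < c) : CoreHyp (coreF δ c η) δ c η := by
  have hd : 0 < η / 2 * δ := by positivity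
  refine ⟨coreF_continuous.measurable, ?_, hδ, hδ', hc, hη, hη', ?_, ?_, ?_, ?_⟩
  · intro r
    unfold coreF
    exact mul_nonneg hc.le (le_max_of_le_left (by unfold coreA; exact le_max_left _ _))
  · intro r h0 h1
    have : (1 : ℝ) ≤ coreA δ η r := by
      unfold coreA
      refine le_max_of_le_right (le_min le_rfl ?_)
      have : (r - δ) / (η / 2 * δ) ≤ 0 := div_nonpos_of_nonpos_of_nonneg (by linarith) hd.le
      linarith
    unfold coreF
    nlinarith [le_max_left (coreA δ η r) (coreB δ η r)]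
  · intro r h0 h1
    have : (1 : ℝ) ≤ coreB δ η r := by
      unfold coreB
      refine le_max_of_le_right (le_min le_rfl (le_min ?_ ?_))
      · have : (2 * δ - r) / (η / 2 * δ) ≤ 0 :=
          div_nonpos_of_nonpos_of_nonneg (by linarith) hd.le
        linarith
      · have : (r - 1) / δ ≤ 0 := div_nonpos_of_nonpos_of_nonneg (by linarith) hδ.le
        linarith
    unfold coreF
    nlinarith [le_max_right (coreA δ η r) (coreB δ η r)]
  · intro r h0 h1
    have hA : coreA δ η r = 0 := by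
      unfold coreA
      apply max_eq_left
      refine (min_le_right _ _).trans ?_
      have : 1 ≤ (r - δ) / (η / 2 * δ) := by
        rw [le_div_iff₀ hd]; linarith
      linarith
    have hB : coreB δ η r = 0 := by
      unfold coreB
      apply max_eq_left
      refine (min_le_right _ _).trans ((min_le_left _ _).trans ?_)
      have : 1 ≤ (2 * δ - r) / (η / 2 * δ) := by
        rw [le_div_iff₀ hd]; linarith
      linarith
    unfold coreF
    rw [hA, hB, max_self, mul_zero]
  · intro r h0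
    have hA : coreA δ η r = 0 := by
      unfold coreA
      apply max_eq_left
      refine (min_le_right _ _).trans ?_
      have : 1 ≤ (r - δ) / (η / 2 * δ) := by
        rw [le_div_iff₀ hd]; nlinarith
      linarith
    have hB : coreB δ η r = 0 := by
      unfold coreB
      apply max_eq_left
      refine (min_le_right _ _).trans ((min_le_right _ _).trans ?_)
      have : 1 ≤ (r - 1) / δ := by
        rw [le_div_iff₀ hδ]; linarith
      linarith
    unfold coreF
    rw [hA, hB, max_self, mul_zero]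

theorem exists_core_bounded {δ c η : ℝ} (hδ : 0 < δ) (hδ' : δ ≤ 1 / 8) (hη : 0 < η)
    (hη' : η ≤ 1 / 2) (hc : 0 < c) :
    ∃ φ₀ : ℝ → ℝ, CoreHyp φ₀ δ c η ∧ Continuous φ₀ ∧ ∀ r, φ₀ r ≤ c :=
  ⟨coreF δ c η, coreF_hyp hδ hδ' hη hη' hc, coreF_continuous, coreF_le hc⟩

theorem exists_core_divergent {δ c η : ℝ} (hδ : 0 < δ) (hδ' : δ ≤ 1 / 8) (hη : 0 < η)
    (hη' : η ≤ 1 / 2) (hc : 0 < c) :
    ∃ φ₀ : ℝ → ℝ, CoreHyp φ₀ δ c η ∧
      Filter.Tendsto φ₀ (nhdsWithin 0 (Set.Ioi 0)) Filter.atTop ∧
      ∀ a : ℝ, 0 < a → ∃ M : ℝ, ∀ r, a ≤ r → φ₀ r ≤ M := by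
  have hF := coreF_hyp hδ hδ' hη hη' hc
  have hz : ∀ r, δ ≤ r → max 0 (1 / r - 1 / δ) = 0 := by
    intro r hr
    apply max_eq_left
    have : 1 / r ≤ 1 / δ := one_div_le_one_div_of_le hδ hr
    linarith
  refine ⟨fun r => coreF δ c η r + max 0 (1 / r - 1 / δ), ?_, ?_, ?_⟩
  · refine ⟨?_, ?_, hδ, hδ', hc, hη, hη', ?_, ?_, ?_, ?_⟩
    · have := hF.meas
      fun_prop
    · intro r
      exact add_nonneg (hF.nonneg r) (le_max_left _ _)
    · intro r h0 h1
      have := hF.core r h0 h1
      have := le_max_left 0 (1 / r - 1 / δ)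
      linarith
    · intro r h0 h1
      have := hF.shell r h0 h1
      have := le_max_left 0 (1 / r - 1 / δ)
      linarith
    · intro r h0 h1
      rw [hF.mid r h0 h1, hz r (by nlinarith), add_zero]
    · intro r h0
      rw [hF.far r h0, hz r (by linarith), add_zero]
  · have h1 : Filter.Tendsto (fun r : ℝ => 1 / r - 1 / δ) (nhdsWithin 0 (Set.Ioi 0))
        Filter.atTop := by
      have := tendsto_inv_nhdsGT_zero (𝕜 := ℝ)
      have h2 := Filter.tendsto_atTop_add_const_right _ (-(1 / δ)) this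
      refine h2.congr (fun r => ?_)
      rw [one_div]; ring
    refine Filter.tendsto_atTop_mono (fun r => ?_) h1
    have := hF.nonneg r
    have := le_max_right 0 (1 / r - 1 / δ)
    linarith
  · intro a ha
    refine ⟨c + max 0 (1 / a - 1 / δ), fun r hr => ?_⟩
    have h1 := coreF_le (δ := δ) (η := η) hc r
    have h2 : 1 / r ≤ 1 / a := one_div_le_one_div_of_le ha hr
    have h3 : max 0 (1 / r - 1 / δ) ≤ max 0 (1 / a - 1 / δ) :=
      max_le_max le_rfl (by linarith)
    simp only
    linarith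

end Crest.Agent.R149
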