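import Mathlib
import Crest.Prelude.Def_PairPotential
import Crest.Prelude.Def_UnitPacking

/-!
Row 149 (S0209, S0210).  Common definitions for the whole proof.

The potential is `φ = φ₀ - T`, with a nonnegative core `φ₀` (see `CoreHyp`) and a long range
attractive tail `T = Σ_j a_j ψ_{R_j}`, `ψ_R(r) = kap / R^3 * max 0 (1 - r/R)` normalised to
integral one in three-space.
-/

set_option autoImplicit false

namespace Crest.Agent.R149

open MeasureTheory Crest.ProbabilityR.Continuum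
open scoped ENNReal BigOperators

/-! ### Configurations as multisets -/

/-- The multiset of points of a labelled configuration. -/
noncomputable def conf {ι : Type} [Fintype ι] (x : ι → Pt) : Multiset Pt :=
  Finset.univ.val.map x

/-- Sum of `f (dist a b)` over ordered pairs (diagonal included) of points of `s`. -/
noncomputable def dbl (f : ℝ → ℝ) (s : Multiset Pt) : ℝ :=
  (s.map fun a => (s.map fun b => f (dist a b)).sum).sum

/-- Energy of a multiset of points: sum of `φ (dist a b)` over unordered pairs. -/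
noncomputable def En (φ : ℝ → ℝ) (s : Multiset Pt) : ℝ :=
  (dbl φ s - (Multiset.card s : ℝ) * φ 0) / 2

/-- Boltzmann weight. -/
noncomputable def wt (φ : ℝ → ℝ) (β : ℝ) (s : Multiset Pt) : ℝ≥0∞ :=
  ENNReal.ofReal (Real.exp (-β * En φ s))

/-- `(1/n!) ∫_{A^n} W`. -/
noncomputable def Jn (W : Multiset Pt → ℝ≥0∞) (A : Set Pt) (n : ℕ) : ℝ≥0∞ :=
  ((Nat.factorial n : ℕ) : ℝ≥0∞)⁻¹ *
    ∫⁻ x in Set.pi Set.univ (fun _ : Fin n => A), W (conf x)

/-- `W` is measurable as a function of labelled configurations. -/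
def MeasW (W : Multiset Pt → ℝ≥0∞) : Prop :=
  ∀ n : ℕ, Measurable (fun x : Fin n → Pt => W (conf x))

/-- The part of the configuration `s` lying in the set `A`. -/
noncomputable def cut (A : Set Pt) (s : Multiset Pt) : Multiset Pt := by
  classical exact s.filter (fun a => a ∈ A)

/-! ### Grids -/

/-- Index of the grid cell (side `ℓ`, diagonal shift `t`) of the point `x`. -/
noncomputable def cellIdx (t ℓ : ℝ) (x : Pt) : Fin 3 → ℤ := fun k => ⌊(x k + t) / ℓ⌋

/-- Number of points of `s` in the grid cell with index `v`. -/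
noncomputable def cnt (t ℓ : ℝ) (s : Multiset Pt) (v : Fin 3 → ℤ) : ℕ :=
  Multiset.card (cut {x | cellIdx t ℓ x = v} s)

/-- `Σ_Q N_Q²`, the sum of the squares of the occupation numbers of the grid cells,
written as the number of ordered pairs of points lying in the same cell. -/
noncomputable def sqCnt (t ℓ : ℝ) (s : Multiset Pt) : ℝ :=
  (s.map fun a => (cnt t ℓ s (cellIdx t ℓ a) : ℝ)).sum

/-! ### The kernel and the tail -/

/-- Normalising constant: `(∫_{ℝ³} max 0 (1 - ‖z‖))⁻¹`. -/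
noncomputable def kap : ℝ := (∫ z : Pt, max 0 (1 - ‖z‖))⁻¹

/-- The cone kernel of range `R`, of integral one. -/
noncomputable def psi (R r : ℝ) : ℝ := kap / R ^ 3 * max 0 (1 - |r| / R)

/-- The scales `x_k = x₀^(2^k)`. -/
def xs (x0 k : ℕ) : ℕ := x0 ^ (2 ^ k)

/-- Block side at level `k`: `ℓ_k = x_k^48`. -/
def ls (x0 k : ℕ) : ℕ := (xs x0 k) ^ 48

/-- Range of the `j`-th tail potential: `R_j = x_j^64`. -/
def Rs (x0 j : ℕ) : ℕ := (xs x0 j) ^ 64

/-- Remaining strength `b_k = a x₀² / x_k²` of the tail at level `k` (`b_0 = a`). -/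
noncomputable def bs (a : ℝ) (x0 k : ℕ) : ℝ := a * (x0 : ℝ) ^ 2 / (xs x0 k : ℝ) ^ 2

/-- Strength of the `j`-th tail potential. -/
noncomputable def aj (a : ℝ) (x0 j : ℕ) : ℝ := bs a x0 j - bs a x0 (j + 1)

/-- Truncated tail `T_k = Σ_{j<k} a_j ψ_{R_j}`. -/
noncomputable def Tk (a : ℝ) (x0 k : ℕ) (r : ℝ) : ℝ :=
  ∑ j ∈ Finset.range k, aj a x0 j * psi (Rs x0 j) r

/-- The full tail `T = Σ_j a_j ψ_{R_j}`. -/
noncomputable def Tfull (a : ℝ) (x0 : ℕ) (r : ℝ) : ℝ :=
  ∑' j : ℕ, aj a x0 j * psi (Rs x0 j) r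

/-! ### The core -/

/-- The hypotheses on the core `φ₀`: nonnegative, at least `c` on `[0,δ] ∪ [2δ,1]`, zero on
`[(1+η/2)δ, (2-η/2)δ]` and on `[1+δ, ∞)`. -/
structure CoreHyp (φ₀ : ℝ → ℝ) (δ c η : ℝ) : Prop where
  meas : Measurable φ₀
  nonneg : ∀ r, 0 ≤ φ₀ r
  δpos : 0 < δ
  δle : δ ≤ 1 / 8
  cpos : 0 < c
  ηpos : 0 < η
  ηle : η ≤ 1 / 2
  core : ∀ r, 0 ≤ r → r ≤ δ → c ≤ φ₀ r
  shell : ∀ r, 2 * δ ≤ r → r ≤ 1 → c ≤ φ₀ r
  mid : ∀ r, (1 + η / 2) * δ ≤ r → r ≤ (2 - η / 2) * δ → φ₀ r = 0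
  far : ∀ r, 1 + δ ≤ r → φ₀ r = 0

/-! ### The level quantities -/

/-- Maximal density of interest. -/
noncomputable def rmax (δ : ℝ) : ℝ := 256 / δ ^ 3

/-- `V_k(β,ν;n)`, pressure-like quantity of the block of side `ℓ_k` with `n` particles. -/
noncomputable def Vk (φ₀ : ℝ → ℝ) (a : ℝ) (x0 k : ℕ) (β ν : ℝ) (n : ℕ) : ℝ :=
  (ν * n + Real.log (partitionFn (fun r => φ₀ r - Tk a x0 k r) (ls x0 k) n β)
    + β * bs a x0 k * (n : ℝ) ^ 2 / (2 * (ls x0 k : ℝ) ^ 3)) / (ls x0 k : ℝ) ^ 3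

/-- density of `n` particles in the block of level `k` -/
noncomputable def dens (x0 k n : ℕ) : ℝ := (n : ℝ) / (ls x0 k : ℝ) ^ 3

end Crest.Agent.R149
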