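import Crest.Agent.R149.Main
import Crest.Agent.R149.Cores

/-!
Common final facts for `S0209` and `S0210`.
-/

set_option autoImplicit false

namespace Crest.Agent.R149

open MeasureTheory Crest.ProbabilityR.Continuum
open scoped ENNReal BigOperators

theorem final_stable {φ₀ : ℝ → ℝ} {δ c η a : ℝ} (hφ : CoreHyp φ₀ δ c η) (ha : 0 < a)
    (hc : 1024 * a / δ ^ 3 ≤ c) {x0 : ℕ} (h : 2 ≤ x0) (N : ℕ) (x : Fin N → Pt) :
    -(c / 2) * N ≤ energy (fun r => φ₀ r - Tfull a x0 r) x := by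
  have h1 := stable_of_core hφ ha hc h (lam := 1) (by norm_num) (by norm_num)
    (T := Tfull a x0) (fun r => le_refl _) (conf x)
  rw [energy_eq_En]
  simp only [one_mul, card_conf, Fintype.card_fin] at h1
  exact h1

theorem final_tendsto {φ : ℝ → ℝ} {G : ℝ → ℝ → ℝ} {β ρ : ℝ}
    (h : Filter.Tendsto (fun L : ℝ => Real.log (partitionFn φ L ⌊ρ * L ^ 3⌋₊ β) / L ^ 3)
      Filter.atTop (nhds (G β ρ))) :
    Filter.Tendsto (fun L : ℝ => -(1 / (β * L ^ 3)) *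
      Real.log (partitionFn φ L ⌊ρ * L ^ 3⌋₊ β)) Filter.atTop (nhds (-(1 / β) * G β ρ)) := by
  have h2 := h.const_mul (-(1 / β))
  refine h2.congr (fun L => ?_)
  rw [one_div, one_div, mul_inv]
  ring

theorem final_deriv {G : ℝ → ℝ → ℝ} {βs ρ Dl Dr : ℝ} (hβ : 0 < βs)
    (hl : HasDerivWithinAt (fun β => G β ρ) Dl (Set.Iio βs) βs)
    (hr : HasDerivWithinAt (fun β => G β ρ) Dr (Set.Ioi βs) βs) (hD : Dl < Dr) :
    ∃ Dl' Dr' : ℝ,
      HasDerivWithinAt (fun β => -(1 / β) * G β ρ) Dl' (Set.Iio βs) βs ∧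
      HasDerivWithinAt (fun β => -(1 / β) * G β ρ) Dr' (Set.Ioi βs) βs ∧ Dr' < Dl' := by
  have hne : βs ≠ 0 := hβ.ne'
  have hinv : HasDerivAt (fun β : ℝ => -(1 / β)) (1 / βs ^ 2) βs := by
    have h3 := (hasDerivAt_inv hne).neg
    have e1 : (fun β : ℝ => -(1 / β)) = -fun y : ℝ => y⁻¹ := by
      funext β; simp [one_div]
    have e2 : (1 / βs ^ 2) = - -(βs ^ 2)⁻¹ := by simp [one_div]
    rw [e1, e2]
    exact h3
  refine ⟨(1 / βs ^ 2) * G βs ρ + (-(1 / βs)) * Dl, (1 / βs ^ 2) * G βs ρ + (-(1 / βs)) * Dr,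
    hinv.hasDerivWithinAt.mul hl, hinv.hasDerivWithinAt.mul hr, ?_⟩
  have : 0 < 1 / βs := by positivity
  nlinarith

end Crest.Agent.R149
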