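import Crest.Agent.R149.Basic

/-!
PIECE B (the cone kernel `psi R r = kap / R^3 * max 0 (1 - |r|/R)`).

`dbl_psi_le` (upper): with `e = 4ℓ`, `c_u` the corner of the cell `u`, `z` in the cell `v`:
`psi R |a-b| ≤ ((R+e)/R)^4 psi (R+e) |c_u - z|`.  Average over `z` in the cell of `b`.

`le_dbl_psi` (lower): same with `psi R |a-b| ≥ ((R-e)/R)^4 psi (R-e) |c_u - z|`, keeping only the
cells `u` whose corner is at distance `≥ R-e` from the boundary of the cube.
-/

set_option autoImplicit false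

namespace Crest.Agent.R149

open MeasureTheory Crest.ProbabilityR.Continuum
open scoped ENNReal BigOperators

theorem cone_cont : Continuous (fun z : Pt => max 0 (1 - ‖z‖)) := by fun_prop

theorem cone_supp : HasCompactSupport (fun z : Pt => max 0 (1 - ‖z‖)) := by
  apply HasCompactSupport.intro (isCompact_closedBall (0 : Pt) 1)
  intro z hz
  rw [mem_closedBall_zero_iff] at hz
  push Not at hz
  exact max_eq_left (by linarith)

theorem cone_int_pos : 0 < ∫ z : Pt, max 0 (1 - ‖z‖) := by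
  apply cone_cont.integral_pos_of_hasCompactSupport_nonneg_nonzero (x := (0 : Pt)) cone_supp
  · intro z
    exact le_max_left _ _
  · simp

theorem kap_pos : 0 < kap := inv_pos.mpr cone_int_pos

theorem continuous_psi (R : ℝ) : Continuous (psi R) := by
  unfold psi
  fun_prop

theorem psi_nonneg {R : ℝ} (hR : 0 < R) (r : ℝ) : 0 ≤ psi R r := by
  unfold psi
  have := kap_pos
  positivity

theorem psi_le {R : ℝ} (hR : 0 < R) (r : ℝ) : psi R r ≤ kap / R ^ 3 := by
  unfold psi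
  have := kap_pos
  have h1 : max 0 (1 - |r| / R) ≤ 1 := by
    apply max_le zero_le_one
    have : 0 ≤ |r| / R := by positivity
    linarith
  calc kap / R ^ 3 * max 0 (1 - |r| / R) ≤ kap / R ^ 3 * 1 := by gcongr
    _ = _ := by ring

theorem psi_eq_zero {R r : ℝ} (hR : 0 < R) (h : R ≤ r) : psi R r = 0 := by
  unfold psi
  have h1 : 1 ≤ |r| / R := by
    rw [le_div_iff₀ hR, one_mul]
    exact h.trans (le_abs_self r)
  rw [max_eq_left (by linarith), mul_zero]

theorem psi_pos {R r : ℝ} (hR : 0 < R) (h : |r| < R) : 0 < psi R r := by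
  unfold psi
  have := kap_pos
  have h1 : |r| / R < 1 := by rwa [div_lt_one hR]
  have h2 : 0 < max 0 (1 - |r| / R) := lt_max_of_lt_right (by linarith)
  positivity

theorem psi_norm_eq {R : ℝ} (hR : 0 < R) :
    (fun z : Pt => psi R ‖z‖) =
      fun z : Pt => kap / R ^ 3 * (fun y : Pt => max 0 (1 - ‖y‖)) (R⁻¹ • z) := by
  funext z
  simp only [psi, norm_smul, abs_norm, norm_inv, Real.norm_eq_abs, abs_of_pos hR]
  rw [div_eq_inv_mul ‖z‖ R]

theorem psi_integral {R : ℝ} (hR : 0 < R) : ∫ z : Pt, psi R ‖z‖ = 1 := by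
  have h3 : Module.finrank ℝ Pt = 3 := by simp [Pt]
  have h4 := Measure.integral_comp_inv_smul_of_nonneg (volume : Measure Pt)
    (fun y : Pt => max 0 (1 - ‖y‖)) hR.le
  rw [psi_norm_eq hR, integral_const_mul, h4, h3]
  unfold kap
  have := cone_int_pos
  rw [smul_eq_mul]
  field_simp

theorem psi_supp {R : ℝ} (hR : 0 < R) : HasCompactSupport (fun z : Pt => psi R ‖z‖) := by
  apply HasCompactSupport.intro (isCompact_closedBall (0 : Pt) R)
  intro z hz
  rw [mem_closedBall_zero_iff] at hz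
  push Not at hz
  exact psi_eq_zero hR hz.le

theorem psi_integrable {R : ℝ} (hR : 0 < R) : Integrable (fun z : Pt => psi R ‖z‖) := by
  have hc : Continuous (fun z : Pt => psi R ‖z‖) := (continuous_psi R).comp continuous_norm
  exact hc.integrable_of_hasCompactSupport (psi_supp hR)

theorem psi_alt {R : ℝ} (hR : 0 < R) (r : ℝ) : psi R r = kap / R ^ 4 * max 0 (R - |r|) := by
  unfold psi
  have : max 0 (R - |r|) = R * max 0 (1 - |r| / R) := by
    rw [mul_max_of_nonneg _ _ hR.le]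
    congr 1
    · simp
    · field_simp
  rw [this]
  field_simp

theorem psi_smear_le {R e r r' : ℝ} (hR : 0 < R) (he : 0 ≤ e) (h : |r - r'| ≤ e) :
    psi R r ≤ (1 + e / R) ^ 4 * psi (R + e) r' := by
  have hk := kap_pos
  have hRe : 0 < R + e := by linarith
  rw [psi_alt hR, psi_alt hRe]
  have h1 : (1 + e / R) ^ 4 * (kap / (R + e) ^ 4 * max 0 (R + e - |r'|)) =
      kap / R ^ 4 * max 0 (R + e - |r'|) := by
    field_simp
  rw [h1]
  have h2 : |r'| ≤ |r| + e := by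
    have := abs_sub_abs_le_abs_sub r' r
    rw [abs_sub_comm r' r] at this
    linarith
  have h3 : max 0 (R - |r|) ≤ max 0 (R + e - |r'|) := max_le_max le_rfl (by linarith)
  gcongr

theorem le_psi_smear {R e r r' : ℝ} (he : 0 ≤ e) (heR : e < R) (h : |r - r'| ≤ e) :
    (1 - e / R) ^ 4 * psi (R - e) r' ≤ psi R r := by
  have hk := kap_pos
  have hR : 0 < R := by linarith
  have hRe : 0 < R - e := by linarith
  rw [psi_alt hR, psi_alt hRe]
  have h1 : (1 - e / R) ^ 4 * (kap / (R - e) ^ 4 * max 0 (R - e - |r'|)) =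
      kap / R ^ 4 * max 0 (R - e - |r'|) := by
    have : R - e ≠ 0 := hRe.ne'
    have h4 : (1 - e / R) = (R - e) / R := by field_simp
    rw [h4]
    field_simp
  rw [h1]
  have h2 : |r| ≤ |r'| + e := by
    have := abs_sub_abs_le_abs_sub r r'
    linarith
  have h3 : max 0 (R - e - |r'|) ≤ max 0 (R - |r|) := max_le_max le_rfl (by linarith)
  gcongr

/-! ### Cells -/

theorem mem_cell_iff {t ℓ : ℝ} (hℓ : 0 < ℓ) (x : Pt) (v : Fin 3 → ℤ) :
    cellIdx t ℓ x = v ↔ ∀ k, (v k : ℝ) * ℓ - t ≤ x k ∧ x k < ((v k : ℝ) + 1) * ℓ - t := by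
  unfold cellIdx
  rw [funext_iff]
  apply forall_congr'
  intro k
  rw [Int.floor_eq_iff, le_div_iff₀ hℓ, div_lt_iff₀ hℓ]
  constructor
  · rintro ⟨h1, h2⟩
    exact ⟨by linarith, by linarith⟩
  · rintro ⟨h1, h2⟩
    exact ⟨by linarith, by linarith⟩

theorem cell_eq_preimage {t ℓ : ℝ} (hℓ : 0 < ℓ) (v : Fin 3 → ℤ) :
    {x : Pt | cellIdx t ℓ x = v} =
      (WithLp.ofLp : Pt → (Fin 3 → ℝ)) ⁻¹'
        (Set.pi Set.univ fun k => Set.Ico ((v k : ℝ) * ℓ - t) (((v k : ℝ) + 1) * ℓ - t)) := by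
  ext x
  simp only [Set.mem_setOf_eq, mem_cell_iff hℓ, Set.mem_preimage, Set.mem_pi, Set.mem_univ,
    forall_true_left, Set.mem_Ico]

theorem measurableSet_cell (t ℓ : ℝ) (v : Fin 3 → ℤ) :
    MeasurableSet {x : Pt | cellIdx t ℓ x = v} := by
  have : Measurable (cellIdx t ℓ) := by
    unfold cellIdx
    apply measurable_pi_lambda
    intro k
    apply Int.measurable_floor.comp
    fun_prop
  exact this (measurableSet_singleton v)

theorem volume_cell {t ℓ : ℝ} (hℓ : 0 < ℓ) (v : Fin 3 → ℤ) :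
    volume {x : Pt | cellIdx t ℓ x = v} = ENNReal.ofReal (ℓ ^ 3) := by
  rw [cell_eq_preimage hℓ, (PiLp.volume_preserving_ofLp (Fin 3)).measure_preimage, Real.volume_pi_Ico]
  · have : ∀ k, ((v k : ℝ) + 1) * ℓ - t - ((v k : ℝ) * ℓ - t) = ℓ := by intro k; ring
    simp only [this, Finset.prod_const, Finset.card_univ, Fintype.card_fin]
    rw [ENNReal.ofReal_pow hℓ.le]
  · exact (MeasurableSet.univ_pi fun k => measurableSet_Ico).nullMeasurableSet

/-- corner of a cell -/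
noncomputable def corner (t ℓ : ℝ) (v : Fin 3 → ℤ) : Pt := WithLp.toLp 2 fun k => (v k : ℝ) * ℓ - t

theorem dist_le_of_coord {ℓ : ℝ} (hℓ : 0 ≤ ℓ) {x y : Pt} (h : ∀ k, |x k - y k| ≤ ℓ) :
    dist x y ≤ 2 * ℓ := by
  rw [EuclideanSpace.dist_eq]
  apply Real.sqrt_le_iff.mpr
  refine ⟨by positivity, ?_⟩
  calc ∑ i, dist (x i) (y i) ^ 2 ≤ ∑ _i : Fin 3, ℓ ^ 2 := by
        apply Finset.sum_le_sum
        intro i _
        rw [Real.dist_eq]
        exact pow_le_pow_left₀ (abs_nonneg _) (h i) 2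
    _ = 3 * ℓ ^ 2 := by simp
    _ ≤ (2 * ℓ) ^ 2 := by nlinarith [sq_nonneg ℓ]

theorem dist_corner_le {t ℓ : ℝ} (hℓ : 0 < ℓ) (x : Pt) :
    dist x (corner t ℓ (cellIdx t ℓ x)) ≤ 2 * ℓ := by
  apply dist_le_of_coord hℓ.le
  intro k
  have h := (mem_cell_iff hℓ x (cellIdx t ℓ x)).mp rfl k
  simp only [corner]
  rw [abs_le]
  constructor <;> linarith [h.1, h.2]

theorem dist_same_cell {t ℓ : ℝ} (hℓ : 0 < ℓ) {x y : Pt} (h : cellIdx t ℓ x = cellIdx t ℓ y) :
    dist x y ≤ 2 * ℓ := by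
  apply dist_le_of_coord hℓ.le
  intro k
  have h1 := (mem_cell_iff hℓ x (cellIdx t ℓ x)).mp rfl k
  have h2 := (mem_cell_iff hℓ y (cellIdx t ℓ y)).mp rfl k
  rw [h] at h1
  rw [abs_le]
  constructor <;> linarith [h1.1, h1.2, h2.1, h2.2]

theorem abs_dist_sub_le {t ℓ : ℝ} (hℓ : 0 < ℓ) {a b z : Pt}
    (h : cellIdx t ℓ z = cellIdx t ℓ b) :
    |dist a b - ‖corner t ℓ (cellIdx t ℓ a) - z‖| ≤ 4 * ℓ := by
  rw [← dist_eq_norm]
  have h1 := dist_corner_le (t := t) hℓ a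
  have h2 := dist_same_cell hℓ h
  have h3 : |dist a b - dist (corner t ℓ (cellIdx t ℓ a)) z| ≤
      dist a (corner t ℓ (cellIdx t ℓ a)) + dist b z := by
    rw [abs_le]
    constructor
    · have e1 := dist_triangle (corner t ℓ (cellIdx t ℓ a)) a z
      have e2 := dist_triangle a b z
      rw [dist_comm (corner t ℓ (cellIdx t ℓ a)) a] at e1
      linarith
    · have e1 := dist_triangle a (corner t ℓ (cellIdx t ℓ a)) b
      have e2 := dist_triangle (corner t ℓ (cellIdx t ℓ a)) z b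
      rw [dist_comm z b] at e2
      linarith
  rw [dist_comm z b] at h2
  linarith

/-- the smeared kernel -/
noncomputable def KK (R t ℓ : ℝ) (u v : Fin 3 → ℤ) : ℝ :=
  ∫ z in {z : Pt | cellIdx t ℓ z = v}, psi R ‖corner t ℓ u - z‖

theorem psi_shift_integrable {R : ℝ} (hR : 0 < R) (c : Pt) :
    Integrable (fun z : Pt => psi R ‖c - z‖) :=
  (psi_integrable hR).comp_sub_left c

theorem psi_shift_integral {R : ℝ} (hR : 0 < R) (c : Pt) :
    ∫ z : Pt, psi R ‖c - z‖ = 1 := by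
  rw [← psi_integral hR]
  exact integral_sub_left_eq_self (fun z : Pt => psi R ‖z‖) volume c

theorem KK_nonneg {R : ℝ} (hR : 0 < R) (t ℓ : ℝ) (u v : Fin 3 → ℤ) : 0 ≤ KK R t ℓ u v :=
  integral_nonneg fun _ => psi_nonneg hR _

theorem sum_KK (R : ℝ) (hR : 0 < R) (t ℓ : ℝ) (u : Fin 3 → ℤ) (S : Finset (Fin 3 → ℤ)) :
    ∑ v ∈ S, KK R t ℓ u v =
      ∫ z in {z : Pt | cellIdx t ℓ z ∈ S}, psi R ‖corner t ℓ u - z‖ := by
  unfold KK
  have : {z : Pt | cellIdx t ℓ z ∈ S} = ⋃ v ∈ S, {z : Pt | cellIdx t ℓ z = v} := by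
    ext z; simp
  rw [this, integral_biUnion_finset]
  · intro v _
    exact measurableSet_cell t ℓ v
  · intro v _ w _ hvw
    rw [Function.onFun, Set.disjoint_left]
    intro z hz hz'
    exact hvw (by rw [Set.mem_setOf_eq] at hz hz'; rw [← hz, ← hz'])
  · intro v _
    exact (psi_shift_integrable hR _).integrableOn

theorem sum_KK_le {R : ℝ} (hR : 0 < R) (t ℓ : ℝ) (u : Fin 3 → ℤ) (S : Finset (Fin 3 → ℤ)) :
    ∑ v ∈ S, KK R t ℓ u v ≤ 1 := by
  rw [sum_KK R hR, ← psi_shift_integral hR (corner t ℓ u)]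
  apply setIntegral_le_integral (psi_shift_integrable hR _)
  exact Filter.Eventually.of_forall fun z => psi_nonneg hR _

theorem setIntegral_const_cell {t ℓ : ℝ} (hℓ : 0 < ℓ) (v : Fin 3 → ℤ) (c : ℝ) :
    ∫ _z in {z : Pt | cellIdx t ℓ z = v}, c = ℓ ^ 3 * c := by
  rw [setIntegral_const, measureReal_def, volume_cell hℓ, ENNReal.toReal_ofReal (by positivity),
    smul_eq_mul]

theorem psi_le_KK {R t ℓ : ℝ} (hR : 0 < R) (hℓ : 0 < ℓ) (a b : Pt) :
    psi R (dist a b) ≤ (1 + 4 * ℓ / R) ^ 4 / ℓ ^ 3 *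
      KK (R + 4 * ℓ) t ℓ (cellIdx t ℓ a) (cellIdx t ℓ b) := by
  have h : ℓ ^ 3 * psi R (dist a b) ≤ (1 + 4 * ℓ / R) ^ 4 *
      KK (R + 4 * ℓ) t ℓ (cellIdx t ℓ a) (cellIdx t ℓ b) := by
    rw [← setIntegral_const_cell (t := t) hℓ (cellIdx t ℓ b), KK, ← integral_const_mul]
    apply setIntegral_mono_on
    · rw [integrableOn_const_iff]
      right
      rw [volume_cell hℓ]
      exact ENNReal.ofReal_lt_top
    · exact ((psi_shift_integrable (by positivity) _).const_mul _).integrableOn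
    · exact measurableSet_cell t ℓ _
    · intro z hz
      exact psi_smear_le hR (by positivity) (abs_dist_sub_le hℓ hz)
  rw [div_mul_eq_mul_div, le_div_iff₀ (by positivity)]
  linarith

theorem KK_le_psi {R t ℓ : ℝ} (hR : 4 * ℓ < R) (hℓ : 0 < ℓ) (a b : Pt) :
    (1 - 4 * ℓ / R) ^ 4 / ℓ ^ 3 *
      KK (R - 4 * ℓ) t ℓ (cellIdx t ℓ a) (cellIdx t ℓ b) ≤ psi R (dist a b) := by
  have h : (1 - 4 * ℓ / R) ^ 4 *
      KK (R - 4 * ℓ) t ℓ (cellIdx t ℓ a) (cellIdx t ℓ b) ≤ ℓ ^ 3 * psi R (dist a b) := by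
    rw [← setIntegral_const_cell (t := t) hℓ (cellIdx t ℓ b), KK, ← integral_const_mul]
    apply setIntegral_mono_on
    · exact ((psi_shift_integrable (by linarith) _).const_mul _).integrableOn
    · rw [integrableOn_const_iff]
      right
      rw [volume_cell hℓ]
      exact ENNReal.ofReal_lt_top
    · exact measurableSet_cell t ℓ _
    · intro z hz
      exact le_psi_smear (by positivity) hR (abs_dist_sub_le hℓ hz)
  rw [div_mul_eq_mul_div, div_le_iff₀ (by positivity)]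
  linarith

/-! ### Multiset sums -/

theorem cnt_eq_count (t ℓ : ℝ) (s : Multiset Pt) (v : Fin 3 → ℤ) :
    cnt t ℓ s v = (s.map (cellIdx t ℓ)).count v := by
  classical
  rw [Multiset.count_map]
  unfold cnt cut
  congr! 2 with x
  exact eq_comm

theorem sum_map_div_cnt (t ℓ : ℝ) (s : Multiset Pt) (g : (Fin 3 → ℤ) → ℝ) :
    (s.map fun b => g (cellIdx t ℓ b) / (cnt t ℓ s (cellIdx t ℓ b) : ℝ)).sum =
      ∑ v ∈ (s.map (cellIdx t ℓ)).toFinset, g v := by
  classical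
  have h1 : (s.map fun b => g (cellIdx t ℓ b) / (cnt t ℓ s (cellIdx t ℓ b) : ℝ)) =
      (s.map (cellIdx t ℓ)).map (fun v => g v / (cnt t ℓ s v : ℝ)) := by
    rw [Multiset.map_map]; rfl
  rw [h1, Finset.sum_multiset_map_count]
  apply Finset.sum_congr rfl
  intro v hv
  rw [← cnt_eq_count, nsmul_eq_mul]
  have : (cnt t ℓ s v : ℝ) ≠ 0 := by
    rw [cnt_eq_count]
    rw [Multiset.mem_toFinset, ← Multiset.count_pos] at hv
    exact_mod_cast hv.ne'
  field_simp

theorem sum_map_ite_cell (t ℓ : ℝ) (s : Multiset Pt) (B : Finset (Fin 3 → ℤ))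
    (g : (Fin 3 → ℤ) → ℝ) :
    (s.map fun b => if cellIdx t ℓ b ∈ B then g (cellIdx t ℓ b) else 0).sum =
      ∑ v ∈ B, (cnt t ℓ s v : ℝ) * g v := by
  classical
  induction s using Multiset.induction_on with
  | empty => simp [cnt_eq_count]
  | cons a s ih =>
    rw [Multiset.map_cons, Multiset.sum_cons, ih]
    have h1 : ∀ v, (cnt t ℓ (a ::ₘ s) v : ℝ) =
        (cnt t ℓ s v : ℝ) + if v = cellIdx t ℓ a then 1 else 0 := by
      intro v
      rw [cnt_eq_count, cnt_eq_count, Multiset.map_cons, Multiset.count_cons]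
      push_cast
      rfl
    simp only [h1, add_mul, Finset.sum_add_distrib, ite_mul, one_mul, zero_mul,
      Finset.sum_ite_eq']
    ring

/-- (Up) -/
theorem dbl_psi_le {R ℓ : ℝ} (hR : 0 < R) (hℓ : 0 < ℓ) (t : ℝ) (s : Multiset Pt) :
    dbl (psi R) s ≤ (1 + 4 * ℓ / R) ^ 4 / ℓ ^ 3 * sqCnt t ℓ s := by
  classical
  set C := (1 + 4 * ℓ / R) ^ 4 / ℓ ^ 3 with hC
  have hC0 : 0 ≤ C := by positivity
  have hRe : 0 < R + 4 * ℓ := by positivity
  set N : Pt → ℝ := fun a => (cnt t ℓ s (cellIdx t ℓ a) : ℝ) with hN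
  set K : Pt → Pt → ℝ := fun a b => KK (R + 4 * ℓ) t ℓ (cellIdx t ℓ a) (cellIdx t ℓ b) with hK
  have hNpos : ∀ a ∈ s, 0 < N a := by
    intro a ha
    simp only [hN, cnt_eq_count]
    have : cellIdx t ℓ a ∈ s.map (cellIdx t ℓ) := Multiset.mem_map_of_mem _ ha
    exact_mod_cast Multiset.count_pos.mpr this
  have hP : ∀ a ∈ s, ∀ b ∈ s, psi R (dist a b) ≤
      C / 2 * (N a * (K a b / N b)) + C / 2 * (N b * (K b a / N a)) := by
    intro a ha b hb
    have h1 : psi R (dist a b) ≤ C * K a b := psi_le_KK hR hℓ a b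
    have h2 : psi R (dist a b) ≤ C * K b a := by
      rw [dist_comm]; exact psi_le_KK hR hℓ b a
    have ha' := hNpos a ha
    have hb' := hNpos b hb
    have h0 : 0 ≤ psi R (dist a b) := psi_nonneg hR _
    have h3 : 2 ≤ N a / N b + N b / N a := by
      have h5 : N a / N b + N b / N a = 2 + (N a - N b) ^ 2 / (N a * N b) := by
        field_simp; ring
      rw [h5]
      have : 0 ≤ (N a - N b) ^ 2 / (N a * N b) := by positivity
      linarith
    calc psi R (dist a b) ≤ psi R (dist a b) * ((N a / N b + N b / N a) / 2) := by nlinarith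
      _ = (N a / N b / 2) * psi R (dist a b) + (N b / N a / 2) * psi R (dist a b) := by ring
      _ ≤ (N a / N b / 2) * (C * K a b) + (N b / N a / 2) * (C * K b a) := by gcongr
      _ = _ := by ring
  have hinner : ∀ a, (s.map fun b => K a b / N b).sum ≤ 1 := by
    intro a
    have := sum_map_div_cnt t ℓ s (fun v => KK (R + 4 * ℓ) t ℓ (cellIdx t ℓ a) v)
    simp only [hK, hN]
    rw [this]
    exact sum_KK_le hRe _ _ _ _
  have hA : (s.map fun a => (s.map fun b => N a * (K a b / N b)).sum).sum ≤ sqCnt t ℓ s := by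
    unfold sqCnt
    apply Multiset.sum_map_le_sum_map
    intro a _
    rw [Multiset.sum_map_mul_left]
    have : 0 ≤ N a := by positivity
    calc N a * (s.map fun b => K a b / N b).sum ≤ N a * 1 := by
          gcongr
          exact hinner a
      _ = N a := mul_one _
  calc dbl (psi R) s
      = (s.map fun a => (s.map fun b => psi R (dist a b)).sum).sum := rfl
    _ ≤ (s.map fun a => (s.map fun b =>
          C / 2 * (N a * (K a b / N b)) + C / 2 * (N b * (K b a / N a))).sum).sum := by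
        apply Multiset.sum_map_le_sum_map
        intro a ha
        apply Multiset.sum_map_le_sum_map
        intro b hb
        exact hP a ha b hb
    _ = C / 2 * (s.map fun a => (s.map fun b => N a * (K a b / N b)).sum).sum +
          C / 2 * (s.map fun a => (s.map fun b => N b * (K b a / N a)).sum).sum := by
        simp only [Multiset.sum_map_add, Multiset.sum_map_mul_left]
    _ = C / 2 * (s.map fun a => (s.map fun b => N a * (K a b / N b)).sum).sum +
          C / 2 * (s.map fun b => (s.map fun a => N b * (K b a / N a)).sum).sum := by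
        rw [Multiset.sum_map_sum_map]
    _ ≤ C / 2 * sqCnt t ℓ s + C / 2 * sqCnt t ℓ s := by gcongr
    _ = C * sqCnt t ℓ s := by ring

theorem abs_coord_le_norm (x : Pt) (k : Fin 3) : |x k| ≤ ‖x‖ := by
  have := PiLp.norm_apply_le x k
  simpa using this

theorem sum_KK_box {R' ℓ : ℝ} (hR : 0 < R') (hℓ : 0 < ℓ) {M : ℕ} (u : Fin 3 → ℤ)
    (hu : ∀ k, R' ≤ (u k : ℝ) * ℓ ∧ (u k : ℝ) * ℓ ≤ M * ℓ - R') :
    ∑ v ∈ Fintype.piFinset (fun _ : Fin 3 => Finset.Ico (0 : ℤ) M), KK R' 0 ℓ u v = 1 := by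
  rw [sum_KK R' hR, setIntegral_eq_integral_of_forall_compl_eq_zero,
    psi_shift_integral hR (corner 0 ℓ u)]
  intro z hz
  apply psi_eq_zero hR
  have hz' : ¬ ∀ k, 0 ≤ cellIdx 0 ℓ z k ∧ cellIdx 0 ℓ z k < M := by
    intro h
    apply hz
    show cellIdx 0 ℓ z ∈ Fintype.piFinset (fun _ : Fin 3 => Finset.Ico (0 : ℤ) M)
    rw [Fintype.mem_piFinset]
    intro k
    rw [Finset.mem_Ico]
    exact h k
  push Not at hz'
  obtain ⟨k, hk⟩ := hz'
  have h1 := (mem_cell_iff (t := 0) hℓ z (cellIdx 0 ℓ z)).mp rfl k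
  refine le_trans ?_ (abs_coord_le_norm (corner 0 ℓ u - z) k)
  have h2 : (corner 0 ℓ u - z) k = (u k : ℝ) * ℓ - z k := by
    simp [corner]
  rw [h2]
  by_cases h0 : 0 ≤ cellIdx 0 ℓ z k
  · have h3 : (M : ℤ) ≤ cellIdx 0 ℓ z k := hk h0
    have h4 : (M : ℝ) ≤ (cellIdx 0 ℓ z k : ℝ) := by exact_mod_cast h3
    have h5 : (M : ℝ) * ℓ ≤ (cellIdx 0 ℓ z k : ℝ) * ℓ := by gcongr
    rw [abs_sub_comm]
    refine le_trans ?_ (le_abs_self _)
    linarith [h1.1, (hu k).2]
  · push Not at h0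
    have h3 : cellIdx 0 ℓ z k + 1 ≤ 0 := by omega
    have h4 : ((cellIdx 0 ℓ z k : ℝ) + 1) ≤ 0 := by exact_mod_cast h3
    have h5 : ((cellIdx 0 ℓ z k : ℝ) + 1) * ℓ ≤ 0 := mul_nonpos_of_nonpos_of_nonneg h4 hℓ.le
    refine le_trans ?_ (le_abs_self _)
    linarith [h1.2, (hu k).1]

/-- (Low) -/
theorem le_dbl_psi {R ℓ' : ℝ} (hℓ' : 0 < ℓ') (hR : 4 * ℓ' < R) {M n : ℕ} (hM : 2 * R ≤ M * ℓ')
    (s : Multiset Pt)
    (hs : ∀ v : Fin 3 → ℤ, (∀ k, 0 ≤ v k ∧ v k < M) → cnt 0 ℓ' s v = n) :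
    (1 - 4 * ℓ' / R) ^ 4 * ((n : ℝ) / ℓ' ^ 3) ^ 2 * (M * ℓ' - 2 * R) ^ 3 ≤ dbl (psi R) s := by
  classical
  have hR0 : 0 < R := by linarith
  have hR' : 0 < R - 4 * ℓ' := by linarith
  set C := (1 - 4 * ℓ' / R) ^ 4 / ℓ' ^ 3 with hC
  have hC0 : 0 ≤ C := by positivity
  set Bx := Fintype.piFinset (fun _ : Fin 3 => Finset.Ico (0 : ℤ) M) with hBx
  set U := Fintype.piFinset (fun _ : Fin 3 =>
    Finset.Icc ⌈(R - 4 * ℓ') / ℓ'⌉ ⌊(M : ℝ) - (R - 4 * ℓ') / ℓ'⌋) with hU
  have hUmem : ∀ u ∈ U, ∀ k, R - 4 * ℓ' ≤ (u k : ℝ) * ℓ' ∧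
      (u k : ℝ) * ℓ' ≤ M * ℓ' - (R - 4 * ℓ') := by
    intro u hu k
    rw [hU, Fintype.mem_piFinset] at hu
    have h1 := hu k
    rw [Finset.mem_Icc, Int.ceil_le, Int.le_floor] at h1
    constructor
    · rw [← div_le_iff₀ hℓ']; exact h1.1
    · have := mul_le_mul_of_nonneg_right h1.2 hℓ'.le
      rw [sub_mul, div_mul_cancel₀ _ hℓ'.ne'] at this
      exact this
  have hUB : ∀ u ∈ U, ∀ k, 0 ≤ u k ∧ u k < M := by
    intro u hu k
    have h1 := hUmem u hu k
    constructor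
    · have : (0 : ℝ) < (u k : ℝ) := by
        by_contra h
        push Not at h
        have : (u k : ℝ) * ℓ' ≤ 0 := mul_nonpos_of_nonpos_of_nonneg h hℓ'.le
        linarith [h1.1]
      exact_mod_cast this.le
    · have : (u k : ℝ) < (M : ℝ) := by
        by_contra h
        push Not at h
        have : (M : ℝ) * ℓ' ≤ (u k : ℝ) * ℓ' := by gcongr
        linarith [h1.2]
      exact_mod_cast this
  have hcard : (((M : ℝ) * ℓ' - 2 * R) / ℓ') ^ 3 ≤ (U.card : ℝ) := by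
    rw [hU, Fintype.card_piFinset]
    simp only [Finset.prod_const, Finset.card_univ, Fintype.card_fin]
    rw [Int.card_Icc]
    push_cast
    apply pow_le_pow_left₀
    · apply div_nonneg _ hℓ'.le
      linarith
    · have h1 : (((⌊(M : ℝ) - (R - 4 * ℓ') / ℓ'⌋ + 1 - ⌈(R - 4 * ℓ') / ℓ'⌉ : ℤ)) : ℝ) ≤
          (((⌊(M : ℝ) - (R - 4 * ℓ') / ℓ'⌋ + 1 - ⌈(R - 4 * ℓ') / ℓ'⌉ : ℤ).toNat : ℤ) : ℝ) := by
        exact_mod_cast Int.self_le_toNat _
      refine le_trans ?_ h1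
      push_cast
      have h2 := Int.sub_one_lt_floor ((M : ℝ) - (R - 4 * ℓ') / ℓ')
      have h3 := Int.ceil_lt_add_one ((R - 4 * ℓ') / ℓ')
      have h4 : ((M : ℝ) * ℓ' - 2 * R) / ℓ' = (M : ℝ) - 2 * ((R - 4 * ℓ') / ℓ') - 8 := by
        field_simp; ring
      rw [h4]
      linarith
  have hinner : ∀ a ∈ s, (if cellIdx 0 ℓ' a ∈ U then C * n else 0) ≤
      (s.map fun b => psi R (dist a b)).sum := by
    intro a _
    have h0 : (s.map fun b => if cellIdx 0 ℓ' b ∈ Bx then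
        C * KK (R - 4 * ℓ') 0 ℓ' (cellIdx 0 ℓ' a) (cellIdx 0 ℓ' b) else 0).sum ≤
        (s.map fun b => psi R (dist a b)).sum := by
      apply Multiset.sum_map_le_sum_map
      intro b _
      split_ifs
      · exact KK_le_psi hR hℓ' a b
      · exact psi_nonneg hR0 _
    split_ifs with ha
    · refine le_trans (le_of_eq ?_) h0
      have h1 := sum_map_ite_cell 0 ℓ' s Bx
        (fun v => C * KK (R - 4 * ℓ') 0 ℓ' (cellIdx 0 ℓ' a) v)
      rw [h1]
      have h2 : ∀ v ∈ Bx, (cnt 0 ℓ' s v : ℝ) *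
          (C * KK (R - 4 * ℓ') 0 ℓ' (cellIdx 0 ℓ' a) v) =
          (C * n) * KK (R - 4 * ℓ') 0 ℓ' (cellIdx 0 ℓ' a) v := by
        intro v hv
        rw [hBx, Fintype.mem_piFinset] at hv
        rw [hs v (fun k => Finset.mem_Ico.mp (hv k))]
        ring
      rw [Finset.sum_congr rfl h2, ← Finset.mul_sum,
        sum_KK_box hR' hℓ' (cellIdx 0 ℓ' a) (hUmem _ ha), mul_one]
    · apply Multiset.sum_nonneg
      intro x hx
      rw [Multiset.mem_map] at hx
      obtain ⟨b, _, rfl⟩ := hx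
      exact psi_nonneg hR0 _
  calc (1 - 4 * ℓ' / R) ^ 4 * ((n : ℝ) / ℓ' ^ 3) ^ 2 * (M * ℓ' - 2 * R) ^ 3
      = (n : ℝ) * (C * n) * (((M : ℝ) * ℓ' - 2 * R) / ℓ') ^ 3 := by
        rw [hC]; field_simp
    _ ≤ (n : ℝ) * (C * n) * (U.card : ℝ) := by gcongr
    _ = ∑ u ∈ U, (cnt 0 ℓ' s u : ℝ) * (C * n) := by
        have h2 : ∀ u ∈ U, (cnt 0 ℓ' s u : ℝ) * (C * n) = (n : ℝ) * (C * n) := by
          intro u hu
          rw [hs u (hUB u hu)]
        rw [Finset.sum_congr rfl h2, Finset.sum_const, nsmul_eq_mul]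
        ring
    _ = (s.map fun a => if cellIdx 0 ℓ' a ∈ U then C * n else 0).sum := by
        rw [sum_map_ite_cell 0 ℓ' s U (fun _ => C * n)]
    _ ≤ (s.map fun a => (s.map fun b => psi R (dist a b)).sum).sum := by
        apply Multiset.sum_map_le_sum_map
        exact hinner
    _ = dbl (psi R) s := rfl

end Crest.Agent.R149
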