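import Mathlib

/-!
PIECE K (kink of `β ↦ G β ρ` at the triple point).  Pure real analysis.

Fix `ρ ∈ (v 0 + τ, v 2 - τ)`.  For `ε > 0` take `w_i, u_i` from `happ`.  Concavity of `G β` and
`ρ = Σ λ_i w_i` give `νs ρ + G β ρ ≥ Ps + (Σ λ_i u_i)(β-βs) - ε` for every such representation;
with `(w_0,w_2)` the slope is `U = ((w_2-ρ)u_0 + (ρ-w_0)u_2)/(w_2-w_0)`; through `w_1` (with `w_0` if
`ρ ≤ w_1`, with `w_2` otherwise) the slope `U'` satisfies `U' ≤ U - M'` with `M' > 0` depending only on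
`ρ, v, τ, M` (by `hnc`; if `ρ ≤ w_1` the weight of `w_1` is `(ρ-w_0)/(w_1-w_0) ≥ (ρ-v 0-τ)/(v 1 - v 0+2τ)`, etc.).
For `β > βs` use `U`, for `β < βs` use `U'`:
`(G β ρ - G βs ρ)/(β-βs) ≥ U - ε/(β-βs)` for `β > βs` and `≤ U' + ε/(βs-β)` for `β < βs`
(as `G βs ρ ≤ Ps - νs ρ`).  So the difference of the two quotients is `≥ M' - ε(…)`; let `ε → 0`; then
`β → βs±`: the one-sided derivatives exist by convexity and `Dr - Dl ≥ M'`.
-/

set_option autoImplicit false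

namespace Crest.Agent.R149

theorem kink_gap_left {w0 w1 w2 u0 u1 u2 ρ M : ℝ} (d01 : w0 < w1) (d12 : w1 < w2)
    (hρ : w0 ≤ ρ) (hn : (u1 + M) * (w2 - w0) ≤ (w2 - w1) * u0 + (w1 - w0) * u2) :
    ((w1 - ρ) / (w1 - w0) * u0 + (ρ - w0) / (w1 - w0) * u1) + M * ((ρ - w0) / (w1 - w0)) ≤
      ((w2 - ρ) / (w2 - w0) * u0 + (ρ - w0) / (w2 - w0) * u2) := by
  have e01 : 0 < w1 - w0 := by linarith
  have e02 : 0 < w2 - w0 := by linarith
  have e1 : ((w1 - ρ) / (w1 - w0) * u0 + (ρ - w0) / (w1 - w0) * u1) +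
      M * ((ρ - w0) / (w1 - w0)) = ((w1 - ρ) * u0 + (ρ - w0) * (u1 + M)) / (w1 - w0) := by
    ring
  have e2 : ((w2 - ρ) / (w2 - w0) * u0 + (ρ - w0) / (w2 - w0) * u2) =
      ((w2 - ρ) * u0 + (ρ - w0) * u2) / (w2 - w0) := by
    ring
  rw [e1, e2, div_le_div_iff₀ e01 e02]
  have h := mul_le_mul_of_nonneg_left hn (sub_nonneg.2 hρ)
  have e3 : ((w1 - ρ) * u0 + (ρ - w0) * (u1 + M)) * (w2 - w0) =
      (w1 - ρ) * u0 * (w2 - w0) + (ρ - w0) * ((u1 + M) * (w2 - w0)) := by ring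
  have e4 : ((w2 - ρ) * u0 + (ρ - w0) * u2) * (w1 - w0) =
      (w1 - ρ) * u0 * (w2 - w0) + (ρ - w0) * ((w2 - w1) * u0 + (w1 - w0) * u2) := by ring
  rw [e3, e4]
  linarith

theorem kink_gap_right {w0 w1 w2 u0 u1 u2 ρ M : ℝ} (d01 : w0 < w1) (d12 : w1 < w2)
    (hρ : ρ ≤ w2) (hn : (u1 + M) * (w2 - w0) ≤ (w2 - w1) * u0 + (w1 - w0) * u2) :
    ((w2 - ρ) / (w2 - w1) * u1 + (ρ - w1) / (w2 - w1) * u2) + M * ((w2 - ρ) / (w2 - w1)) ≤
      ((w2 - ρ) / (w2 - w0) * u0 + (ρ - w0) / (w2 - w0) * u2) := by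
  have e12 : 0 < w2 - w1 := by linarith
  have e02 : 0 < w2 - w0 := by linarith
  have e1 : ((w2 - ρ) / (w2 - w1) * u1 + (ρ - w1) / (w2 - w1) * u2) +
      M * ((w2 - ρ) / (w2 - w1)) = ((w2 - ρ) * (u1 + M) + (ρ - w1) * u2) / (w2 - w1) := by
    ring
  have e2 : ((w2 - ρ) / (w2 - w0) * u0 + (ρ - w0) / (w2 - w0) * u2) =
      ((w2 - ρ) * u0 + (ρ - w0) * u2) / (w2 - w0) := by
    ring
  rw [e1, e2, div_le_div_iff₀ e12 e02]
  have h := mul_le_mul_of_nonneg_left hn (sub_nonneg.2 hρ)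
  have e3 : ((w2 - ρ) * (u1 + M) + (ρ - w1) * u2) * (w2 - w0) =
      (ρ - w1) * u2 * (w2 - w0) + (w2 - ρ) * ((u1 + M) * (w2 - w0)) := by ring
  have e4 : ((w2 - ρ) * u0 + (ρ - w0) * u2) * (w2 - w1) =
      (ρ - w1) * u2 * (w2 - w0) + (w2 - ρ) * ((w2 - w1) * u0 + (w1 - w0) * u2) := by ring
  rw [e3, e4]
  linarith

theorem kink_jensen {f : ℝ → ℝ} (hf : ConcaveOn ℝ (Set.Ici 0) f) {wa wb ua ub ρ P N d ε : ℝ}
    (h0 : 0 ≤ wa) (hab : wa < wb) (haρ : wa ≤ ρ) (hρb : ρ ≤ wb)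
    (ha : P + ua * d - ε ≤ N * wa + f wa) (hb : P + ub * d - ε ≤ N * wb + f wb) :
    P + ((wb - ρ) / (wb - wa) * ua + (ρ - wa) / (wb - wa) * ub) * d - ε ≤ N * ρ + f ρ := by
  have dab : 0 < wb - wa := by linarith
  have l0 : 0 ≤ (wb - ρ) / (wb - wa) := div_nonneg (by linarith) dab.le
  have l1 : 0 ≤ (ρ - wa) / (wb - wa) := div_nonneg (by linarith) dab.le
  have lsum : (wb - ρ) / (wb - wa) + (ρ - wa) / (wb - wa) = 1 := by
    rw [← add_div, div_eq_one_iff_eq dab.ne']; ring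
  have e : (wb - ρ) / (wb - wa) * wa + (ρ - wa) / (wb - wa) * wb = ρ := by
    rw [div_mul_eq_mul_div, div_mul_eq_mul_div, ← add_div, div_eq_iff dab.ne']; ring
  have hc := hf.2 (show wa ∈ Set.Ici (0 : ℝ) from h0)
    (show wb ∈ Set.Ici (0 : ℝ) from h0.trans hab.le) l0 l1 lsum
  simp only [smul_eq_mul] at hc
  rw [e] at hc
  have m0 := mul_le_mul_of_nonneg_left ha l0
  have m1 := mul_le_mul_of_nonneg_left hb l1
  generalize (wb - ρ) / (wb - wa) = c0 at *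
  generalize (ρ - wa) / (wb - wa) = c1 at *
  have hc0 : c0 = 1 - c1 := by linarith
  subst hc0
  have e' : N * ρ = N * ((1 - c1) * wa + c1 * wb) := by rw [e]
  rw [e']
  linarith

theorem kink_gap {v s : Fin 3 → ℝ} {τ err M : ℝ} (hτ : 0 < τ) (hM : 0 < M)
    (hv01 : v 0 + 2 * τ < v 1) (hv12 : v 1 + 2 * τ < v 2)
    (hnc : ∀ w u : Fin 3 → ℝ, (∀ i, |w i - v i| ≤ τ) → (∀ i, |u i - s i| ≤ err) →
      u 1 + M ≤ ((w 2 - w 1) * u 0 + (w 1 - w 0) * u 2) / (w 2 - w 0))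
    {ρ : ℝ} (hρ : v 0 + τ < ρ) (hρ' : ρ < v 2 - τ) :
    ∃ M' : ℝ, 0 < M' ∧ ∀ w0 w1 w2 u0 u1 u2 : ℝ,
      |w0 - v 0| ≤ τ → |w1 - v 1| ≤ τ → |w2 - v 2| ≤ τ →
      |u0 - s 0| ≤ err → |u1 - s 1| ≤ err → |u2 - s 2| ≤ err →
      (ρ ≤ w1 → ((w1 - ρ) / (w1 - w0) * u0 + (ρ - w0) / (w1 - w0) * u1) + M' ≤
        ((w2 - ρ) / (w2 - w0) * u0 + (ρ - w0) / (w2 - w0) * u2)) ∧
      (w1 ≤ ρ → ((w2 - ρ) / (w2 - w1) * u1 + (ρ - w1) / (w2 - w1) * u2) + M' ≤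
        ((w2 - ρ) / (w2 - w0) * u0 + (ρ - w0) / (w2 - w0) * u2)) := by
  have hda : 0 < v 1 - v 0 + 2 * τ := by linarith
  have hdb : 0 < v 2 - v 1 + 2 * τ := by linarith
  have ha : 0 < (ρ - v 0 - τ) / (v 1 - v 0 + 2 * τ) := div_pos (by linarith) hda
  have hb : 0 < (v 2 - τ - ρ) / (v 2 - v 1 + 2 * τ) := div_pos (by linarith) hdb
  refine ⟨M * min ((ρ - v 0 - τ) / (v 1 - v 0 + 2 * τ)) ((v 2 - τ - ρ) / (v 2 - v 1 + 2 * τ)),
    mul_pos hM (lt_min ha hb), ?_⟩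
  intro w0 w1 w2 u0 u1 u2 h0 h1 h2 k0 k1 k2
  have hn := hnc ![w0, w1, w2] ![u0, u1, u2] (by
    intro i; fin_cases i
    · exact h0
    · exact h1
    · exact h2) (by
    intro i; fin_cases i
    · exact k0
    · exact k1
    · exact k2)
  change u1 + M ≤ ((w2 - w1) * u0 + (w1 - w0) * u2) / (w2 - w0) at hn
  have h0' := abs_le.1 h0
  have h1' := abs_le.1 h1
  have h2' := abs_le.1 h2
  have d01 : w0 < w1 := by linarith
  have d12 : w1 < w2 := by linarith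
  rw [le_div_iff₀ (by linarith)] at hn
  constructor
  · intro hle
    have hμ : (ρ - v 0 - τ) / (v 1 - v 0 + 2 * τ) ≤ (ρ - w0) / (w1 - w0) :=
      div_le_div₀ (by linarith) (by linarith) (by linarith) (by linarith)
    have hmin := mul_le_mul_of_nonneg_left ((min_le_left _
      ((v 2 - τ - ρ) / (v 2 - v 1 + 2 * τ))).trans hμ) hM.le
    have := kink_gap_left d01 d12 (show w0 ≤ ρ by linarith) hn
    linarith
  · intro hle
    have hμ : (v 2 - τ - ρ) / (v 2 - v 1 + 2 * τ) ≤ (w2 - ρ) / (w2 - w1) :=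
      div_le_div₀ (by linarith) (by linarith) (by linarith) (by linarith)
    have hmin := mul_le_mul_of_nonneg_left ((min_le_right
      ((ρ - v 0 - τ) / (v 1 - v 0 + 2 * τ)) _).trans hμ) hM.le
    have := kink_gap_right d01 d12 (show ρ ≤ w2 by linarith) hn
    linarith

theorem kink (G : ℝ → ℝ → ℝ) (βs νs Ps : ℝ) (v s : Fin 3 → ℝ) (τ err M : ℝ)
    (hβ : 7 / 8 ≤ βs) (hβ' : βs ≤ 9 / 8) (hτ : 0 < τ) (hM : 0 < M)
    (hv01 : v 0 + 2 * τ < v 1) (hv12 : v 1 + 2 * τ < v 2) (hv0 : 0 ≤ v 0)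
    (hconc : ∀ β : ℝ, 0 < β → ConcaveOn ℝ (Set.Ici 0) (G β))
    (hconv : ∀ ρ : ℝ, 0 ≤ ρ → ConvexOn ℝ (Set.Ioi 0) (fun β => G β ρ))
    (hP : ∀ ρ : ℝ, 0 ≤ ρ → νs * ρ + G βs ρ ≤ Ps)
    (happ : ∀ (i : Fin 3) (ε : ℝ), 0 < ε → ∃ w u : ℝ, 0 ≤ w ∧ |w - v i| ≤ τ ∧ |u - s i| ≤ err ∧
      ∀ β : ℝ, 3 / 4 ≤ β → β ≤ 5 / 4 → Ps + u * (β - βs) - ε ≤ νs * w + G β w)
    (hnc : ∀ w u : Fin 3 → ℝ, (∀ i, |w i - v i| ≤ τ) → (∀ i, |u i - s i| ≤ err) →
      u 1 + M ≤ ((w 2 - w 1) * u 0 + (w 1 - w 0) * u 2) / (w 2 - w 0))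
    (ρ : ℝ) (hρ : v 0 + τ < ρ) (hρ' : ρ < v 2 - τ) :
    ∃ Dl Dr : ℝ, HasDerivWithinAt (fun β => G β ρ) Dl (Set.Iio βs) βs ∧
      HasDerivWithinAt (fun β => G β ρ) Dr (Set.Ioi βs) βs ∧ Dl < Dr := by
  obtain ⟨M', hM', hgap⟩ := kink_gap hτ hM hv01 hv12 hnc hρ hρ'
  have hρ0 : 0 ≤ ρ := by linarith
  -- the main inequality between slopes
  have main : ∀ βp βm : ℝ, βs < βp → βp ≤ 5 / 4 → 3 / 4 ≤ βm → βm < βs →
      (G βs ρ - G βm ρ) / (βs - βm) + M' ≤ (G βp ρ - G βs ρ) / (βp - βs) := by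
    intro βp βm hp1 hp2 hm1 hm2
    have dp : 0 < βp - βs := by linarith
    have dm : 0 < βs - βm := by linarith
    have hε : ∀ ε : ℝ, 0 < ε → (G βs ρ - G βm ρ) / (βs - βm) + M' ≤
        (G βp ρ - G βs ρ) / (βp - βs) + ε * (1 / (βp - βs) + 1 / (βs - βm)) := by
      intro ε hε
      choose w u hw0 hwv hus happr using fun i => happ i ε hε
      have h0' := abs_le.1 (hwv 0)
      have h1' := abs_le.1 (hwv 1)
      have h2' := abs_le.1 (hwv 2)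
      have hU := kink_jensen (hconc βp (by linarith)) (hw0 0) (show w 0 < w 2 by linarith)
        (show w 0 ≤ ρ by linarith) (show ρ ≤ w 2 by linarith)
        (happr 0 βp (by linarith) hp2) (happr 2 βp (by linarith) hp2)
      obtain ⟨g1, g2⟩ := hgap (w 0) (w 1) (w 2) (u 0) (u 1) (u 2) (hwv 0) (hwv 1) (hwv 2)
        (hus 0) (hus 1) (hus 2)
      generalize ((w 2 - ρ) / (w 2 - w 0) * u 0 + (ρ - w 0) / (w 2 - w 0) * u 2) = U at *
      have hPs := hP ρ hρ0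
      obtain ⟨U', hU'1, hU'2⟩ : ∃ U' : ℝ, U' + M' ≤ U ∧
          Ps + U' * (βm - βs) - ε ≤ νs * ρ + G βm ρ := by
        rcases le_total ρ (w 1) with h | h
        · exact ⟨_, g1 h, kink_jensen (hconc βm (by linarith)) (hw0 0)
            (show w 0 < w 1 by linarith) (show w 0 ≤ ρ by linarith) h
            (happr 0 βm hm1 (by linarith)) (happr 1 βm hm1 (by linarith))⟩
        · exact ⟨_, g2 h, kink_jensen (hconc βm (by linarith)) (hw0 1)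
            (show w 1 < w 2 by linarith) h (show ρ ≤ w 2 by linarith)
            (happr 1 βm hm1 (by linarith)) (happr 2 βm hm1 (by linarith))⟩
      have q1 : U - ε / (βp - βs) ≤ (G βp ρ - G βs ρ) / (βp - βs) := by
        rw [le_div_iff₀ dp, sub_mul, div_mul_cancel₀ _ dp.ne']
        linarith
      have q2 : (G βs ρ - G βm ρ) / (βs - βm) ≤ U' + ε / (βs - βm) := by
        rw [div_le_iff₀ dm, add_mul, div_mul_cancel₀ _ dm.ne']
        linarith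
      have e3 : ε * (1 / (βp - βs) + 1 / (βs - βm)) = ε / (βp - βs) + ε / (βs - βm) := by ring
      rw [e3]
      linarith
    set K := (1 / (βp - βs) + 1 / (βs - βm)) with hK
    have hKpos : 0 < K := by positivity
    apply le_of_forall_pos_le_add
    intro δ hδ
    have := hε (δ / K) (div_pos hδ hKpos)
    rwa [div_mul_cancel₀ _ hKpos.ne'] at this
  have hint : βs ∈ interior (Set.Ioi (0 : ℝ)) := by
    rw [interior_Ioi]; exact lt_of_lt_of_le (by norm_num) hβ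
  have hR := (hconv ρ hρ0).hasDerivWithinAt_sInf_slope_of_mem_interior hint
  have hL := (hconv ρ hρ0).hasDerivWithinAt_sSup_slope_of_mem_interior hint
  generalize sInf (slope (fun β => G β ρ) βs '' {y | y ∈ Set.Ioi (0 : ℝ) ∧ βs < y}) = Dr at hR
  generalize sSup (slope (fun β => G β ρ) βs '' {y | y ∈ Set.Ioi (0 : ℝ) ∧ y < βs}) = Dl at hL
  refine ⟨Dl, Dr, hL, hR, ?_⟩
  have hR' := (hasDerivWithinAt_iff_tendsto_slope' Set.self_notMem_Ioi).mp hR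
  have hL' := (hasDerivWithinAt_iff_tendsto_slope' Set.self_notMem_Iio).mp hL
  have step1 : ∀ βm : ℝ, 3 / 4 ≤ βm → βm < βs →
      (G βs ρ - G βm ρ) / (βs - βm) + M' ≤ Dr := by
    intro βm h1 h2
    apply ge_of_tendsto hR'
    have : Set.Ioc βs (5 / 4) ∈ nhdsWithin βs (Set.Ioi βs) :=
      Ioc_mem_nhdsGT (by linarith)
    filter_upwards [this] with βp hβp
    rw [slope_def_field]
    exact main βp βm hβp.1 hβp.2 h1 h2
  have step2 : Dl + M' ≤ Dr := by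
    have : Dl ≤ Dr - M' := by
      apply le_of_tendsto hL'
      have : Set.Ico (3 / 4) βs ∈ nhdsWithin βs (Set.Iio βs) :=
        Ico_mem_nhdsLT (by linarith)
      filter_upwards [this] with βm hβm
      have h3 := step1 βm hβm.1 hβm.2
      rw [slope_def_field]
      have e4 : (G βm ρ - G βs ρ) / (βm - βs) = (G βs ρ - G βm ρ) / (βs - βm) := by
        rw [← neg_sub (G βs ρ), ← neg_sub βs βm, neg_div_neg_eq]
      rw [e4]
      linarith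
    linarith
  linarith

end Crest.Agent.R149
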