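import Crest.Agent.R149.Config

/-!
PIECE H (lower bounds: superadditivity, and Lemma L).

Cells of spacing `ℓ+2`: `Q_v = {x | ∀ k, v_k (ℓ+2) ≤ x_k ≤ v_k (ℓ+2) + ℓ}`, `v ∈ {0..M-1}³`, all in
`cube L` when `M(ℓ+2) ≤ L`; different ones are at distance `≥ 2`.  Use `blocks_le_Jn`,
`En_le_sum_En` and translation invariance.
-/

set_option autoImplicit false

namespace Crest.Agent.R149

open MeasureTheory Crest.ProbabilityR.Continuum
open scoped ENNReal BigOperators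

/-- the corner of the cell with index `v` (spacing `ℓ + 2`) -/
noncomputable def cornL (ℓ : ℝ) {M : ℕ} (v : Fin 3 → Fin M) : Pt :=
  WithLp.toLp 2 (fun k => (v k : ℝ) * (ℓ + 2))

/-- the cell with index `v` -/
def cellL (ℓ : ℝ) {M : ℕ} (v : Fin 3 → Fin M) : Set Pt :=
  {x | ∀ k, (v k : ℝ) * (ℓ + 2) ≤ x k ∧ x k ≤ (v k : ℝ) * (ℓ + 2) + ℓ}

theorem cellL_eq (ℓ : ℝ) {M : ℕ} (v : Fin 3 → Fin M) :
    cellL ℓ v = (fun a => a + cornL ℓ v) '' cube ℓ := by
  ext x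
  simp only [cellL, Set.mem_setOf_eq, Set.mem_image, cube]
  constructor
  · intro h
    refine ⟨x - cornL ℓ v, fun k => ?_, by simp⟩
    have := h k
    simp only [PiLp.sub_apply, cornL]
    constructor <;> linarith [this.1, this.2]
  · rintro ⟨a, ha, rfl⟩ k
    have := ha k
    simp only [PiLp.add_apply, cornL]
    constructor <;> linarith [this.1, this.2]

theorem measurableSet_cellL (ℓ : ℝ) {M : ℕ} (v : Fin 3 → Fin M) : MeasurableSet (cellL ℓ v) := by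
  have : cellL ℓ v = ⋂ k, {x : Pt | (v k : ℝ) * (ℓ + 2) ≤ x k ∧ x k ≤ (v k : ℝ) * (ℓ + 2) + ℓ} := by
    ext x; simp [cellL]
  rw [this]
  refine MeasurableSet.iInter fun k => ?_
  have hm : Measurable (fun x : Pt => x k) := (EuclideanSpace.proj k).continuous.measurable
  exact (measurableSet_le measurable_const hm).inter (measurableSet_le hm measurable_const)

theorem cellIdx_cellL {ℓ : ℝ} (hℓ : 0 < ℓ) {M : ℕ} {v : Fin 3 → Fin M} {x : Pt}
    (hx : x ∈ cellL ℓ v) : cellIdx 0 (ℓ + 2) x = fun k => ((v k : ℕ) : ℤ) := by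
  funext k
  have h := hx k
  have hpos : 0 < ℓ + 2 := by linarith
  simp only [cellIdx, add_zero]
  rw [Int.floor_eq_iff]
  constructor
  · rw [le_div_iff₀ hpos]; push_cast; exact h.1
  · rw [div_lt_iff₀ hpos]; push_cast; linarith [h.2]

theorem natIdx_injective (M : ℕ) :
    Function.Injective (fun (v : Fin 3 → Fin M) => (fun k => ((v k : ℕ) : ℤ) : Fin 3 → ℤ)) := by
  intro v u h
  funext k
  have := congrFun h k
  simp only [Nat.cast_inj] at this
  exact Fin.ext this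

theorem cellL_disjoint {ℓ : ℝ} (hℓ : 0 < ℓ) {M : ℕ} {v u : Fin 3 → Fin M} (h : v ≠ u) :
    Disjoint (cellL ℓ v) (cellL ℓ u) := by
  rw [Set.disjoint_left]
  intro x hx hx'
  exact h (natIdx_injective M ((cellIdx_cellL hℓ hx).symm.trans (cellIdx_cellL hℓ hx')))

theorem cellL_subset {ℓ L : ℝ} (hℓ : 0 < ℓ) {M : ℕ} (hL : M * (ℓ + 2) ≤ L) (v : Fin 3 → Fin M) :
    cellL ℓ v ⊆ cube L := by
  intro x hx k
  have h := hx k
  have hpos : 0 < ℓ + 2 := by linarith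
  have h1 : ((v k : ℕ) : ℝ) + 1 ≤ M := by exact_mod_cast (v k).2
  constructor
  · have : 0 ≤ ((v k : ℕ) : ℝ) * (ℓ + 2) := by positivity
    linarith [h.1]
  · have : (((v k : ℕ) : ℝ) + 1) * (ℓ + 2) ≤ M * (ℓ + 2) := by gcongr
    linarith [h.2]

theorem two_le_dist_cellL {ℓ : ℝ} (hℓ : 0 < ℓ) {M : ℕ} {v u : Fin 3 → Fin M} (h : v ≠ u)
    {a b : Pt} (ha : a ∈ cellL ℓ v) (hb : b ∈ cellL ℓ u) : 2 ≤ dist a b := by
  obtain ⟨k, hk⟩ := Function.ne_iff.1 h
  have hpos : 0 < ℓ + 2 := by linarith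
  have h1 := ha k
  have h2 := hb k
  have h3 : |a k - b k| ≤ dist a b := by
    rw [dist_eq_norm]
    have := PiLp.norm_apply_le (a - b) k
    simpa [Real.norm_eq_abs] using this
  refine le_trans ?_ h3
  have hne : (v k : ℕ) ≠ (u k : ℕ) := fun h' => hk (Fin.ext h')
  rcases lt_or_gt_of_ne hne with hlt | hlt
  · have h4 : ((v k : ℕ) : ℝ) + 1 ≤ ((u k : ℕ) : ℝ) := by exact_mod_cast hlt
    have h5 : (((v k : ℕ) : ℝ) + 1) * (ℓ + 2) ≤ ((u k : ℕ) : ℝ) * (ℓ + 2) := by gcongr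
    rw [abs_sub_comm]
    refine le_trans ?_ (le_abs_self _)
    linarith [h1.2, h2.1]
  · have h4 : ((u k : ℕ) : ℝ) + 1 ≤ ((v k : ℕ) : ℝ) := by exact_mod_cast hlt
    have h5 : (((u k : ℕ) : ℝ) + 1) * (ℓ + 2) ≤ ((v k : ℕ) : ℝ) * (ℓ + 2) := by gcongr
    refine le_trans ?_ (le_abs_self _)
    linarith [h2.2, h1.1]

theorem wt_map_add (φ : ℝ → ℝ) (β : ℝ) (c : Pt) (s : Multiset Pt) :
    wt φ β (s.map fun a => a + c) = wt φ β s := by
  unfold wt
  rw [En_map_add]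

theorem cut_congr {A B : Set Pt} {s : Multiset Pt} (h : ∀ a ∈ s, (a ∈ A ↔ a ∈ B)) :
    cut A s = cut B s := by
  classical
  unfold cut
  exact Multiset.filter_congr h

/-- For a configuration in the union of the cells, the grid cell with index `v` cuts the cell. -/
theorem cut_cellIdx {ℓ : ℝ} (hℓ : 0 < ℓ) {M : ℕ} {s : Multiset Pt}
    (hs : ∀ a ∈ s, ∃ v ∈ (Finset.univ : Finset (Fin 3 → Fin M)), a ∈ cellL ℓ v)
    (v : Fin 3 → Fin M) :
    cut {x | cellIdx 0 (ℓ + 2) x = fun k => ((v k : ℕ) : ℤ)} s = cut (cellL ℓ v) s := by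
  refine cut_congr fun a ha => ?_
  constructor
  · intro h
    obtain ⟨u, _, hu⟩ := hs a ha
    have h1 := (cellIdx_cellL hℓ hu).symm.trans h
    rw [← natIdx_injective M h1]
    exact hu
  · intro h
    exact cellIdx_cellL hℓ h

theorem En_le_cells {φ : ℝ → ℝ} (hneg : ∀ r, 2 ≤ r → φ r ≤ 0) {ℓ : ℝ} (hℓ : 0 < ℓ) {M : ℕ}
    {s : Multiset Pt}
    (hs : ∀ a ∈ s, ∃ v ∈ (Finset.univ : Finset (Fin 3 → Fin M)), a ∈ cellL ℓ v) :
    En φ s ≤ ∑ v : Fin 3 → Fin M, En φ (cut (cellL ℓ v) s) := by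
  classical
  have h := En_le_sum_En (cellIdx 0 (ℓ + 2))
    ((Finset.univ : Finset (Fin 3 → Fin M)).map ⟨_, natIdx_injective M⟩) φ s ?_ ?_
  · rw [Finset.sum_map] at h
    refine h.trans (le_of_eq (Finset.sum_congr rfl fun v _ => ?_))
    congr 1
    exact cut_cellIdx hℓ hs v
  · intro a ha
    obtain ⟨v, _, hv⟩ := hs a ha
    rw [Finset.mem_map]
    exact ⟨v, Finset.mem_univ _, (cellIdx_cellL hℓ hv).symm⟩
  · intro a ha b hb hab
    obtain ⟨v, _, hv⟩ := hs a ha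
    obtain ⟨u, _, hu⟩ := hs b hb
    refine hneg _ (two_le_dist_cellL hℓ (v := v) (u := u) ?_ hv hu)
    rintro rfl
    exact hab ((cellIdx_cellL hℓ hv).trans (cellIdx_cellL hℓ hu).symm)

theorem prod_wt_le {φ : ℝ → ℝ} (hneg : ∀ r, 2 ≤ r → φ r ≤ 0) {β : ℝ} (hβ : 0 ≤ β) {ℓ : ℝ}
    (hℓ : 0 < ℓ) {M : ℕ} {s : Multiset Pt}
    (hs : ∀ a ∈ s, ∃ v ∈ (Finset.univ : Finset (Fin 3 → Fin M)), a ∈ cellL ℓ v) :
    ∏ v : Fin 3 → Fin M, wt φ β (cut (cellL ℓ v) s) ≤ wt φ β s := by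
  unfold wt
  rw [← ENNReal.ofReal_prod_of_nonneg (fun _ _ => (Real.exp_pos _).le), ← Real.exp_sum,
    ← Finset.mul_sum]
  refine ENNReal.ofReal_le_ofReal (Real.exp_le_exp.2 ?_)
  have := mul_le_mul_of_nonneg_left (En_le_cells hneg hℓ hs) hβ
  linarith

/-- Blocks, all weights `wt φ β`. -/
theorem Jn_super_aux {φ : ℝ → ℝ} (hφ : Measurable φ) {β : ℝ}
    {ℓ L : ℝ} (hℓ : 0 < ℓ) {M : ℕ} (hL : M * (ℓ + 2) ≤ L)
    (n : (Fin 3 → Fin M) → ℕ) (W : Multiset Pt → ℝ≥0∞)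
    (hW : ∀ s : Multiset Pt,
      (∀ a ∈ s, ∃ v ∈ (Finset.univ : Finset (Fin 3 → Fin M)), a ∈ cellL ℓ v) →
      (∀ v ∈ (Finset.univ : Finset (Fin 3 → Fin M)),
        Multiset.card (cut (cellL ℓ v) s) = n v) →
        ∏ v : Fin 3 → Fin M, wt φ β (cut (cellL ℓ v) s) ≤ W s) :
    ∏ v, Jn (wt φ β) (cube ℓ) (n v) ≤ Jn W (cube L) (∑ v, n v) := by
  classical
  have h := blocks_le_Jn (Finset.univ : Finset (Fin 3 → Fin M)) (fun v => cellL ℓ v)
    (fun v _ => measurableSet_cellL ℓ v) (fun v _ u _ huv => cellL_disjoint hℓ huv)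
    (fun _ => wt φ β) (fun _ _ => MeasW_wt hφ β) W (cube L) (measurableSet_cube L)
    (fun v _ => cellL_subset hℓ hL v) n hW
  refine le_trans (le_of_eq (Finset.prod_congr rfl fun v _ => ?_)) h
  show Jn (wt φ β) (cube ℓ) (n v) = Jn (wt φ β) (cellL ℓ v) (n v)
  rw [cellL_eq, Jn_translate (cornL ℓ v) (fun s => wt_map_add φ β (cornL ℓ v) s)]

/-- Superadditivity for a potential nonpositive beyond distance `2`. -/
theorem Jn_super {φ : ℝ → ℝ} (hφ : Measurable φ) (hneg : ∀ r, 2 ≤ r → φ r ≤ 0) {β : ℝ}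
    (hβ : 0 ≤ β) {ℓ L : ℝ} (hℓ : 0 < ℓ) {M : ℕ} (hL : M * (ℓ + 2) ≤ L)
    (n : (Fin 3 → Fin M) → ℕ) :
    ∏ v, Jn (wt φ β) (cube ℓ) (n v) ≤ Jn (wt φ β) (cube L) (∑ v, n v) :=
  Jn_super_aux hφ hℓ hL n (wt φ β) fun _ hs _ => prod_wt_le hneg hβ hℓ hs

theorem card_eq_sum_cells {ℓ : ℝ} (hℓ : 0 < ℓ) {M : ℕ} {s : Multiset Pt}
    (hs : ∀ a ∈ s, ∃ v ∈ (Finset.univ : Finset (Fin 3 → Fin M)), a ∈ cellL ℓ v) :
    Multiset.card s = ∑ v : Fin 3 → Fin M, Multiset.card (cut (cellL ℓ v) s) := by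
  classical
  induction s using Multiset.induction_on with
  | empty => simp [cut]
  | cons a s ih =>
    have ih' := ih fun b hb => hs b (Multiset.mem_cons_of_mem hb)
    obtain ⟨u, _, hu⟩ := hs a (Multiset.mem_cons_self a s)
    have h1 : ∀ v : Fin 3 → Fin M, Multiset.card (cut (cellL ℓ v) (a ::ₘ s)) =
        Multiset.card (cut (cellL ℓ v) s) + if v = u then 1 else 0 := by
      intro v
      by_cases hv : v = u
      · subst hv
        unfold cut
        rw [Multiset.filter_cons_of_pos _ hu, Multiset.card_cons, if_pos rfl]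
      · have : a ∉ cellL ℓ v := fun ha => Set.disjoint_left.1 (cellL_disjoint hℓ hv) ha hu
        unfold cut
        rw [Multiset.filter_cons_of_neg _ this, if_neg hv, add_zero]
    rw [Multiset.card_cons, Finset.sum_congr rfl fun v _ => h1 v, Finset.sum_add_distrib, ← ih']
    simp

/-- Lemma L: gain from the extra attraction `t`.  For the configurations of the blocks all cells
of spacing `ℓ+2` contain exactly `n` points. -/
theorem lemmaL {φ t : ℝ → ℝ} (hφ : Measurable φ) (hneg : ∀ r, 2 ≤ r → φ r ≤ 0)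
    (ht : Measurable t) {β : ℝ} (hβ : 0 ≤ β) {ℓ L : ℝ} (hℓ : 0 < ℓ) {M n : ℕ}
    (hL : M * (ℓ + 2) ≤ L) {g : ℝ}
    (hlow : ∀ s : Multiset Pt,
      (∀ v : Fin 3 → ℤ, (∀ k, 0 ≤ v k ∧ v k < M) → cnt 0 (ℓ + 2) s v = n) → g ≤ dbl t s) :
    (Jn (wt φ β) (cube ℓ) n) ^ (M ^ 3) *
        ENNReal.ofReal (Real.exp (β * (g - (M : ℝ) ^ 3 * n * t 0) / 2)) ≤
      Jn (wt (fun r => φ r - t r) β) (cube L) (M ^ 3 * n) := by
  classical
  set C : ℝ := β * (g - (M : ℝ) ^ 3 * n * t 0) / 2 with hC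
  have hcard : Fintype.card (Fin 3 → Fin M) = M ^ 3 := by simp
  have hsum : ∑ _v : Fin 3 → Fin M, n = M ^ 3 * n := by
    rw [Finset.sum_const, Finset.card_univ, hcard, smul_eq_mul]
  have key := Jn_super_aux (W := fun s => ENNReal.ofReal (Real.exp (-C)) *
      wt (fun r => φ r - t r) β s) hφ (β := β) hℓ hL (fun _ => n) ?_
  · rw [Finset.prod_const, Finset.card_univ, hcard, hsum] at key
    rw [Jn_mul_card (fun _ => ENNReal.ofReal (Real.exp (-C))) (wt (fun r => φ r - t r) β)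
      (fun _ => ENNReal.ofReal_ne_top)] at key
    calc (Jn (wt φ β) (cube ℓ) n) ^ (M ^ 3) * ENNReal.ofReal (Real.exp C)
        ≤ (ENNReal.ofReal (Real.exp (-C)) *
            Jn (wt (fun r => φ r - t r) β) (cube L) (M ^ 3 * n)) *
            ENNReal.ofReal (Real.exp C) := by gcongr
      _ = (ENNReal.ofReal (Real.exp (-C)) * ENNReal.ofReal (Real.exp C)) *
            Jn (wt (fun r => φ r - t r) β) (cube L) (M ^ 3 * n) := by ring
      _ = Jn (wt (fun r => φ r - t r) β) (cube L) (M ^ 3 * n) := by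
          rw [← ENNReal.ofReal_mul (Real.exp_pos _).le, ← Real.exp_add, neg_add_cancel,
            Real.exp_zero, ENNReal.ofReal_one, one_mul]
  · intro s hs hn
    have hn' : ∀ v : Fin 3 → Fin M, Multiset.card (cut (cellL ℓ v) s) = n :=
      fun v => hn v (Finset.mem_univ v)
    have hcs : Multiset.card s = M ^ 3 * n := by
      rw [card_eq_sum_cells hℓ hs, Finset.sum_congr rfl fun v _ => hn' v, hsum]
    have hg : g ≤ dbl t s := by
      refine hlow s fun v hv => ?_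
      have hv' : ∀ k, (v k).toNat < M := fun k => by
        have := hv k; omega
      have h1 : (fun k => (((⟨(v k).toNat, hv' k⟩ : Fin M) : ℕ) : ℤ)) = v := by
        funext k
        exact Int.toNat_of_nonneg (hv k).1
      have h2 := cut_cellIdx hℓ hs (fun k => (⟨(v k).toNat, hv' k⟩ : Fin M))
      rw [h1] at h2
      unfold cnt
      rw [h2]
      exact hn' _
    have h3 : ENNReal.ofReal (Real.exp (-C)) * wt (fun r => φ r - t r) β s =
        ENNReal.ofReal (Real.exp (-C + -β * En (fun r => φ r - t r) s)) := by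
      unfold wt
      rw [← ENNReal.ofReal_mul (Real.exp_pos _).le, ← Real.exp_add]
    refine le_trans (prod_wt_le hneg hβ hℓ hs) ?_
    show wt φ β s ≤ ENNReal.ofReal (Real.exp (-C)) * wt (fun r => φ r - t r) β s
    rw [h3]
    unfold wt
    refine ENNReal.ofReal_le_ofReal (Real.exp_le_exp.2 ?_)
    rw [En_sub]
    have h4 : En t s = (dbl t s - (M : ℝ) ^ 3 * n * t 0) / 2 := by
      unfold En
      rw [hcs]; push_cast; ring
    rw [h4, hC]
    have h5 : β * g ≤ β * dbl t s := mul_le_mul_of_nonneg_left hg hβ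
    nlinarith [h5]

end Crest.Agent.R149
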