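import Crest.Agent.R149.Config

set_option autoImplicit false

namespace Crest.Agent.R149

open MeasureTheory Crest.ProbabilityR.Continuum
open scoped ENNReal BigOperators

/-- one-dimensional separation -/
theorem lemU_sep_one {p q w : ℝ} {M : ℕ} (hw : 0 < w) (hpq : p < q) (hlt : q - p < w)
    {j j' : ℕ} (hj : j < M) (hj' : j' < M)
    (h : ⌊(p + j * w) / (M * w)⌋ ≠ ⌊(q + j * w) / (M * w)⌋)
    (h' : ⌊(p + j' * w) / (M * w)⌋ ≠ ⌊(q + j' * w) / (M * w)⌋) : j = j' := by
  have hM : (0 : ℝ) < M := by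
    have : 0 < M := lt_of_le_of_lt (Nat.zero_le _) hj
    exact_mod_cast this
  have hMw : 0 < (M : ℝ) * w := by positivity
  have key : ∀ i : ℕ, ⌊(p + i * w) / (M * w)⌋ ≠ ⌊(q + i * w) / (M * w)⌋ →
      p < ⌊(q + i * w) / (M * w)⌋ * (M * w) - i * w ∧
        ⌊(q + i * w) / (M * w)⌋ * (M * w) - i * w ≤ q := by
    intro i hi
    have hle : ⌊(p + i * w) / (M * w)⌋ ≤ ⌊(q + i * w) / (M * w)⌋ := by
      apply Int.floor_le_floor
      apply div_le_div_of_nonneg_right _ hMw.le
      linarith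
    have hlt' : ⌊(p + i * w) / (M * w)⌋ < ⌊(q + i * w) / (M * w)⌋ := lt_of_le_of_ne hle hi
    have h1 : (p + i * w) / (M * w) < (⌊(q + i * w) / (M * w)⌋ : ℤ) := by
      exact Int.floor_lt.mp hlt'
    have h2 : ((⌊(q + i * w) / (M * w)⌋ : ℤ) : ℝ) ≤ (q + i * w) / (M * w) := Int.floor_le _
    rw [div_lt_iff₀ hMw] at h1
    rw [le_div_iff₀ hMw] at h2
    constructor <;> linarith
  obtain ⟨a1, a2⟩ := key j h
  obtain ⟨b1, b2⟩ := key j' h'
  set m : ℤ := ⌊(q + j * w) / (M * w)⌋ with hm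
  set m' : ℤ := ⌊(q + j' * w) / (M * w)⌋ with hm'
  have e : ((m : ℝ) * (M * w) - j * w) - ((m' : ℝ) * (M * w) - j' * w) =
      w * (((m - m') * M - ((j : ℤ) - j') : ℤ) : ℝ) := by
    push_cast
    ring
  have l1 : w * (((m - m') * M - ((j : ℤ) - j') : ℤ) : ℝ) < w * 1 := by
    rw [← e]; linarith
  have l2 : w * (-1) < w * (((m - m') * M - ((j : ℤ) - j') : ℤ) : ℝ) := by
    rw [← e]; linarith
  have l1' := lt_of_mul_lt_mul_left l1 hw.le
  have l2' := lt_of_mul_lt_mul_left l2 hw.le
  have l1'' : ((m - m') * M - ((j : ℤ) - j') : ℤ) < 1 := by exact_mod_cast l1'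
  have l2'' : (-1 : ℤ) < ((m - m') * M - ((j : ℤ) - j') : ℤ) := by exact_mod_cast l2'
  have hz : (m - m') * M = (j : ℤ) - j' := by omega
  have hjj : (j : ℤ) - j' = 0 := by
    apply Int.eq_zero_of_abs_lt_dvd (m := (M : ℤ))
    · exact ⟨m - m', by rw [← hz]; ring⟩
    · rw [abs_lt]; constructor <;> omega
  omega

theorem lemU_sep_card {R ℓ : ℝ} {M : ℕ} (hM : 0 < M) (hR : 0 < R) (hMR : M * R ≤ ℓ) (a b : Pt)
    (hab : dist a b < R) :
    ((Finset.range M).filter
      (fun j : ℕ => cellIdx (j * (ℓ / M)) ℓ a ≠ cellIdx (j * (ℓ / M)) ℓ b)).card ≤ 3 := by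
  classical
  have hM' : (0 : ℝ) < M := by exact_mod_cast hM
  set w : ℝ := ℓ / M with hw
  have hℓ : ℓ = M * w := by rw [hw]; field_simp
  have hRw : R ≤ w := by
    rw [hw, le_div_iff₀ hM']; linarith
  have hwpos : 0 < w := lt_of_lt_of_le hR hRw
  have hone : ∀ k : Fin 3, ((Finset.range M).filter
      (fun j : ℕ => ⌊(a k + j * w) / ℓ⌋ ≠ ⌊(b k + j * w) / ℓ⌋)).card ≤ 1 := by
    intro k
    have hd : |a k - b k| < w := by
      have h1 : |a k - b k| ≤ dist a b := by
        rw [EuclideanSpace.dist_eq]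
        apply Real.le_sqrt_of_sq_le
        rw [sq_abs]
        have := Finset.single_le_sum (f := fun i => dist (a i) (b i) ^ 2)
          (fun i _ => sq_nonneg _) (Finset.mem_univ k)
        simpa [Real.dist_eq, sq_abs] using this
      linarith
    rw [abs_lt] at hd
    rw [Finset.card_le_one]
    intro i hi j hj
    simp only [Finset.mem_filter, Finset.mem_range] at hi hj
    rw [hℓ] at hi hj
    rcases lt_trichotomy (a k) (b k) with h | h | h
    · exact lemU_sep_one hwpos h (by linarith) hi.1 hj.1 hi.2 hj.2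
    · exact absurd (by rw [h]) hi.2
    · exact lemU_sep_one hwpos h (by linarith) hi.1 hj.1 hi.2.symm hj.2.symm
  have hsub : (Finset.range M).filter
      (fun j : ℕ => cellIdx (j * w) ℓ a ≠ cellIdx (j * w) ℓ b) ⊆
      (Finset.univ : Finset (Fin 3)).biUnion (fun k => (Finset.range M).filter
      (fun j : ℕ => ⌊(a k + j * w) / ℓ⌋ ≠ ⌊(b k + j * w) / ℓ⌋)) := by
    intro j hj
    simp only [Finset.mem_filter, Finset.mem_range, Finset.mem_biUnion, Finset.mem_univ,
      true_and] at hj ⊢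
    obtain ⟨k, hk⟩ := Function.ne_iff.mp hj.2
    exact ⟨k, hj.1, hk⟩
  calc _ ≤ _ := Finset.card_le_card hsub
    _ ≤ ∑ k : Fin 3, _ := Finset.card_biUnion_le
    _ ≤ ∑ k : Fin 3, 1 := Finset.sum_le_sum (fun k _ => hone k)
    _ = 3 := by simp


theorem lemU_cut_eq (A : Set Pt) (s : Multiset Pt) [inst : DecidablePred (fun a => a ∈ A)] :
    cut A s = s.filter (fun a => a ∈ A) := by
  unfold cut
  congr

theorem lemU_card_split {I : Type} [DecidableEq I] (cell : Pt → I) (S : Finset I)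
    (s : Multiset Pt) (hs : ∀ a ∈ s, cell a ∈ S) :
    (Multiset.card s : ℝ) = ∑ v ∈ S, (Multiset.card (cut {x | cell x = v} s) : ℝ) := by
  classical
  induction s using Multiset.induction_on with
  | empty => simp [cut]
  | cons a s ih =>
    have ih' := ih (fun b hb => hs b (Multiset.mem_cons_of_mem hb))
    have ha : cell a ∈ S := hs a (Multiset.mem_cons_self a s)
    have hcard : ∀ v : I, (Multiset.card (cut {x | cell x = v} (a ::ₘ s)) : ℝ) =
        (if v = cell a then 1 else 0) + (Multiset.card (cut {x | cell x = v} s) : ℝ) := by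
      intro v
      rw [lemU_cut_eq, lemU_cut_eq]
      by_cases h : cell a = v
      · rw [Multiset.filter_cons_of_pos (p := fun a => a ∈ {x | cell x = v}) _ h]
        simp [h]
        ring
      · rw [Multiset.filter_cons_of_neg (p := fun a => a ∈ {x | cell x = v}) _ h]
        have h' : ¬ v = cell a := fun hh => h hh.symm
        simp [h']
    simp only [hcard]
    rw [Finset.sum_add_distrib, ← ih']
    simp [ha]
    ring

theorem lemU_cross_conf {I : Type} [DecidableEq I] (cell : Pt → I) (f : ℝ → ℝ) {n : ℕ}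
    (x : Fin n → Pt) :
    ((conf x).map fun a => ((cut {y | cell y ≠ cell a} (conf x)).map
      fun b => f (dist a b)).sum).sum =
    ∑ i, ∑ j, (if cell (x j) ≠ cell (x i) then f (dist (x i) (x j)) else 0) := by
  have hc : ∀ a, cut {y | cell y ≠ cell a} (conf x) =
      (conf x).filter (fun y => cell y ≠ cell a) := fun a => lemU_cut_eq _ _
  simp only [hc]
  unfold conf
  rw [Multiset.map_map]
  change Finset.sum Finset.univ _ = _
  refine Finset.sum_congr rfl (fun i _ => ?_)
  simp only [Function.comp]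
  rw [Multiset.filter_map, Multiset.map_map]
  have : (Multiset.filter ((fun a => cell a ≠ cell (x i)) ∘ x) Finset.univ.val) =
      (Finset.univ.filter (fun j => cell (x j) ≠ cell (x i))).val := by
    rfl
  rw [this]
  change Finset.sum _ _ = _
  rw [Finset.sum_filter]
  rfl

theorem lemU_cross_sum {T₁ : ℝ → ℝ} (hT0 : ∀ r, 0 ≤ T₁ r) {R ℓ : ℝ} (hR : 0 < R)
    (hTR : ∀ r, R ≤ r → T₁ r = 0) {M : ℕ} (hM : 0 < M) (hMR : M * R ≤ ℓ) (s : Multiset Pt) :
    ∑ j ∈ Finset.range M, (s.map fun a => ((cut {y | cellIdx (j * (ℓ / M)) ℓ y ≠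
      cellIdx (j * (ℓ / M)) ℓ a} s).map fun b => T₁ (dist a b)).sum).sum ≤
    3 * (2 * En T₁ s) := by
  obtain ⟨x, hx⟩ := exists_conf s
  generalize Multiset.card s = n at x
  subst hx
  simp only [lemU_cross_conf]
  have h2 : 2 * En T₁ (conf x) = ∑ i, ∑ j, (if i = j then 0 else T₁ (dist (x i) (x j))) := by
    unfold En
    rw [dbl_conf, card_conf]
    have : ∀ i : Fin n, ∑ j, (if i = j then 0 else T₁ (dist (x i) (x j))) =
        ∑ j, T₁ (dist (x i) (x j)) - T₁ 0 := by
      intro i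
      have e : ∀ j, (if i = j then 0 else T₁ (dist (x i) (x j))) =
          T₁ (dist (x i) (x j)) - (if i = j then T₁ 0 else 0) := by
        intro j
        by_cases h : i = j
        · subst h; simp
        · simp [h]
      simp only [e]
      rw [Finset.sum_sub_distrib]
      simp
    simp only [this]
    rw [Finset.sum_sub_distrib]
    simp
    ring
  rw [h2, Finset.sum_comm, Finset.mul_sum]
  refine Finset.sum_le_sum (fun i _ => ?_)
  rw [Finset.sum_comm, Finset.mul_sum]
  refine Finset.sum_le_sum (fun j _ => ?_)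
  have e2 : (∑ k ∈ Finset.range M, (if cellIdx (k * (ℓ / M)) ℓ (x j) ≠
      cellIdx (k * (ℓ / M)) ℓ (x i) then T₁ (dist (x i) (x j)) else 0)) =
      (((Finset.range M).filter (fun k : ℕ => cellIdx (k * (ℓ / M)) ℓ (x j) ≠
        cellIdx (k * (ℓ / M)) ℓ (x i))).card : ℝ) * T₁ (dist (x i) (x j)) := by
    rw [← Finset.sum_filter, Finset.sum_const, nsmul_eq_mul]
  rw [e2]
  by_cases hij : i = j
  · subst hij
    simp
  · simp only [hij, if_false]
    by_cases hd : R ≤ dist (x i) (x j)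
    · rw [hTR _ hd]; simp
    · push Not at hd
      have hc := lemU_sep_card hM hR hMR (x j) (x i) (by rw [dist_comm]; exact hd)
      have hc' : (((Finset.range M).filter (fun k : ℕ => cellIdx (k * (ℓ / M)) ℓ (x j) ≠
        cellIdx (k * (ℓ / M)) ℓ (x i))).card : ℝ) ≤ 3 := by exact_mod_cast hc
      exact mul_le_mul_of_nonneg_right hc' (hT0 _)

end Crest.Agent.R149
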