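import Crest.Agent.R149.Config
import Crest.Agent.R149.LemmaUAux

/-!
PIECE G (Lemma U: upper bound by blocks with the random grid).

Let `w = ℓ/M ≥ R`, shifts `t_j = j w`, `j < M`.  For two points at distance `< R`, in each
coordinate at most one `j < M` has `⌊(x+t_j)/ℓ⌋ ≠ ⌊(y+t_j)/ℓ⌋` (otherwise two distinct points of
`w ℤ`, incongruent mod `M`, in an interval of length `< w`); so at most `3` of the `M` grids
separate the pair.  Summing: `Σ_j cross_j(T₁) ≤ 3 En T₁ s`, so some `j` has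
`En T₁ s ≤ (1 - 3/M)⁻¹ Σ_Q En T₁ (s ∩ Q)`.
For that `j`: `-β En (φ₀-T₁-t) s ≤ Σ_Q [ -β En (φ₀ - (1-3/M)⁻¹ T₁)(s ∩ Q) + β b' N_Q²/(2 ℓ³) ]`
(`φ₀ ≥ 0`: drop cross terms; `En t ≤ dbl t / 2`).  So the weight is at most the sum over `j < M` of
products over the blocks of the grid `j`; apply `Jn_le_blocks` with `z = exp ν'` and compare each
block (a subset of a translate of `cube ℓ`) with `cube ℓ` (`Jn_mono`, `Jn_translate`).
-/

set_option autoImplicit false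

namespace Crest.Agent.R149

open MeasureTheory Crest.ProbabilityR.Continuum
open scoped ENNReal BigOperators

theorem lemU_exists_grid {T₁ : ℝ → ℝ} (hT0 : ∀ r, 0 ≤ T₁ r) {R ℓ : ℝ} (hR : 0 < R)
    (hTR : ∀ r, R ≤ r → T₁ r = 0) {M : ℕ} (hM : 4 ≤ M) (hMR : M * R ≤ ℓ)
    (s : Multiset Pt) (S : Finset (Fin 3 → ℤ))
    (hS : ∀ j < M, ∀ a ∈ s, cellIdx ((j : ℕ) * (ℓ / M)) ℓ a ∈ S) :
    ∃ j < M, En T₁ s ≤ (1 - 3 / (M : ℝ))⁻¹ *
      ∑ v ∈ S, En T₁ (cut {x | cellIdx ((j : ℕ) * (ℓ / M)) ℓ x = v} s) := by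
  have hM0 : (0 : ℝ) < M := by
    have : 0 < M := by omega
    exact_mod_cast this
  have hM4 : (4 : ℝ) ≤ M := by exact_mod_cast hM
  have hpos : 0 < 1 - 3 / (M : ℝ) := by
    rw [sub_pos, div_lt_one hM0]; linarith
  have hEq : ∀ j ∈ Finset.range M, En T₁ s -
      ∑ v ∈ S, En T₁ (cut {x | cellIdx ((j : ℕ) * (ℓ / M)) ℓ x = v} s) =
      (s.map fun a => ((cut {y | cellIdx (j * (ℓ / M)) ℓ y ≠
      cellIdx (j * (ℓ / M)) ℓ a} s).map fun b => T₁ (dist a b)).sum).sum / 2 := by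
    intro j hj
    have hj' := Finset.mem_range.mp hj
    have h1 := dbl_split (cellIdx ((j : ℕ) * (ℓ / M)) ℓ) S T₁ s (hS j hj')
    have h2 := lemU_card_split (cellIdx ((j : ℕ) * (ℓ / M)) ℓ) S s (hS j hj')
    unfold En
    rw [h1, ← Finset.sum_div, Finset.sum_sub_distrib, ← Finset.sum_mul, ← h2]
    ring
  by_contra hcon
  push Not at hcon
  have hlt : ∀ j ∈ Finset.range M, 3 / (M : ℝ) * En T₁ s < En T₁ s -
      ∑ v ∈ S, En T₁ (cut {x | cellIdx ((j : ℕ) * (ℓ / M)) ℓ x = v} s) := by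
    intro j hj
    have h := hcon j (Finset.mem_range.mp hj)
    have h' : ∑ v ∈ S, En T₁ (cut {x | cellIdx ((j : ℕ) * (ℓ / M)) ℓ x = v} s) <
        (1 - 3 / (M : ℝ)) * En T₁ s := by
      have := mul_lt_mul_of_pos_left h hpos
      rwa [← mul_assoc, mul_inv_cancel₀ hpos.ne', one_mul] at this
    linarith
  have hsum := Finset.sum_lt_sum_of_nonempty (s := Finset.range M)
    (by rw [Finset.nonempty_range_iff]; omega) hlt
  rw [Finset.sum_congr rfl hEq, ← Finset.sum_div] at hsum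
  have hcs := lemU_cross_sum hT0 hR hTR (by omega : 0 < M) hMR s
  rw [Finset.sum_const, Finset.card_range, nsmul_eq_mul] at hsum
  have e : (M : ℝ) * (3 / (M : ℝ) * En T₁ s) = 3 * En T₁ s := by
    field_simp
  rw [e] at hsum
  linarith

theorem lemU_weight {φ₀ T₁ t : ℝ → ℝ} (h0 : ∀ r, 0 ≤ φ₀ r)
    (hT0 : ∀ r, 0 ≤ T₁ r) {R : ℝ} (hR : 0 < R)
    (hTR : ∀ r, R ≤ r → T₁ r = 0) (ht0 : ∀ r, 0 ≤ t r) {ℓ b' : ℝ}
    (hup : ∀ (s : Multiset Pt) (sh : ℝ), dbl t s ≤ b' / ℓ ^ 3 * sqCnt sh ℓ s)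
    {M : ℕ} (hM : 4 ≤ M) (hMR : M * R ≤ ℓ) {β : ℝ} (hβ : 0 < β)
    (s : Multiset Pt) (S : Finset (Fin 3 → ℤ))
    (hS : ∀ j < M, ∀ a ∈ s, cellIdx ((j : ℕ) * (ℓ / M)) ℓ a ∈ S) :
    wt (fun r => φ₀ r - T₁ r - t r) β s ≤
      ∑ j ∈ Finset.range M, ∏ v ∈ S,
        (ENNReal.ofReal (Real.exp (β * b' * ((Multiset.card
          (cut {x | cellIdx ((j : ℕ) * (ℓ / M)) ℓ x = v} s) : ℕ) : ℝ) ^ 2 / (2 * ℓ ^ 3))) *
        wt (fun r => φ₀ r - (1 - 3 / (M : ℝ))⁻¹ * T₁ r) β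
          (cut {x | cellIdx ((j : ℕ) * (ℓ / M)) ℓ x = v} s)) := by
  obtain ⟨j, hj, hgrid⟩ := lemU_exists_grid hT0 hR hTR hM hMR s S hS
  refine le_trans ?_ (Finset.single_le_sum (f := fun j => ∏ v ∈ S,
        (ENNReal.ofReal (Real.exp (β * b' * ((Multiset.card
          (cut {x | cellIdx ((j : ℕ) * (ℓ / M)) ℓ x = v} s) : ℕ) : ℝ) ^ 2 / (2 * ℓ ^ 3))) *
        wt (fun r => φ₀ r - (1 - 3 / (M : ℝ))⁻¹ * T₁ r) β
          (cut {x | cellIdx ((j : ℕ) * (ℓ / M)) ℓ x = v} s)))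
          (fun _ _ => zero_le) (Finset.mem_range.mpr hj))
  unfold wt
  have e1 : ∀ v ∈ S, ENNReal.ofReal (Real.exp (β * b' * ((Multiset.card
          (cut {x | cellIdx ((j : ℕ) * (ℓ / M)) ℓ x = v} s) : ℕ) : ℝ) ^ 2 / (2 * ℓ ^ 3))) *
        ENNReal.ofReal (Real.exp (-β * En (fun r => φ₀ r - (1 - 3 / (M : ℝ))⁻¹ * T₁ r)
          (cut {x | cellIdx ((j : ℕ) * (ℓ / M)) ℓ x = v} s))) =
        ENNReal.ofReal (Real.exp (β * b' * ((Multiset.card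
          (cut {x | cellIdx ((j : ℕ) * (ℓ / M)) ℓ x = v} s) : ℕ) : ℝ) ^ 2 / (2 * ℓ ^ 3) +
          -β * En (fun r => φ₀ r - (1 - 3 / (M : ℝ))⁻¹ * T₁ r)
          (cut {x | cellIdx ((j : ℕ) * (ℓ / M)) ℓ x = v} s))) := by
    intro v _
    rw [← ENNReal.ofReal_mul (Real.exp_pos _).le, ← Real.exp_add]
  rw [Finset.prod_congr rfl e1, ← ENNReal.ofReal_prod_of_nonneg (fun _ _ => (Real.exp_pos _).le),
    ← Real.exp_sum]
  apply ENNReal.ofReal_le_ofReal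
  apply Real.exp_le_exp.mpr
  rw [En_sub (fun r => φ₀ r - T₁ r) t s, En_sub φ₀ T₁ s]
  set cell := cellIdx ((j : ℕ) * (ℓ / M)) ℓ with hcell
  have hcs : ∀ a ∈ s, cell a ∈ S := hS j hj
  have hφ := sum_En_le_En cell S φ₀ s hcs (fun a _ b _ _ => h0 _)
  have hdt := hup s ((j : ℕ) * (ℓ / M))
  rw [sqCnt_eq _ _ s S hcs] at hdt
  have hEt : En t s ≤ dbl t s / 2 := by
    unfold En
    have : 0 ≤ (Multiset.card s : ℝ) * t 0 := mul_nonneg (Nat.cast_nonneg _) (ht0 0)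
    linarith
  have hEs : ∀ v ∈ S, β * b' * ((Multiset.card
          (cut {x | cell x = v} s) : ℕ) : ℝ) ^ 2 / (2 * ℓ ^ 3) +
          -β * En (fun r => φ₀ r - (1 - 3 / (M : ℝ))⁻¹ * T₁ r)
          (cut {x | cell x = v} s) =
      β * (b' / ℓ ^ 3 * (cnt ((j : ℕ) * (ℓ / M)) ℓ s v : ℝ) ^ 2 / 2) -
      β * En φ₀ (cut {x | cell x = v} s) + β * ((1 - 3 / (M : ℝ))⁻¹ *
        En T₁ (cut {x | cell x = v} s)) := by
    intro v _
    rw [En_sub φ₀ (fun r => (1 - 3 / (M : ℝ))⁻¹ * T₁ r), En_smul]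
    unfold cnt
    ring
  rw [Finset.sum_congr rfl hEs, Finset.sum_add_distrib, Finset.sum_sub_distrib,
    ← Finset.mul_sum, ← Finset.mul_sum, ← Finset.mul_sum, ← Finset.sum_div, ← Finset.mul_sum,
    ← Finset.mul_sum]
  have : -β * (En φ₀ s - En T₁ s - En t s) = -(β * En φ₀ s) + β * En T₁ s + β * En t s := by ring
  rw [this]
  have a1 : β * ∑ v ∈ S, En φ₀ (cut {x | cell x = v} s) ≤ β * En φ₀ s :=
    mul_le_mul_of_nonneg_left hφ hβ.le
  have a2 : β * En T₁ s ≤ β * ((1 - 3 / (M : ℝ))⁻¹ * ∑ v ∈ S, En T₁ (cut {x | cell x = v} s)) :=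
    mul_le_mul_of_nonneg_left hgrid hβ.le
  have a3 : β * En t s ≤ β * ((b' / ℓ ^ 3 * ∑ v ∈ S,
      (cnt ((j : ℕ) * (ℓ / M)) ℓ s v : ℝ) ^ 2) / 2) := by
    apply mul_le_mul_of_nonneg_left _ hβ.le
    linarith
  linarith

theorem lemU_Jn_sum {κ : Type} (S : Finset κ) (W : κ → Multiset Pt → ℝ≥0∞)
    (hW : ∀ i ∈ S, MeasW (W i)) (A : Set Pt) (n : ℕ) :
    Jn (fun s => ∑ i ∈ S, W i s) A n = ∑ i ∈ S, Jn (W i) A n := by
  unfold Jn
  rw [lintegral_finsetSum _ (fun i hi => hW i hi n), Finset.mul_sum]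


theorem lemmaU {φ₀ T₁ t : ℝ → ℝ} (hφ : Measurable φ₀) (h0 : ∀ r, 0 ≤ φ₀ r)
    (hT : Measurable T₁) (hT0 : ∀ r, 0 ≤ T₁ r) {R : ℝ} (hR : 0 < R)
    (hTR : ∀ r, R ≤ r → T₁ r = 0) (ht : Measurable t) (ht0 : ∀ r, 0 ≤ t r) {ℓ b' : ℝ}
    (hℓ : 0 < ℓ) (hb' : 0 ≤ b')
    (hup : ∀ (s : Multiset Pt) (sh : ℝ), dbl t s ≤ b' / ℓ ^ 3 * sqCnt sh ℓ s)
    {M : ℕ} (hM : 4 ≤ M) (hMR : M * R ≤ ℓ) {β : ℝ} (hβ : 0 < β) {L : ℝ} (hL : 0 ≤ L) (N : ℕ)
    (ν' : ℝ) :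
    Jn (wt (fun r => φ₀ r - T₁ r - t r) β) (cube L) N ≤
      M * ENNReal.ofReal (Real.exp (-ν' * N)) *
      (∑' n : ℕ, ENNReal.ofReal (Real.exp (ν' * n + β * b' * (n : ℝ) ^ 2 / (2 * ℓ ^ 3))) *
        Jn (wt (fun r => φ₀ r - (1 - 3 / (M : ℝ))⁻¹ * T₁ r) β) (cube ℓ) n) ^
          ((⌊L / ℓ⌋₊ + 2) ^ 3) := by
  classical
  have hM0 : (0 : ℝ) < M := by
    have : 0 < M := by omega
    exact_mod_cast this
  set S : Finset (Fin 3 → ℤ) :=
    Fintype.piFinset (fun _ : Fin 3 => Finset.Icc (0 : ℤ) (⌊L / ℓ⌋₊ + 1)) with hS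
  set φ₁ : ℝ → ℝ := fun r => φ₀ r - (1 - 3 / (M : ℝ))⁻¹ * T₁ r with hφ₁
  have hφ₁m : Measurable φ₁ := hφ.sub (hT.const_mul _)
  set g : ℕ → ℝ≥0∞ := fun n => ENNReal.ofReal (Real.exp (β * b' * (n : ℝ) ^ 2 / (2 * ℓ ^ 3)))
    with hg
  set w : Multiset Pt → ℝ≥0∞ := fun s => g (Multiset.card s) * wt φ₁ β s with hw
  have hwm : MeasW w := MeasW_mul_card (MeasW_wt hφ₁m β) g
  set Q : ℕ → (Fin 3 → ℤ) → Set Pt :=
    fun j v => {x | cellIdx ((j : ℕ) * (ℓ / M)) ℓ x = v} with hQdef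
  have hQm : ∀ j v, MeasurableSet (Q j v) := fun j v =>
    (measurable_cellIdx _ _) (measurableSet_singleton v)
  have hsh : ∀ j < M, 0 ≤ (j : ℝ) * (ℓ / M) ∧ (j : ℝ) * (ℓ / M) < ℓ := by
    intro j hj
    have hj' : (j : ℝ) < M := by exact_mod_cast hj
    refine ⟨by positivity, ?_⟩
    calc (j : ℝ) * (ℓ / M) < M * (ℓ / M) := by
          apply mul_lt_mul_of_pos_right hj'; positivity
      _ = ℓ := by field_simp
  have hcell : ∀ j < M, ∀ x ∈ cube L, cellIdx ((j : ℕ) * (ℓ / M)) ℓ x ∈ S := by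
    intro j hj x hx
    exact cellIdx_mem hℓ (hsh j hj).1 (hsh j hj).2 hx
  -- the weight
  have hW : ∀ s : Multiset Pt, (∀ a ∈ s, a ∈ cube L) →
      wt (fun r => φ₀ r - T₁ r - t r) β s ≤
        ∑ j ∈ Finset.range M, ∏ v ∈ S, w (cut (Q j v) s) := by
    intro s hs
    exact lemU_weight h0 hT0 hR hTR ht0 hup hM hMR hβ s S
      (fun j hj a ha => hcell j hj a (hs a ha))
  have hprodm : ∀ j ∈ Finset.range M, MeasW (fun s => ∏ v ∈ S, w (cut (Q j v) s)) := by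
    intro j _
    exact MeasW_prod S (fun v s => w (cut (Q j v) s)) (fun v _ => MeasW_cut hwm (hQm j v))
  set Z : ℝ≥0∞ := ∑' n : ℕ, ENNReal.ofReal (Real.exp (ν' * n + β * b' * (n : ℝ) ^ 2 /
    (2 * ℓ ^ 3))) * Jn (wt φ₁ β) (cube ℓ) n with hZ
  have hstep1 : Jn (wt (fun r => φ₀ r - T₁ r - t r) β) (cube L) N ≤
      ∑ j ∈ Finset.range M, Jn (fun s => ∏ v ∈ S, w (cut (Q j v) s)) (cube L) N := by
    rw [← lemU_Jn_sum _ _ hprodm]
    exact Jn_mono (le_refl _) (measurableSet_cube L) N (fun s hs _ => hW s hs)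
  -- each block
  have hinv : ∀ (v : Pt) (s : Multiset Pt), w (s.map fun a => a + v) = w s := by
    intro v s
    simp only [hw, Multiset.card_map]
    unfold wt
    rw [En_map_add]
  have hblock : ∀ j < M, ∀ v ∈ S, ∑' n : ℕ, ENNReal.ofReal (Real.exp ν') ^ n * Jn w (Q j v) n ≤ Z
      := by
    intro j hj v hv
    rw [hZ]
    refine ENNReal.tsum_le_tsum (fun n => ?_)
    have hJ : Jn w (Q j v) n ≤ g n * Jn (wt φ₁ β) (cube ℓ) n := by
      rw [← Jn_mul_card g (wt φ₁ β) (fun _ => ENNReal.ofReal_ne_top)]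
      set u : Pt := WithLp.toLp 2 (fun k => (v k : ℝ) * ℓ - (j : ℝ) * (ℓ / M)) with hu
      rw [← Jn_translate (W := fun s => g (Multiset.card s) * wt φ₁ β s) u (hinv u) (cube ℓ) n]
      refine Jn_mono ?_ (hQm j v) n (fun s _ _ => le_refl _)
      intro x hx
      refine ⟨x - u, ?_, sub_add_cancel x u⟩
      intro k
      have hk : ⌊(x k + (j : ℝ) * (ℓ / M)) / ℓ⌋ = v k := congrFun hx k
      rw [Int.floor_eq_iff, le_div_iff₀ hℓ, div_lt_iff₀ hℓ] at hk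
      have e : (x - u) k = x k - ((v k : ℝ) * ℓ - (j : ℝ) * (ℓ / M)) := by
        simp [hu]
      rw [e]
      constructor
      · linarith [hk.1]
      · linarith [hk.2]
    calc ENNReal.ofReal (Real.exp ν') ^ n * Jn w (Q j v) n
        ≤ ENNReal.ofReal (Real.exp ν') ^ n * (g n * Jn (wt φ₁ β) (cube ℓ) n) := by
          gcongr
      _ = ENNReal.ofReal (Real.exp (ν' * n + β * b' * (n : ℝ) ^ 2 / (2 * ℓ ^ 3))) *
          Jn (wt φ₁ β) (cube ℓ) n := by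
          rw [← mul_assoc]
          congr 1
          rw [hg]
          simp only
          rw [← ENNReal.ofReal_pow (Real.exp_pos _).le, ← ENNReal.ofReal_mul (by positivity),
            ← Real.exp_nat_mul, ← Real.exp_add]
          congr 2
          ring
  have hcardS : S.card = (⌊L / ℓ⌋₊ + 2) ^ 3 := by
    rw [hS]
    exact card_cells _
  have hexp : ENNReal.ofReal (Real.exp (-ν' * N)) * ENNReal.ofReal (Real.exp ν') ^ N = 1 := by
    rw [← ENNReal.ofReal_pow (Real.exp_pos _).le, ← ENNReal.ofReal_mul (by positivity),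
      ← Real.exp_nat_mul, ← Real.exp_add]
    have : -ν' * N + N * ν' = 0 := by ring
    rw [this]
    simp
  have hj : ∀ j ∈ Finset.range M, Jn (fun s => ∏ v ∈ S, w (cut (Q j v) s)) (cube L) N ≤
      ENNReal.ofReal (Real.exp (-ν' * N)) * Z ^ ((⌊L / ℓ⌋₊ + 2) ^ 3) := by
    intro j hj
    have hj' := Finset.mem_range.mp hj
    have h1 := Jn_le_blocks S (Q j) (fun v _ => hQm j v)
      (fun v _ u _ hvu => by
        rw [Set.disjoint_left]
        intro x hx hx'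
        exact hvu (hx.symm.trans hx'))
      (fun _ => w) (fun _ _ => hwm) (fun s => ∏ v ∈ S, w (cut (Q j v) s)) (cube L)
      (measurableSet_cube L)
      (fun x hx => by
        simp only [Set.mem_iUnion]
        exact ⟨_, hcell j hj' x hx, rfl⟩) N (fun s _ => le_refl _)
      (ENNReal.ofReal (Real.exp ν'))
    have h2 : ∏ v ∈ S, ∑' n : ℕ, ENNReal.ofReal (Real.exp ν') ^ n * Jn w (Q j v) n ≤
        Z ^ ((⌊L / ℓ⌋₊ + 2) ^ 3) := by
      rw [← hcardS, ← Finset.prod_const]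
      exact Finset.prod_le_prod' (fun v hv => hblock j hj' v hv)
    calc Jn (fun s => ∏ v ∈ S, w (cut (Q j v) s)) (cube L) N
        = ENNReal.ofReal (Real.exp (-ν' * N)) * (ENNReal.ofReal (Real.exp ν') ^ N *
          Jn (fun s => ∏ v ∈ S, w (cut (Q j v) s)) (cube L) N) := by
          rw [← mul_assoc, hexp, one_mul]
      _ ≤ _ := by
          gcongr
          exact h1.trans h2
  calc Jn (wt (fun r => φ₀ r - T₁ r - t r) β) (cube L) N
      ≤ ∑ j ∈ Finset.range M, Jn (fun s => ∏ v ∈ S, w (cut (Q j v) s)) (cube L) N := hstep1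
    _ ≤ ∑ j ∈ Finset.range M, ENNReal.ofReal (Real.exp (-ν' * N)) *
        Z ^ ((⌊L / ℓ⌋₊ + 2) ^ 3) := Finset.sum_le_sum hj
    _ = _ := by
      rw [Finset.sum_const, Finset.card_range, nsmul_eq_mul, mul_assoc]

end Crest.Agent.R149
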