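import Mathlib

/-!
PIECE C1 (abstract limit theorem).

`thermo_abs` is pure real analysis: `lower` (a priori lower bound), `key_fin` (finite volume
inequality with three types of cells), `key` (asymptotic inequality), `exists_lim`.
-/

set_option autoImplicit false

namespace Crest.Agent.R149

open scoped ENNReal BigOperators

namespace ThermoAbsAux

/-- even distribution of `R` particles over `G` cells -/
def ev (R G j : ℕ) : ℕ := R / G + if j < R % G then 1 else 0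

theorem ev_sum (R G : ℕ) (hG : 0 < G) : ∑ j ∈ Finset.range G, ev R G j = R := by
  unfold ev
  rw [Finset.sum_add_distrib, Finset.sum_const, Finset.card_range, ← Finset.sum_filter,
    Finset.sum_const]
  have : (Finset.range G).filter (fun j => j < R % G) = Finset.range (R % G) := by
    ext j
    simp only [Finset.mem_filter, Finset.mem_range]
    have := Nat.mod_lt R hG
    omega
  rw [this, Finset.card_range]
  simp only [smul_eq_mul, mul_one]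
  exact Nat.div_add_mod R G

theorem ev_le (R G j : ℕ) : ev R G j ≤ R / G + 1 := by
  unfold ev
  split_ifs <;> omega

theorem hsup' {f : ℝ → ℕ → ℝ}
    (hsup : ∀ (ℓ L : ℝ) (M : ℕ) (n : (Fin 3 → Fin M) → ℕ), 0 < ℓ → 0 < L → M * (ℓ + 2) ≤ L →
      ∑ v, f ℓ (n v) ≤ f L (∑ v, n v))
    (ℓ L : ℝ) (M : ℕ) (m : ℕ → ℕ) (hℓ : 0 < ℓ) (hL : 0 < L) (h : M * (ℓ + 2) ≤ L) :
    ∑ i ∈ Finset.range (M ^ 3), f ℓ (m i) ≤ f L (∑ i ∈ Finset.range (M ^ 3), m i) := by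
  have e : (Fin 3 → Fin M) ≃ Fin (M ^ 3) := Fintype.equivFinOfCardEq (by simp)
  have h0 := hsup ℓ L M (fun v => m (e v)) hℓ hL h
  have h1 : ∑ v, f ℓ (m (e v)) = ∑ i ∈ Finset.range (M ^ 3), f ℓ (m i) := by
    rw [Equiv.sum_comp e (fun i : Fin (M ^ 3) => f ℓ (m i)),
      Fin.sum_univ_eq_sum_range (fun i => f ℓ (m i))]
  have h2 : ∑ v, m (e v) = ∑ i ∈ Finset.range (M ^ 3), m i := by
    rw [Equiv.sum_comp e (fun i : Fin (M ^ 3) => m i), Fin.sum_univ_eq_sum_range m]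
  rw [h1, h2] at h0
  exact h0

theorem lower {f : ℝ → ℕ → ℝ}
    (hsup : ∀ (ℓ L : ℝ) (M : ℕ) (n : (Fin 3 → Fin M) → ℕ), 0 < ℓ → 0 < L → M * (ℓ + 2) ≤ L →
      ∑ v, f ℓ (n v) ≤ f L (∑ v, n v)) (D : ℝ) :
    ∃ C : ℝ, 0 ≤ C ∧ ∀ (ℓ : ℝ) (n : ℕ), 3 ≤ ℓ → (n : ℝ) ≤ D * ℓ ^ 3 → -(C * ℓ ^ 3) ≤ f ℓ n := by
  set k : ℕ := ⌈216 * D⌉₊ + 1 with hk
  set C : ℝ := ∑ j ∈ Finset.range (k + 1), |f 1 j| with hC
  have hC0 : 0 ≤ C := Finset.sum_nonneg fun _ _ => abs_nonneg _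
  refine ⟨C, hC0, ?_⟩
  intro ℓ n hℓ hn
  set M : ℕ := ⌊ℓ / 3⌋₊ with hMdef
  have hM1 : 1 ≤ M := by
    rw [hMdef, Nat.one_le_floor_iff]
    linarith
  have hMl : (M : ℝ) ≤ ℓ / 3 := Nat.floor_le (by linarith)
  have hMu : ℓ / 3 < M + 1 := Nat.lt_floor_add_one _
  have hM1' : (1 : ℝ) ≤ M := by exact_mod_cast hM1
  have hM6 : ℓ ≤ 6 * M := by linarith
  have hMpos : 0 < M ^ 3 := by positivity
  have hℓ3 : ℓ ^ 3 ≤ 216 * (M : ℝ) ^ 3 := by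
    calc ℓ ^ 3 ≤ (6 * (M : ℝ)) ^ 3 := pow_le_pow_left₀ (by linarith) hM6 3
      _ = 216 * (M : ℝ) ^ 3 := by ring
  have hcell : ∀ j, ev n (M ^ 3) j ≤ k := by
    intro j
    refine (ev_le _ _ _).trans ?_
    rw [hk]
    have : n / M ^ 3 ≤ ⌈216 * D⌉₊ := by
      rw [Nat.div_le_iff_le_mul_add_pred hMpos]
      have h1 : (n : ℝ) ≤ (M : ℝ) ^ 3 * (⌈216 * D⌉₊ : ℝ) := by
        by_cases hD : 0 ≤ D
        · calc (n : ℝ) ≤ D * ℓ ^ 3 := hn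
            _ ≤ D * (216 * (M : ℝ) ^ 3) := mul_le_mul_of_nonneg_left hℓ3 hD
            _ = (M : ℝ) ^ 3 * (216 * D) := by ring
            _ ≤ (M : ℝ) ^ 3 * (⌈216 * D⌉₊ : ℝ) :=
              mul_le_mul_of_nonneg_left (Nat.le_ceil _) (by positivity)
        · have : D * ℓ ^ 3 ≤ 0 := mul_nonpos_of_nonpos_of_nonneg (by linarith) (by positivity)
          have h2 : (0 : ℝ) ≤ (M : ℝ) ^ 3 * (⌈216 * D⌉₊ : ℝ) := by positivity
          linarith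
      have h3 : n ≤ M ^ 3 * ⌈216 * D⌉₊ := by exact_mod_cast h1
      omega
    omega
  have h := hsup' hsup 1 ℓ M (ev n (M ^ 3)) one_pos (by linarith) (by linarith)
  rw [ev_sum _ _ hMpos] at h
  have hlow : ∀ i ∈ Finset.range (M ^ 3), -C ≤ f 1 (ev n (M ^ 3) i) := by
    intro i _
    have h1 : |f 1 (ev n (M ^ 3) i)| ≤ C := by
      rw [hC]
      exact Finset.single_le_sum (f := fun j => |f 1 j|) (fun _ _ => abs_nonneg _)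
        (Finset.mem_range.mpr (Nat.lt_succ_of_le (hcell i)))
    have := neg_abs_le (f 1 (ev n (M ^ 3) i))
    linarith
  have h2 := Finset.card_nsmul_le_sum _ _ _ hlow
  rw [Finset.card_range, nsmul_eq_mul] at h2
  have hMle : ((M ^ 3 : ℕ) : ℝ) ≤ ℓ ^ 3 := by
    push_cast
    exact pow_le_pow_left₀ (by positivity) (by linarith) 3
  nlinarith [mul_le_mul_of_nonneg_right hMle hC0]

/-- three types of cells -/
def mix (A B R G n₁ n₂ i : ℕ) : ℕ :=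
  if i < A then n₁ else if i < A + B then n₂ else ev R G (i - (A + B))

theorem mix_sum {β : Type*} [AddCommMonoid β] (F : ℕ → β) (A B R G n₁ n₂ : ℕ) :
    ∑ i ∈ Finset.range (A + B + G), F (mix A B R G n₁ n₂ i)
      = A • F n₁ + B • F n₂ + ∑ j ∈ Finset.range G, F (ev R G j) := by
  rw [Finset.sum_range_add, Finset.sum_range_add]
  congr 1
  · congr 1
    · rw [Finset.sum_congr rfl (g := fun _ => F n₁), Finset.sum_const, Finset.card_range]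
      intro i hi
      simp only [Finset.mem_range] at hi
      simp [mix, hi]
    · rw [Finset.sum_congr rfl (g := fun _ => F n₂), Finset.sum_const, Finset.card_range]
      intro i hi
      simp only [Finset.mem_range] at hi
      simp [mix, hi]
  · apply Finset.sum_congr rfl
    intro i hi
    have h1 : ¬ (A + B + i < A) := by omega
    have h2 : ¬ (A + B + i < A + B) := by omega
    have h3 : A + B + i - (A + B) = i := by omega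
    simp only [mix, h1, h2, h3, if_false]

set_option maxHeartbeats 3200000 in
/-- The finite volume inequality. -/
theorem key_fin {f : ℝ → ℕ → ℝ}
    (hsup : ∀ (ℓ L : ℝ) (M : ℕ) (n : (Fin 3 → Fin M) → ℕ), 0 < ℓ → 0 < L → M * (ℓ + 2) ≤ L →
      ∑ v, f ℓ (n v) ≤ f L (∑ v, n v))
    {ρ₁ ρ₂ α θ C ℓ L : ℝ} (hρ₁ : 0 ≤ ρ₁) (hρ₂ : 0 ≤ ρ₂) (hα0 : 0 ≤ α) (hα1 : α ≤ 1)
    (hθ : 0 < θ) (hθ1 : θ ≤ 1) (hℓ : 3 ≤ ℓ) (hL : 0 < L) (M : ℕ)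
    (hM : M * (ℓ + 2) ≤ L) (hLM : L ^ 3 ≤ (1 + θ) * (M : ℝ) ^ 3 * ℓ ^ 3)
    (hθℓ : 1 ≤ θ * ℓ ^ 3) (hK1 : 1 ≤ θ * (M : ℝ) ^ 3) (hK2 : ρ₁ + ρ₂ ≤ θ * (M : ℝ) ^ 3)
    (hC0 : 0 ≤ C)
    (hlow : ∀ n : ℕ, (n : ℝ) ≤ (2 * (α * ρ₁ + (1 - α) * ρ₂) + 3) * ℓ ^ 3 → -(C * ℓ ^ 3) ≤ f ℓ n)
    (hC1 : |f ℓ ⌊ρ₁ * ℓ ^ 3⌋₊| ≤ C * ℓ ^ 3) (hC2 : |f ℓ ⌊ρ₂ * ℓ ^ 3⌋₊| ≤ C * ℓ ^ 3) :
    α * (f ℓ ⌊ρ₁ * ℓ ^ 3⌋₊ / ℓ ^ 3) + (1 - α) * (f ℓ ⌊ρ₂ * ℓ ^ 3⌋₊ / ℓ ^ 3) - 8 * θ * C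
      ≤ f L ⌊(α * ρ₁ + (1 - α) * ρ₂) * L ^ 3⌋₊ / L ^ 3 := by
  set ρ : ℝ := α * ρ₁ + (1 - α) * ρ₂ with hρdef
  have hρ : 0 ≤ ρ := by
    have := mul_nonneg hα0 hρ₁
    have := mul_nonneg (sub_nonneg.mpr hα1) hρ₂
    linarith
  set n₁ : ℕ := ⌊ρ₁ * ℓ ^ 3⌋₊ with hn₁
  set n₂ : ℕ := ⌊ρ₂ * ℓ ^ 3⌋₊ with hn₂
  have hℓ3 : 0 < ℓ ^ 3 := by positivity
  have hn₁le : (n₁ : ℝ) ≤ ρ₁ * ℓ ^ 3 := Nat.floor_le (by positivity)
  have hn₂le : (n₂ : ℝ) ≤ ρ₂ * ℓ ^ 3 := Nat.floor_le (by positivity)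
  have hn₁ge : ρ₁ * ℓ ^ 3 - 1 ≤ n₁ := by have := Nat.lt_floor_add_one (ρ₁ * ℓ ^ 3); linarith
  have hn₂ge : ρ₂ * ℓ ^ 3 - 1 ≤ n₂ := by have := Nat.lt_floor_add_one (ρ₂ * ℓ ^ 3); linarith
  set K : ℝ := (M : ℝ) ^ 3 with hK
  have hKpos : 0 < K := by
    by_contra h
    have : θ * K ≤ 0 := mul_nonpos_of_nonneg_of_nonpos hθ.le (not_lt.mp h)
    linarith
  set A : ℕ := ⌊α * K * (1 - θ)⌋₊ with hA
  set B : ℕ := ⌊(1 - α) * K * (1 - θ)⌋₊ with hB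
  have h1θ : 0 ≤ 1 - θ := by linarith
  have h1α : 0 ≤ 1 - α := by linarith
  have hAle : (A : ℝ) ≤ α * K * (1 - θ) := Nat.floor_le (by positivity)
  have hBle : (B : ℝ) ≤ (1 - α) * K * (1 - θ) := Nat.floor_le (by positivity)
  have hAge : α * K * (1 - θ) - 1 ≤ A := by
    have := Nat.lt_floor_add_one (α * K * (1 - θ)); linarith
  have hBge : (1 - α) * K * (1 - θ) - 1 ≤ B := by
    have := Nat.lt_floor_add_one ((1 - α) * K * (1 - θ)); linarith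
  have hABle : (A : ℝ) + B ≤ K * (1 - θ) := by
    have : α * K * (1 - θ) + (1 - α) * K * (1 - θ) = K * (1 - θ) := by ring
    linarith
  have hθK : 0 < θ * K := mul_pos hθ hKpos
  have hABK : A + B ≤ M ^ 3 := by
    have : (A : ℝ) + B ≤ (M : ℝ) ^ 3 := by
      have : K * (1 - θ) = K - θ * K := by ring
      linarith
    exact_mod_cast this
  obtain ⟨G, hG⟩ := Nat.exists_eq_add_of_le hABK
  have hGK : (A : ℝ) + B + G = K := by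
    rw [hK]; exact_mod_cast hG.symm
  have hGge : θ * K ≤ G := by
    have : K * (1 - θ) = K - θ * K := by ring
    linarith
  have hGle : (G : ℝ) ≤ θ * K + 2 := by
    have : α * K * (1 - θ) + (1 - α) * K * (1 - θ) = K - θ * K := by ring
    linarith
  have hGpos : 0 < G := by
    have : (0 : ℝ) < G := by linarith
    exact_mod_cast this
  set N : ℕ := ⌊ρ * L ^ 3⌋₊ with hN
  have hKL : K * ℓ ^ 3 ≤ L ^ 3 := by
    have h1 : (M : ℝ) * ℓ ≤ L := by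
      have : (0 : ℝ) ≤ M := Nat.cast_nonneg M
      linarith
    calc K * ℓ ^ 3 = ((M : ℝ) * ℓ) ^ 3 := by rw [hK]; ring
      _ ≤ L ^ 3 := pow_le_pow_left₀ (by positivity) h1 3
  have hABn : A * n₁ + B * n₂ ≤ N := by
    apply Nat.le_floor
    push_cast
    have h1 : (A : ℝ) * n₁ ≤ (α * K) * (ρ₁ * ℓ ^ 3) := by
      apply mul_le_mul _ hn₁le (by positivity) (by positivity)
      have : 0 ≤ α * K * θ := by positivity
      linarith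
    have h2 : (B : ℝ) * n₂ ≤ ((1 - α) * K) * (ρ₂ * ℓ ^ 3) := by
      apply mul_le_mul _ hn₂le (by positivity) (by positivity)
      have : 0 ≤ (1 - α) * K * θ := by positivity
      linarith
    calc (A : ℝ) * n₁ + B * n₂ ≤ (α * K) * (ρ₁ * ℓ ^ 3) + ((1 - α) * K) * (ρ₂ * ℓ ^ 3) := by
          linarith
      _ = ρ * (K * ℓ ^ 3) := by rw [hρdef]; ring
      _ ≤ ρ * L ^ 3 := mul_le_mul_of_nonneg_left hKL hρ
  obtain ⟨R, hR⟩ := Nat.exists_eq_add_of_le hABn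
  have hNle : (N : ℝ) ≤ ρ * L ^ 3 := Nat.floor_le (by positivity)
  have hRle : (R : ℝ) ≤ (2 * ρ + 2) * ℓ ^ 3 * G := by
    have hR' : (R : ℝ) = N - (A * n₁ + B * n₂) := by
      have : (N : ℝ) = (A * n₁ + B * n₂) + R := by exact_mod_cast hR
      linarith
    have h1 : (A : ℝ) * (ρ₁ * ℓ ^ 3 - 1) ≤ A * n₁ :=
      mul_le_mul_of_nonneg_left hn₁ge (by positivity)
    have h2 : (B : ℝ) * (ρ₂ * ℓ ^ 3 - 1) ≤ B * n₂ :=
      mul_le_mul_of_nonneg_left hn₂ge (by positivity)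
    have h3 : (α * K * (1 - θ) - 1) * (ρ₁ * ℓ ^ 3) ≤ A * (ρ₁ * ℓ ^ 3) :=
      mul_le_mul_of_nonneg_right hAge (by positivity)
    have h4 : ((1 - α) * K * (1 - θ) - 1) * (ρ₂ * ℓ ^ 3) ≤ B * (ρ₂ * ℓ ^ 3) :=
      mul_le_mul_of_nonneg_right hBge (by positivity)
    have h5 : ρ * L ^ 3 ≤ ρ * ((1 + θ) * K * ℓ ^ 3) := mul_le_mul_of_nonneg_left hLM hρ
    have h6 : (A : ℝ) + B ≤ K := by
      have : K * (1 - θ) = K - θ * K := by ring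
      linarith
    have h7 : (R : ℝ) ≤ 2 * θ * ρ * K * ℓ ^ 3 + (ρ₁ + ρ₂) * ℓ ^ 3 + K := by
      have e1 : ρ * ((1 + θ) * K * ℓ ^ 3) - (α * K * (1 - θ) - 1) * (ρ₁ * ℓ ^ 3)
          - ((1 - α) * K * (1 - θ) - 1) * (ρ₂ * ℓ ^ 3)
          = 2 * θ * ρ * K * ℓ ^ 3 + (ρ₁ + ρ₂) * ℓ ^ 3 := by
        rw [hρdef]; ring
      linarith
    have h8 : 2 * θ * ρ * K * ℓ ^ 3 ≤ 2 * ρ * ℓ ^ 3 * G := by
      have : 0 ≤ 2 * ρ * ℓ ^ 3 := by positivity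
      calc 2 * θ * ρ * K * ℓ ^ 3 = 2 * ρ * ℓ ^ 3 * (θ * K) := by ring
        _ ≤ 2 * ρ * ℓ ^ 3 * G := mul_le_mul_of_nonneg_left hGge this
    have h9 : (ρ₁ + ρ₂) * ℓ ^ 3 ≤ G * ℓ ^ 3 :=
      mul_le_mul_of_nonneg_right (hK2.trans hGge) hℓ3.le
    have h10 : K ≤ G * ℓ ^ 3 := by
      calc K = 1 * K := (one_mul _).symm
        _ ≤ (θ * ℓ ^ 3) * K := mul_le_mul_of_nonneg_right hθℓ hKpos.le
        _ = (θ * K) * ℓ ^ 3 := by ring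
        _ ≤ G * ℓ ^ 3 := mul_le_mul_of_nonneg_right hGge hℓ3.le
    have e2 : (2 * ρ + 2) * ℓ ^ 3 * G = 2 * ρ * ℓ ^ 3 * G + G * ℓ ^ 3 + G * ℓ ^ 3 := by ring
    linarith
  have hcell : ∀ j, -(C * ℓ ^ 3) ≤ f ℓ (ev R G j) := by
    intro j
    apply hlow
    have h1 : (ev R G j : ℝ) ≤ ((R / G : ℕ) : ℝ) + 1 := by exact_mod_cast ev_le R G j
    have h2 : ((R / G : ℕ) : ℝ) ≤ (R : ℝ) / G := Nat.cast_div_le
    have h3 : (R : ℝ) / G ≤ (2 * ρ + 2) * ℓ ^ 3 := by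
      rw [div_le_iff₀ (by exact_mod_cast hGpos)]
      exact hRle
    have h4 : (1 : ℝ) ≤ ℓ ^ 3 := one_le_pow₀ (by linarith)
    have e2 : (2 * ρ + 3) * ℓ ^ 3 = (2 * ρ + 2) * ℓ ^ 3 + ℓ ^ 3 := by ring
    linarith
  have hmain := hsup' hsup ℓ L M (mix A B R G n₁ n₂) (by linarith) hL hM
  rw [hG] at hmain
  rw [mix_sum (fun i => f ℓ i), mix_sum (fun i => i), ev_sum R G hGpos] at hmain
  simp only [nsmul_eq_mul, Nat.cast_id] at hmain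
  rw [← hR] at hmain
  have hgarb : -(G * (C * ℓ ^ 3)) ≤ ∑ j ∈ Finset.range G, f ℓ (ev R G j) := by
    have := Finset.card_nsmul_le_sum (Finset.range G) (fun j => f ℓ (ev R G j)) (-(C * ℓ ^ 3))
      (fun j _ => hcell j)
    rw [Finset.card_range, nsmul_eq_mul] at this
    linarith
  set F₁ : ℝ := f ℓ n₁ with hF₁
  set F₂ : ℝ := f ℓ n₂ with hF₂
  set c : ℝ := C * ℓ ^ 3 with hc
  have hc0 : 0 ≤ c := by positivity
  have hA1 : α * K * F₁ - (θ * K + 1) * c ≤ A * F₁ := by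
    have h1 : (α * K - A) * F₁ ≤ (α * K - A) * c := by
      apply mul_le_mul_of_nonneg_left ((le_abs_self _).trans hC1)
      have : 0 ≤ α * K * θ := by positivity
      linarith
    have h2 : (α * K - A) * c ≤ (θ * K + 1) * c := by
      apply mul_le_mul_of_nonneg_right _ hc0
      have : α * (K * θ) ≤ 1 * (K * θ) := mul_le_mul_of_nonneg_right hα1 (by positivity)
      linarith
    linarith
  have hB1 : (1 - α) * K * F₂ - (θ * K + 1) * c ≤ B * F₂ := by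
    have h1 : ((1 - α) * K - B) * F₂ ≤ ((1 - α) * K - B) * c := by
      apply mul_le_mul_of_nonneg_left ((le_abs_self _).trans hC2)
      have : 0 ≤ (1 - α) * K * θ := by positivity
      linarith
    have h2 : ((1 - α) * K - B) * c ≤ (θ * K + 1) * c := by
      apply mul_le_mul_of_nonneg_right _ hc0
      have : (1 - α) * (K * θ) ≤ 1 * (K * θ) :=
        mul_le_mul_of_nonneg_right (by linarith) (by positivity)
      linarith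
    linarith
  have hG1 : G * c ≤ (θ * K + 2) * c := mul_le_mul_of_nonneg_right hGle hc0
  have htot : K * (α * F₁ + (1 - α) * F₂) - 7 * (θ * K) * c ≤ f L N := by
    have h1 : 1 * c ≤ (θ * K) * c := mul_le_mul_of_nonneg_right hK1 hc0
    have e3 : K * (α * F₁ + (1 - α) * F₂) = α * K * F₁ + (1 - α) * K * F₂ := by ring
    have e4 : (θ * K + 1) * c = (θ * K) * c + c := by ring
    have e5 : (θ * K + 2) * c = (θ * K) * c + 2 * c := by ring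
    have e6 : 7 * (θ * K) * c = 7 * ((θ * K) * c) := by ring
    linarith
  rw [le_div_iff₀ (by positivity)]
  have hX : |α * F₁ + (1 - α) * F₂| ≤ c := by
    rw [abs_le]
    obtain ⟨a1, a2⟩ := abs_le.mp hC1
    obtain ⟨b1, b2⟩ := abs_le.mp hC2
    have c1 : α * F₁ ≤ α * c := mul_le_mul_of_nonneg_left a2 hα0
    have c2 : (1 - α) * F₂ ≤ (1 - α) * c := mul_le_mul_of_nonneg_left b2 h1α
    have c3 : α * (-c) ≤ α * F₁ := mul_le_mul_of_nonneg_left a1 hα0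
    have c4 : (1 - α) * (-c) ≤ (1 - α) * F₂ := mul_le_mul_of_nonneg_left b1 h1α
    constructor <;> linarith
  set X : ℝ := α * F₁ + (1 - α) * F₂ with hXdef
  have e1 : α * (F₁ / ℓ ^ 3) + (1 - α) * (F₂ / ℓ ^ 3) = X / ℓ ^ 3 := by
    rw [hXdef]; ring
  rw [e1]
  refine le_trans ?_ htot
  -- X / ℓ^3 * L^3 - 8 θ C L^3 ≤ K X - 7 θ K c
  have h1 : X / ℓ ^ 3 * L ^ 3 - K * X = X * (L ^ 3 - K * ℓ ^ 3) / ℓ ^ 3 := by
    field_simp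
  have h2 : X * (L ^ 3 - K * ℓ ^ 3) / ℓ ^ 3 ≤ θ * C * (K * ℓ ^ 3) := by
    rw [div_le_iff₀ hℓ3]
    have a1 : X * (L ^ 3 - K * ℓ ^ 3) ≤ c * (L ^ 3 - K * ℓ ^ 3) :=
      mul_le_mul_of_nonneg_right ((le_abs_self _).trans hX) (by linarith)
    have a2 : c * (L ^ 3 - K * ℓ ^ 3) ≤ c * (θ * K * ℓ ^ 3) :=
      mul_le_mul_of_nonneg_left (by linarith) hc0
    rw [hc] at a1 a2
    have e7 : C * ℓ ^ 3 * (θ * K * ℓ ^ 3) = θ * C * (K * ℓ ^ 3) * ℓ ^ 3 := by ring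
    linarith
  have h3 : θ * C * (K * ℓ ^ 3) ≤ θ * C * L ^ 3 := mul_le_mul_of_nonneg_left hKL (by positivity)
  have h4 : 7 * (θ * K) * c ≤ 7 * (θ * C) * L ^ 3 := by
    rw [hc]
    calc 7 * (θ * K) * (C * ℓ ^ 3) = 7 * (θ * C) * (K * ℓ ^ 3) := by ring
      _ ≤ 7 * (θ * C) * L ^ 3 := mul_le_mul_of_nonneg_left hKL (by positivity)
  linarith

open Filter Topology in
/-- The asymptotic inequality. -/
theorem key {f : ℝ → ℕ → ℝ} {C' : ℝ}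
    (hsup : ∀ (ℓ L : ℝ) (M : ℕ) (n : (Fin 3 → Fin M) → ℕ), 0 < ℓ → 0 < L → M * (ℓ + 2) ≤ L →
      ∑ v, f ℓ (n v) ≤ f L (∑ v, n v))
    (hup : ∀ (L : ℝ) (N : ℕ), 1 ≤ L → f L N ≤ C' * L ^ 3)
    {ρ₁ ρ₂ α ε : ℝ} (hρ₁ : 0 ≤ ρ₁) (hρ₂ : 0 ≤ ρ₂) (hα0 : 0 ≤ α) (hα1 : α ≤ 1) (hε : 0 < ε) :
    ∃ ℓ₀ : ℝ, ∀ ℓ : ℝ, ℓ₀ ≤ ℓ → ∀ᶠ L : ℝ in atTop,
      α * (f ℓ ⌊ρ₁ * ℓ ^ 3⌋₊ / ℓ ^ 3) + (1 - α) * (f ℓ ⌊ρ₂ * ℓ ^ 3⌋₊ / ℓ ^ 3) - ε
        ≤ f L ⌊(α * ρ₁ + (1 - α) * ρ₂) * L ^ 3⌋₊ / L ^ 3 := by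
  obtain ⟨Ca, hCa, ha⟩ := lower hsup (2 * (α * ρ₁ + (1 - α) * ρ₂) + 3)
  obtain ⟨Cb, hCb, hb⟩ := lower hsup ρ₁
  obtain ⟨Cc, hCc, hc⟩ := lower hsup ρ₂
  set C : ℝ := Ca + Cb + Cc + |C'| with hCdef
  have hC'0 : 0 ≤ |C'| := abs_nonneg _
  have hC : 0 ≤ C := by positivity
  set θ : ℝ := min 1 (ε / (8 * C + 1)) with hθdef
  have hθ : 0 < θ := lt_min one_pos (by positivity)
  have hθ1 : θ ≤ 1 := min_le_left _ _
  have hθε : 8 * θ * C ≤ ε := by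
    have h1 : θ ≤ ε / (8 * C + 1) := min_le_right _ _
    rw [le_div_iff₀ (by positivity)] at h1
    linarith
  refine ⟨max 3 (27 / θ), ?_⟩
  intro ℓ hℓ
  have hℓ3 : 3 ≤ ℓ := (le_max_left _ _).trans hℓ
  have hℓ27 : 27 ≤ θ * ℓ := by
    have := (le_max_right _ _).trans hℓ
    rw [div_le_iff₀ hθ] at this
    linarith
  have hℓpos : 0 < ℓ := by linarith
  have hb1 : (ℓ + 2) ^ 3 < (1 + θ) * ℓ ^ 3 := by
    have h1 : 27 * ℓ ^ 2 ≤ θ * ℓ * ℓ ^ 2 := mul_le_mul_of_nonneg_right hℓ27 (by positivity)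
    have h2 : ℓ ≤ ℓ ^ 2 := by nlinarith
    have h3 : (1 : ℝ) ≤ ℓ ^ 2 := by nlinarith
    nlinarith
  have hθℓ : 1 ≤ θ * ℓ ^ 3 := by
    have h1 : 27 * ℓ ^ 2 ≤ θ * ℓ * ℓ ^ 2 := mul_le_mul_of_nonneg_right hℓ27 (by positivity)
    have h3 : (1 : ℝ) ≤ ℓ ^ 2 := by nlinarith
    nlinarith
  have hC1 : |f ℓ ⌊ρ₁ * ℓ ^ 3⌋₊| ≤ C * ℓ ^ 3 := by
    have h1 := hb ℓ ⌊ρ₁ * ℓ ^ 3⌋₊ hℓ3 (Nat.floor_le (by positivity))
    have h2 := hup ℓ ⌊ρ₁ * ℓ ^ 3⌋₊ (by linarith)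
    have h3 : 0 ≤ ℓ ^ 3 := by positivity
    have h4 : C' ≤ C := by have := le_abs_self C'; linarith
    have h5 : Cb ≤ C := by linarith
    have h6 := mul_le_mul_of_nonneg_right h4 h3
    have h7 := mul_le_mul_of_nonneg_right h5 h3
    rw [abs_le]; constructor <;> linarith
  have hC2 : |f ℓ ⌊ρ₂ * ℓ ^ 3⌋₊| ≤ C * ℓ ^ 3 := by
    have h1 := hc ℓ ⌊ρ₂ * ℓ ^ 3⌋₊ hℓ3 (Nat.floor_le (by positivity))
    have h2 := hup ℓ ⌊ρ₂ * ℓ ^ 3⌋₊ (by linarith)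
    have h3 : 0 ≤ ℓ ^ 3 := by positivity
    have h4 : C' ≤ C := by have := le_abs_self C'; linarith
    have h5 : Cc ≤ C := by linarith
    have h6 := mul_le_mul_of_nonneg_right h4 h3
    have h7 := mul_le_mul_of_nonneg_right h5 h3
    rw [abs_le]; constructor <;> linarith
  have hlow : ∀ n : ℕ, (n : ℝ) ≤ (2 * (α * ρ₁ + (1 - α) * ρ₂) + 3) * ℓ ^ 3 →
      -(C * ℓ ^ 3) ≤ f ℓ n := by
    intro n hn
    have h1 := ha ℓ n hℓ3 hn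
    have h3 : 0 ≤ ℓ ^ 3 := by positivity
    have h5 : Ca ≤ C := by linarith
    have h7 := mul_le_mul_of_nonneg_right h5 h3
    linarith
  -- asymptotics in `L`
  have hlim : Tendsto (fun L : ℝ => (1 + θ) * ℓ ^ 3 * ((⌊(1 / (ℓ + 2)) * L⌋₊ : ℝ) / L) ^ 3) atTop
      (𝓝 ((1 + θ) * ℓ ^ 3 * (1 / (ℓ + 2)) ^ 3)) :=
    ((tendsto_nat_floor_mul_div_atTop (by positivity)).pow 3).const_mul _
  have hgt : 1 < (1 + θ) * ℓ ^ 3 * (1 / (ℓ + 2)) ^ 3 := by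
    rw [one_div, inv_pow, ← div_eq_mul_inv, lt_div_iff₀ (by positivity)]
    linarith
  have hev1 := hlim.eventually_const_lt hgt
  have hMinf : Tendsto (fun L : ℝ => (1 / (ℓ + 2)) * L) atTop atTop :=
    tendsto_id.const_mul_atTop (by positivity)
  have hMinf2 : Tendsto (fun L : ℝ => ⌊(1 / (ℓ + 2)) * L⌋₊) atTop atTop :=
    tendsto_nat_floor_atTop.comp hMinf
  have hev2 := hMinf2.eventually_ge_atTop (⌈(1 + ρ₁ + ρ₂) / θ⌉₊ + 1)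
  filter_upwards [hev1, hev2, eventually_gt_atTop (0 : ℝ)] with L h1 h2 hLpos
  set M : ℕ := ⌊(1 / (ℓ + 2)) * L⌋₊ with hMdef
  have hM : (M : ℝ) * (ℓ + 2) ≤ L := by
    have : (M : ℝ) ≤ (1 / (ℓ + 2)) * L := Nat.floor_le (by positivity)
    calc (M : ℝ) * (ℓ + 2) ≤ (1 / (ℓ + 2)) * L * (ℓ + 2) :=
          mul_le_mul_of_nonneg_right this (by positivity)
      _ = L := by field_simp
  have hLM : L ^ 3 ≤ (1 + θ) * (M : ℝ) ^ 3 * ℓ ^ 3 := by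
    have h3 : (1 + θ) * ℓ ^ 3 * ((M : ℝ) / L) ^ 3 = ((1 + θ) * (M : ℝ) ^ 3 * ℓ ^ 3) / L ^ 3 := by
      rw [div_pow]; ring
    rw [h3, lt_div_iff₀ (by positivity)] at h1
    linarith
  have hM1 : (1 : ℝ) ≤ M := by
    have : 1 ≤ M := by omega
    exact_mod_cast this
  have hθM : 1 + ρ₁ + ρ₂ ≤ θ * (M : ℝ) ^ 3 := by
    have h3 : (1 + ρ₁ + ρ₂) / θ ≤ M := by
      refine (Nat.le_ceil _).trans ?_
      have : ⌈(1 + ρ₁ + ρ₂) / θ⌉₊ ≤ M := by omega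
      exact_mod_cast this
    rw [div_le_iff₀ hθ] at h3
    have h4 : (M : ℝ) ≤ (M : ℝ) ^ 3 := le_self_pow₀ hM1 (by norm_num)
    nlinarith
  have := key_fin hsup hρ₁ hρ₂ hα0 hα1 hθ hθ1 hℓ3 hLpos M hM hLM hθℓ (by linarith) (by linarith)
    hC hlow hC1 hC2
  linarith

open Filter Topology in
theorem exists_lim {u : ℝ → ℝ} {C : ℝ} (hb : ∀ᶠ L in atTop, |u L| ≤ C)
    (h : ∀ ε : ℝ, 0 < ε → ∃ ℓ₀ : ℝ, ∀ ℓ, ℓ₀ ≤ ℓ → ∀ᶠ L in atTop, u ℓ - ε ≤ u L) :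
    ∃ g, Tendsto u atTop (𝓝 g) := by
  have hub : IsBoundedUnder (· ≤ ·) atTop u :=
    ⟨C, by
      rw [eventually_map]
      filter_upwards [hb] with L hL using (le_abs_self _).trans hL⟩
  have hlb : IsBoundedUnder (· ≥ ·) atTop u :=
    ⟨-C, by
      rw [eventually_map]
      filter_upwards [hb] with L hL using (abs_le.mp hL).1⟩
  refine ⟨limsup u atTop, ?_⟩
  rw [Metric.tendsto_nhds]
  intro ε hε
  have h1 : ∀ᶠ L in atTop, u L < limsup u atTop + ε :=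
    eventually_lt_of_limsup_lt (by linarith) hub
  have h2 : ∃ᶠ ℓ in atTop, limsup u atTop - ε / 2 < u ℓ :=
    frequently_lt_of_lt_limsup hlb.isCoboundedUnder_le (by linarith)
  obtain ⟨ℓ₀, hℓ₀⟩ := h (ε / 2) (by linarith)
  obtain ⟨ℓ, hℓ1, hℓ2⟩ := (h2.and_eventually (eventually_ge_atTop ℓ₀)).exists
  filter_upwards [h1, hℓ₀ ℓ hℓ2] with L h3 h4
  rw [Real.dist_eq, abs_lt]
  constructor <;> linarith

end ThermoAbsAux

open ThermoAbsAux Filter Topology in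
theorem thermo_abs (f : ℝ → ℕ → ℝ) (C : ℝ)
    (hmono : ∀ (L L' : ℝ) (N : ℕ), 0 < L → L ≤ L' → f L N ≤ f L' N)
    (hsup : ∀ (ℓ L : ℝ) (M : ℕ) (n : (Fin 3 → Fin M) → ℕ), 0 < ℓ → 0 < L → M * (ℓ + 2) ≤ L →
      ∑ v, f ℓ (n v) ≤ f L (∑ v, n v))
    (hup : ∀ (L : ℝ) (N : ℕ), 1 ≤ L → f L N ≤ C * L ^ 3)
    (h0 : ∀ L : ℝ, 0 < L → f L 0 = 0) :
    ∃ G : ℝ → ℝ, (∀ ρ : ℝ, 0 ≤ ρ →
        Filter.Tendsto (fun L : ℝ => f L ⌊ρ * L ^ 3⌋₊ / L ^ 3) Filter.atTop (nhds (G ρ))) ∧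
      ConcaveOn ℝ (Set.Ici 0) G := by
  have hex : ∀ ρ : ℝ, 0 ≤ ρ → ∃ g, Tendsto (fun L : ℝ => f L ⌊ρ * L ^ 3⌋₊ / L ^ 3) atTop (𝓝 g) := by
    intro ρ hρ
    obtain ⟨Cb, hCb, hb⟩ := lower hsup ρ
    apply exists_lim (C := Cb + |C|)
    · filter_upwards [eventually_ge_atTop (3 : ℝ)] with L hL
      have hL3 : 0 < L ^ 3 := by positivity
      have h1 := hb L ⌊ρ * L ^ 3⌋₊ hL (Nat.floor_le (by positivity))
      have h2 := hup L ⌊ρ * L ^ 3⌋₊ (by linarith)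
      have h3 := le_abs_self C
      have h4 := abs_nonneg C
      rw [abs_le]
      constructor
      · rw [le_div_iff₀ hL3]
        nlinarith
      · rw [div_le_iff₀ hL3]
        nlinarith
    · intro ε hε
      obtain ⟨ℓ₀, h⟩ := key hsup hup hρ hρ zero_le_one le_rfl hε
      refine ⟨ℓ₀, fun ℓ hℓ => ?_⟩
      have := h ℓ hℓ
      simpa using this
  refine ⟨fun ρ => limUnder atTop (fun L : ℝ => f L ⌊ρ * L ^ 3⌋₊ / L ^ 3),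
    fun ρ hρ => tendsto_nhds_limUnder (hex ρ hρ), convex_Ici 0, ?_⟩
  intro x hx y hy a b ha hb hab
  have hx0 : 0 ≤ x := hx
  have hy0 : 0 ≤ y := hy
  have hb' : b = 1 - a := by linarith
  subst hb'
  simp only [smul_eq_mul]
  have tx := tendsto_nhds_limUnder (hex x hx0)
  have ty := tendsto_nhds_limUnder (hex y hy0)
  have tz := tendsto_nhds_limUnder (hex (a * x + (1 - a) * y) (by positivity))
  apply le_of_forall_pos_sub_le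
  intro ε hε
  obtain ⟨ℓ₀, h⟩ := key hsup hup hx0 hy0 ha (by linarith) hε
  refine le_of_tendsto (((tx.const_mul a).add (ty.const_mul (1 - a))).sub_const ε) ?_
  filter_upwards [eventually_ge_atTop ℓ₀] with ℓ hℓ
  exact ge_of_tendsto tz (h ℓ hℓ)

end Crest.Agent.R149
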