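import Crest.Agent.R149.LemmaL
import Crest.Agent.R149.ThermoAbs

/-!
PIECE C2 (thermodynamic limit; from `thermo_abs`, `Jn_super`, `Jn_holder`).
`thermo`: `f L N = log Z_L(N)`; `hup`: `Z ≤ e^{βBN} V^N/N! ≤ exp (V e^{βB})`.
`logZ_lower`: `Jn_super` with `ℓ = 1`, `M = ⌊ℓ/3⌋`, at most `216 D + 1` particles per unit cell, and
`Z^{φ₀}_1(n,β) ≥ Z^{φ₀}_1(n,3/2) > 0`.
-/

set_option autoImplicit false

namespace Crest.Agent.R149

open MeasureTheory Crest.ProbabilityR.Continuum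
open scoped ENNReal BigOperators

theorem measurable_En_conf {φ : ℝ → ℝ} (hφ : Measurable φ) (n : ℕ) :
    Measurable (fun x : Fin n → Pt => En φ (conf x)) := by
  unfold En
  simp_rw [dbl_conf, card_conf]
  refine Measurable.div_const (Measurable.sub ?_ measurable_const) _
  refine Finset.measurable_sum _ fun i _ => Finset.measurable_sum _ fun j _ => ?_
  exact hφ.comp ((measurable_pi_apply i).dist (measurable_pi_apply j))

theorem Jn_wt_ne_top {φ : ℝ → ℝ} {B : ℝ}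
    (hst : ∀ s : Multiset Pt, -B * (Multiset.card s : ℝ) ≤ En φ s) {β : ℝ} (hβ : 0 ≤ β) {L : ℝ}
    (hL : 0 ≤ L) (N : ℕ) : Jn (wt φ β) (cube L) N ≠ ∞ :=
  ne_top_of_le_ne_top ENNReal.ofReal_ne_top (Jn_wt_le hst hβ hL N)

/-- Log-convexity in `β` at finite volume. -/
theorem logZ_convex {φ : ℝ → ℝ} (hφ : Measurable φ) {B : ℝ}
    (hst : ∀ s : Multiset Pt, -B * (Multiset.card s : ℝ) ≤ En φ s) {L : ℝ} (hL : 0 < L) (N : ℕ) :
    ConvexOn ℝ (Set.Ioi 0) (fun β => Real.log (partitionFn φ L N β)) := by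
  refine ⟨convex_Ioi 0, fun x hx y hy a b ha hb hab => ?_⟩
  simp only [Set.mem_Ioi] at hx hy
  simp only [smul_eq_mul]
  have hz : 0 < a * x + b * y := by
    rcases eq_or_lt_of_le ha with h | h
    · have : b = 1 := by linarith
      rw [← h, this]; simpa using hy
    · have h1 : 0 < a * x := mul_pos h hx
      have h2 : 0 ≤ b * y := mul_nonneg hb hy.le
      linarith
  have hpx := partitionFn_pos hφ hst hx.le hL N
  have hpy := partitionFn_pos hφ hst hy.le hL N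
  have hpz := partitionFn_pos hφ hst hz.le hL N
  have hH := Jn_holder (fun s => -x * En φ s) (fun s => -y * En φ s)
    (fun n => (measurable_En_conf hφ n).const_mul _) (fun n => (measurable_En_conf hφ n).const_mul _)
    hb (by linarith : b ≤ 1) (cube L) N
  have h1b : 1 - b = a := by linarith
  rw [h1b] at hH
  have hfun : (fun s : Multiset Pt => ENNReal.ofReal (Real.exp (a * (-x * En φ s) +
      b * (-y * En φ s)))) = wt φ (a * x + b * y) := by
    funext s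
    unfold wt
    congr 2
    ring
  rw [hfun] at hH
  have hH' : Jn (wt φ (a * x + b * y)) (cube L) N ≤
      (Jn (wt φ x) (cube L) N) ^ a * (Jn (wt φ y) (cube L) N) ^ b := hH
  have hfx := Jn_wt_ne_top hst hx.le hL.le N
  have hfy := Jn_wt_ne_top hst hy.le hL.le N
  have hle : partitionFn φ L N (a * x + b * y) ≤
      (partitionFn φ L N x) ^ a * (partitionFn φ L N y) ^ b := by
    rw [partitionFn_eq hφ, partitionFn_eq hφ, partitionFn_eq hφ]
    rw [ENNReal.toReal_rpow, ENNReal.toReal_rpow, ← ENNReal.toReal_mul]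
    refine ENNReal.toReal_mono ?_ hH'
    exact ENNReal.mul_ne_top (ENNReal.rpow_ne_top_of_nonneg ha hfx)
      (ENNReal.rpow_ne_top_of_nonneg hb hfy)
  calc Real.log (partitionFn φ L N (a * x + b * y))
      ≤ Real.log ((partitionFn φ L N x) ^ a * (partitionFn φ L N y) ^ b) :=
        Real.log_le_log hpz hle
    _ = a * Real.log (partitionFn φ L N x) + b * Real.log (partitionFn φ L N y) := by
        rw [Real.log_mul (Real.rpow_pos_of_pos hpx a).ne' (Real.rpow_pos_of_pos hpy b).ne',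
          Real.log_rpow hpx, Real.log_rpow hpy]

theorem cube_mono {L L' : ℝ} (h : L ≤ L') : cube L ⊆ cube L' :=
  fun _ hx k => ⟨(hx k).1, (hx k).2.trans h⟩

theorem partitionFn_mono {φ : ℝ → ℝ} (hφ : Measurable φ) {B : ℝ}
    (hst : ∀ s : Multiset Pt, -B * (Multiset.card s : ℝ) ≤ En φ s) {β : ℝ} (hβ : 0 ≤ β)
    {L L' : ℝ} (hL : 0 < L) (h : L ≤ L') (N : ℕ) :
    partitionFn φ L N β ≤ partitionFn φ L' N β := by
  rw [partitionFn_eq hφ, partitionFn_eq hφ]
  exact ENNReal.toReal_mono (Jn_wt_ne_top hst hβ (hL.le.trans h) N)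
    (Jn_mono (cube_mono h) (measurableSet_cube L) N fun s _ _ => le_rfl)

theorem thermo_fixed {φ : ℝ → ℝ} (hφ : Measurable φ) (hneg : ∀ r, 2 ≤ r → φ r ≤ 0) {B : ℝ}
    (hst : ∀ s : Multiset Pt, -B * (Multiset.card s : ℝ) ≤ En φ s) {β : ℝ} (hβ : 0 < β) :
    ∃ G : ℝ → ℝ, (∀ ρ : ℝ, 0 ≤ ρ →
        Filter.Tendsto (fun L : ℝ => Real.log (partitionFn φ L ⌊ρ * L ^ 3⌋₊ β) / L ^ 3)
          Filter.atTop (nhds (G ρ))) ∧
      ConcaveOn ℝ (Set.Ici 0) G := by
  refine thermo_abs (fun L N => Real.log (partitionFn φ L N β)) (Real.exp (β * B)) ?_ ?_ ?_ ?_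
  · intro L L' N hL h
    exact Real.log_le_log (partitionFn_pos hφ hst hβ.le hL N)
      (partitionFn_mono hφ hst hβ.le hL h N)
  · intro ℓ L M n hℓ hL0 hL
    have h1 := Jn_super hφ hneg hβ.le hℓ hL n
    rw [← Real.log_prod (fun v _ => (partitionFn_pos hφ hst hβ.le hℓ (n v)).ne')]
    refine Real.log_le_log (Finset.prod_pos fun v _ => partitionFn_pos hφ hst hβ.le hℓ (n v)) ?_
    rw [partitionFn_eq hφ]
    simp_rw [partitionFn_eq hφ]
    rw [← ENNReal.toReal_prod]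
    exact ENNReal.toReal_mono (Jn_wt_ne_top hst hβ.le hL0.le _) h1
  · intro L N hL
    have hL0 : 0 ≤ L := by linarith
    have hL3 : (0:ℝ) ≤ L ^ 3 := by positivity
    have h1 := Jn_wt_le hst hβ.le hL0 N
    have hZ : partitionFn φ L N β ≤
        Real.exp (β * B * N) * ((L ^ 3) ^ N / (Nat.factorial N : ℝ)) := by
      rw [partitionFn_eq hφ]
      exact ENNReal.toReal_le_of_le_ofReal (by positivity) h1
    have h2 : Real.exp (β * B * N) * ((L ^ 3) ^ N / (Nat.factorial N : ℝ)) ≤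
        Real.exp (Real.exp (β * B) * L ^ 3) := by
      have h3 : Real.exp (β * B * N) * ((L ^ 3) ^ N / (Nat.factorial N : ℝ)) =
          (Real.exp (β * B) * L ^ 3) ^ N / (Nat.factorial N : ℝ) := by
        rw [mul_pow, ← Real.exp_nat_mul]
        rw [mul_comm (β * B) (N : ℝ)]
        ring
      rw [h3]
      exact Real.pow_div_factorial_le_exp _ (by positivity) N
    calc Real.log (partitionFn φ L N β) ≤ Real.log (Real.exp (Real.exp (β * B) * L ^ 3)) :=
          Real.log_le_log (partitionFn_pos hφ hst hβ.le (by linarith) N) (hZ.trans h2)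
      _ = Real.exp (β * B) * L ^ 3 := Real.log_exp _
  · intro L hL
    have h1 : partitionFn φ L 0 β = 1 := by
      rw [partitionFn_eq hφ, Jn_zero]
      unfold wt En dbl
      simp
    simp only [h1, Real.log_one]

theorem thermo {φ : ℝ → ℝ} (hφ : Measurable φ) (hneg : ∀ r, 2 ≤ r → φ r ≤ 0) {B : ℝ}
    (hst : ∀ s : Multiset Pt, -B * (Multiset.card s : ℝ) ≤ En φ s) :
    ∃ G : ℝ → ℝ → ℝ,
      (∀ β ρ : ℝ, 0 < β → 0 ≤ ρ →
        Filter.Tendsto (fun L : ℝ => Real.log (partitionFn φ L ⌊ρ * L ^ 3⌋₊ β) / L ^ 3)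
          Filter.atTop (nhds (G β ρ))) ∧
      (∀ β : ℝ, 0 < β → ConcaveOn ℝ (Set.Ici 0) (G β)) ∧
      (∀ ρ : ℝ, 0 ≤ ρ → ConvexOn ℝ (Set.Ioi 0) (fun β => G β ρ)) := by
  classical
  choose! G hG1 hG2 using fun (β : ℝ) (hβ : 0 < β) => thermo_fixed hφ hneg hst hβ
  refine ⟨G, fun β ρ hβ hρ => hG1 β hβ ρ hρ, hG2, fun ρ hρ => ⟨convex_Ioi 0, ?_⟩⟩
  intro x hx y hy a b ha hb hab
  simp only [Set.mem_Ioi] at hx hy
  have hz : 0 < a • x + b • y := (convex_Ioi (0:ℝ)) hx hy ha hb hab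
  have hlim := ((hG1 x hx ρ hρ).const_mul a).add ((hG1 y hy ρ hρ).const_mul b)
  refine le_of_tendsto_of_tendsto (hG1 _ hz ρ hρ) hlim ?_
  filter_upwards [Filter.eventually_gt_atTop (0:ℝ)] with L hL
  have h1 := (logZ_convex hφ hst hL ⌊ρ * L ^ 3⌋₊).2 hx hy ha hb hab
  simp only [smul_eq_mul] at h1 ⊢
  have hL3 : (0:ℝ) < L ^ 3 := by positivity
  rw [mul_div_assoc', mul_div_assoc', ← add_div]
  exact div_le_div_of_nonneg_right h1 hL3.le

/-- distribution of `n ≤ K m` particles over `m` cells, at most `K` in each -/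
theorem exists_distribution {ι : Type} [Fintype ι] (K : ℕ) :
    ∀ n : ℕ, n ≤ K * Fintype.card ι → ∃ f : ι → ℕ, (∀ i, f i ≤ K) ∧ ∑ i, f i = n := by
  classical
  intro n
  induction n with
  | zero => intro _; exact ⟨fun _ => 0, fun _ => Nat.zero_le _, by simp⟩
  | succ n ih =>
    intro hn
    obtain ⟨f, hf, hsum⟩ := ih (by omega)
    have : ∃ i, f i < K := by
      by_contra hcon
      push Not at hcon
      have h1 : ∀ i, f i = K := fun i => le_antisymm (hf i) (hcon i)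
      have h2 : ∑ i, f i = K * Fintype.card ι := by
        simp [h1, mul_comm]
      omega
    obtain ⟨i, hi⟩ := this
    refine ⟨Function.update f i (f i + 1), fun j => ?_, ?_⟩
    · by_cases hj : j = i
      · subst hj; simp; omega
      · rw [Function.update_of_ne hj]; exact hf j
    · rw [Finset.sum_update_of_mem (Finset.mem_univ i)]
      have h3 : ∑ x, f x = f i + ∑ x ∈ Finset.univ \ {i}, f x := by
        rw [← Finset.sum_sdiff (Finset.subset_univ {i}), add_comm, Finset.sum_singleton]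
      omega

/-- A priori lower bound, for the pure core, uniform in `β ≤ 3/2`, `ℓ ≥ 3`, `n ≤ D ℓ³`. -/
theorem logZ_lower {φ₀ : ℝ → ℝ} (hφ : Measurable φ₀) (h0 : ∀ r, 0 ≤ φ₀ r)
    (h2 : ∀ r, 2 ≤ r → φ₀ r = 0) (D : ℝ) :
    ∃ C : ℝ, 0 < C ∧ ∀ (ℓ β : ℝ) (n : ℕ), 3 ≤ ℓ → 0 ≤ β → β ≤ 3 / 2 → (n : ℝ) ≤ D * ℓ ^ 3 →
      ENNReal.ofReal (Real.exp (-C * ℓ ^ 3)) ≤ Jn (wt φ₀ β) (cube ℓ) n := by
  classical
  set K : ℕ := ⌈216 * D⌉₊ with hK
  have hvol : volume (cube 1) ≠ 0 := by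
    rw [volume_cube zero_le_one]
    simp
  have hpos : ∀ j : ℕ, 0 < Jn (wt φ₀ (3 / 2)) (cube 1) j := fun j => Jn_wt_pos hφ _ hvol j
  -- a positive lower bound of the form `exp (-C')`
  have hlow : ∀ j : ℕ, ∃ C : ℝ, 0 ≤ C ∧
      ENNReal.ofReal (Real.exp (-C)) ≤ Jn (wt φ₀ (3 / 2)) (cube 1) j := by
    intro j
    have h1 : Filter.Tendsto (fun C : ℝ => ENNReal.ofReal (Real.exp (-C))) Filter.atTop
        (nhds 0) := by
      have h3 : Filter.Tendsto (fun C : ℝ => Real.exp (-C)) Filter.atTop (nhds 0) :=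
        Real.tendsto_exp_atBot.comp Filter.tendsto_neg_atTop_atBot
      have := ENNReal.tendsto_ofReal h3
      simpa using this
    obtain ⟨C, hC1, hC2⟩ := ((h1.eventually (gt_mem_nhds (hpos j))).and
      (Filter.eventually_ge_atTop (0:ℝ))).exists
    exact ⟨C, hC2, hC1.le⟩
  choose c hc0 hc using hlow
  set C' : ℝ := ∑ j ∈ Finset.range (K + 1), c j with hC'
  have hC'0 : 0 ≤ C' := Finset.sum_nonneg fun j _ => hc0 j
  have hC'j : ∀ j ≤ K, ENNReal.ofReal (Real.exp (-C')) ≤ Jn (wt φ₀ (3 / 2)) (cube 1) j := by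
    intro j hj
    refine le_trans (ENNReal.ofReal_le_ofReal (Real.exp_le_exp.2 (neg_le_neg ?_))) (hc j)
    exact Finset.single_le_sum (f := c) (fun i _ => hc0 i) (by simp; omega)
  refine ⟨C' + 1, by linarith, fun ℓ β n hℓ hβ0 hβ hn => ?_⟩
  set M : ℕ := ⌊ℓ / 3⌋₊ with hM
  have hM1 : (M : ℝ) ≤ ℓ / 3 := Nat.floor_le (by linarith)
  have hM2 : ℓ / 3 < M + 1 := Nat.lt_floor_add_one _
  have hM3 : (1 : ℝ) ≤ M := by
    have : (1 : ℕ) ≤ M := by
      rw [hM]; apply Nat.le_floor; push_cast; linarith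
    exact_mod_cast this
  have hM6 : ℓ / 6 ≤ M := by linarith
  have hcard : Fintype.card (Fin 3 → Fin M) = M ^ 3 := by simp
  have hnK : n ≤ K * Fintype.card (Fin 3 → Fin M) := by
    rw [hcard]
    have h3 : (n : ℝ) ≤ K * (M : ℝ) ^ 3 := by
      have h4 : (ℓ / 6) ^ 3 ≤ (M : ℝ) ^ 3 := by gcongr
      have h5 : 216 * D ≤ K := Nat.le_ceil _
      have h6 : (0:ℝ) ≤ K := Nat.cast_nonneg _
      have hl3 : (0:ℝ) < ℓ ^ 3 := by positivity
      calc (n : ℝ) ≤ D * ℓ ^ 3 := hn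
        _ = 216 * D * (ℓ / 6) ^ 3 := by ring
        _ ≤ K * (ℓ / 6) ^ 3 := by gcongr
        _ ≤ K * (M : ℝ) ^ 3 := by gcongr
    exact_mod_cast h3
  obtain ⟨f, hfK, hfsum⟩ := exists_distribution K n hnK
  have hsup := Jn_super hφ (fun r hr => (h2 r hr).le) hβ0 (ℓ := 1) (L := ℓ) one_pos (M := M)
    (by linarith) f
  rw [hfsum] at hsup
  refine le_trans ?_ hsup
  have hβw : ∀ v, ENNReal.ofReal (Real.exp (-C')) ≤ Jn (wt φ₀ β) (cube 1) (f v) := by
    intro v
    refine (hC'j (f v) (hfK v)).trans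
      (Jn_mono (le_refl _) (measurableSet_cube 1) _ fun s _ _ => ?_)
    unfold wt
    refine ENNReal.ofReal_le_ofReal (Real.exp_le_exp.2 ?_)
    have hE : 0 ≤ En φ₀ s := En_nonneg (fun r _ => h0 r) s
    nlinarith
  calc ENNReal.ofReal (Real.exp (-(C' + 1) * ℓ ^ 3))
      ≤ ENNReal.ofReal (Real.exp (-C')) ^ (M ^ 3) := by
        rw [← ENNReal.ofReal_pow (Real.exp_pos _).le, ← Real.exp_nat_mul]
        refine ENNReal.ofReal_le_ofReal (Real.exp_le_exp.2 ?_)
        push_cast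
        have h7 : (M : ℝ) ^ 3 ≤ ℓ ^ 3 := by
          gcongr
          linarith
        have hl3 : (0:ℝ) ≤ ℓ ^ 3 := by positivity
        nlinarith [mul_le_mul_of_nonneg_left h7 hC'0]
    _ = ∏ _v : (Fin 3 → Fin M), ENNReal.ofReal (Real.exp (-C')) := by
        rw [Finset.prod_const, Finset.card_univ, hcard]
    _ ≤ ∏ v, Jn (wt φ₀ β) (cube 1) (f v) := Finset.prod_le_prod' fun v _ => hβw v

end Crest.Agent.R149
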