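import Crest.Agent.R149.LemmaL
import Crest.Agent.R149.Super
import Crest.Agent.R149.Thermo

/-!
PIECE I-L (lower inequalities between the levels).

`x = xs x0 k`, `ℓ = ls x0 k = x^48`, `ℓ' = ℓ + 2`, `R_k = x^64`.

*(ML)*: `lemmaL` with `φ = φ₀ - T_k`, `t = T_{k+1} - T_k = a_k ψ_{R_k}`, `M = ℓ - 2`, `L = ℓ_{k+1} = ℓ²`
(`(ℓ-2)(ℓ+2) = ℓ² - 4 ≤ L`), `g` from `le_dbl_tail` (`K = k+1`, `X = R_k`).  All quotients
(`M³ℓ³/L³`, `(Mℓ'-2R_k)³/L³`, `ℓ³/ℓ'³`, `(1-4ℓ'/R_k)^4`, …) are `1 + O(x^{-16})`; `a_k ≤ a`;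
`t 0 ≤ a kap/R_k³`; `|log Z_ℓ(n)| ≤ C ℓ³` for `n ≤ rmax ℓ³` by `Jn_all` and `logZ_lower`.

*(limit)*: for every `K > k` use `t = T_K - T_k`, `L = M ℓ'` with `M → ∞` (`N = M³ n = ρ' L³` exactly,
`ρ' = n/ℓ'^3`), `Z^{φ₀-Tfull} ≥ Z^{φ₀-T_K}`; then `K → ∞` (`bs_tendsto`).
-/

set_option autoImplicit false

namespace Crest.Agent.R149

open MeasureTheory Crest.ProbabilityR.Continuum
open scoped ENNReal BigOperators

/-- Logarithmic form of `lemmaL`. -/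
theorem lvL_lemmaL_log {φ t : ℝ → ℝ} (hφ : Measurable φ) (hneg : ∀ r, 2 ≤ r → φ r ≤ 0)
    (ht : Measurable t) {B B' : ℝ}
    (hst : ∀ s : Multiset Pt, -B * (Multiset.card s : ℝ) ≤ En φ s)
    (hst' : ∀ s : Multiset Pt, -B' * (Multiset.card s : ℝ) ≤ En (fun r => φ r - t r) s)
    {β : ℝ} (hβ : 0 ≤ β) {ℓ L : ℝ} (hℓ : 0 < ℓ) (hL0 : 0 < L) {M n : ℕ}
    (hL : M * (ℓ + 2) ≤ L) {g : ℝ}
    (hlow : ∀ s : Multiset Pt,
      (∀ v : Fin 3 → ℤ, (∀ k, 0 ≤ v k ∧ v k < M) → cnt 0 (ℓ + 2) s v = n) → g ≤ dbl t s) :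
    (M : ℝ) ^ 3 * Real.log (partitionFn φ ℓ n β) + β * (g - (M : ℝ) ^ 3 * n * t 0) / 2 ≤
      Real.log (partitionFn (fun r => φ r - t r) L (M ^ 3 * n) β) := by
  have hA := partitionFn_pos hφ hst hβ hℓ n
  have hB := partitionFn_pos (hφ.sub ht) hst' hβ hL0 (M ^ 3 * n)
  have key := lemmaL hφ hneg ht hβ hℓ hL hlow
  have hfinB : Jn (wt (fun r => φ r - t r) β) (cube L) (M ^ 3 * n) ≠ ∞ :=
    ne_top_of_le_ne_top ENNReal.ofReal_ne_top (Jn_wt_le hst' hβ hL0.le _)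
  have h1 := ENNReal.toReal_mono hfinB key
  rw [ENNReal.toReal_mul, ENNReal.toReal_pow, ENNReal.toReal_ofReal (Real.exp_pos _).le] at h1
  have e1 : (Jn (wt φ β) (cube ℓ) n).toReal = partitionFn φ ℓ n β :=
    (partitionFn_eq hφ ℓ n β).symm
  have e2 : (Jn (wt (fun r => φ r - t r) β) (cube L) (M ^ 3 * n)).toReal =
      partitionFn (fun r => φ r - t r) L (M ^ 3 * n) β :=
    (partitionFn_eq (hφ.sub ht) L (M ^ 3 * n) β).symm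
  rw [e1, e2] at h1
  have h2 := Real.log_le_log (by positivity) h1
  rw [Real.log_mul (by positivity) (by positivity), Real.log_pow, Real.log_exp] at h2
  push_cast at h2
  linarith

theorem lvL_core_neg {φ₀ : ℝ → ℝ} {δ c η a : ℝ} (hφ : CoreHyp φ₀ δ c η) (ha : 0 < a) {x0 : ℕ}
    (h : 1 ≤ x0) (k : ℕ) : ∀ r, 2 ≤ r → φ₀ r - Tk a x0 k r ≤ 0 := by
  intro r hr
  have h1 : φ₀ r = 0 := hφ.far r (by linarith [hφ.δle])
  have h2 := Tk_nonneg ha h k r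
  linarith

theorem lvL_hc_weak {δ c a νm : ℝ} (hδ : 0 < δ) (ha : 0 < a)
    (hν : 0 < νm) (hc : 1024 * (20 * a + νm + 3) / δ ^ 3 ≤ c) : 1024 * a / δ ^ 3 ≤ c := by
  refine le_trans ?_ hc
  apply div_le_div_of_nonneg_right _ (by positivity)
  nlinarith

theorem lvL_stable_T {φ₀ : ℝ → ℝ} {δ c η a νm : ℝ} (hφ : CoreHyp φ₀ δ c η) (ha : 0 < a)
    (hν : 0 < νm) (hc : 1024 * (20 * a + νm + 3) / δ ^ 3 ≤ c) {x0 : ℕ} (h : 2 ≤ x0)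
    {T : ℝ → ℝ} (hT : ∀ r, T r ≤ Tfull a x0 r) (s : Multiset Pt) :
    -(c / 2) * (Multiset.card s : ℝ) ≤ En (fun r => φ₀ r - T r) s := by
  have := stable_of_core hφ ha (lvL_hc_weak hφ.δpos ha hν hc) h (lam := 1) (by norm_num)
    (by norm_num) hT s
  simpa using this

/-- monotonicity of the partition function in the potential -/
theorem lvL_partitionFn_mono {φ ψ : ℝ → ℝ} (hφ : Measurable φ) (hψ : Measurable ψ) {B : ℝ}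
    (hst : ∀ s : Multiset Pt, -B * (Multiset.card s : ℝ) ≤ En ψ s)
    (h : ∀ r, 0 ≤ r → ψ r ≤ φ r) {β : ℝ} (hβ : 0 ≤ β) {L : ℝ} (hL : 0 ≤ L) (N : ℕ) :
    partitionFn φ L N β ≤ partitionFn ψ L N β := by
  rw [partitionFn_eq hφ, partitionFn_eq hψ]
  apply ENNReal.toReal_mono
  · exact ne_top_of_le_ne_top ENNReal.ofReal_ne_top (Jn_wt_le hst hβ hL _)
  · apply Jn_mono (le_refl _) (measurableSet_cube L)
    intro s _ _
    apply ENNReal.ofReal_le_ofReal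
    apply Real.exp_le_exp.mpr
    have := En_mono h s
    nlinarith

/-- a priori bound on the logarithm of the partition function -/
theorem lvL_logZ_abs {φ₀ : ℝ → ℝ} {δ c η a νm : ℝ} (hφ : CoreHyp φ₀ δ c η) (ha : 0 < a)
    (hν : 0 < νm) (hc : 1024 * (20 * a + νm + 3) / δ ^ 3 ≤ c) :
    ∃ C : ℝ, 0 < C ∧ ∀ x0 : ℕ, 2 ≤ x0 → ∀ (k : ℕ) (β : ℝ), 1 / 2 ≤ β → β ≤ 3 / 2 →
      ∀ n : ℕ, dens x0 k n ≤ rmax δ →
        |Real.log (partitionFn (fun r => φ₀ r - Tk a x0 k r) (ls x0 k) n β)| ≤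
          C * (ls x0 k : ℝ) ^ 3 := by
  obtain ⟨C0, hC0, hlow⟩ := logZ_lower hφ.meas hφ.nonneg
    (fun r hr => hφ.far r (by linarith [hφ.δle])) (rmax δ)
  have hcpos := hφ.cpos
  have hrm : 0 < rmax δ := by
    have := hφ.δpos
    unfold rmax; positivity
  refine ⟨C0 + (1 + 3 / 2 * c * rmax δ / 2), by positivity, ?_⟩
  intro x0 h k β hβ1 hβ2 n hn
  have hβ0 : 0 ≤ β := by linarith
  have hx1 : x0 ≤ xs x0 k := le_xs (by omega) k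
  have hx2 : 2 ≤ xs x0 k := le_trans h hx1
  have hls : 2 ^ 48 ≤ ls x0 k := Nat.pow_le_pow_left hx2 48
  have hlsR : (2 : ℝ) ^ 48 ≤ (ls x0 k : ℝ) := by exact_mod_cast hls
  have hls3 : (3 : ℝ) ≤ (ls x0 k : ℝ) := by linarith [show (3 : ℝ) ≤ 2 ^ 48 by norm_num]
  have hlpos : (0 : ℝ) < (ls x0 k : ℝ) := by linarith
  have hTle : ∀ r, Tk a x0 k r ≤ Tfull a x0 r := Tk_le_Tfull ha h k
  have hst := lvL_stable_T hφ ha hν hc h hTle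
  have hmeas : Measurable (fun r => φ₀ r - Tk a x0 k r) := hφ.meas.sub (measurable_Tk a x0 k)
  have hpos := partitionFn_pos hmeas hst hβ0 hlpos n
  have hnn : (n : ℝ) ≤ rmax δ * (ls x0 k : ℝ) ^ 3 := by
    unfold dens at hn
    rwa [div_le_iff₀ (by positivity)] at hn
  have hfin : Jn (wt (fun r => φ₀ r - Tk a x0 k r) β) (cube (ls x0 k)) n ≠ ∞ :=
    ne_top_of_le_ne_top ENNReal.ofReal_ne_top (Jn_wt_le hst hβ0 hlpos.le _)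
  -- upper bound
  have hup : Real.log (partitionFn (fun r => φ₀ r - Tk a x0 k r) (ls x0 k) n β) ≤
      (1 + 3 / 2 * c * rmax δ / 2) * (ls x0 k : ℝ) ^ 3 := by
    have h1 := Jn_all hφ ha (lvL_hc_weak hφ.δpos ha hν hc) h (lam := 1) (by norm_num) (by norm_num)
      hTle (ℓ := (ls x0 k : ℝ)) (by linarith) hβ0 n
    simp only [one_mul] at h1
    have h2 := ENNReal.toReal_mono ENNReal.ofReal_ne_top h1
    rw [ENNReal.toReal_ofReal (Real.exp_pos _).le, ← partitionFn_eq hmeas] at h2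
    have h3 := Real.log_le_log hpos h2
    rw [Real.log_exp] at h3
    refine h3.trans ?_
    apply mul_le_mul_of_nonneg_right _ (by positivity)
    have : β * c * rmax δ ≤ 3 / 2 * c * rmax δ := by
      apply mul_le_mul_of_nonneg_right _ hrm.le
      exact mul_le_mul_of_nonneg_right hβ2 hcpos.le
    linarith
  -- lower bound
  have hlo : -(C0 * (ls x0 k : ℝ) ^ 3) ≤
      Real.log (partitionFn (fun r => φ₀ r - Tk a x0 k r) (ls x0 k) n β) := by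
    have h1 := hlow (ls x0 k : ℝ) β n hls3 hβ0 hβ2 hnn
    have h2 : Jn (wt φ₀ β) (cube (ls x0 k : ℝ)) n ≤
        Jn (wt (fun r => φ₀ r - Tk a x0 k r) β) (cube (ls x0 k)) n := by
      apply Jn_mono (le_refl _) (measurableSet_cube _)
      intro s _ _
      apply ENNReal.ofReal_le_ofReal
      apply Real.exp_le_exp.mpr
      have := En_mono (φ := fun r => φ₀ r - Tk a x0 k r) (ψ := φ₀)
        (fun r _ => by linarith [Tk_nonneg ha (by omega : 1 ≤ x0) k r]) s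
      nlinarith
    have h3 := ENNReal.toReal_mono hfin (h1.trans h2)
    rw [ENNReal.toReal_ofReal (Real.exp_pos _).le, ← partitionFn_eq hmeas] at h3
    have h4 := Real.log_le_log (Real.exp_pos _) h3
    rw [Real.log_exp] at h4
    linarith
  have hl3 : (0 : ℝ) < (ls x0 k : ℝ) ^ 3 := by positivity
  rw [abs_le]
  constructor
  · have : 0 ≤ (1 + 3 / 2 * c * rmax δ / 2) * (ls x0 k : ℝ) ^ 3 := by positivity
    nlinarith
  · have : 0 ≤ C0 * (ls x0 k : ℝ) ^ 3 := by positivity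
    nlinarith

/-! ### Pure real inequalities -/

theorem lvL_bern3 {h : ℝ} (h1 : h ≤ 1) : 1 - 3 * h ≤ (1 - h) ^ 3 := by
  have := one_add_mul_le_pow (a := -h) (by linarith) 3
  push_cast at this
  have e : (1 + -h) = 1 - h := by ring
  rw [e] at this
  linarith

theorem lvL_bern4 {h : ℝ} (h1 : h ≤ 1) : 1 - 4 * h ≤ (1 - h) ^ 4 := by
  have := one_add_mul_le_pow (a := -h) (by linarith) 4
  push_cast at this
  have e : (1 + -h) = 1 - h := by ring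
  rw [e] at this
  linarith

theorem lvL_bern6 {h : ℝ} (h1 : h ≤ 1) : 1 - 6 * h ≤ (1 - h) ^ 6 := by
  have := one_add_mul_le_pow (a := -h) (by linarith) 6
  push_cast at this
  have e : (1 + -h) = 1 - h := by ring
  rw [e] at this
  linarith

/-- the quotients, in terms of `y = x_k` and `u = y^{-16}` -/
theorem lvL_quot_bounds {y : ℝ} (hy : 2 ≤ y) :
    let ℓ := y ^ 48
    let R := y ^ 64
    let u := 1 / y ^ 16
    (0 < u ∧ u ≤ 1) ∧ 1 / ℓ ≤ u ∧ 1 / R ≤ u ∧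
    (1 - 32 * u ≤ (1 - 4 * (ℓ + 2) / R) ^ 4 ∧ (1 - 4 * (ℓ + 2) / R) ^ 4 ≤ 1 ∧
      4 * (ℓ + 2) < R) ∧
    (1 - 6 * u ≤ ((ℓ - 2) / ℓ) ^ 3 ∧ ((ℓ - 2) / ℓ) ^ 3 ≤ 1 ∧ 0 ≤ ((ℓ - 2) / ℓ) ^ 3) ∧
    (1 - 6 * u ≤ (ℓ / (ℓ + 2)) ^ 3 ∧ (ℓ / (ℓ + 2)) ^ 3 ≤ 1 ∧ 0 ≤ (ℓ / (ℓ + 2)) ^ 3) ∧
    (1 - 18 * u ≤ (((ℓ - 2) * (ℓ + 2) - 2 * R) / ℓ ^ 2) ^ 3 ∧
      (((ℓ - 2) * (ℓ + 2) - 2 * R) / ℓ ^ 2) ^ 3 ≤ 1 ∧
      0 ≤ (((ℓ - 2) * (ℓ + 2) - 2 * R) / ℓ ^ 2) ^ 3 ∧ 2 * R ≤ (ℓ - 2) * (ℓ + 2)) := by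
  intro ℓ R u
  have hy0 : 0 < y := by linarith
  have hy16 : (65536 : ℝ) ≤ y ^ 16 := by
    calc (65536 : ℝ) = 2 ^ 16 := by norm_num
      _ ≤ y ^ 16 := pow_le_pow_left₀ (by norm_num) hy 16
  have hp : 0 < y ^ 16 := by positivity
  have hu0 : 0 < u := by positivity
  have hu1 : u ≤ 1 / 65536 := by
    apply one_div_le_one_div_of_le (by norm_num) hy16
  have hyu : y ^ 16 * u = 1 := by
    simp only [u]; field_simp
  have hℓ : ℓ = (y ^ 16) ^ 3 := by simp only [ℓ]; ring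
  have hR : R = (y ^ 16) ^ 4 := by simp only [R]; ring
  set w := y ^ 16 with hw
  have hw1 : (1 : ℝ) ≤ w := by linarith
  have hℓw : w ≤ ℓ := by rw [hℓ]; nlinarith [mul_pos hp hp, sq_nonneg w]
  have hRw : w ≤ R := by
    rw [hR]
    have : (1 : ℝ) ≤ w ^ 3 := one_le_pow₀ hw1
    nlinarith
  have hℓpos : 0 < ℓ := by linarith
  have hRpos : 0 < R := by linarith
  have huw : u = 1 / w := rfl
  have hinvℓ : 1 / ℓ ≤ u := by
    rw [huw]; exact one_div_le_one_div_of_le (by linarith) hℓw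
  have hinvR : 1 / R ≤ u := by
    rw [huw]; exact one_div_le_one_div_of_le (by linarith) hRw
  -- (ℓ+2)/R ≤ 2u
  have hq1 : 4 * (ℓ + 2) / R ≤ 8 * u := by
    rw [div_le_iff₀ hRpos]
    have : u * R = ℓ := by
      rw [hR, hℓ]
      calc u * w ^ 4 = (w * u) * w ^ 3 := by ring
        _ = w ^ 3 := by rw [hyu]; ring
    nlinarith
  have hq1' : 0 ≤ 4 * (ℓ + 2) / R := by positivity
  refine ⟨⟨hu0, by linarith⟩, hinvℓ, hinvR, ⟨?_, ?_, ?_⟩, ⟨?_, ?_, ?_⟩, ⟨?_, ?_, ?_⟩,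
    ⟨?_, ?_, ?_, ?_⟩⟩
  · have := lvL_bern4 (h := 4 * (ℓ + 2) / R) (by linarith)
    linarith
  · apply pow_le_one₀ <;> linarith
  · have h1 : 4 * (ℓ + 2) / R < 1 := by linarith
    rwa [div_lt_one hRpos] at h1
  · have e : (ℓ - 2) / ℓ = 1 - 2 * (1 / ℓ) := by field_simp
    rw [e]
    have := lvL_bern3 (h := 2 * (1 / ℓ)) (by linarith)
    linarith
  · apply pow_le_one₀
    · apply div_nonneg _ hℓpos.le; linarith
    · rw [div_le_one hℓpos]; linarith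
  · apply pow_nonneg; apply div_nonneg _ hℓpos.le; linarith
  · have e : ℓ / (ℓ + 2) = 1 - 2 * (1 / (ℓ + 2)) := by field_simp; ring
    have h2 : 1 / (ℓ + 2) ≤ 1 / ℓ := one_div_le_one_div_of_le hℓpos (by linarith)
    rw [e]
    have := lvL_bern3 (h := 2 * (1 / (ℓ + 2))) (by linarith)
    linarith
  · apply pow_le_one₀
    · positivity
    · rw [div_le_one (by linarith)]; linarith
  · positivity
  all_goals
    have e : ((ℓ - 2) * (ℓ + 2) - 2 * R) / ℓ ^ 2 = 1 - (4 * (1 / ℓ ^ 2) + 2 * (R / ℓ ^ 2)) := by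
      field_simp; ring
    have h3 : 1 / ℓ ^ 2 ≤ u := by
      refine le_trans ?_ hinvℓ
      apply one_div_le_one_div_of_le hℓpos
      nlinarith
    have h4 : R / ℓ ^ 2 ≤ u := by
      rw [div_le_iff₀ (by positivity), hR, hℓ]
      have : u * (w ^ 3) ^ 2 = w ^ 5 := by
        calc u * (w ^ 3) ^ 2 = (w * u) * w ^ 5 := by ring
          _ = w ^ 5 := by rw [hyu]; ring
      rw [this]
      exact pow_le_pow_right₀ hw1 (by norm_num)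
    have h5 : 0 ≤ 1 / ℓ ^ 2 := by positivity
    have h6 : 0 ≤ R / ℓ ^ 2 := by positivity
  · rw [e]
    have := lvL_bern3 (h := 4 * (1 / ℓ ^ 2) + 2 * (R / ℓ ^ 2)) (by linarith)
    linarith
  · rw [e]; apply pow_le_one₀ <;> linarith
  · rw [e]; apply pow_nonneg; linarith
  · have h7 : 0 ≤ ((ℓ - 2) * (ℓ + 2) - 2 * R) / ℓ ^ 2 := by rw [e]; linarith
    have h8 : 0 < ℓ ^ 2 := by positivity
    have h9 : 0 ≤ ((ℓ - 2) * (ℓ + 2) - 2 * R) / ℓ ^ 2 * ℓ ^ 2 := mul_nonneg h7 h8.le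
    rw [div_mul_cancel₀ _ h8.ne'] at h9
    linarith

set_option maxHeartbeats 2000000 in
theorem lvL_scaled_succ {ρ lam q q2 f1 f3 u t0 ν νm β b b' a D C1 κ : ℝ}
    (hρ0 : 0 ≤ ρ) (hρ : ρ ≤ D) (hlam : |lam| ≤ C1) (hu : 0 ≤ u)
    (hq : 1 - 6 * u ≤ q) (hq1 : q ≤ 1) (hq0 : 0 ≤ q)
    (hq2 : 1 - 6 * u ≤ q2) (hq21 : q2 ≤ 1) (hq20 : 0 ≤ q2)
    (hf1 : 1 - 32 * u ≤ f1) (hf11 : f1 ≤ 1) (hf10 : 0 ≤ f1)
    (hf3 : 1 - 18 * u ≤ f3) (hf31 : f3 ≤ 1) (hf30 : 0 ≤ f3)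
    (ht0 : 0 ≤ t0) (ht : t0 ≤ κ * a * u) (hν : |ν| ≤ νm)
    (_hβ1 : 1 / 2 ≤ β) (hβ2 : β ≤ 3 / 2) (hb' : 0 ≤ b') (hbb : b' ≤ b) (hba : b ≤ a) :
    ν * ρ + lam + β * b * ρ ^ 2 / 2 -
        (6 * νm * D + 6 * C1 + 3 / 4 * (74 * a * D ^ 2 + κ * a * D)) * u ≤
      ν * (q * ρ) + q * lam + β * ((b - b') * (f1 * f3 * q2 ^ 2) * ρ ^ 2 - q * ρ * t0) / 2
        + β * b' * (q * ρ) ^ 2 / 2 := by
  have hD : 0 ≤ D := hρ0.trans hρ
  have ha : 0 ≤ a := by linarith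
  have hνm : 0 ≤ νm := (abs_nonneg _).trans hν
  have hC1 : 0 ≤ C1 := (abs_nonneg _).trans hlam
  have hν' := abs_le.mp hν
  have hlam' := abs_le.mp hlam
  -- A
  have A : ν * ((1 - q) * ρ) ≤ 6 * νm * D * u := by
    have h1 : (1 - q) * ρ ≤ 6 * u * D := by
      apply mul_le_mul (by linarith) hρ hρ0 (by linarith)
    have h2 : 0 ≤ (1 - q) * ρ := mul_nonneg (by linarith) hρ0
    calc ν * ((1 - q) * ρ) ≤ νm * ((1 - q) * ρ) := mul_le_mul_of_nonneg_right hν'.2 h2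
      _ ≤ νm * (6 * u * D) := mul_le_mul_of_nonneg_left h1 hνm
      _ = 6 * νm * D * u := by ring
  have Bd : (1 - q) * lam ≤ 6 * C1 * u := by
    calc (1 - q) * lam ≤ (1 - q) * C1 := mul_le_mul_of_nonneg_left hlam'.2 (by linarith)
      _ ≤ 6 * u * C1 := mul_le_mul_of_nonneg_right (by linarith) hC1
      _ = 6 * C1 * u := by ring
  have hq2s : 1 - 12 * u ≤ q2 ^ 2 := by nlinarith [sq_nonneg (1 - q2)]
  have hq2s1 : q2 ^ 2 ≤ 1 := by nlinarith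
  have hq2s0 : 0 ≤ q2 ^ 2 := sq_nonneg _
  have hf13 : 1 - 50 * u ≤ f1 * f3 := by nlinarith [mul_nonneg (sub_nonneg.2 hf11) (sub_nonneg.2 hf31)]
  have hf131 : f1 * f3 ≤ 1 := by nlinarith
  have hf130 : 0 ≤ f1 * f3 := mul_nonneg hf10 hf30
  have F : 1 - 62 * u ≤ f1 * f3 * q2 ^ 2 := by
    nlinarith [mul_nonneg (sub_nonneg.2 hf131) (sub_nonneg.2 hq2s1)]
  have hρ2 : ρ ^ 2 ≤ D ^ 2 := by nlinarith
  have hρ20 : 0 ≤ ρ ^ 2 := sq_nonneg _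
  have F1 : f1 * f3 * q2 ^ 2 ≤ 1 := by nlinarith
  have G : (b - b') * (1 - f1 * f3 * q2 ^ 2) * ρ ^ 2 ≤ 62 * a * D ^ 2 * u := by
    have h1 : (b - b') * (1 - f1 * f3 * q2 ^ 2) ≤ a * (62 * u) := by
      apply mul_le_mul (by linarith) (by linarith) (by linarith) ha
    have h0 : 0 ≤ (b - b') * (1 - f1 * f3 * q2 ^ 2) := mul_nonneg (by linarith) (by linarith)
    calc (b - b') * (1 - f1 * f3 * q2 ^ 2) * ρ ^ 2
        ≤ (a * (62 * u)) * D ^ 2 := mul_le_mul h1 hρ2 hρ20 (by positivity)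
      _ = 62 * a * D ^ 2 * u := by ring
  have H : q * ρ * t0 ≤ κ * a * D * u := by
    have h1 : q * ρ ≤ D := by nlinarith
    have h0 : 0 ≤ q * ρ := mul_nonneg hq0 hρ0
    calc q * ρ * t0 ≤ D * (κ * a * u) := mul_le_mul h1 ht ht0 hD
      _ = κ * a * D * u := by ring
  have hqs : 1 - 12 * u ≤ q ^ 2 := by nlinarith [sq_nonneg (1 - q)]
  have hqs1 : q ^ 2 ≤ 1 := by nlinarith
  have I : b' * (1 - q ^ 2) * ρ ^ 2 ≤ 12 * a * D ^ 2 * u := by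
    have h1 : b' * (1 - q ^ 2) ≤ a * (12 * u) := by
      apply mul_le_mul (by linarith) (by linarith) (by linarith) ha
    calc b' * (1 - q ^ 2) * ρ ^ 2
        ≤ (a * (12 * u)) * D ^ 2 := mul_le_mul h1 hρ2 hρ20 (by positivity)
      _ = 12 * a * D ^ 2 * u := by ring
  have S : (b - b') * (1 - f1 * f3 * q2 ^ 2) * ρ ^ 2 + q * ρ * t0 + b' * (1 - q ^ 2) * ρ ^ 2 ≤
      (74 * a * D ^ 2 + κ * a * D) * u := by linarith
  have S0 : 0 ≤ (b - b') * (1 - f1 * f3 * q2 ^ 2) * ρ ^ 2 + q * ρ * t0 +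
      b' * (1 - q ^ 2) * ρ ^ 2 := by
    have h1 : 0 ≤ (b - b') * (1 - f1 * f3 * q2 ^ 2) * ρ ^ 2 :=
      mul_nonneg (mul_nonneg (by linarith) (by linarith)) hρ20
    have h2 : 0 ≤ q * ρ * t0 := mul_nonneg (mul_nonneg hq0 hρ0) ht0
    have h3 : 0 ≤ b' * (1 - q ^ 2) * ρ ^ 2 := mul_nonneg (mul_nonneg hb' (by linarith)) hρ20
    linarith
  have S' : β / 2 * ((b - b') * (1 - f1 * f3 * q2 ^ 2) * ρ ^ 2 + q * ρ * t0 +
      b' * (1 - q ^ 2) * ρ ^ 2) ≤ 3 / 4 * ((74 * a * D ^ 2 + κ * a * D) * u) := by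
    apply mul_le_mul (by linarith) S S0 (by norm_num)
  have e : ν * (q * ρ) + q * lam + β * ((b - b') * (f1 * f3 * q2 ^ 2) * ρ ^ 2 - q * ρ * t0) / 2
        + β * b' * (q * ρ) ^ 2 / 2 - (ν * ρ + lam + β * b * ρ ^ 2 / 2) =
      -(ν * ((1 - q) * ρ)) - (1 - q) * lam -
        β / 2 * ((b - b') * (1 - f1 * f3 * q2 ^ 2) * ρ ^ 2 + q * ρ * t0 +
      b' * (1 - q ^ 2) * ρ ^ 2) := by ring
  nlinarith

set_option maxHeartbeats 2000000 in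
theorem lvL_real_succ {y n Λ Λ' t0 ν νm β b b' a D C1 κ : ℝ} (hy : 2 ≤ y) (hn : 0 ≤ n)
    (hD : n / (y ^ 48) ^ 3 ≤ D) (hΛ : |Λ| ≤ C1 * (y ^ 48) ^ 3)
    (ht0 : 0 ≤ t0) (ht : t0 ≤ κ * a * (1 / y ^ 16)) (hν : |ν| ≤ νm)
    (hβ1 : 1 / 2 ≤ β) (hβ2 : β ≤ 3 / 2) (hb' : 0 ≤ b') (hbb : b' ≤ b) (hba : b ≤ a)
    (hΛ' : (y ^ 48 - 2) ^ 3 * Λ + β * ((b - b') * (1 - 4 * (y ^ 48 + 2) / y ^ 64) ^ 4 *
        (n / (y ^ 48 + 2) ^ 3) ^ 2 * ((y ^ 48 - 2) * (y ^ 48 + 2) - 2 * y ^ 64) ^ 3 -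
        (y ^ 48 - 2) ^ 3 * n * t0) / 2 ≤ Λ') :
    (ν * n + Λ + β * b * n ^ 2 / (2 * (y ^ 48) ^ 3)) / (y ^ 48) ^ 3 -
        (6 * νm * D + 6 * C1 + 3 / 4 * (74 * a * D ^ 2 + κ * a * D)) / y ^ 16 ≤
      (ν * ((y ^ 48 - 2) ^ 3 * n) + Λ' + β * b' * ((y ^ 48 - 2) ^ 3 * n) ^ 2 /
        (2 * ((y ^ 48) ^ 2) ^ 3)) / ((y ^ 48) ^ 2) ^ 3 := by
  obtain ⟨⟨hu0, hu1⟩, -, -, ⟨hf1, hf11, hR⟩, ⟨hq, hq1, hq0⟩, ⟨hq2, hq21, hq20⟩,
    ⟨hf3, hf31, hf30, h2R⟩⟩ := lvL_quot_bounds hy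
  set ℓ := y ^ 48 with hℓdef
  set R := y ^ 64 with hRdef
  set u := 1 / y ^ 16 with hudef
  have hyp : 0 < y := by linarith
  have hℓ : 0 < ℓ := by positivity
  have hℓ3 : 0 < ℓ ^ 3 := by positivity
  have hf10 : 0 ≤ (1 - 4 * (ℓ + 2) / R) ^ 4 := by positivity
  have key := lvL_scaled_succ (ρ := n / ℓ ^ 3) (lam := Λ / ℓ ^ 3) (t0 := t0) (b := b) (b' := b')
    (by positivity) hD
    (by rw [abs_div, abs_of_pos hℓ3, div_le_iff₀ hℓ3]; exact hΛ) hu0.le hq hq1 hq0 hq2 hq21 hq20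
    hf1 hf11 hf10 hf3 hf31 hf30 ht0 ht hν hβ1 hβ2 hb' hbb hba
  have hLHS : (ν * n + Λ + β * b * n ^ 2 / (2 * ℓ ^ 3)) / ℓ ^ 3 =
      ν * (n / ℓ ^ 3) + Λ / ℓ ^ 3 + β * b * (n / ℓ ^ 3) ^ 2 / 2 := by
    field_simp
  have hC : (6 * νm * D + 6 * C1 + 3 / 4 * (74 * a * D ^ 2 + κ * a * D)) / y ^ 16 =
      (6 * νm * D + 6 * C1 + 3 / 4 * (74 * a * D ^ 2 + κ * a * D)) * u := by
    rw [hudef]; ring
  rw [hLHS, hC]
  refine key.trans ?_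
  have hRHS : (ν * ((ℓ - 2) ^ 3 * n) + Λ' + β * b' * ((ℓ - 2) ^ 3 * n) ^ 2 /
        (2 * (ℓ ^ 2) ^ 3)) / (ℓ ^ 2) ^ 3 =
      ν * (((ℓ - 2) / ℓ) ^ 3 * (n / ℓ ^ 3)) + Λ' / ℓ ^ 6 +
        β * b' * (((ℓ - 2) / ℓ) ^ 3 * (n / ℓ ^ 3)) ^ 2 / 2 := by
    field_simp
  rw [hRHS]
  have hℓ6 : 0 < ℓ ^ 6 := by positivity
  have h1 : ((ℓ - 2) ^ 3 * Λ + β * ((b - b') * (1 - 4 * (ℓ + 2) / R) ^ 4 *
        (n / (ℓ + 2) ^ 3) ^ 2 * ((ℓ - 2) * (ℓ + 2) - 2 * R) ^ 3 -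
        (ℓ - 2) ^ 3 * n * t0) / 2) / ℓ ^ 6 ≤ Λ' / ℓ ^ 6 :=
    div_le_div_of_nonneg_right hΛ' hℓ6.le
  have h2 : ((ℓ - 2) ^ 3 * Λ + β * ((b - b') * (1 - 4 * (ℓ + 2) / R) ^ 4 *
        (n / (ℓ + 2) ^ 3) ^ 2 * ((ℓ - 2) * (ℓ + 2) - 2 * R) ^ 3 -
        (ℓ - 2) ^ 3 * n * t0) / 2) / ℓ ^ 6 =
      ((ℓ - 2) / ℓ) ^ 3 * (Λ / ℓ ^ 3) + β * ((b - b') * ((1 - 4 * (ℓ + 2) / R) ^ 4 *
        (((ℓ - 2) * (ℓ + 2) - 2 * R) / ℓ ^ 2) ^ 3 * ((ℓ / (ℓ + 2)) ^ 3) ^ 2) * (n / ℓ ^ 3) ^ 2 -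
        ((ℓ - 2) / ℓ) ^ 3 * (n / ℓ ^ 3) * t0) / 2 := by
    have hℓ2 : ℓ + 2 ≠ 0 := by positivity
    have e1 : n / (ℓ + 2) ^ 3 = (n / ℓ ^ 3) * (ℓ / (ℓ + 2)) ^ 3 := by
      field_simp
    have e2 : ((ℓ - 2) * (ℓ + 2) - 2 * R) ^ 3 =
        (((ℓ - 2) * (ℓ + 2) - 2 * R) / ℓ ^ 2) ^ 3 * ℓ ^ 6 := by
      rw [div_pow]; field_simp
    have e3 : (ℓ - 2) ^ 3 = ((ℓ - 2) / ℓ) ^ 3 * ℓ ^ 3 := by
      rw [div_pow]; field_simp
    have e4 : Λ = (Λ / ℓ ^ 3) * ℓ ^ 3 := by field_simp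
    have e5 : n = (n / ℓ ^ 3) * ℓ ^ 3 := by field_simp
    rw [e1, e2, e3]
    generalize ((ℓ - 2) / ℓ) ^ 3 = q at *
    generalize (((ℓ - 2) * (ℓ + 2) - 2 * R) / ℓ ^ 2) ^ 3 = f3 at *
    generalize (1 - 4 * (ℓ + 2) / R) ^ 4 = f1 at *
    generalize (ℓ / (ℓ + 2)) ^ 3 = q2 at *
    field_simp
  rw [h2] at h1
  linarith

theorem lvL_real_lim {y n Λ g ν νm β b a D C1 κ : ℝ} (hy : 2 ≤ y) (hn : 0 ≤ n) (hκ : 0 ≤ κ)
    (hD : n / (y ^ 48) ^ 3 ≤ D) (hΛ : |Λ| ≤ C1 * (y ^ 48) ^ 3) (hν : |ν| ≤ νm)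
    (hβ1 : 1 / 2 ≤ β) (hβ2 : β ≤ 3 / 2) (hb : 0 ≤ b) (hba : b ≤ a)
    (hg : Λ / (y ^ 48 + 2) ^ 3 + β * (b * (1 - 4 * (y ^ 48 + 2) / y ^ 64) ^ 4 *
        (n / (y ^ 48 + 2) ^ 3) ^ 2 -
        (n / (y ^ 48 + 2) ^ 3) * (κ * a * (1 / y ^ 16))) / 2 ≤ g) :
    (ν * n + Λ + β * b * n ^ 2 / (2 * (y ^ 48) ^ 3)) / (y ^ 48) ^ 3 -
        (6 * νm * D + 6 * C1 + 3 / 4 * (74 * a * D ^ 2 + κ * a * D)) / y ^ 16 ≤
      ν * (n / (y ^ 48 + 2) ^ 3) + g := by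
  obtain ⟨⟨hu0, hu1⟩, -, -, ⟨hf1, hf11, hR⟩, ⟨hq, hq1, hq0⟩, ⟨hq2, hq21, hq20⟩,
    ⟨hf3, hf31, hf30, h2R⟩⟩ := lvL_quot_bounds hy
  set ℓ := y ^ 48 with hℓdef
  set R := y ^ 64 with hRdef
  set u := 1 / y ^ 16 with hudef
  have hyp : 0 < y := by linarith
  have hℓ : 0 < ℓ := by positivity
  have hℓ3 : 0 < ℓ ^ 3 := by positivity
  have ha : 0 ≤ a := hb.trans hba
  have hf10 : 0 ≤ (1 - 4 * (ℓ + 2) / R) ^ 4 := by positivity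
  have key := lvL_scaled_succ (ρ := n / ℓ ^ 3) (lam := Λ / ℓ ^ 3) (t0 := κ * a * u) (b := b)
    (b' := 0) (f3 := 1) (by positivity) hD
    (by rw [abs_div, abs_of_pos hℓ3, div_le_iff₀ hℓ3]; exact hΛ) hu0.le hq2 hq21 hq20 hq2 hq21 hq20
    hf1 hf11 hf10 (by linarith) le_rfl zero_le_one (by positivity) le_rfl hν hβ1 hβ2 le_rfl hb hba
  have hLHS : (ν * n + Λ + β * b * n ^ 2 / (2 * ℓ ^ 3)) / ℓ ^ 3 =
      ν * (n / ℓ ^ 3) + Λ / ℓ ^ 3 + β * b * (n / ℓ ^ 3) ^ 2 / 2 := by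
    field_simp
  have hC : (6 * νm * D + 6 * C1 + 3 / 4 * (74 * a * D ^ 2 + κ * a * D)) / y ^ 16 =
      (6 * νm * D + 6 * C1 + 3 / 4 * (74 * a * D ^ 2 + κ * a * D)) * u := by
    rw [hudef]; ring
  rw [hLHS, hC]
  refine key.trans ?_
  have hℓ2 : ℓ + 2 ≠ 0 := by positivity
  have e1 : n / (ℓ + 2) ^ 3 = (ℓ / (ℓ + 2)) ^ 3 * (n / ℓ ^ 3) := by
    field_simp
  have e2 : Λ / (ℓ + 2) ^ 3 = (ℓ / (ℓ + 2)) ^ 3 * (Λ / ℓ ^ 3) := by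
    field_simp
  rw [e1, e2] at hg
  rw [e1]
  generalize (1 - 4 * (ℓ + 2) / R) ^ 4 = f1 at *
  generalize (ℓ / (ℓ + 2)) ^ 3 = q2 at *
  have e3 : ν * (q2 * (n / ℓ ^ 3)) + q2 * (Λ / ℓ ^ 3) +
        β * ((b - 0) * (f1 * 1 * q2 ^ 2) * (n / ℓ ^ 3) ^ 2 - q2 * (n / ℓ ^ 3) * (κ * a * u)) / 2 +
        β * 0 * (q2 * (n / ℓ ^ 3)) ^ 2 / 2 =
      ν * (q2 * (n / ℓ ^ 3)) + (q2 * (Λ / ℓ ^ 3) +
        β * (b * f1 * (q2 * (n / ℓ ^ 3)) ^ 2 - q2 * (n / ℓ ^ 3) * (κ * a * u)) / 2) := by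
    ring
  rw [e3]
  linarith

theorem lvL_xs_mono' {x0 : ℕ} (h : 1 ≤ x0) {k j : ℕ} (hkj : k ≤ j) : xs x0 k ≤ xs x0 j := by
  unfold xs
  exact Nat.pow_le_pow_right h (Nat.pow_le_pow_right (by norm_num) hkj)

theorem lvL_Rs_mono' {x0 : ℕ} (h : 1 ≤ x0) {k j : ℕ} (hkj : k ≤ j) : Rs x0 k ≤ Rs x0 j := by
  unfold Rs
  exact Nat.pow_le_pow_left (lvL_xs_mono' h hkj) 64

theorem lvL_t0_bound {a : ℝ} (ha : 0 < a) {x0 : ℕ} (h : 2 ≤ x0) {k K : ℕ} (hkK : k ≤ K) :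
    0 ≤ Tk a x0 K 0 - Tk a x0 k 0 ∧
      Tk a x0 K 0 - Tk a x0 k 0 ≤ kap * a * (1 / (xs x0 k : ℝ) ^ 16) := by
  have h1 : 1 ≤ x0 := by omega
  have hx2 : 2 ≤ xs x0 k := h.trans (le_xs h1 k)
  have hy : (2 : ℝ) ≤ (xs x0 k : ℝ) := by exact_mod_cast hx2
  have e : Tk a x0 K 0 - Tk a x0 k 0 =
      ∑ j ∈ Finset.Ico k K, aj a x0 j * psi (Rs x0 j) 0 := by
    unfold Tk
    rw [Finset.sum_Ico_eq_sub _ hkK]
  rw [e]
  have hRpos : ∀ j, (0 : ℝ) < (Rs x0 j : ℝ) := by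
    intro j
    have h2 : 0 < xs x0 j := lt_of_lt_of_le (by omega) (le_xs h1 j)
    have : 0 < Rs x0 j := by unfold Rs; positivity
    exact_mod_cast this
  constructor
  · apply Finset.sum_nonneg
    intro j _
    exact mul_nonneg (aj_nonneg ha h1 j) (psi_nonneg (hRpos j) 0)
  · have hR : (Rs x0 k : ℝ) = (xs x0 k : ℝ) ^ 64 := by unfold Rs; push_cast; rfl
    have hb : ∀ j ∈ Finset.Ico k K, aj a x0 j * psi (Rs x0 j) 0 ≤
        aj a x0 j * (kap * (1 / (xs x0 k : ℝ) ^ 16)) := by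
      intro j hj
      apply mul_le_mul_of_nonneg_left _ (aj_nonneg ha h1 j)
      refine (psi_le (hRpos j) 0).trans ?_
      rw [div_eq_mul_one_div]
      apply mul_le_mul_of_nonneg_left _ kap_pos.le
      apply one_div_le_one_div_of_le (by positivity)
      have h3 : (Rs x0 k : ℝ) ≤ (Rs x0 j : ℝ) := by
        exact_mod_cast lvL_Rs_mono' h1 (Finset.mem_Ico.mp hj).1
      calc (xs x0 k : ℝ) ^ 16 ≤ ((xs x0 k : ℝ) ^ 64) ^ 3 := by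
            rw [← pow_mul]
            exact pow_le_pow_right₀ (by linarith) (by norm_num)
        _ = (Rs x0 k : ℝ) ^ 3 := by rw [hR]
        _ ≤ (Rs x0 j : ℝ) ^ 3 := pow_le_pow_left₀ (hRpos k).le h3 3
    refine (Finset.sum_le_sum hb).trans ?_
    rw [← Finset.sum_mul, sum_aj a x0 k K hkK]
    have h4 : bs a x0 k - bs a x0 K ≤ a := by
      have := bs_pos ha h1 K
      have := bs_le ha h1 k
      linarith
    calc (bs a x0 k - bs a x0 K) * (kap * (1 / (xs x0 k : ℝ) ^ 16))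
        ≤ a * (kap * (1 / (xs x0 k : ℝ) ^ 16)) := by
          apply mul_le_mul_of_nonneg_right h4
          have := kap_pos
          positivity
      _ = kap * a * (1 / (xs x0 k : ℝ) ^ 16) := by ring

theorem lvL_bs_anti {a : ℝ} (ha : 0 < a) {x0 : ℕ} (h : 1 ≤ x0) {k K : ℕ} (hkK : k ≤ K) :
    bs a x0 K ≤ bs a x0 k := by
  induction hkK with
  | refl => exact le_rfl
  | step _ ih => exact (bs_succ_le ha h _).trans ih

theorem levels_lower_succ {φ₀ : ℝ → ℝ} {δ c η a νm : ℝ} (hφ : CoreHyp φ₀ δ c η) (ha : 0 < a)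
    (hν : 0 < νm) (hc : 1024 * (20 * a + νm + 3) / δ ^ 3 ≤ c) :
    ∃ C : ℝ, 0 < C ∧ ∃ X0 : ℕ, ∀ x0 : ℕ, X0 ≤ x0 → ∀ (k : ℕ) (β ν : ℝ), 1 / 2 ≤ β → β ≤ 3 / 2 →
      |ν| ≤ νm → ∀ n : ℕ, dens x0 k n ≤ rmax δ →
        Vk φ₀ a x0 k β ν n - C / (xs x0 k : ℝ) ^ 16 ≤
          Vk φ₀ a x0 (k + 1) β ν ((ls x0 k - 2) ^ 3 * n) := by
  obtain ⟨C1, hC1, hlog⟩ := lvL_logZ_abs hφ ha hν hc
  have hδ := hφ.δpos
  have hrm : 0 < rmax δ := by unfold rmax; positivity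
  have hkap := kap_pos
  refine ⟨6 * νm * rmax δ + 6 * C1 + 3 / 4 * (74 * a * rmax δ ^ 2 + kap * a * rmax δ),
    by positivity, 2, ?_⟩
  intro x0 hx k β ν hβ1 hβ2 hνν n hn
  have h1 : 1 ≤ x0 := by omega
  have hx2 : 2 ≤ xs x0 k := hx.trans (le_xs h1 k)
  have hy : (2 : ℝ) ≤ (xs x0 k : ℝ) := by exact_mod_cast hx2
  have hls : (ls x0 k : ℝ) = (xs x0 k : ℝ) ^ 48 := by unfold ls; push_cast; rfl
  have hls' : (ls x0 (k + 1) : ℝ) = ((xs x0 k : ℝ) ^ 48) ^ 2 := by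
    rw [ls_succ]; push_cast; rw [hls]
  have hRs : (Rs x0 k : ℝ) = (xs x0 k : ℝ) ^ 64 := by unfold Rs; push_cast; rfl
  have hls2 : 2 ≤ ls x0 k := by
    unfold ls
    calc 2 ≤ 2 ^ 48 := by norm_num
      _ ≤ (xs x0 k) ^ 48 := Nat.pow_le_pow_left hx2 48
  have hM : (((ls x0 k - 2 : ℕ)) : ℝ) = (xs x0 k : ℝ) ^ 48 - 2 := by
    rw [Nat.cast_sub hls2, hls]; norm_num
  obtain ⟨⟨hu0, hu1⟩, -, -, ⟨hf1, hf11, hR⟩, -, -, ⟨hf3, hf31, hf30, h2R⟩⟩ := lvL_quot_bounds hy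
  have hlpos : (0 : ℝ) < (ls x0 k : ℝ) := by rw [hls]; positivity
  have hLpos : (0 : ℝ) < (ls x0 (k + 1) : ℝ) := by rw [hls']; positivity
  have ht0 := lvL_t0_bound ha hx (Nat.le_succ k)
  have hbb := bs_succ_le ha h1 k
  have hfun : (fun r => (φ₀ r - Tk a x0 k r) - (Tk a x0 (k + 1) r - Tk a x0 k r)) =
      (fun r => φ₀ r - Tk a x0 (k + 1) r) := by
    funext r; ring
  have key := lvL_lemmaL_log (φ := fun r => φ₀ r - Tk a x0 k r)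
    (t := fun r => Tk a x0 (k + 1) r - Tk a x0 k r) (β := β) (ℓ := (ls x0 k : ℝ))
    (L := (ls x0 (k + 1) : ℝ)) (M := ls x0 k - 2) (n := n) (B := c / 2) (B' := c / 2)
    (g := (bs a x0 k - bs a x0 (k + 1)) * (1 - 4 * ((ls x0 k : ℝ) + 2) / Rs x0 k) ^ 4 *
      ((n : ℝ) / ((ls x0 k : ℝ) + 2) ^ 3) ^ 2 *
      (((ls x0 k - 2 : ℕ) : ℝ) * ((ls x0 k : ℝ) + 2) - 2 * (Rs x0 k : ℝ)) ^ 3)
    (hφ.meas.sub (measurable_Tk a x0 k)) (lvL_core_neg hφ ha h1 k)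
    ((measurable_Tk a x0 (k + 1)).sub (measurable_Tk a x0 k))
    (lvL_stable_T hφ ha hν hc hx (Tk_le_Tfull ha hx k))
    (by rw [hfun]; exact lvL_stable_T hφ ha hν hc hx (Tk_le_Tfull ha hx (k + 1)))
    (by linarith) hlpos hLpos
    (by rw [hM, hls, hls']; nlinarith)
    (by
      intro s hs
      refine le_dbl_tail ha hx k (k + 1) (Nat.le_succ k) (ℓ' := (ls x0 k : ℝ) + 2)
        (X := (Rs x0 k : ℝ)) (by linarith) (by rw [hls, hRs]; exact hR) ?_ (by positivity)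
        (by rw [hM, hls, hRs]; exact h2R) s hs
      intro j hj1 hj2
      have : j = k := by omega
      rw [this])
  rw [hfun] at key
  have hn' : (n : ℝ) / ((xs x0 k : ℝ) ^ 48) ^ 3 ≤ rmax δ := by
    have := hn; unfold dens at this; rwa [hls] at this
  have hΛ := hlog x0 hx k β hβ1 hβ2 n hn
  rw [hls] at hΛ
  have hfin := lvL_real_succ (y := (xs x0 k : ℝ)) (n := (n : ℝ))
    (Λ := Real.log (partitionFn (fun r => φ₀ r - Tk a x0 k r) (ls x0 k) n β))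
    (Λ' := Real.log (partitionFn (fun r => φ₀ r - Tk a x0 (k + 1) r) (ls x0 (k + 1))
      ((ls x0 k - 2) ^ 3 * n) β))
    (t0 := Tk a x0 (k + 1) 0 - Tk a x0 k 0) (β := β) (b := bs a x0 k) (b' := bs a x0 (k + 1))
    (a := a) (κ := kap) hy (by positivity) hn' (by rw [hls]; exact hΛ) ht0.1 ht0.2 hνν hβ1 hβ2
    (bs_pos ha h1 _).le hbb (bs_le ha h1 k)
    (by
      refine le_trans (le_of_eq ?_) key
      rw [hM, hRs, hls])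
  unfold Vk
  push_cast
  rw [hM, hls, hls']
  rw [hls, hls'] at hfin
  refine le_trans (le_of_eq ?_) (hfin.trans (le_of_eq ?_))
  · rfl
  · rfl

theorem levels_lower_lim {φ₀ : ℝ → ℝ} {δ c η a νm : ℝ} (hφ : CoreHyp φ₀ δ c η) (ha : 0 < a)
    (hν : 0 < νm) (hc : 1024 * (20 * a + νm + 3) / δ ^ 3 ≤ c) :
    ∃ C : ℝ, 0 < C ∧ ∃ X0 : ℕ, ∀ x0 : ℕ, X0 ≤ x0 → ∀ (k : ℕ) (β ν : ℝ), 1 / 2 ≤ β → β ≤ 3 / 2 →
      |ν| ≤ νm → ∀ n : ℕ, dens x0 k n ≤ rmax δ → ∀ g : ℝ,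
        Filter.Tendsto (fun L : ℝ => Real.log (partitionFn (fun r => φ₀ r - Tfull a x0 r) L
          ⌊((n : ℝ) / ((ls x0 k : ℝ) + 2) ^ 3) * L ^ 3⌋₊ β) / L ^ 3) Filter.atTop (nhds g) →
        Vk φ₀ a x0 k β ν n - C / (xs x0 k : ℝ) ^ 16 ≤
          ν * ((n : ℝ) / ((ls x0 k : ℝ) + 2) ^ 3) + g := by
  obtain ⟨C1, hC1, hlog⟩ := lvL_logZ_abs hφ ha hν hc
  have hδ := hφ.δpos
  have hrm : 0 < rmax δ := by unfold rmax; positivity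
  have hkap := kap_pos
  refine ⟨6 * νm * rmax δ + 6 * C1 + 3 / 4 * (74 * a * rmax δ ^ 2 + kap * a * rmax δ),
    by positivity, 2, ?_⟩
  intro x0 hx k β ν hβ1 hβ2 hνν n hn g hg
  have hβ0 : 0 ≤ β := by linarith
  have h1 : 1 ≤ x0 := by omega
  have hx2 : 2 ≤ xs x0 k := hx.trans (le_xs h1 k)
  have hy : (2 : ℝ) ≤ (xs x0 k : ℝ) := by exact_mod_cast hx2
  have hls : (ls x0 k : ℝ) = (xs x0 k : ℝ) ^ 48 := by unfold ls; push_cast; rfl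
  have hRs : (Rs x0 k : ℝ) = (xs x0 k : ℝ) ^ 64 := by unfold Rs; push_cast; rfl
  obtain ⟨⟨hu0, hu1⟩, -, -, ⟨hf1, hf11, hR⟩, -, -, -⟩ := lvL_quot_bounds hy
  have hlpos : (0 : ℝ) < (ls x0 k : ℝ) := by rw [hls]; positivity
  set ℓ : ℝ := (ls x0 k : ℝ) with hℓdef
  set ℓ' : ℝ := ℓ + 2 with hℓ'def
  have hℓ' : 0 < ℓ' := by positivity
  set ρ' : ℝ := (n : ℝ) / ℓ' ^ 3 with hρ'def
  have hρ' : 0 ≤ ρ' := by positivity
  set Λ : ℝ := Real.log (partitionFn (fun r => φ₀ r - Tk a x0 k r) ℓ n β) with hΛdef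
  set f1 : ℝ := (1 - 4 * ℓ' / Rs x0 k) ^ 4 with hf1def
  set u : ℝ := 1 / (xs x0 k : ℝ) ^ 16 with hudef
  -- the inequality for every K
  have main : ∀ K : ℕ, k ≤ K → Λ / ℓ' ^ 3 +
      β * ((bs a x0 k - bs a x0 K) * f1 * ρ' ^ 2 - ρ' * (kap * a * u)) / 2 ≤ g := by
    intro K hK
    have ht0 := lvL_t0_bound ha hx hK
    have hfun : (fun r => (φ₀ r - Tk a x0 k r) - (Tk a x0 K r - Tk a x0 k r)) =
        (fun r => φ₀ r - Tk a x0 K r) := by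
      funext r; ring
    set X : ℝ := (Rs x0 K : ℝ) with hXdef
    have hX0 : 0 ≤ X := by positivity
    have ev : ∀ᶠ M : ℕ in Filter.atTop, Λ / ℓ' ^ 3 +
        β * ((bs a x0 k - bs a x0 K) * f1 * ρ' ^ 2 * (1 - 2 * X / (M * ℓ')) ^ 3
          - ρ' * (kap * a * u)) / 2 ≤
        Real.log (partitionFn (fun r => φ₀ r - Tfull a x0 r) ((M : ℝ) * ℓ')
          ⌊ρ' * ((M : ℝ) * ℓ') ^ 3⌋₊ β) / ((M : ℝ) * ℓ') ^ 3 := by
      have hev1 : ∀ᶠ M : ℕ in Filter.atTop, 1 ≤ M := Filter.eventually_ge_atTop 1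
      have hev2 : ∀ᶠ M : ℕ in Filter.atTop, 2 * X / ℓ' ≤ (M : ℝ) :=
        (tendsto_natCast_atTop_atTop (R := ℝ)).eventually_ge_atTop _
      filter_upwards [hev1, hev2] with M hM1 hM2
      have hMpos : (0 : ℝ) < (M : ℝ) := by exact_mod_cast hM1
      have hMX : 2 * X ≤ M * ℓ' := by
        rwa [div_le_iff₀ hℓ'] at hM2
      have hLpos : 0 < (M : ℝ) * ℓ' := by positivity
      have hfloor : ⌊ρ' * ((M : ℝ) * ℓ') ^ 3⌋₊ = M ^ 3 * n := by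
        have : ρ' * ((M : ℝ) * ℓ') ^ 3 = ((M ^ 3 * n : ℕ) : ℝ) := by
          rw [hρ'def]; push_cast; field_simp
        rw [this, Nat.floor_natCast]
      rw [hfloor]
      have key := lvL_lemmaL_log (φ := fun r => φ₀ r - Tk a x0 k r)
        (t := fun r => Tk a x0 K r - Tk a x0 k r) (β := β) (ℓ := ℓ)
        (L := (M : ℝ) * ℓ') (M := M) (n := n) (B := c / 2) (B' := c / 2)
        (g := (bs a x0 k - bs a x0 K) * (1 - 4 * ℓ' / Rs x0 k) ^ 4 *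
          ((n : ℝ) / ℓ' ^ 3) ^ 2 * (M * ℓ' - 2 * X) ^ 3)
        (hφ.meas.sub (measurable_Tk a x0 k)) (lvL_core_neg hφ ha h1 k)
        ((measurable_Tk a x0 K).sub (measurable_Tk a x0 k))
        (lvL_stable_T hφ ha hν hc hx (Tk_le_Tfull ha hx k))
        (by rw [hfun]; exact lvL_stable_T hφ ha hν hc hx (Tk_le_Tfull ha hx K))
        hβ0 hlpos hLpos (le_refl _)
        (by
          intro s hs
          refine le_dbl_tail ha hx k K hK (ℓ' := ℓ') (X := X) hℓ'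
            (by rw [hℓ'def, hls, hRs]; exact hR) ?_ hX0 hMX s hs
          intro j hj1 hj2
          rw [hXdef]
          exact_mod_cast lvL_Rs_mono' h1 hj2.le)
      rw [hfun] at key
      have hmono : Real.log (partitionFn (fun r => φ₀ r - Tk a x0 K r) ((M : ℝ) * ℓ')
          (M ^ 3 * n) β) ≤
          Real.log (partitionFn (fun r => φ₀ r - Tfull a x0 r) ((M : ℝ) * ℓ')
          (M ^ 3 * n) β) := by
        apply Real.log_le_log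
        · exact partitionFn_pos (hφ.meas.sub (measurable_Tk a x0 K))
            (lvL_stable_T hφ ha hν hc hx (Tk_le_Tfull ha hx K)) hβ0 hLpos _
        · apply lvL_partitionFn_mono (hφ.meas.sub (measurable_Tk a x0 K))
            (hφ.meas.sub (continuous_Tfull a hx).measurable)
            (lvL_stable_T hφ ha hν hc hx (fun r => le_rfl)) _ hβ0 hLpos.le
          intro r _
          have := Tk_le_Tfull ha hx K r
          show φ₀ r - Tfull a x0 r ≤ φ₀ r - Tk a x0 K r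
          linarith
      have key2 := key.trans hmono
      have hL3 : 0 < ((M : ℝ) * ℓ') ^ 3 := by positivity
      rw [le_div_iff₀ hL3]
      refine le_trans ?_ key2
      have hM3 : (0 : ℝ) < (M : ℝ) ^ 3 := by positivity
      have e1 : (Λ / ℓ' ^ 3 +
        β * ((bs a x0 k - bs a x0 K) * f1 * ρ' ^ 2 * (1 - 2 * X / (M * ℓ')) ^ 3
          - ρ' * (kap * a * u)) / 2) * ((M : ℝ) * ℓ') ^ 3 =
          (M : ℝ) ^ 3 * Λ + β * ((bs a x0 k - bs a x0 K) * f1 * ρ' ^ 2 *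
            ((M : ℝ) * ℓ' - 2 * X) ^ 3 - (M : ℝ) ^ 3 * n * (kap * a * u)) / 2 := by
        have e2 : (1 - 2 * X / (M * ℓ')) ^ 3 = ((M : ℝ) * ℓ' - 2 * X) ^ 3 / (M * ℓ') ^ 3 := by
          rw [← div_pow]; congr 1; field_simp
        have e3 : ρ' * ((M : ℝ) * ℓ') ^ 3 = (M : ℝ) ^ 3 * n := by
          rw [hρ'def]; field_simp
        rw [e2]
        have e4 : ((M : ℝ) * ℓ' - 2 * X) ^ 3 / (M * ℓ') ^ 3 * ((M : ℝ) * ℓ') ^ 3 =
            ((M : ℝ) * ℓ' - 2 * X) ^ 3 := div_mul_cancel₀ _ hL3.ne'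
        have e5 : Λ / ℓ' ^ 3 * ((M : ℝ) * ℓ') ^ 3 = (M : ℝ) ^ 3 * Λ := by
          field_simp
        calc _ = Λ / ℓ' ^ 3 * ((M : ℝ) * ℓ') ^ 3 + β * ((bs a x0 k - bs a x0 K) * f1 * ρ' ^ 2 *
              (((M : ℝ) * ℓ' - 2 * X) ^ 3 / (M * ℓ') ^ 3 * ((M : ℝ) * ℓ') ^ 3)
              - (ρ' * ((M : ℝ) * ℓ') ^ 3) * (kap * a * u)) / 2 := by ring
          _ = _ := by rw [e3, e4, e5]
      rw [e1]
      have h5 : (M : ℝ) ^ 3 * n * (Tk a x0 K 0 - Tk a x0 k 0) ≤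
          (M : ℝ) ^ 3 * n * (kap * a * u) :=
        mul_le_mul_of_nonneg_left ht0.2 (by positivity)
      have h6 : β * ((bs a x0 k - bs a x0 K) * f1 * ρ' ^ 2 *
            ((M : ℝ) * ℓ' - 2 * X) ^ 3 - (M : ℝ) ^ 3 * n * (kap * a * u)) ≤
          β * ((bs a x0 k - bs a x0 K) * f1 * ρ' ^ 2 *
            ((M : ℝ) * ℓ' - 2 * X) ^ 3 - (M : ℝ) ^ 3 * n * (Tk a x0 K 0 - Tk a x0 k 0)) := by
        apply mul_le_mul_of_nonneg_left _ hβ0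
        linarith
      linarith
    have lim0 : Filter.Tendsto (fun M : ℕ => (M : ℝ) * ℓ') Filter.atTop Filter.atTop :=
      Filter.Tendsto.atTop_mul_const hℓ' tendsto_natCast_atTop_atTop
    have lim2 := hg.comp lim0
    have lim1 : Filter.Tendsto (fun M : ℕ => Λ / ℓ' ^ 3 +
        β * ((bs a x0 k - bs a x0 K) * f1 * ρ' ^ 2 * (1 - 2 * X / ((M : ℝ) * ℓ')) ^ 3
          - ρ' * (kap * a * u)) / 2) Filter.atTop
        (nhds (Λ / ℓ' ^ 3 +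
        β * ((bs a x0 k - bs a x0 K) * f1 * ρ' ^ 2 * (1 - 0) ^ 3
          - ρ' * (kap * a * u)) / 2)) := by
      have l1 : Filter.Tendsto (fun M : ℕ => 2 * X / ((M : ℝ) * ℓ')) Filter.atTop (nhds 0) :=
        Filter.Tendsto.div_atTop tendsto_const_nhds lim0
      have l2 := (((tendsto_const_nhds (x := (1 : ℝ))).sub l1).pow 3).const_mul
        ((bs a x0 k - bs a x0 K) * f1 * ρ' ^ 2)
      have l3 := ((l2.sub (tendsto_const_nhds (x := ρ' * (kap * a * u)))).const_mul β).div_const 2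
      exact (tendsto_const_nhds (x := Λ / ℓ' ^ 3)).add l3
    have := le_of_tendsto_of_tendsto lim1 lim2 ev
    simpa using this
  -- K → ∞
  have main2 : Λ / ℓ' ^ 3 + β * (bs a x0 k * f1 * ρ' ^ 2 - ρ' * (kap * a * u)) / 2 ≤ g := by
    have l1 : Filter.Tendsto (fun K : ℕ => Λ / ℓ' ^ 3 +
        β * ((bs a x0 k - bs a x0 K) * f1 * ρ' ^ 2 - ρ' * (kap * a * u)) / 2) Filter.atTop
        (nhds (Λ / ℓ' ^ 3 +
        β * ((bs a x0 k - 0) * f1 * ρ' ^ 2 - ρ' * (kap * a * u)) / 2)) := by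
      have l2 := (((tendsto_const_nhds (x := bs a x0 k)).sub (bs_tendsto a hx)).mul_const
        f1).mul_const (ρ' ^ 2)
      have l3 := ((l2.sub (tendsto_const_nhds (x := ρ' * (kap * a * u)))).const_mul β).div_const 2
      exact (tendsto_const_nhds (x := Λ / ℓ' ^ 3)).add l3
    rw [sub_zero] at l1
    refine le_of_tendsto l1 ?_
    filter_upwards [Filter.eventually_ge_atTop k] with K hK
    exact main K hK
  have hn' : (n : ℝ) / ((xs x0 k : ℝ) ^ 48) ^ 3 ≤ rmax δ := by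
    have := hn; unfold dens at this; rwa [← hℓdef, hls] at this
  have hΛ := hlog x0 hx k β hβ1 hβ2 n hn
  have hfin := lvL_real_lim (y := (xs x0 k : ℝ)) (n := (n : ℝ)) (Λ := Λ) (g := g) (β := β)
    (b := bs a x0 k) (a := a) (κ := kap) (C1 := C1) hy (by positivity) hkap.le hn'
    (by rw [← hls]; exact hΛ) hνν hβ1 hβ2
    (bs_pos ha h1 _).le (bs_le ha h1 k)
    (by
      rw [← hls, ← hRs]
      exact main2)
  unfold Vk
  rw [← hls] at hfin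
  exact hfin

end Crest.Agent.R149
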