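import Crest.Agent.R149.LemmaU
import Crest.Agent.R149.Super
import Crest.Agent.R149.Thermo

/-!
Auxiliary lemmas for piece I-U (`LevelsU.lean`): sum to max.
-/

set_option autoImplicit false

namespace Crest.Agent.R149

open MeasureTheory Crest.ProbabilityR.Continuum
open scoped ENNReal BigOperators

namespace LU

theorem one_le_rmax {δ : ℝ} (h0 : 0 < δ) (h1 : δ ≤ 1 / 8) : 1 ≤ rmax δ := by
  unfold rmax
  rw [le_div_iff₀ (by positivity)]
  have : δ ^ 3 ≤ 1 ^ 3 := pow_le_pow_left₀ h0.le (by linarith) 3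
  linarith

theorem hc_weak {δ c a νm : ℝ} (h0 : 0 < δ) (ha : 0 < a) (hν : 0 < νm)
    (hc : 1024 * (20 * a + νm + 3) / δ ^ 3 ≤ c) : 1024 * a / δ ^ 3 ≤ c := by
  refine le_trans ?_ hc
  gcongr
  linarith

theorem hc_mul {δ c a νm : ℝ} (h0 : 0 < δ)
    (hc : 1024 * (20 * a + νm + 3) / δ ^ 3 ≤ c) : 2 * (20 * a + νm + 3) ≤ c * δ ^ 3 / 512 := by
  rw [div_le_iff₀ (by positivity)] at hc
  linarith

/-- Exponent of the terms with many particles. -/
theorem large_exponent {r a νm ν' b' β c' w n : ℝ} (hr : 1 ≤ r) (ha : 0 < a) (hν : 0 < νm)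
    (hν' : |ν'| ≤ νm + 3 / 2 * a * r) (hb' : b' ≤ 2 * a) (hb0 : 0 ≤ b')
    (hβ : 1 / 2 ≤ β) (hβ' : β ≤ 3 / 2) (hc : 2 * (20 * a + νm + 3) ≤ c') (hw : 0 < w)
    (hn : r * w ≤ n) :
    ν' * n + β * b' * n ^ 2 / (2 * w) + (w - β * c' * n ^ 2 / w) ≤ -n := by
  have hn0 : 0 < n := lt_of_lt_of_le (by positivity) hn
  have hwn : w ≤ n := le_trans (by nlinarith) hn
  set m := n ^ 2 / w with hm
  have hm1 : r * n ≤ m := by
    rw [hm, le_div_iff₀ hw]
    nlinarith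
  have hm2 : n ≤ m := le_trans (by nlinarith) hm1
  have e1 : β * b' * n ^ 2 / (2 * w) = β * b' * m / 2 := by
    rw [hm]
    field_simp
  have e2 : β * c' * n ^ 2 / w = β * c' * m := by
    rw [hm]
    field_simp
  rw [e1, e2]
  have hm0 : 0 < m := lt_of_lt_of_le hn0 hm2
  have h1 : ν' * n ≤ (νm + 3 / 2 * a * r) * n :=
    mul_le_mul_of_nonneg_right (le_trans (le_abs_self _) hν') hn0.le
  have h2 : (νm + 3 / 2 * a * r) * n ≤ νm * m + 3 / 2 * a * m := by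
    have h3 : νm * n ≤ νm * m := mul_le_mul_of_nonneg_left hm2 hν.le
    have h4 : 3 / 2 * a * (r * n) ≤ 3 / 2 * a * m :=
      mul_le_mul_of_nonneg_left hm1 (by positivity)
    linarith
  have h3 : β * b' * m / 2 ≤ 3 / 2 * a * m := by
    have h5 : β * b' ≤ 3 / 2 * (2 * a) := mul_le_mul hβ' hb' hb0 (by norm_num)
    have h6 : β * b' * m ≤ 3 / 2 * (2 * a) * m := mul_le_mul_of_nonneg_right h5 hm0.le
    linarith
  have h4 : (20 * a + νm + 3) * m ≤ β * c' * m := by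
    have h5 : (1 / 2) * (2 * (20 * a + νm + 3)) ≤ β * c' :=
      mul_le_mul hβ hc (by positivity) (by linarith)
    have h6 := mul_le_mul_of_nonneg_right h5 hm0.le
    linarith
  have h7 : 0 < a * m := by positivity
  nlinarith

theorem ofReal_exp_mul (x y : ℝ) :
    ENNReal.ofReal (Real.exp x) * ENNReal.ofReal (Real.exp y) =
      ENNReal.ofReal (Real.exp (x + y)) := by
  rw [← ENNReal.ofReal_mul (Real.exp_pos _).le, Real.exp_add]

theorem ofReal_exp_mono {x y : ℝ} (h : x ≤ y) :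
    ENNReal.ofReal (Real.exp x) ≤ ENNReal.ofReal (Real.exp y) :=
  ENNReal.ofReal_le_ofReal (Real.exp_le_exp.2 h)

theorem ofReal_exp_rpow (x : ℝ) {θ : ℝ} (h : 0 ≤ θ) :
    (ENNReal.ofReal (Real.exp x)) ^ θ = ENNReal.ofReal (Real.exp (θ * x)) := by
  rw [ENNReal.ofReal_rpow_of_nonneg (Real.exp_pos _).le h, ← Real.exp_mul, mul_comm]

theorem ofReal_exp_pow (x : ℝ) (n : ℕ) :
    (ENNReal.ofReal (Real.exp x)) ^ n = ENNReal.ofReal (Real.exp (n * x)) := by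
  rw [← ENNReal.ofReal_pow (Real.exp_pos _).le, ← Real.exp_nat_mul]

theorem tsum_exp_neg : ∑' n : ℕ, ENNReal.ofReal (Real.exp (-(n : ℝ))) ≤ 2 := by
  have h1 : ∀ n : ℕ, ENNReal.ofReal (Real.exp (-(n : ℝ))) =
      (ENNReal.ofReal (Real.exp (-1))) ^ n := by
    intro n
    rw [ofReal_exp_pow]
    congr 2
    ring
  simp_rw [h1]
  rw [ENNReal.tsum_geometric]
  have h2 : Real.exp (-1) ≤ 1 / 2 := by
    have h3 : (2 : ℝ) ≤ Real.exp 1 := by
      have := Real.add_one_le_exp (1 : ℝ)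
      linarith
    rw [Real.exp_neg, one_div]
    exact inv_anti₀ (by norm_num) h3
  have h4 : ENNReal.ofReal (Real.exp (-1)) ≤ 2⁻¹ := by
    have := ENNReal.ofReal_le_ofReal h2
    rwa [one_div, ENNReal.ofReal_inv_of_pos (by norm_num), ENNReal.ofReal_ofNat] at this
  have h5 : (2 : ℝ≥0∞)⁻¹ ≤ 1 - ENNReal.ofReal (Real.exp (-1)) := by
    have h6 : (1 : ℝ≥0∞) - 2⁻¹ ≤ 1 - ENNReal.ofReal (Real.exp (-1)) := tsub_le_tsub_left h4 1
    rwa [ENNReal.one_sub_inv_two] at h6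
  have := ENNReal.inv_le_inv.2 h5
  rwa [inv_inv] at this

/-- Sum to max: abstract form. -/
theorem sum_to_max_abs (f : ℕ → ℝ≥0∞) (K : ℕ) (E : ℝ) (hE : 0 ≤ E)
    (h1 : ∀ n ≤ K, f n ≤ ENNReal.ofReal (Real.exp E))
    (h2 : ∀ n, K < n → f n ≤ ENNReal.ofReal (Real.exp (-(n : ℝ)))) :
    ∑' n, f n ≤ ENNReal.ofReal (Real.exp (E + Real.log (K + 3))) := by
  have h3 : ∀ n, f n ≤ (if n ≤ K then ENNReal.ofReal (Real.exp E) else 0) +
      ENNReal.ofReal (Real.exp (-(n : ℝ))) := by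
    intro n
    split_ifs with h
    · exact le_trans (h1 n h) le_self_add
    · rw [zero_add]
      exact h2 n (not_le.1 h)
  have h4 : ∑' n : ℕ, (if n ≤ K then ENNReal.ofReal (Real.exp E) else 0) =
      ((K + 1 : ℕ) : ℝ≥0∞) * ENNReal.ofReal (Real.exp E) := by
    rw [tsum_eq_sum (s := Finset.range (K + 1))]
    · rw [Finset.sum_congr rfl (g := fun _ => ENNReal.ofReal (Real.exp E))]
      · rw [Finset.sum_const, Finset.card_range, nsmul_eq_mul]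
      · intro n hn
        rw [if_pos (Nat.lt_succ_iff.1 (Finset.mem_range.1 hn))]
    · intro n hn
      rw [if_neg]
      intro h
      exact hn (Finset.mem_range.2 (Nat.lt_succ_of_le h))
  have h5 : (1 : ℝ≥0∞) ≤ ENNReal.ofReal (Real.exp E) := by
    rw [ENNReal.one_le_ofReal]
    exact Real.one_le_exp hE
  calc ∑' n, f n ≤ ∑' n : ℕ, ((if n ≤ K then ENNReal.ofReal (Real.exp E) else 0) +
      ENNReal.ofReal (Real.exp (-(n : ℝ)))) := ENNReal.tsum_le_tsum h3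
    _ = ((K + 1 : ℕ) : ℝ≥0∞) * ENNReal.ofReal (Real.exp E) +
      ∑' n : ℕ, ENNReal.ofReal (Real.exp (-(n : ℝ))) := by rw [ENNReal.tsum_add, h4]
    _ ≤ ((K + 1 : ℕ) : ℝ≥0∞) * ENNReal.ofReal (Real.exp E) +
      2 * ENNReal.ofReal (Real.exp E) := by
        gcongr
        exact le_trans tsum_exp_neg (by simpa using mul_le_mul_right h5 2)
    _ = ENNReal.ofReal ((K : ℝ) + 3) * ENNReal.ofReal (Real.exp E) := by
        rw [← add_mul]
        congr 1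
        have : ((K : ℝ) + 3) = ((K + 3 : ℕ) : ℝ) := by push_cast; ring
        rw [this, ENNReal.ofReal_natCast]
        push_cast
        ring
    _ = ENNReal.ofReal (Real.exp (E + Real.log (K + 3))) := by
        rw [add_comm E, Real.exp_add, Real.exp_log (by positivity),
          ENNReal.ofReal_mul (by positivity)]

theorem measurable_En {φ : ℝ → ℝ} (hφ : Measurable φ) (β : ℝ) (n : ℕ) :
    Measurable (fun x : Fin n → Pt => -β * En φ (conf x)) := by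
  have h := (MeasW_wt hφ β n).ennreal_toReal.log
  have h2 : (fun x : Fin n → Pt => Real.log (wt φ β (conf x)).toReal) =
      fun x : Fin n → Pt => -β * En φ (conf x) := by
    funext x
    rw [wt, ENNReal.toReal_ofReal (Real.exp_pos _).le, Real.log_exp]
  rwa [h2] at h

theorem holder_bound {φ₀ T : ℝ → ℝ} (hφ : Measurable φ₀) (hT : Measurable T)
    (hT0 : ∀ r, 0 ≤ T r) {β κ ℓ C₁ C₂ w : ℝ} (hβ : 0 ≤ β) (hκ : 0 ≤ κ) (hκ1 : κ ≤ 1)
    (n : ℕ) (hfin : Jn (wt (fun r => φ₀ r - T r) β) (cube ℓ) n ≠ ∞)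
    (h2 : Jn (wt (fun r => φ₀ r - 2 * T r) β) (cube ℓ) n ≤
      ENNReal.ofReal (Real.exp (C₁ * w)))
    (h0 : ENNReal.ofReal (Real.exp (-C₂ * w)) ≤ Jn (wt φ₀ β) (cube ℓ) n) :
    Jn (wt (fun r => φ₀ r - (1 + κ) * T r) β) (cube ℓ) n ≤
      ENNReal.ofReal (Real.exp (Real.log (partitionFn (fun r => φ₀ r - T r) ℓ n β) +
        κ * (C₁ + C₂) * w)) := by
  set J := Jn (wt (fun r => φ₀ r - T r) β) (cube ℓ) n with hJ
  have hle : ENNReal.ofReal (Real.exp (-C₂ * w)) ≤ J := by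
    refine le_trans h0 ?_
    rw [hJ]
    refine Jn_mono subset_rfl (measurableSet_cube ℓ) n fun s _ _ => ?_
    simp only [wt]
    refine ofReal_exp_mono ?_
    have h3 : En (fun r => φ₀ r - T r) s ≤ En φ₀ s :=
      En_mono (fun r _ => by linarith [hT0 r]) s
    nlinarith
  have hz : Real.exp (-C₂ * w) ≤ J.toReal := by
    rwa [ENNReal.ofReal_le_iff_le_toReal hfin] at hle
  have hzpos : 0 < J.toReal := lt_of_lt_of_le (Real.exp_pos _) hz
  have hJz : J = ENNReal.ofReal (Real.exp (Real.log J.toReal)) := by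
    rw [Real.exp_log hzpos, ENNReal.ofReal_toReal hfin]
  have hlog : -C₂ * w ≤ Real.log J.toReal := by
    rw [Real.le_log_iff_exp_le hzpos]
    exact hz
  have hm1 : Measurable (fun r => φ₀ r - T r) := hφ.sub hT
  have hm2 : Measurable (fun r => φ₀ r - 2 * T r) := hφ.sub (hT.const_mul 2)
  rw [partitionFn_eq hm1]
  rw [← hJ]
  have hH := Jn_holder (fun s => -β * En (fun r => φ₀ r - T r) s)
    (fun s => -β * En (fun r => φ₀ r - 2 * T r) s)
    (measurable_En hm1 β) (measurable_En hm2 β) hκ hκ1 (cube ℓ) n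
  have e1 : (fun s : Multiset Pt => ENNReal.ofReal (Real.exp
      ((1 - κ) * (-β * En (fun r => φ₀ r - T r) s) +
        κ * (-β * En (fun r => φ₀ r - 2 * T r) s)))) =
      wt (fun r => φ₀ r - (1 + κ) * T r) β := by
    funext s
    simp only [wt]
    rw [En_sub φ₀ T, En_sub φ₀ (fun r => 2 * T r), En_smul, En_sub φ₀ (fun r => (1 + κ) * T r),
      En_smul]
    congr 2
    ring
  rw [e1] at hH
  refine le_trans hH ?_
  have e2 : Jn (fun s => ENNReal.ofReal (Real.exp (-β * En (fun r => φ₀ r - T r) s)))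
      (cube ℓ) n = J := rfl
  have e3 : Jn (fun s => ENNReal.ofReal (Real.exp (-β * En (fun r => φ₀ r - 2 * T r) s)))
      (cube ℓ) n = Jn (wt (fun r => φ₀ r - 2 * T r) β) (cube ℓ) n := rfl
  rw [e2, e3]
  calc J ^ (1 - κ) * Jn (wt (fun r => φ₀ r - 2 * T r) β) (cube ℓ) n ^ κ
      ≤ J ^ (1 - κ) * (ENNReal.ofReal (Real.exp (C₁ * w))) ^ κ := by
        gcongr
    _ = ENNReal.ofReal (Real.exp ((1 - κ) * Real.log J.toReal)) *
        ENNReal.ofReal (Real.exp (κ * (C₁ * w))) := by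
        rw [ofReal_exp_rpow _ hκ]
        conv_lhs => rw [hJz]
        rw [ofReal_exp_rpow _ (by linarith)]
    _ = ENNReal.ofReal (Real.exp ((1 - κ) * Real.log J.toReal + κ * (C₁ * w))) :=
        ofReal_exp_mul _ _
    _ ≤ _ := by
        refine ofReal_exp_mono ?_
        nlinarith

theorem pow4_le {u : ℝ} (h0 : 0 ≤ u) (h1 : u ≤ 1) : (1 + u) ^ 4 ≤ 1 + 15 * u := by
  have h2 : u ^ 2 ≤ u := by nlinarith
  have h3 : u ^ 3 ≤ u := by nlinarith
  have h4 : u ^ 4 ≤ u := by nlinarith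
  nlinarith

/-- The functional `F` of the sum-to-max lemma. -/
noncomputable def FU (φ₀ : ℝ → ℝ) (a : ℝ) (x0 k : ℕ) (β ν' b : ℝ) (n : ℕ) : ℝ :=
  ν' * n + Real.log (partitionFn (fun r => φ₀ r - Tk a x0 k r) (ls x0 k) n β)
    + β * b * (n : ℝ) ^ 2 / (2 * (ls x0 k : ℝ) ^ 3)

theorem En_zero (φ : ℝ → ℝ) : En φ 0 = 0 := by
  simp [En, dbl]

theorem FU_zero {φ₀ : ℝ → ℝ} (hφ : Measurable φ₀) (a : ℝ) (x0 k : ℕ) (β ν' b : ℝ) :
    FU φ₀ a x0 k β ν' b 0 = 0 := by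
  have hm1 : Measurable (fun r => φ₀ r - Tk a x0 k r) := hφ.sub (measurable_Tk a x0 k)
  rw [FU, partitionFn_eq hm1, Jn_zero, wt, En_zero]
  simp

theorem ls_cast (x0 k : ℕ) : (ls x0 k : ℝ) = (xs x0 k : ℝ) ^ 48 := by
  simp [ls]

theorem Rs_cast (x0 k : ℕ) : (Rs x0 k : ℝ) = (xs x0 k : ℝ) ^ 64 := by
  simp [Rs]

/-- The factor `(1 - 3/M)⁻¹`. -/
theorem kappa_bounds {M : ℝ} (hM : 6 ≤ M) :
    ∃ κ : ℝ, (1 - 3 / M)⁻¹ = 1 + κ ∧ 0 ≤ κ ∧ κ ≤ 6 / M ∧ κ ≤ 1 := by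
  have h3 : 0 < M - 3 := by linarith
  have hM0 : 0 < M := by linarith
  refine ⟨3 / (M - 3), ?_, by positivity, ?_, ?_⟩
  · have h1 : 1 - 3 / M = (M - 3) / M := by field_simp
    rw [h1, inv_div]
    field_simp
    ring
  · rw [div_le_div_iff₀ h3 hM0]
    linarith
  · rw [div_le_one h3]
    linarith

theorem log_bound {D x w : ℝ} {K : ℕ} (hD : 0 ≤ D) (hx : 1 ≤ x) (hw : w = x ^ 144)
    (hK : (K : ℝ) ≤ D * w) : Real.log ((K : ℝ) + 3) ≤ (D + 147) * (w / x ^ 16) := by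
  have hx0 : 0 < x := by linarith
  have hw1 : 1 ≤ w := by
    rw [hw]
    exact one_le_pow₀ hx
  have h1 : (K : ℝ) + 3 ≤ (D + 3) * x ^ 144 := by
    rw [← hw]
    nlinarith
  have h2 : Real.log ((K : ℝ) + 3) ≤ Real.log ((D + 3) * x ^ 144) :=
    Real.log_le_log (by positivity) h1
  rw [Real.log_mul (by positivity) (by positivity), Real.log_pow] at h2
  have h3 : Real.log (D + 3) ≤ D + 3 := (Real.log_le_sub_one_of_pos (by positivity)).trans
    (by linarith)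
  have h4 : Real.log x ≤ x := (Real.log_le_sub_one_of_pos hx0).trans (by linarith)
  have h5 : w / x ^ 16 = x ^ 128 := by
    rw [hw]
    field_simp
  rw [h5]
  have h6 : x ≤ x ^ 128 := le_self_pow₀ hx (by norm_num)
  have h7 : 1 ≤ x ^ 128 := one_le_pow₀ hx
  push_cast at h2
  nlinarith

set_option maxHeartbeats 2000000 in
theorem sum_to_max {φ₀ : ℝ → ℝ} {δ c η a νm : ℝ} (hφ : CoreHyp φ₀ δ c η) (ha : 0 < a)
    (hν : 0 < νm) (hc : 1024 * (20 * a + νm + 3) / δ ^ 3 ≤ c) :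
    ∃ C : ℝ, 0 < C ∧ ∀ x0 : ℕ, 10 ≤ x0 → ∀ (k : ℕ) (β ν' b : ℝ), 1 / 2 ≤ β → β ≤ 3 / 2 →
      |ν'| ≤ νm + 3 / 2 * a * rmax δ → 0 ≤ b → b ≤ a → ∃ n : ℕ, dens x0 k n ≤ rmax δ ∧
        0 ≤ FU φ₀ a x0 k β ν' b n ∧ FU φ₀ a x0 k β ν' b n ≤ C * (ls x0 k : ℝ) ^ 3 ∧
        ∑' n : ℕ, ENNReal.ofReal (Real.exp (ν' * n +
            β * (b * (1 + 4 * (ls x0 k : ℝ) / (Rs x0 k : ℝ)) ^ 4) * (n : ℝ) ^ 2 /
              (2 * (ls x0 k : ℝ) ^ 3))) *
          Jn (wt (fun r => φ₀ r - (1 - 3 / (((xs x0 k) ^ 16 : ℕ) : ℝ))⁻¹ * Tk a x0 k r) β)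
            (cube (ls x0 k)) n ≤
        ENNReal.ofReal (Real.exp (FU φ₀ a x0 k β ν' b n +
          C * ((ls x0 k : ℝ) ^ 3 / (xs x0 k : ℝ) ^ 16))) := by
  have hδ := hφ.δpos
  have hδ' := hφ.δle
  set D := rmax δ with hDdef
  have hD1 : 1 ≤ D := one_le_rmax hδ hδ'
  have hcw := hc_weak hδ ha hν hc
  have hcm := hc_mul hδ hc
  obtain ⟨C₂, hC₂, hlow⟩ := logZ_lower hφ.meas hφ.nonneg
    (fun r hr => hφ.far r (by linarith)) D
  have hc0 : 0 < c := hφ.cpos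
  set C₁ : ℝ := 1 + 3 / 2 * c * D / 2 with hC₁
  have hC₁0 : 0 < C₁ := by positivity
  set C₃ : ℝ := 6 * (C₁ + C₂) + 45 * a * D ^ 2 + (D + 147) with hC₃
  set C₄ : ℝ := (νm + 3 / 2 * a * D) * D + C₁ + a * D ^ 2 with hC₄
  have hC₃0 : 0 < C₃ := by positivity
  have hC₄0 : 0 < C₄ := by positivity
  refine ⟨C₃ + C₄, by positivity, ?_⟩
  intro x0 hx0 k β ν' b hβ hβ' hν' hb0 hba
  have hx02 : 2 ≤ x0 := by omega
  have hβ0 : 0 ≤ β := by linarith
  have hq : 10 ≤ xs x0 k := le_trans hx0 (le_xs (by omega) k)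
  set x : ℝ := (xs x0 k : ℝ) with hx
  have hx10 : (10 : ℝ) ≤ x := by
    rw [hx]
    exact_mod_cast hq
  have hx1 : (1 : ℝ) ≤ x := by linarith
  have hx0' : 0 < x := by linarith
  set ℓ : ℝ := (ls x0 k : ℝ) with hℓ
  have hℓx : ℓ = x ^ 48 := ls_cast x0 k
  have hRx : (Rs x0 k : ℝ) = x ^ 64 := Rs_cast x0 k
  have hℓ1 : 1 ≤ ℓ := by rw [hℓx]; exact one_le_pow₀ hx1
  have hℓ3 : 3 ≤ ℓ := by
    rw [hℓx]
    exact le_trans (by linarith) (le_self_pow₀ hx1 (by norm_num))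
  have hℓ0 : 0 < ℓ := by linarith
  set w : ℝ := ℓ ^ 3 with hw
  have hwx : w = x ^ 144 := by rw [hw, hℓx, ← pow_mul]
  have hw0 : 0 < w := by positivity
  have hw1 : 1 ≤ w := one_le_pow₀ hℓ1
  have hx16 : (60 : ℝ) ≤ x ^ 16 := by
    have h1 : (10 : ℝ) ^ 2 ≤ x ^ 2 := pow_le_pow_left₀ (by norm_num) hx10 2
    have h2 : x ^ 2 ≤ x ^ 16 := pow_le_pow_right₀ hx1 (by norm_num)
    linarith
  have hx16' : 0 < x ^ 16 := by positivity
  -- the factor kappa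
  have hMc : (((xs x0 k) ^ 16 : ℕ) : ℝ) = x ^ 16 := by push_cast; rfl
  rw [hMc]
  obtain ⟨κ, hκe, hκ0, hκ6, hκ1⟩ := kappa_bounds (M := x ^ 16) (by linarith)
  rw [hκe]
  -- the constant b'
  have hu : 4 * ℓ / (Rs x0 k : ℝ) = 4 / x ^ 16 := by
    rw [hRx, hℓx]
    field_simp
  rw [hu]
  set b' : ℝ := b * (1 + 4 / x ^ 16) ^ 4 with hb'
  have hu0 : 0 ≤ 4 / x ^ 16 := by positivity
  have hu1 : 4 / x ^ 16 ≤ 1 := by rw [div_le_one hx16']; linarith
  have hp4 := pow4_le hu0 hu1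
  have h15 : 15 * (4 / x ^ 16) = 60 / x ^ 16 := by ring
  have h60 : 60 / x ^ 16 ≤ 1 := by rw [div_le_one hx16']; exact hx16
  have hb'b : b' ≤ b + 60 * a / x ^ 16 := by
    have h1 : b' ≤ b * (1 + 60 / x ^ 16) := by
      rw [hb', ← h15]
      exact mul_le_mul_of_nonneg_left hp4 hb0
    have h2 : b * (60 / x ^ 16) ≤ a * (60 / x ^ 16) :=
      mul_le_mul_of_nonneg_right hba (by positivity)
    have h3 : a * (60 / x ^ 16) = 60 * a / x ^ 16 := by ring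
    linarith
  have hb'2 : b' ≤ 2 * a := by
    have h1 : 60 * a / x ^ 16 ≤ a := by
      have : 60 * a / x ^ 16 = a * (60 / x ^ 16) := by ring
      rw [this]
      nlinarith
    linarith
  have hb'0 : 0 ≤ b' := by positivity
  -- the maximum
  set K : ℕ := ⌊D * w⌋₊ with hK
  have hKle : (K : ℝ) ≤ D * w := Nat.floor_le (by positivity)
  obtain ⟨n, hn, hmax⟩ := Finset.exists_max_image (Finset.range (K + 1))
    (FU φ₀ a x0 k β ν' b) ⟨0, Finset.mem_range.2 (by omega)⟩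
  have hnK : n ≤ K := Nat.lt_succ_iff.1 (Finset.mem_range.1 hn)
  have hnD : (n : ℝ) ≤ D * w := le_trans (by exact_mod_cast hnK) hKle
  have hF0 : 0 ≤ FU φ₀ a x0 k β ν' b n := by
    rw [← FU_zero hφ.meas a x0 k β ν' b]
    exact hmax 0 (Finset.mem_range.2 (by omega))
  have hTm := measurable_Tk a x0 k
  have hT0 := Tk_nonneg ha (show 1 ≤ x0 by omega) k
  have hTT := Tk_le_Tfull ha hx02 k
  have hm1 : Measurable (fun r => φ₀ r - Tk a x0 k r) := hφ.meas.sub hTm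
  have hJ1 : ∀ m : ℕ, Jn (wt (fun r => φ₀ r - Tk a x0 k r) β) (cube ℓ) m ≤
      ENNReal.ofReal (Real.exp (C₁ * w)) := by
    intro m
    have h1 := Jn_all hφ ha hcw hx02 (lam := 1) (by norm_num) (by norm_num) hTT hℓ1 hβ0 m
    simp only [one_mul] at h1
    refine le_trans h1 (ofReal_exp_mono ?_)
    refine mul_le_mul_of_nonneg_right ?_ hw0.le
    rw [hC₁]
    have : β * c * rmax δ ≤ 3 / 2 * c * D := by
      rw [← hDdef]
      gcongr
    linarith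
  have hJ2 : ∀ m : ℕ, Jn (wt (fun r => φ₀ r - 2 * Tk a x0 k r) β) (cube ℓ) m ≤
      ENNReal.ofReal (Real.exp (C₁ * w)) := by
    intro m
    have h1 := Jn_all hφ ha hcw hx02 (lam := 2) (by norm_num) le_rfl hTT hℓ1 hβ0 m
    refine le_trans h1 (ofReal_exp_mono ?_)
    refine mul_le_mul_of_nonneg_right ?_ hw0.le
    rw [hC₁]
    have : β * c * rmax δ ≤ 3 / 2 * c * D := by
      rw [← hDdef]
      gcongr
    linarith
  have hfin : ∀ m : ℕ, Jn (wt (fun r => φ₀ r - Tk a x0 k r) β) (cube ℓ) m ≠ ∞ := fun m =>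
    ne_top_of_le_ne_top ENNReal.ofReal_ne_top (hJ1 m)
  have hlogle : ∀ m : ℕ,
      Real.log (partitionFn (fun r => φ₀ r - Tk a x0 k r) ℓ m β) ≤ C₁ * w := by
    intro m
    rw [partitionFn_eq hm1]
    have h1 : (Jn (wt (fun r => φ₀ r - Tk a x0 k r) β) (cube ℓ) m).toReal ≤
        Real.exp (C₁ * w) := ENNReal.toReal_le_of_le_ofReal (Real.exp_pos _).le (hJ1 m)
    rcases (ENNReal.toReal_nonneg
      (a := Jn (wt (fun r => φ₀ r - Tk a x0 k r) β) (cube ℓ) m)).eq_or_lt with h2 | h2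
    · rw [← h2, Real.log_zero]
      positivity
    · rw [Real.log_le_iff_le_exp h2]
      exact h1
  have hFle : FU φ₀ a x0 k β ν' b n ≤ C₄ * w := by
    have h1 := hlogle n
    have h2 : ν' * n ≤ (νm + 3 / 2 * a * D) * (D * w) := by
      have h3 : ν' * n ≤ (νm + 3 / 2 * a * D) * n :=
        mul_le_mul_of_nonneg_right (le_trans (le_abs_self _) hν') (Nat.cast_nonneg _)
      exact le_trans h3 (mul_le_mul_of_nonneg_left hnD (by positivity))
    have h3 : β * b * (n : ℝ) ^ 2 / (2 * w) ≤ a * D ^ 2 * w := by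
      rw [div_le_iff₀ (by positivity)]
      have h4 : β * b ≤ 3 / 2 * a := mul_le_mul hβ' hba hb0 (by norm_num)
      have h5 : (n : ℝ) ^ 2 ≤ (D * w) ^ 2 := pow_le_pow_left₀ (Nat.cast_nonneg _) hnD 2
      have h6 : β * b * (n : ℝ) ^ 2 ≤ 3 / 2 * a * (D * w) ^ 2 :=
        mul_le_mul h4 h5 (by positivity) (by positivity)
      have h7 : 0 ≤ a * D ^ 2 * w * w := by positivity
      nlinarith
    rw [FU, hC₄]
    have h8 : ((νm + 3 / 2 * a * D) * D + C₁ + a * D ^ 2) * w =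
      (νm + 3 / 2 * a * D) * (D * w) + C₁ * w + a * D ^ 2 * w := by ring
    rw [h8]
    linarith
  refine ⟨n, ?_, hF0, ?_, ?_⟩
  · rw [dens, div_le_iff₀ hw0]
    exact hnD
  · refine le_trans hFle ?_
    exact mul_le_mul_of_nonneg_right (by linarith) hw0.le
  · set E : ℝ := FU φ₀ a x0 k β ν' b n + (6 * (C₁ + C₂) + 45 * a * D ^ 2) * (w / x ^ 16) with hE
    have hE0 : 0 ≤ E := by positivity
    have hmain := sum_to_max_abs (fun n : ℕ => ENNReal.ofReal (Real.exp (ν' * n +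
            β * b' * (n : ℝ) ^ 2 / (2 * w))) *
          Jn (wt (fun r => φ₀ r - (1 + κ) * Tk a x0 k r) β) (cube ℓ) n) K E hE0 ?_ ?_
    · refine le_trans hmain (ofReal_exp_mono ?_)
      have h1 := log_bound (by linarith) hx1 hwx hKle
      have h2 : 0 ≤ C₄ * (w / x ^ 16) := by positivity
      rw [hE, hC₃]
      have h3 : (6 * (C₁ + C₂) + 45 * a * D ^ 2 + (D + 147) + C₄) * (w / x ^ 16) =
        (6 * (C₁ + C₂) + 45 * a * D ^ 2) * (w / x ^ 16) + (D + 147) * (w / x ^ 16) +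
          C₄ * (w / x ^ 16) := by ring
      rw [h3]
      linarith
    · -- small number of particles
      intro m hm
      have hmD : (m : ℝ) ≤ D * w := le_trans (by exact_mod_cast hm) hKle
      have h1 := holder_bound (w := w) hφ.meas hTm hT0 hβ0 hκ0 hκ1 m (hfin m) (hJ2 m)
        (hlow ℓ β m hℓ3 hβ0 hβ' hmD)
      have h2 := hmax m (Finset.mem_range.2 (Nat.lt_succ_of_le hm))
      refine le_trans (mul_le_mul' le_rfl h1) ?_
      rw [ofReal_exp_mul]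
      refine ofReal_exp_mono ?_
      have h3 : κ * (C₁ + C₂) * w ≤ 6 * (C₁ + C₂) * (w / x ^ 16) := by
        have h4 : κ * ((C₁ + C₂) * w) ≤ 6 / x ^ 16 * ((C₁ + C₂) * w) :=
          mul_le_mul_of_nonneg_right hκ6 (by positivity)
        have h5 : 6 / x ^ 16 * ((C₁ + C₂) * w) = 6 * (C₁ + C₂) * (w / x ^ 16) := by ring
        linarith
      have h4 : β * b' * (m : ℝ) ^ 2 / (2 * w) ≤ β * b * (m : ℝ) ^ 2 / (2 * w) +
          45 * a * D ^ 2 * (w / x ^ 16) := by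
        have h5 : β * b' * (m : ℝ) ^ 2 / (2 * w) - β * b * (m : ℝ) ^ 2 / (2 * w) =
          β * (b' - b) * (m : ℝ) ^ 2 / (2 * w) := by ring
        have h6 : β * (b' - b) * (m : ℝ) ^ 2 / (2 * w) ≤ 45 * a * D ^ 2 * (w / x ^ 16) := by
          rw [div_le_iff₀ (by positivity)]
          have hbb : 0 ≤ b' - b := by
            have : b * 1 ≤ b' := by
              rw [hb']
              exact mul_le_mul_of_nonneg_left (one_le_pow₀ (by linarith)) hb0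
            linarith
          have h7 : β * (b' - b) ≤ 3 / 2 * (60 * a / x ^ 16) :=
            mul_le_mul hβ' (by linarith) hbb (by norm_num)
          have h8 : (m : ℝ) ^ 2 ≤ (D * w) ^ 2 := pow_le_pow_left₀ (Nat.cast_nonneg _) hmD 2
          have h9 : β * (b' - b) * (m : ℝ) ^ 2 ≤ 3 / 2 * (60 * a / x ^ 16) * (D * w) ^ 2 :=
            mul_le_mul h7 h8 (by positivity) (by positivity)
          have h10 : 3 / 2 * (60 * a / x ^ 16) * (D * w) ^ 2 =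
            45 * a * D ^ 2 * (w / x ^ 16) * (2 * w) := by ring
          linarith
        linarith
      have h5 : FU φ₀ a x0 k β ν' b m = ν' * m +
        Real.log (partitionFn (fun r => φ₀ r - Tk a x0 k r) ℓ m β)
        + β * b * (m : ℝ) ^ 2 / (2 * w) := rfl
      rw [hE]
      have h6 : (6 * (C₁ + C₂) + 45 * a * D ^ 2) * (w / x ^ 16) =
        6 * (C₁ + C₂) * (w / x ^ 16) + 45 * a * D ^ 2 * (w / x ^ 16) := by ring
      rw [h6]
      linarith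
    · -- large number of particles
      intro m hm
      have hmD : D * w ≤ m := (Nat.lt_of_floor_lt hm).le
      have h1 := Jn_large hφ ha hcw hx02 (lam := 1 + κ) (by linarith) (by linarith) hTT hℓ1 hβ0
        m hmD
      refine le_trans (mul_le_mul' le_rfl h1) ?_
      rw [ofReal_exp_mul]
      refine ofReal_exp_mono ?_
      exact large_exponent hD1 ha hν hν' hb'2 hb'0 hβ hβ' hcm hw0 hmD

theorem block_bound {φ₀ : ℝ → ℝ} {δ c η a νm : ℝ} (hφ : CoreHyp φ₀ δ c η) (ha : 0 < a)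
    (hν : 0 < νm) (hc : 1024 * (20 * a + νm + 3) / δ ^ 3 ≤ c) :
    ∃ C : ℝ, 0 < C ∧ ∀ x0 : ℕ, 10 ≤ x0 → ∀ (k : ℕ) (β ν' b : ℝ), 1 / 2 ≤ β → β ≤ 3 / 2 →
      |ν'| ≤ νm + 3 / 2 * a * rmax δ → 0 ≤ b → b ≤ a → ∃ n : ℕ, dens x0 k n ≤ rmax δ ∧
        0 ≤ FU φ₀ a x0 k β ν' b n ∧ FU φ₀ a x0 k β ν' b n ≤ C * (ls x0 k : ℝ) ^ 3 ∧
        ∀ t : ℝ → ℝ, Measurable t → (∀ r, 0 ≤ t r) →
        (∀ (s : Multiset Pt) (sh : ℝ), dbl t s ≤
          (b * (1 + 4 * (ls x0 k : ℝ) / (Rs x0 k : ℝ)) ^ 4) / (ls x0 k : ℝ) ^ 3 *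
            sqCnt sh (ls x0 k) s) →
        ∀ L : ℝ, 0 < L → ∀ N : ℕ,
        Real.log (partitionFn (fun r => φ₀ r - Tk a x0 k r - t r) L N β) ≤
          16 * Real.log (xs x0 k) - ν' * N + (((⌊L / (ls x0 k : ℝ)⌋₊ : ℝ) + 2) ^ 3) *
            (FU φ₀ a x0 k β ν' b n +
              C * ((ls x0 k : ℝ) ^ 3 / (xs x0 k : ℝ) ^ 16)) := by
  obtain ⟨C, hC, hmain⟩ := sum_to_max hφ ha hν hc
  refine ⟨C, hC, ?_⟩
  intro x0 hx0 k β ν' b hβ hβ' hν' hb0 hba
  obtain ⟨n, h1, h2, h3, h4⟩ := hmain x0 hx0 k β ν' b hβ hβ' hν' hb0 hba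
  refine ⟨n, h1, h2, h3, ?_⟩
  intro t ht ht0 hup L hL N
  have hq : 10 ≤ xs x0 k := le_trans hx0 (le_xs (by omega) k)
  have hqR : (10 : ℝ) ≤ (xs x0 k : ℝ) := by exact_mod_cast hq
  have hq1 : (1 : ℝ) ≤ (xs x0 k : ℝ) := by linarith
  have hℓ0 : (0 : ℝ) < (ls x0 k : ℝ) := by
    rw [ls_cast]
    positivity
  have hM : 4 ≤ (xs x0 k) ^ 16 := by
    calc 4 ≤ xs x0 k := by omega
      _ ≤ (xs x0 k) ^ 16 := Nat.le_self_pow (by norm_num) _
  have hMR : (((xs x0 k) ^ 16 : ℕ) : ℝ) * ((xs x0 k : ℕ) : ℝ) ^ 32 ≤ (ls x0 k : ℝ) := by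
    rw [ls_cast]
    push_cast
    rw [← pow_add]
  have hb'0 : 0 ≤ b * (1 + 4 * (ls x0 k : ℝ) / (Rs x0 k : ℝ)) ^ 4 := by positivity
  have hU := lemmaU hφ.meas hφ.nonneg (measurable_Tk a x0 k) (Tk_nonneg ha (by omega) k)
    (R := ((xs x0 k : ℕ) : ℝ) ^ 32) (by positivity)
    (fun r hr => Tk_eq_zero (by omega) k hr) ht ht0 hℓ0 hb'0 hup hM hMR
    (β := β) (by linarith) hL.le N ν'
  set J := Jn (wt (fun r => φ₀ r - Tk a x0 k r - t r) β) (cube L) N with hJ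
  have hm2 : Measurable (fun r => φ₀ r - Tk a x0 k r - t r) :=
    (hφ.meas.sub (measurable_Tk a x0 k)).sub ht
  rw [partitionFn_eq hm2, ← hJ]
  have hJpos : 0 < J := by
    refine Jn_wt_pos hm2 β ?_ N
    rw [volume_cube hL.le]
    simp only [ne_eq, ENNReal.ofReal_eq_zero, not_le]
    positivity
  set G : ℝ := FU φ₀ a x0 k β ν' b n + C * ((ls x0 k : ℝ) ^ 3 / (xs x0 k : ℝ) ^ 16) with hG
  set P : ℕ := (⌊L / (ls x0 k : ℝ)⌋₊ + 2) ^ 3 with hP
  have hMe : (((xs x0 k) ^ 16 : ℕ) : ℝ≥0∞) =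
      ENNReal.ofReal (Real.exp (16 * Real.log (xs x0 k))) := by
    have e1 : (16 : ℝ) * Real.log (xs x0 k) = Real.log ((xs x0 k : ℝ) ^ 16) := by
      rw [Real.log_pow]
      push_cast
      ring
    rw [e1, Real.exp_log (by positivity), ← ENNReal.ofReal_natCast]
    push_cast
    rfl
  have hle : J ≤ ENNReal.ofReal (Real.exp (16 * Real.log (xs x0 k) + -ν' * N + P * G)) := by
    calc J ≤ _ := hU
      _ ≤ (((xs x0 k) ^ 16 : ℕ) : ℝ≥0∞) * ENNReal.ofReal (Real.exp (-ν' * N)) *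
          (ENNReal.ofReal (Real.exp G)) ^ P := by
          gcongr
      _ = _ := by
          rw [hMe, ofReal_exp_pow, ofReal_exp_mul, ofReal_exp_mul]
  have hfin : J ≠ ∞ := ne_top_of_le_ne_top ENNReal.ofReal_ne_top hle
  have h5 : J.toReal ≤ Real.exp (16 * Real.log (xs x0 k) + -ν' * N + P * G) :=
    ENNReal.toReal_le_of_le_ofReal (Real.exp_pos _).le hle
  have h6 : 0 < J.toReal := ENNReal.toReal_pos hJpos.ne' hfin
  have h7 : Real.log J.toReal ≤ 16 * Real.log (xs x0 k) + -ν' * N + P * G := by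
    rw [Real.log_le_iff_le_exp h6]
    exact h5
  have h8 : (P : ℝ) = ((⌊L / (ls x0 k : ℝ)⌋₊ : ℝ) + 2) ^ 3 := by
    rw [hP]
    push_cast
    ring
  rw [h8] at h7
  linarith

end LU

end Crest.Agent.R149
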