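import Crest.Agent.R149.LemmaU
import Crest.Agent.R149.Super
import Crest.Agent.R149.Thermo
import Crest.Agent.R149.LevelsUAux

/-!
PIECE I-U (upper inequalities between the levels).

Notation: `x = xs x0 k`, `ℓ = ls x0 k = x^48`, `R_k = x^64`, range of `T_k` is `R = x^32`,
`M = x^16` (so `M R = ℓ`), `κ' = (1-3/M)⁻¹ - 1 ≤ 6/M`.

*Sum to max.*  For `0 ≤ b ≤ a`, `b' = b (1+4ℓ/R_k)^4`, `|ν'| ≤ νm + (3/2) a rmax`:
`log Σ'_n exp(ν' n + β b' n²/(2ℓ³)) Z_ℓ^{φ₀-(1+κ')T_k}(n) ≤ max_{n ≤ rmax ℓ³} F(n) + C ℓ³/x^16`,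
`F(n) = ν' n + log Z_ℓ^{φ₀-T_k}(n) + β b n²/(2ℓ³)`.
Terms `n > rmax ℓ³`: by `Jn_large` and `hc` each is `≤ exp(-n)`, total `≤ 2`.
Terms `n ≤ rmax ℓ³`: Hölder (`Jn_holder`) `Z^{(1+κ')T} ≤ (Z^T)^{1-κ'} (Z^{2T})^{κ'}`, `Jn_all`,
and `logZ_lower` (`Z^{T} ≥ Z^{φ₀}`): the cost is `κ' (C₁+C₂) ℓ³`; `b'-b ≤ C ℓ/R_k = C x^{-16}`;
the number of terms costs `log (rmax ℓ³ + 3)`; the term `n = 0` is `F(0) = 0`, so `max F ≥ 0`.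

*(MU)*: Lemma U with `L = ℓ_{k+1} = ℓ²`, `t = T_{k+1} - T_k = a_k ψ_{R_k}`, `b = a_k = b_k - b_{k+1}`,
`ν' = ν + β b_{k+1} ρ_N`, `ρ_N = dens (k+1) N`; number of blocks `(ℓ+2)^3` (= `(L/ℓ)^3 (1+2/ℓ)^3`),
and complete the square:  `ν ρ_n + β b_{k+1} ρ_N ρ_n + β (b_k-b_{k+1}) ρ_n²/2 - β b_{k+1} ρ_N²/2
 = [ν ρ_n + β b_k ρ_n²/2] - (β b_{k+1}/2)(ρ_n-ρ_N)²`.

*(limit)*: Lemma U with `t = Tfull - T_k`, `b = b_k`, `ν' = ν`, `L → ∞`.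
-/

set_option autoImplicit false

namespace Crest.Agent.R149

open MeasureTheory Crest.ProbabilityR.Continuum
open scoped ENNReal BigOperators

namespace LU

/-- Final real computation for `levels_upper_succ`. -/
theorem succ_real {β νν b0 b1 ρN ρn lz lz' x ℓ C f : ℝ} (hx : 10 ≤ x) (hℓ : ℓ = x ^ 48)
    (hC : 0 < C) (hf : f = (νν + β * b1 * ρN) * ρn + lz' / ℓ ^ 3 + β * (b0 - b1) * ρn ^ 2 / 2)
    (hf0 : 0 ≤ f) (hfC : f ≤ C)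
    (h : lz ≤ 16 * Real.log x - (νν + β * b1 * ρN) * (ρN * (ℓ ^ 2) ^ 3) +
      (ℓ + 2) ^ 3 * (f * ℓ ^ 3 + C * (ℓ ^ 3 / x ^ 16))) :
    (νν * (ρN * (ℓ ^ 2) ^ 3) + lz + β * b1 * (ρN * (ℓ ^ 2) ^ 3) ^ 2 / (2 * (ℓ ^ 2) ^ 3)) /
        (ℓ ^ 2) ^ 3 ≤
      (νν * (ρn * ℓ ^ 3) + lz' + β * b0 * (ρn * ℓ ^ 3) ^ 2 / (2 * ℓ ^ 3)) / ℓ ^ 3
        - β * b1 / 2 * (ρn - ρN) ^ 2 + (16 + 53 * C) / x ^ 16 := by
  have hx0 : 0 < x := by linarith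
  have hx1 : 1 ≤ x := by linarith
  have hℓ1 : 1 ≤ ℓ := by rw [hℓ]; exact one_le_pow₀ hx1
  have hℓ0 : 0 < ℓ := by linarith
  have hx16 : 0 < x ^ 16 := by positivity
  have e1 : (νν * (ρN * (ℓ ^ 2) ^ 3) + lz + β * b1 * (ρN * (ℓ ^ 2) ^ 3) ^ 2 / (2 * (ℓ ^ 2) ^ 3)) /
        (ℓ ^ 2) ^ 3 = νν * ρN + lz / ℓ ^ 6 + β * b1 * ρN ^ 2 / 2 := by
    field_simp
  have e2 : (νν * (ρn * ℓ ^ 3) + lz' + β * b0 * (ρn * ℓ ^ 3) ^ 2 / (2 * ℓ ^ 3)) / ℓ ^ 3 =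
      νν * ρn + lz' / ℓ ^ 3 + β * b0 * ρn ^ 2 / 2 := by
    field_simp
  rw [e1, e2]
  -- divide `h` by `ℓ ^ 6`
  have h1 : lz / ℓ ^ 6 ≤ 16 * Real.log x / ℓ ^ 6 - (νν + β * b1 * ρN) * ρN +
      (1 + 2 / ℓ) ^ 3 * (f + C / x ^ 16) := by
    have h2 : lz / ℓ ^ 6 ≤ (16 * Real.log x - (νν + β * b1 * ρN) * (ρN * (ℓ ^ 2) ^ 3) +
      (ℓ + 2) ^ 3 * (f * ℓ ^ 3 + C * (ℓ ^ 3 / x ^ 16))) / ℓ ^ 6 :=
      div_le_div_of_nonneg_right h (by positivity)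
    refine le_trans h2 (le_of_eq ?_)
    field_simp
  have h2 : 16 * Real.log x / ℓ ^ 6 ≤ 16 / x ^ 16 := by
    rw [div_le_div_iff₀ (by positivity) hx16]
    have h3 : Real.log x ≤ x := (Real.log_le_sub_one_of_pos hx0).trans (by linarith)
    have h4 : x * x ^ 16 ≤ ℓ ^ 6 := by
      rw [hℓ, ← pow_mul, ← pow_succ']
      exact pow_le_pow_right₀ hx1 (by norm_num)
    have h5 : Real.log x * x ^ 16 ≤ x * x ^ 16 := mul_le_mul_of_nonneg_right h3 hx16.le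
    linarith
  have h3 : 1 / ℓ ≤ 1 / x ^ 16 := by
    apply one_div_le_one_div_of_le hx16
    rw [hℓ]
    exact pow_le_pow_right₀ hx1 (by norm_num)
  have h4 : (1 + 2 / ℓ) ^ 3 ≤ 1 + 26 * (1 / ℓ) := by
    set u := 1 / ℓ with hu
    have hu0 : 0 ≤ u := by positivity
    have hu1 : u ≤ 1 := by rw [hu, div_le_one hℓ0]; exact hℓ1
    have e : 2 / ℓ = 2 * u := by rw [hu]; ring
    rw [e]
    have h5 : u ^ 2 ≤ u := by nlinarith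
    have h6 : u ^ 3 ≤ u := by nlinarith
    nlinarith
  have hg0 : 0 ≤ C / x ^ 16 := by positivity
  have h5 : (1 + 2 / ℓ) ^ 3 * (f + C / x ^ 16) ≤ (1 + 26 * (1 / ℓ)) * (f + C / x ^ 16) :=
    mul_le_mul_of_nonneg_right h4 (by linarith)
  have h6 : 26 * (1 / ℓ) * f ≤ 26 * (1 / x ^ 16) * C :=
    mul_le_mul (by linarith) hfC hf0 (by positivity)
  have h7 : 26 * (1 / ℓ) * (C / x ^ 16) ≤ 26 * (C / x ^ 16) := by
    have : 1 / ℓ ≤ 1 := by rw [div_le_one hℓ0]; exact hℓ1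
    nlinarith
  have h8 : (1 + 26 * (1 / ℓ)) * (f + C / x ^ 16) =
    f + C / x ^ 16 + 26 * (1 / ℓ) * f + 26 * (1 / ℓ) * (C / x ^ 16) := by ring
  have h9 : (16 + 53 * C) / x ^ 16 =
    16 / x ^ 16 + (C / x ^ 16 + 26 * (1 / x ^ 16) * C + 26 * (C / x ^ 16)) := by ring
  have h10 : νν * ρn + lz' / ℓ ^ 3 + β * b0 * ρn ^ 2 / 2 - β * b1 / 2 * (ρn - ρN) ^ 2 =
      νν * ρN + β * b1 * ρN ^ 2 / 2 - (νν + β * b1 * ρN) * ρN + f := by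
    rw [hf]
    ring
  rw [h10, h9]
  linarith

end LU

theorem levels_upper_succ {φ₀ : ℝ → ℝ} {δ c η a νm : ℝ} (hφ : CoreHyp φ₀ δ c η) (ha : 0 < a)
    (hν : 0 < νm) (hc : 1024 * (20 * a + νm + 3) / δ ^ 3 ≤ c) :
    ∃ C : ℝ, 0 < C ∧ ∃ X0 : ℕ, ∀ x0 : ℕ, X0 ≤ x0 → ∀ (k : ℕ) (β ν : ℝ), 1 / 2 ≤ β → β ≤ 3 / 2 →
      |ν| ≤ νm → ∀ N : ℕ, dens x0 (k + 1) N ≤ rmax δ → ∃ n : ℕ, dens x0 k n ≤ rmax δ ∧
        Vk φ₀ a x0 (k + 1) β ν N ≤ Vk φ₀ a x0 k β ν n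
          - β * bs a x0 (k + 1) / 2 * (dens x0 k n - dens x0 (k + 1) N) ^ 2
          + C / (xs x0 k : ℝ) ^ 16 := by
  obtain ⟨C, hC, hmain⟩ := LU.block_bound hφ ha hν hc
  refine ⟨16 + 53 * C, by positivity, 10, ?_⟩
  intro x0 hx0 k β ν hβ hβ' hνν N hN
  have hx02 : 2 ≤ x0 := by omega
  have hx01 : 1 ≤ x0 := by omega
  have hD1 : 1 ≤ rmax δ := LU.one_le_rmax hφ.δpos hφ.δle
  have hq : 10 ≤ xs x0 k := le_trans hx0 (le_xs (by omega) k)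
  have hqR : (10 : ℝ) ≤ (xs x0 k : ℝ) := by exact_mod_cast hq
  have hb1 := bs_pos ha hx01 (k + 1)
  have hb1a := bs_le ha hx01 (k + 1)
  have hb0a := bs_le ha hx01 k
  have hbb := bs_succ_le ha hx01 k
  have hρN0 : 0 ≤ dens x0 (k + 1) N := by
    rw [dens]
    positivity
  have hν' : |ν + β * bs a x0 (k + 1) * dens x0 (k + 1) N| ≤ νm + 3 / 2 * a * rmax δ := by
    refine le_trans (abs_add_le _ _) (add_le_add hνν ?_)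
    rw [abs_of_nonneg (by positivity)]
    gcongr
  obtain ⟨n, h1, h2, h3, h4⟩ := hmain x0 hx0 k β (ν + β * bs a x0 (k + 1) * dens x0 (k + 1) N)
    (bs a x0 k - bs a x0 (k + 1)) hβ hβ' hν' (by linarith) (by linarith)
  refine ⟨n, h1, ?_⟩
  have hℓ0 : (0 : ℝ) < (ls x0 k : ℝ) := by
    rw [LU.ls_cast]
    positivity
  have hLc : (ls x0 (k + 1) : ℝ) = (ls x0 k : ℝ) ^ 2 := by
    rw [ls_succ]
    push_cast
    rfl
  have ht0 : ∀ r, 0 ≤ Tk a x0 (k + 1) r - Tk a x0 k r := by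
    intro r
    rw [Tk, Tk, Finset.sum_range_succ, add_sub_cancel_left]
    refine mul_nonneg (aj_nonneg ha hx01 k) (psi_nonneg ?_ r)
    rw [LU.Rs_cast]
    positivity
  have h5 := h4 (fun r => Tk a x0 (k + 1) r - Tk a x0 k r)
    ((measurable_Tk a x0 (k + 1)).sub (measurable_Tk a x0 k)) ht0
    (fun s sh => dbl_tail_le ha hx02 k (k + 1) (Nat.le_succ k) hℓ0 sh s)
    (ls x0 (k + 1) : ℝ) (by rw [hLc]; positivity) N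
  have e1 : (fun r => φ₀ r - Tk a x0 k r - (Tk a x0 (k + 1) r - Tk a x0 k r)) =
      fun r => φ₀ r - Tk a x0 (k + 1) r := by
    funext r
    ring
  rw [e1] at h5
  have e2 : (ls x0 (k + 1) : ℝ) / (ls x0 k : ℝ) = ((ls x0 k : ℕ) : ℝ) := by
    rw [hLc]
    field_simp
  rw [e2, Nat.floor_natCast] at h5
  set ρn := dens x0 k n with hρn
  set ρN := dens x0 (k + 1) N with hρN
  have en : (n : ℝ) = ρn * (ls x0 k : ℝ) ^ 3 := by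
    rw [hρn, dens]
    field_simp
  have eN : (N : ℝ) = ρN * ((ls x0 k : ℝ) ^ 2) ^ 3 := by
    rw [hρN, dens, hLc]
    field_simp
  set f := LU.FU φ₀ a x0 k β (ν + β * bs a x0 (k + 1) * ρN) (bs a x0 k - bs a x0 (k + 1)) n /
    (ls x0 k : ℝ) ^ 3 with hf
  have hfe : f * (ls x0 k : ℝ) ^ 3 =
      LU.FU φ₀ a x0 k β (ν + β * bs a x0 (k + 1) * ρN) (bs a x0 k - bs a x0 (k + 1)) n := by
    rw [hf]
    field_simp
  rw [← hfe] at h5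
  have key := LU.succ_real (β := β) (νν := ν) (b0 := bs a x0 k) (b1 := bs a x0 (k + 1))
    (ρN := ρN) (ρn := ρn)
    (lz := Real.log (partitionFn (fun r => φ₀ r - Tk a x0 (k + 1) r) (ls x0 (k + 1)) N β))
    (lz' := Real.log (partitionFn (fun r => φ₀ r - Tk a x0 k r) (ls x0 k) n β))
    (x := (xs x0 k : ℝ)) (ℓ := (ls x0 k : ℝ)) (C := C) (f := f) hqR (LU.ls_cast x0 k) hC ?_ ?_ ?_ ?_
  · have e3 : Real.log (partitionFn (fun r => φ₀ r - Tk a x0 (k + 1) r) (ls x0 (k + 1)) N β) =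
        Real.log (partitionFn (fun r => φ₀ r - Tk a x0 (k + 1) r) ((ls x0 k : ℝ) ^ 2) N β) := by
      rw [hLc]
    rw [e3] at key
    rw [Vk, Vk, hLc, eN, en]
    exact key
  · rw [hf, LU.FU, en]
    field_simp
  · rw [hf]
    positivity
  · rw [hf, div_le_iff₀ (by positivity)]
    exact h3
  · rw [← eN]
    exact h5

theorem levels_upper_lim {φ₀ : ℝ → ℝ} {δ c η a νm : ℝ} (hφ : CoreHyp φ₀ δ c η) (ha : 0 < a)
    (hν : 0 < νm) (hc : 1024 * (20 * a + νm + 3) / δ ^ 3 ≤ c) :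
    ∃ C : ℝ, 0 < C ∧ ∃ X0 : ℕ, ∀ x0 : ℕ, X0 ≤ x0 → ∀ (k : ℕ) (β ν : ℝ), 1 / 2 ≤ β → β ≤ 3 / 2 →
      |ν| ≤ νm → ∀ ρ g : ℝ, 0 ≤ ρ →
        Filter.Tendsto (fun L : ℝ => Real.log (partitionFn (fun r => φ₀ r - Tfull a x0 r) L
          ⌊ρ * L ^ 3⌋₊ β) / L ^ 3) Filter.atTop (nhds g) →
        ∃ n : ℕ, dens x0 k n ≤ rmax δ ∧
          ν * ρ + g ≤ Vk φ₀ a x0 k β ν n + C / (xs x0 k : ℝ) ^ 16 := by
  obtain ⟨C, hC, hmain⟩ := LU.block_bound hφ ha hν hc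
  refine ⟨C, hC, 10, ?_⟩
  intro x0 hx0 k β ν hβ hβ' hνν ρ g hρ hg
  have hx02 : 2 ≤ x0 := by omega
  have hx01 : 1 ≤ x0 := by omega
  have hD1 : 1 ≤ rmax δ := LU.one_le_rmax hφ.δpos hφ.δle
  have hq : 10 ≤ xs x0 k := le_trans hx0 (le_xs (by omega) k)
  have hqR : (10 : ℝ) ≤ (xs x0 k : ℝ) := by exact_mod_cast hq
  have hb0 := bs_pos ha hx01 k
  have hb0a := bs_le ha hx01 k
  have hν' : |ν| ≤ νm + 3 / 2 * a * rmax δ := by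
    refine le_trans hνν ?_
    have : 0 ≤ 3 / 2 * a * rmax δ := by positivity
    linarith
  obtain ⟨n, h1, h2, h3, h4⟩ := hmain x0 hx0 k β ν (bs a x0 k) hβ hβ' hν' hb0.le hb0a
  refine ⟨n, h1, ?_⟩
  have hℓ0 : (0 : ℝ) < (ls x0 k : ℝ) := by
    rw [LU.ls_cast]
    positivity
  have hx16 : (0 : ℝ) < (xs x0 k : ℝ) ^ 16 := by positivity
  have h5 := h4 (fun r => Tfull a x0 r - Tk a x0 k r)
    ((continuous_Tfull a hx02).measurable.sub (measurable_Tk a x0 k))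
    (fun r => sub_nonneg.2 (Tk_le_Tfull ha hx02 k r))
    (fun s sh => dbl_tail_full_le ha hx02 k hℓ0 sh s)
  have e1 : (fun r => φ₀ r - Tk a x0 k r - (Tfull a x0 r - Tk a x0 k r)) =
      fun r => φ₀ r - Tfull a x0 r := by
    funext r
    ring
  rw [e1] at h5
  set G : ℝ := LU.FU φ₀ a x0 k β ν (bs a x0 k) n +
    C * ((ls x0 k : ℝ) ^ 3 / (xs x0 k : ℝ) ^ 16) with hG
  set ℓ : ℝ := (ls x0 k : ℝ) with hℓ
  -- the limits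
  have hL3 : Filter.Tendsto (fun L : ℝ => L ^ 3) Filter.atTop Filter.atTop :=
    Filter.tendsto_pow_atTop (by norm_num)
  have t1 : Filter.Tendsto (fun L : ℝ => 16 * Real.log (xs x0 k) / L ^ 3) Filter.atTop
      (nhds 0) := hL3.const_div_atTop _
  have t2 : Filter.Tendsto (fun L : ℝ => (⌊ρ * L ^ 3⌋₊ : ℝ) / L ^ 3) Filter.atTop (nhds ρ) :=
    (tendsto_nat_floor_mul_div_atTop hρ).comp hL3
  have t3 : Filter.Tendsto (fun L : ℝ => ((⌊L / ℓ⌋₊ : ℝ) + 2) / L) Filter.atTop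
      (nhds (1 / ℓ)) := by
    have a1 : Filter.Tendsto (fun L : ℝ => (⌊(1 / ℓ) * L⌋₊ : ℝ) / L) Filter.atTop
        (nhds (1 / ℓ)) := tendsto_nat_floor_mul_div_atTop (by positivity)
    have a2 : Filter.Tendsto (fun L : ℝ => (2 : ℝ) / L) Filter.atTop (nhds 0) :=
      Filter.Tendsto.const_div_atTop Filter.tendsto_id _
    have a3 := a1.add a2
    rw [add_zero] at a3
    refine a3.congr fun L => ?_
    rw [show (1 / ℓ) * L = L / ℓ by ring]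
    ring
  have t4 : Filter.Tendsto (fun L : ℝ => 16 * Real.log (xs x0 k) / L ^ 3 -
      ν * ((⌊ρ * L ^ 3⌋₊ : ℝ) / L ^ 3) + (((⌊L / ℓ⌋₊ : ℝ) + 2) / L) ^ 3 * G) Filter.atTop
      (nhds (0 - ν * ρ + (1 / ℓ) ^ 3 * G)) :=
    (t1.sub (t2.const_mul ν)).add ((t3.pow 3).mul_const G)
  have hle : ∀ᶠ L : ℝ in Filter.atTop, Real.log (partitionFn (fun r => φ₀ r - Tfull a x0 r) L
      ⌊ρ * L ^ 3⌋₊ β) / L ^ 3 ≤ 16 * Real.log (xs x0 k) / L ^ 3 -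
      ν * ((⌊ρ * L ^ 3⌋₊ : ℝ) / L ^ 3) + (((⌊L / ℓ⌋₊ : ℝ) + 2) / L) ^ 3 * G := by
    filter_upwards [Filter.eventually_gt_atTop (0 : ℝ)] with L hL
    have h6 := h5 L hL ⌊ρ * L ^ 3⌋₊
    have h7 := div_le_div_of_nonneg_right h6 (show (0 : ℝ) ≤ L ^ 3 by positivity)
    refine le_trans h7 (le_of_eq ?_)
    field_simp
  have hfin := le_of_tendsto_of_tendsto hg t4 hle
  have e2 : Vk φ₀ a x0 k β ν n = LU.FU φ₀ a x0 k β ν (bs a x0 k) n / ℓ ^ 3 := rfl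
  rw [e2]
  have e3 : (1 / ℓ) ^ 3 * G = LU.FU φ₀ a x0 k β ν (bs a x0 k) n / ℓ ^ 3 +
      C / (xs x0 k : ℝ) ^ 16 := by
    rw [hG]
    field_simp
  linarith

end Crest.Agent.R149
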