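import Crest.Agent.R149.MainCore4

/-!
PIECE M (main theorem: the kink for any core).
-/

set_option autoImplicit false

namespace Crest.Agent.R149

open MeasureTheory Crest.ProbabilityR.Continuum
open scoped ENNReal BigOperators

theorem eps_mono {C C' : ℝ} (h : C ≤ C') {x0 : ℕ} (h2 : 2 ≤ x0) (k : ℕ) :
    C / (xs x0 k : ℝ) ^ 16 ≤ eps C' x0 k := by
  have := xs_pos h2 k
  unfold eps
  gcongr

/-- Main theorem, for any core with the right parameters. -/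
theorem main_kink :
    ∃ p δ η c₀ a : ℝ, 0 < p ∧ 0 < δ ∧ δ ≤ 1 / 8 ∧ 0 < η ∧ η ≤ 1 / 2 ∧ 0 < a ∧
      1024 * a / δ ^ 3 ≤ c₀ ∧
      Filter.Tendsto (fun L : ℝ => (packingNumber L : ℝ) / L ^ 3) Filter.atTop (nhds p) ∧
      ∀ c : ℝ, c₀ ≤ c → ∀ φ₀ : ℝ → ℝ, CoreHyp φ₀ δ c η → ∃ x0 : ℕ, 2 ≤ x0 ∧
        ∃ G : ℝ → ℝ → ℝ,
          (∀ β ρ : ℝ, 0 < β → 0 ≤ ρ →
            Filter.Tendsto (fun L : ℝ =>
              Real.log (partitionFn (fun r => φ₀ r - Tfull a x0 r) L ⌊ρ * L ^ 3⌋₊ β) / L ^ 3)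
              Filter.atTop (nhds (G β ρ))) ∧
          ∃ βs : ℝ, 7 / 8 ≤ βs ∧ βs ≤ 9 / 8 ∧ ∀ ρ : ℝ, 3 * p / 2 < ρ → ρ < 11 * p / 6 →
            ∃ Dl Dr : ℝ, HasDerivWithinAt (fun β => G β ρ) Dl (Set.Iio βs) βs ∧
              HasDerivWithinAt (fun β => G β ρ) Dr (Set.Ioi βs) βs ∧ Dl < Dr := by
  obtain ⟨p, hp, hlim, hple⟩ := packing_limit
  obtain ⟨m, η, z, hm2, hη, hη', hz, hm⟩ := exists_cluster
  obtain ⟨τ, γ, δ, c₁, hτ, hτε, hγ, hγε, hδ, hδ', hbase⟩ :=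
    base_level hp hlim hple hm2 hη hη' z hz hm (ε₁ := p / 1000) (by positivity)
  have hm' : (2 : ℝ) ≤ m := by exact_mod_cast hm2
  set Λ : ℝ := 3 * Real.log (1 / δ) with hΛdef
  have hΛ : 0 < Λ := by
    have : 0 < Real.log (1 / δ) := Real.log_pos (by rw [lt_div_iff₀ hδ]; linarith)
    positivity
  set a : ℝ := 2 * Λ / (m * p) with hadef
  have ha : 0 < a := by positivity
  have hc0le : 1024 * a / δ ^ 3 ≤ 1024 * (20 * a + 2 * Λ + 3) / δ ^ 3 := by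
    gcongr
    linarith
  refine ⟨p, δ, η, max c₁ (1024 * (20 * a + 2 * Λ + 3) / δ ^ 3), a, hp, hδ, hδ', hη, hη', ha,
    le_trans hc0le (le_max_right _ _), hlim, fun c hc φ₀ hφ => ?_⟩
  have hc1 : c₁ ≤ c := le_trans (le_max_left _ _) hc
  have hc2 : 1024 * (20 * a + 2 * Λ + 3) / δ ^ 3 ≤ c := le_trans (le_max_right _ _) hc
  have hca : 1024 * a / δ ^ 3 ≤ c := le_trans hc0le hc2
  obtain ⟨XB, hXB⟩ := hbase c hc1 φ₀ hφ
  have hν : 0 < 2 * Λ := by positivity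
  obtain ⟨C1, hC1, X1, hX1⟩ := levels_upper_succ hφ ha hν hc2
  obtain ⟨C2, hC2, X2, hX2⟩ := levels_upper_lim hφ ha hν hc2
  obtain ⟨C3, hC3, X3, hX3⟩ := levels_lower_succ hφ ha hν hc2
  obtain ⟨C4, hC4, X4, hX4⟩ := levels_lower_lim hφ ha hν hc2
  set C : ℝ := C1 + C2 + C3 + C4 with hCdef
  have hC : 0 < C := by positivity
  set θ : ℝ := min (τ ^ 2 / 32) (2 * γ * Λ / a) with hθdef
  have hθ : 0 < θ := by
    apply lt_min <;> positivity
  have hmp : 0 < m * p := by nlinarith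
  obtain ⟨X5, hX5, hsc⟩ := scale_choice (C := C) (θ := θ) (a := a) (τ := τ) (D := rmax δ)
    (e₁ := γ * Λ) (e₂ := p / 1000 * Λ / (8 * (40 * Λ * (m * p) + 2 * (m * p)))) (e₃ := 1)
    hC hθ ha hτ (rmax_pos hδ) (by positivity) (by positivity) one_pos
  obtain ⟨x0, hx0⟩ : ∃ x0 : ℕ, XB ≤ x0 ∧ X1 ≤ x0 ∧ X2 ≤ x0 ∧ X3 ≤ x0 ∧ X4 ≤ x0 ∧ X5 ≤ x0 :=
    ⟨XB + X1 + X2 + X3 + X4 + X5, by omega, by omega, by omega, by omega, by omega, by omega⟩
  obtain ⟨b0, b1, b2, b3, b4, b5⟩ := hx0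
  have h2 : 2 ≤ x0 := le_trans hX5 b5
  obtain ⟨s1, s2, s3, s4, s5⟩ := hsc x0 b5
  have hst : ∀ s : Multiset Pt, -(c / 2) * (Multiset.card s : ℝ) ≤
      En (fun r => φ₀ r - Tfull a x0 r) s := by
    intro s
    have := stable_of_core hφ ha hca h2 (lam := 1) (by norm_num) (by norm_num)
      (T := Tfull a x0) (fun r => le_refl _) s
    simpa only [one_mul] using this
  have hneg : ∀ r : ℝ, 2 ≤ r → φ₀ r - Tfull a x0 r ≤ 0 := by
    intro r hr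
    rw [hφ.far r (by linarith)]
    have := Tfull_nonneg ha h2 r
    linarith
  obtain ⟨G, hG, hconc, hconv⟩ := thermo (φ := fun r => φ₀ r - Tfull a x0 r)
    (hφ.meas.sub (continuous_Tfull a h2).measurable) hneg hst
  refine ⟨x0, h2, G, hG, ?_⟩
  have hF : LevelFacts φ₀ a x0 δ (2 * Λ) C G := by
    refine ⟨fun k β ν h1 h1' hν' N hN => ?_, fun k β ν h1 h1' hν' n hn => ?_,
      fun k β ν h1 h1' hν' ρ hρ => ?_, fun k β ν h1 h1' hν' n hn => ?_⟩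
    · obtain ⟨n, hn, h3⟩ := hX1 x0 b1 k β ν h1 h1' hν' N hN
      have := eps_mono (C := C1) (C' := C) (by linarith) h2 k
      exact ⟨n, hn, by linarith⟩
    · have h3 := hX3 x0 b3 k β ν h1 h1' hν' n hn
      have := eps_mono (C := C3) (C' := C) (by linarith) h2 k
      linarith
    · obtain ⟨n, hn, h3⟩ := hX2 x0 b2 k β ν h1 h1' hν' ρ (G β ρ) hρ (hG β ρ (by linarith) hρ)
      have := eps_mono (C := C2) (C' := C) (by linarith) h2 k
      exact ⟨n, hn, by linarith⟩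
    · have hρ : 0 ≤ (n : ℝ) / ((ls x0 k : ℝ) + 2) ^ 3 := by
        have := ls_pos h2 k
        positivity
      have h3 := hX4 x0 b4 k β ν h1 h1' hν' n hn _ (hG β _ (by linarith) hρ)
      have := eps_mono (C := C4) (C' := C) (by linarith) h2 k
      linarith
  have hBF : BaseFacts φ₀ a x0 δ m p Λ τ γ (p / 1000) :=
    ⟨fun β ν h1 h1' hν' => (hXB x0 b0 Λ a hΛdef hadef β ν h1 h1' hν').1,
      fun β ν h1 h1' hν' => (hXB x0 b0 Λ a hΛdef hadef β ν h1 h1' hν').2.1,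
      fun β ν h1 h1' hν' => (hXB x0 b0 Λ a hΛdef hadef β ν h1 h1' hν').2.2⟩
  have S : Setup φ₀ a x0 δ c η m p Λ τ γ (p / 1000) θ C G :=
    { hφ := hφ, ha := ha, hca := hca, h2 := h2, hm := hm2, hp := hp, hΛ := hΛ, hC := hC,
      hτ := hτ, hτ1 := hτε, hγ := hγ, hγε := hγε, hε₁ := le_rfl, hθ := hθ,
      hθτ := min_le_left _ _,
      hθa := by
        have h3 : θ ≤ 2 * γ * Λ / a := min_le_right _ _
        rw [le_div_iff₀ ha] at h3
        exact h3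
      hε0 := s3, hs1 := s1, hs2 := s2, hs3 := s4, hs4 := s5, hF := hF, hB := hBF,
      hconc := hconc, hconv := hconv }
  exact S.kink

end Crest.Agent.R149
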