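import Crest.Agent.R149.Tail

/-!
Numerical facts on the scales, for `Main.lean` (helper50).
-/

set_option autoImplicit false

namespace Crest.Agent.R149

open scoped BigOperators

/-- error at level `k` -/
noncomputable def eps (C : ℝ) (x0 k : ℕ) : ℝ := C / (xs x0 k : ℝ) ^ 16

/-- margin at level `k` -/
noncomputable def kappa (θ a : ℝ) (x0 k : ℕ) : ℝ := θ * bs a x0 (k + 1) / 4 ^ (k + 1)

theorem xs_pos {x0 : ℕ} (h : 2 ≤ x0) (k : ℕ) : (0 : ℝ) < xs x0 k := by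
  have := le_xs (x0 := x0) (by omega) k
  have h2 : 0 < xs x0 k := by omega
  exact_mod_cast h2

theorem xs_ge_real {x0 : ℕ} (h : 2 ≤ x0) (k : ℕ) : (x0 : ℝ) * 2 ^ k ≤ xs x0 k := by
  exact_mod_cast xs_ge_pow h k

theorem eps_pos {C : ℝ} (hC : 0 < C) {x0 : ℕ} (h : 2 ≤ x0) (k : ℕ) : 0 < eps C x0 k := by
  have := xs_pos h k
  unfold eps; positivity

theorem eps_succ {C : ℝ} (hC : 0 < C) {x0 : ℕ} (h : 2 ≤ x0) (k : ℕ) :
    eps C x0 (k + 1) ≤ eps C x0 k / 2 := by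
  have h1 := xs_pos h k
  have h2 : (2 : ℝ) ≤ xs x0 k := by
    have := le_xs (x0 := x0) (by omega) k
    have h3 : 2 ≤ xs x0 k := by omega
    exact_mod_cast h3
  unfold eps
  rw [xs_succ]
  push_cast
  rw [div_div]
  apply div_le_div_of_nonneg_left hC.le (by positivity)
  set y : ℝ := (xs x0 k : ℝ)
  have h3 : (1 : ℝ) ≤ y ^ 15 := one_le_pow₀ (by linarith)
  calc y ^ 16 * 2 ≤ y ^ 16 * y := by
        apply mul_le_mul_of_nonneg_left h2 (by positivity)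
    _ = y ^ 17 := by ring
    _ ≤ y ^ 32 := pow_le_pow_right₀ (by linarith) (by norm_num)
    _ = (y ^ 2) ^ 16 := by ring

theorem kappa_pos {θ a : ℝ} (hθ : 0 < θ) (ha : 0 < a) {x0 : ℕ} (h : 2 ≤ x0) (k : ℕ) :
    0 < kappa θ a x0 k := by
  have := bs_pos ha (x0 := x0) (by omega) (k + 1)
  unfold kappa; positivity

theorem kappa_succ {θ a : ℝ} (hθ : 0 < θ) (ha : 0 < a) {x0 : ℕ} (h : 2 ≤ x0) (k : ℕ) :
    kappa θ a x0 (k + 1) ≤ kappa θ a x0 k := by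
  have h1 := bs_pos ha (x0 := x0) (by omega) (k + 1 + 1)
  have h2 := bs_succ_le ha (x0 := x0) (by omega) (k + 1)
  unfold kappa
  apply div_le_div₀
  · have := bs_pos ha (x0 := x0) (by omega) (k + 1)
    positivity
  · exact mul_le_mul_of_nonneg_left h2 hθ.le
  · positivity
  · exact pow_le_pow_right₀ (by norm_num) (by omega)

/-- the ratio `eps / kappa` -/
theorem ratio_le {C θ a : ℝ} (hC : 0 < C) (hθ : 0 < θ) (ha : 0 < a) {x0 : ℕ} (h : 2 ≤ x0)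
    (k : ℕ) :
    eps C x0 k / kappa θ a x0 k ≤ (4 * C / (θ * a)) / x0 * (1 / 4) ^ k := by
  have h1 := xs_pos h k
  have hx0 : (2 : ℝ) ≤ x0 := by exact_mod_cast h
  have hge := xs_ge_real h k
  have e1 : eps C x0 k / kappa θ a x0 k =
      (4 * C / (θ * a)) * (4 ^ k / ((x0 : ℝ) ^ 2 * (xs x0 k : ℝ) ^ 12)) := by
    unfold eps kappa bs
    rw [xs_succ]
    push_cast
    field_simp
    ring
  rw [e1, div_eq_mul_inv _ (x0 : ℝ), mul_assoc]
  apply mul_le_mul_of_nonneg_left _ (by positivity)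
  rw [one_div, inv_pow, ← mul_inv, div_le_iff₀ (by positivity)]
  rw [← div_eq_inv_mul, le_div_iff₀ (by positivity)]
  set y : ℝ := (xs x0 k : ℝ)
  have h2k : (1 : ℝ) ≤ 2 ^ k := one_le_pow₀ (by norm_num)
  have hy1 : (1 : ℝ) ≤ y := by nlinarith
  have h4 : (4 : ℝ) ^ k * ((x0 : ℝ) * 4 ^ k) ≤ (x0 : ℝ) ^ 2 * ((x0 : ℝ) * 2 ^ k) ^ 4 := by
    have e2 : (4 : ℝ) ^ k = 2 ^ k * 2 ^ k := by
      rw [← mul_pow]; norm_num
    rw [e2]
    set q : ℝ := 2 ^ k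
    have : (x0 : ℝ) ^ 2 * ((x0 : ℝ) * q) ^ 4 = (x0 : ℝ) ^ 5 * (q * q * (x0 * (q * q))) := by ring
    rw [this]
    have h5 : (1 : ℝ) ≤ (x0 : ℝ) ^ 5 := one_le_pow₀ (by linarith)
    have h6 : 0 ≤ q * q * (x0 * (q * q)) := by positivity
    nlinarith
  refine le_trans h4 ?_
  apply mul_le_mul_of_nonneg_left _ (by positivity)
  calc ((x0 : ℝ) * 2 ^ k) ^ 4 ≤ y ^ 4 := by
        apply pow_le_pow_left₀ (by positivity) hge
    _ ≤ y ^ 12 := pow_le_pow_right₀ hy1 (by norm_num)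

theorem sum_ratio_le {C θ a : ℝ} (hC : 0 < C) (hθ : 0 < θ) (ha : 0 < a) {x0 : ℕ} (h : 2 ≤ x0)
    (n : ℕ) :
    ∑ k ∈ Finset.range n, eps C x0 k / kappa θ a x0 k ≤ (8 * C / (θ * a)) / x0 := by
  have hx0 : (2 : ℝ) ≤ x0 := by exact_mod_cast h
  have h3 : (0 : ℝ) ≤ (4 * C / (θ * a)) / x0 := by positivity
  have h1 : ∀ n : ℕ, ∑ k ∈ Finset.range n, eps C x0 k / kappa θ a x0 k ≤
      (4 * C / (θ * a)) / x0 * (2 - 2 * (1 / 4) ^ n) := by
    intro n
    induction n with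
    | zero => simp
    | succ n ih =>
      rw [Finset.sum_range_succ]
      have h2 := ratio_le hC hθ ha h n
      have h4 : (0 : ℝ) ≤ (1 / 4) ^ n := by positivity
      have h5 : (0 : ℝ) ≤ (4 * C / (θ * a)) / x0 * (1 / 4) ^ n := by positivity
      have e : (4 * C / (θ * a)) / x0 * (2 - 2 * (1 / 4) ^ (n + 1)) =
        (4 * C / (θ * a)) / x0 * (2 - 2 * (1 / 4) ^ n) + (4 * C / (θ * a)) / x0 * (1 / 4) ^ n
        + (4 * C / (θ * a)) / x0 * (1 / 4) ^ n * (1 / 2) := by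
        rw [pow_succ]; ring
      rw [e]
      linarith
  refine le_trans (h1 n) ?_
  have h4 : (0 : ℝ) ≤ (1 / 4) ^ n := by positivity
  have e : (8 * C / (θ * a)) / x0 = (4 * C / (θ * a)) / x0 * 2 := by ring
  rw [e]
  apply mul_le_mul_of_nonneg_left _ h3
  linarith

/-- all the numerical requirements, for `x0` large -/
theorem scale_choice {C θ a τ D e₁ e₂ e₃ : ℝ} (hC : 0 < C) (hθ : 0 < θ) (ha : 0 < a)
    (hτ : 0 < τ) (hD : 0 < D) (he₁ : 0 < e₁) (he₂ : 0 < e₂) (he₃ : 0 < e₃) :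
    ∃ X : ℕ, 2 ≤ X ∧ ∀ x0 : ℕ, X ≤ x0 →
      (∀ k, 256 * eps C x0 k ≤ θ * bs a x0 (k + 1) / 4 ^ k) ∧
      (∀ k, 20 * D / (ls x0 k : ℝ) ≤ τ / 2 ^ (k + 2)) ∧
      eps C x0 0 ≤ e₁ ∧
      (∀ n, ∑ k ∈ Finset.range n, eps C x0 k / kappa θ a x0 k ≤ e₂) ∧
      kappa θ a x0 0 ≤ θ * a / 4 := by
  obtain ⟨X, hX⟩ := exists_nat_ge (256 * C / (θ * a) + 80 * D / τ + C / e₁ + 8 * C / (θ * a) / e₂ + 2)
  have p1 : 0 ≤ 256 * C / (θ * a) := by positivity
  have p2 : 0 ≤ 80 * D / τ := by positivity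
  have p3 : 0 ≤ C / e₁ := by positivity
  have p4 : 0 ≤ 8 * C / (θ * a) / e₂ := by positivity
  have hX2 : (2 : ℝ) ≤ X := by linarith
  refine ⟨X, by exact_mod_cast hX2, fun x0 hx0 => ?_⟩
  have hx0r : (X : ℝ) ≤ x0 := by exact_mod_cast hx0
  have h2 : 2 ≤ x0 := by
    have : (2 : ℝ) ≤ x0 := by linarith
    exact_mod_cast this
  have hx0p : (0 : ℝ) < x0 := by linarith
  refine ⟨fun k => ?_, fun k => ?_, ?_, fun n => ?_, ?_⟩
  · have h3 := ratio_le hC hθ ha h2 k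
    have hk := kappa_pos hθ ha h2 k
    have h4 : (1 / 4 : ℝ) ^ k ≤ 1 := pow_le_one₀ (by norm_num) (by norm_num)
    have h5 : (4 * C / (θ * a)) / x0 ≤ 1 / 64 := by
      rw [div_le_iff₀ hx0p]
      have : 256 * C / (θ * a) = 64 * (4 * C / (θ * a)) := by ring
      linarith
    have h6 : eps C x0 k / kappa θ a x0 k ≤ 1 / 64 := by
      refine le_trans h3 ?_
      have h7 : 0 ≤ (4 * C / (θ * a)) / x0 := by positivity
      calc (4 * C / (θ * a)) / x0 * (1 / 4) ^ k ≤ (4 * C / (θ * a)) / x0 * 1 :=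
            mul_le_mul_of_nonneg_left h4 h7
        _ ≤ 1 / 64 := by linarith
    rw [div_le_iff₀ hk] at h6
    have e : kappa θ a x0 k = θ * bs a x0 (k + 1) / 4 ^ k / 4 := by
      unfold kappa; rw [pow_succ]; field_simp
    rw [e] at h6
    linarith
  · have hge := xs_ge_real h2 k
    have hxp := xs_pos h2 k
    have h2k : (1 : ℝ) ≤ 2 ^ k := one_le_pow₀ (by norm_num)
    have h3 : (xs x0 k : ℝ) ≤ ls x0 k := by
      unfold ls
      push_cast
      have : (1 : ℝ) ≤ xs x0 k := by nlinarith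
      calc (xs x0 k : ℝ) = (xs x0 k : ℝ) ^ 1 := by ring
        _ ≤ (xs x0 k : ℝ) ^ 48 := pow_le_pow_right₀ this (by norm_num)
    have hlp : (0 : ℝ) < ls x0 k := by linarith
    rw [div_le_div_iff₀ hlp (by positivity)]
    have h4 : 80 * D ≤ τ * x0 := by
      have : 80 * D / τ ≤ x0 := by linarith
      rw [div_le_iff₀ hτ] at this
      linarith
    calc 20 * D * 2 ^ (k + 2) = 80 * D * 2 ^ k := by rw [pow_add]; ring
      _ ≤ τ * x0 * 2 ^ k := by apply mul_le_mul_of_nonneg_right h4 (by positivity)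
      _ = τ * (x0 * 2 ^ k) := by ring
      _ ≤ τ * ls x0 k := mul_le_mul_of_nonneg_left (by linarith) hτ.le
  · unfold eps
    rw [xs_zero]
    have h3 : (x0 : ℝ) ≤ (x0 : ℝ) ^ 16 := by
      calc (x0 : ℝ) = (x0 : ℝ) ^ 1 := by ring
        _ ≤ (x0 : ℝ) ^ 16 := pow_le_pow_right₀ (by linarith) (by norm_num)
    rw [div_le_iff₀ (by positivity)]
    have h4 : C / e₁ ≤ x0 := by linarith
    rw [div_le_iff₀ he₁] at h4
    nlinarith
  · refine le_trans (sum_ratio_le hC hθ ha h2 n) ?_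
    rw [div_le_iff₀ hx0p]
    have h4 : 8 * C / (θ * a) / e₂ ≤ x0 := by linarith
    rw [div_le_iff₀ he₂] at h4
    linarith
  · unfold kappa
    have h3 := bs_le ha (x0 := x0) (by omega) (0 + 1)
    have : θ * bs a x0 (0 + 1) ≤ θ * a := mul_le_mul_of_nonneg_left h3 hθ.le
    simp only [zero_add, pow_one] at this ⊢
    linarith

end Crest.Agent.R149
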