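import Mathlib

/-!
PIECE T (abstract triple point).  Pure real analysis.

`D = [1/2,3/2] × [-N₀,N₀]`.  Let `A i = {y ∈ D | ∀ k, P y - 4 ε_k ≤ Q k i y}`.
1. *Persistence*: by `hc2`, `κ k > 5 ε k`, `ε (k+1) ≤ ε k / 2`:
   `P - 4 ε_{k+1} ≤ Q (k+1) i` implies `P - 4 ε_k ≤ Q k i`.  With `hb` (some `i` for every `k`; nested
   nonempty subsets of `Fin 3`): `D ⊆ ⋃ A i`.
2. *Order*: `(β,ν) ∈ A i`, `(β,ν') ∈ A j`, `i < j` imply `ν ≤ ν'`: with the subgradients of `hsub`,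
   `P ν' ≥ Q k i ν' - ε_k ≥ Q k i ν + w (ν'-ν) - ε_k ≥ P ν + w_i (ν'-ν) - 5 ε_k`, the same with `j`, add:
   `(w_j - w_i)(ν'-ν) ≥ -10 ε_k`, `w_j - w_i ≥ v j - v i - 2τ > 0`, `k → ∞`.
3. *β**: `βs = sup {β ∈ [7/8,9/8] | ∃ ν, (β,ν) ∈ A 1}` (nonempty by `h78`, `< 9/8` by `h98`...; closedness by
   the Lipschitz bounds).  `(βs, ν₁) ∈ A 1`.  For `β_n ↓ βs` (`β_n ≤ 9/8`) the interval is covered by the
   closed sets `A 0`, `A 2` (both nonempty by `hlo`, `hhi`), connectedness gives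
   `(β_n, ν_n) ∈ A 0 ∩ A 2`; limit `(βs, ν*) ∈ A 0 ∩ A 2`; by 2., `ν* = ν₁`.
   (If `βs = 9/8` — excluded by `h98` since `A 1` has no point with `β = 9/8`.)
4. *Slopes*: `q_k = Q k i (·, νs)`, `r_k = κ_k/(4 Lip)`.  For `|β-βs| ≤ r_k`:
   `q_k(β) ≥ P(β) - 4ε_k - 2 Lip r_k ≥ P(β) - κ_k`, hence `|q_{k+1} - q_k| ≤ ε_k` there (`hc1`, `hc2`).
   `S_k = (q_k(βs+r_k) - q_k(βs))/r_k` satisfies `S_{k+1} ≤ (q_{k+1}(βs+r_k) - q_{k+1}(βs))/r_k ≤ S_k + 2ε_k/r_k`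
   and `S_0 ≤ 8 (q_0(βs+1/8) - q_0(βs)) ≤ s i + 16 εb`; a subgradient `u` of `q_k` has `u ≤ S_k`.
   Symmetrically on the left.
-/

set_option autoImplicit false

namespace Crest.Agent.R149

/-- secant inequality -/
theorem triple_secant {f : ℝ → ℝ} (hf : ConvexOn ℝ (Set.Icc 0 (1 / 8)) f) {a b : ℝ}
    (ha : 0 < a) (hab : a ≤ b) (hb : b ≤ 1 / 8) : (f a - f 0) / a ≤ (f b - f 0) / b := by
  have hb0 : 0 < b := lt_of_lt_of_le ha hab
  have h := hf.2 (show b ∈ Set.Icc (0 : ℝ) (1 / 8) from ⟨hb0.le, hb⟩)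
    (show (0 : ℝ) ∈ Set.Icc (0 : ℝ) (1 / 8) from ⟨le_rfl, by norm_num⟩)
    (show 0 ≤ a / b by positivity)
    (show 0 ≤ 1 - a / b by rw [sub_nonneg, div_le_one hb0]; exact hab) (by ring)
  simp only [smul_eq_mul, mul_zero, add_zero] at h
  have e1 : a / b * b = a := by field_simp
  rw [e1] at h
  rw [div_le_div_iff₀ ha hb0]
  have h2 : f a * b ≤ (a / b * f b + (1 - a / b) * f 0) * b :=
    mul_le_mul_of_nonneg_right h hb0.le
  have h3 : (a / b * f b + (1 - a / b) * f 0) * b = a * f b + (b - a) * f 0 := by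
    field_simp
  rw [h3] at h2
  nlinarith

/-- one-sided slope bound -/
theorem triple_slope (q : ℕ → ℝ → ℝ) (r e : ℕ → ℝ)
    (hq : ∀ k, ConvexOn ℝ (Set.Icc 0 (1 / 8)) (q k))
    (hr : ∀ k, 0 < r k) (hr8 : ∀ k, r k ≤ 1 / 8) (hr1 : ∀ k, r (k + 1) ≤ r k)
    (he : ∀ k x, 0 ≤ x → x ≤ r k → |q (k + 1) x - q k x| ≤ e k) (k : ℕ) (u : ℝ)
    (hu : ∀ x, 0 ≤ x → x ≤ 1 / 8 → q k 0 + u * x ≤ q k x) :
    u ≤ 8 * (q 0 (1 / 8) - q 0 0) + ∑ j ∈ Finset.range k, 2 * e j / r j := by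
  have key : ∀ k, (q k (r k) - q k 0) / r k ≤
      8 * (q 0 (1 / 8) - q 0 0) + ∑ j ∈ Finset.range k, 2 * e j / r j := by
    intro k
    induction k with
    | zero =>
      have h := triple_secant (hq 0) (hr 0) (hr8 0) le_rfl
      simp only [Finset.range_zero, Finset.sum_empty, add_zero]
      refine h.trans (le_of_eq ?_)
      ring
    | succ k ih =>
      have h := triple_secant (hq (k + 1)) (hr (k + 1)) (hr1 k) (hr8 k)
      have h1 := abs_le.1 (he k (r k) (hr k).le le_rfl)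
      have h0 := abs_le.1 (he k 0 le_rfl (hr k).le)
      have h2 : (q (k + 1) (r k) - q (k + 1) 0) / r k ≤
          (q k (r k) - q k 0) / r k + 2 * e k / r k := by
        rw [← add_div]
        apply div_le_div_of_nonneg_right _ (hr k).le
        linarith [h1.2, h0.1]
      rw [Finset.sum_range_succ]
      linarith
  refine le_trans ?_ (key k)
  rw [le_div_iff₀ (hr k)]
  have := hu (r k) (hr k).le (hr8 k)
  linarith

theorem triple (P : ℝ → ℝ → ℝ) (Q : ℕ → Fin 3 → ℝ → ℝ → ℝ) (v s t : Fin 3 → ℝ)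
    (τ N₀ εb Lip σ : ℝ) (ε κ : ℕ → ℝ)
    (hτ : 0 < τ) (hN₀ : 0 < N₀) (hLip : 0 < Lip)
    (hv01 : v 0 + 2 * τ < v 1) (hv12 : v 1 + 2 * τ < v 2)
    (hε : ∀ k, 0 < ε k) (hε2 : ∀ k, ε (k + 1) ≤ ε k / 2)
    (hκ : ∀ k, 8 * ε k ≤ κ k) (hκ1 : ∀ k, κ (k + 1) ≤ κ k) (hκ0 : κ 0 ≤ Lip / 2)
    (hσ : ∀ n, ∑ k ∈ Finset.range n, ε k / κ k ≤ σ)
    (ha : ∀ k i β ν, 1 / 2 ≤ β → β ≤ 3 / 2 → |ν| ≤ N₀ → Q k i β ν ≤ P β ν + ε k)
    (hb : ∀ k β ν, 1 / 2 ≤ β → β ≤ 3 / 2 → |ν| ≤ N₀ → ∃ i, P β ν ≤ Q k i β ν + ε k)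
    (hc1 : ∀ k i β ν, 1 / 2 ≤ β → β ≤ 3 / 2 → |ν| ≤ N₀ → Q k i β ν - ε k ≤ Q (k + 1) i β ν)
    (hc2 : ∀ k i β ν, 1 / 2 ≤ β → β ≤ 3 / 2 → |ν| ≤ N₀ →
      Q (k + 1) i β ν ≤ max (Q k i β ν) (P β ν - κ k) + ε k)
    (hsub : ∀ k i β ν, 1 / 2 ≤ β → β ≤ 3 / 2 → |ν| ≤ N₀ → ∃ w, |w - v i| ≤ τ ∧
      ∀ ν', |ν'| ≤ N₀ → Q k i β ν + w * (ν' - ν) ≤ Q k i β ν')
    (hconv : ∀ k i ν, |ν| ≤ N₀ → ConvexOn ℝ (Set.Icc (1 / 2) (3 / 2)) (fun β => Q k i β ν))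
    (hLQ : ∀ k i β ν β' ν', 3 / 4 ≤ β → β ≤ 5 / 4 → |ν| ≤ N₀ → 3 / 4 ≤ β' → β' ≤ 5 / 4 →
      |ν'| ≤ N₀ → |Q k i β ν - Q k i β' ν'| ≤ Lip * (|β - β'| + |ν - ν'|))
    (hLP : ∀ β ν β' ν', 3 / 4 ≤ β → β ≤ 5 / 4 → |ν| ≤ N₀ → 3 / 4 ≤ β' → β' ≤ 5 / 4 →
      |ν'| ≤ N₀ → |P β ν - P β' ν'| ≤ Lip * (|β - β'| + |ν - ν'|))
    (hg : ∀ i β ν, 1 / 2 ≤ β → β ≤ 3 / 2 → |ν| ≤ N₀ →
      |Q 0 i β ν - (ν * v i + β * s i - t i)| ≤ εb)
    (hlo : ∀ β, 7 / 8 ≤ β → β ≤ 9 / 8 → ∀ i, i ≠ 0 → Q 0 i β (-N₀) < P β (-N₀) - 4 * ε 0)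
    (hhi : ∀ β, 7 / 8 ≤ β → β ≤ 9 / 8 → ∀ i, i ≠ 2 → Q 0 i β N₀ < P β N₀ - 4 * ε 0)
    (h78 : ∃ ν, |ν| ≤ N₀ ∧ ∀ i, i ≠ 1 → Q 0 i (7 / 8) ν < P (7 / 8) ν - 4 * ε 0)
    (h98 : ∀ ν, |ν| ≤ N₀ → Q 0 1 (9 / 8) ν < P (9 / 8) ν - 4 * ε 0) :
    ∃ βs νs : ℝ, 7 / 8 ≤ βs ∧ βs ≤ 9 / 8 ∧ |νs| ≤ N₀ ∧
      (∀ k i, P βs νs - 4 * ε k ≤ Q k i βs νs) ∧
      ∀ k i u, (∀ β, 3 / 4 ≤ β → β ≤ 5 / 4 → Q k i βs νs + u * (β - βs) ≤ Q k i β νs) →
        |u - s i| ≤ 16 * εb + 8 * Lip * σ := by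
  -- `ε k → 0`
  have hεpow : ∀ k, ε k ≤ ε 0 / 2 ^ k := by
    intro k
    induction k with
    | zero => simp
    | succ k ih =>
      have := hε2 k
      rw [pow_succ]
      have h2 : ε 0 / (2 ^ k * 2) = (ε 0 / 2 ^ k) / 2 := by field_simp
      rw [h2]; linarith
  have hεlim : ∀ x : ℝ, (∀ k, x ≤ 10 * ε k) → x ≤ 0 := by
    intro x hx
    by_contra hx0
    push Not at hx0
    obtain ⟨n, hn⟩ := pow_unbounded_of_one_lt (10 * ε 0 / x) (by norm_num : (1 : ℝ) < 2)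
    have h1 := hx n
    have h2 := hεpow n
    have hp : (0 : ℝ) < 2 ^ n := by positivity
    rw [div_lt_iff₀ hx0] at hn
    rw [le_div_iff₀ hp] at h2
    have h3 : x * 2 ^ n ≤ 10 * ε n * 2 ^ n := mul_le_mul_of_nonneg_right h1 hp.le
    nlinarith
  -- persistence
  have hpers : ∀ k i β ν, 1 / 2 ≤ β → β ≤ 3 / 2 → |ν| ≤ N₀ →
      P β ν - 4 * ε (k + 1) ≤ Q (k + 1) i β ν → P β ν - 4 * ε k ≤ Q k i β ν := by
    intro k i β ν h1 h2 h3 h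
    have hm := hc2 k i β ν h1 h2 h3
    have a1 := hκ k
    have a2 := hε2 k
    have a3 := hε k
    have a4 := hε (k + 1)
    rcases le_total (Q k i β ν) (P β ν - κ k) with hle | hle
    · rw [max_eq_right hle] at hm
      exfalso; linarith
    · rw [max_eq_left hle] at hm
      linarith
  have hpers' : ∀ k n i β ν, 1 / 2 ≤ β → β ≤ 3 / 2 → |ν| ≤ N₀ →
      P β ν - 4 * ε (k + n) ≤ Q (k + n) i β ν → P β ν - 4 * ε k ≤ Q k i β ν := by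
    intro k n i β ν h1 h2 h3
    induction n with
    | zero => intro h; simpa using h
    | succ n ih => intro h; exact ih (hpers (k + n) i β ν h1 h2 h3 h)
  -- cover
  have hcov : ∀ β ν, 1 / 2 ≤ β → β ≤ 3 / 2 → |ν| ≤ N₀ →
      ∃ i, ∀ k, P β ν - 4 * ε k ≤ Q k i β ν := by
    intro β ν h1 h2 h3
    by_contra hcon
    push Not at hcon
    choose K hK using hcon
    obtain ⟨i, hi⟩ := hb (K 0 + K 1 + K 2) β ν h1 h2 h3
    have hle : K i ≤ K 0 + K 1 + K 2 := by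
      fin_cases i <;> simp <;> omega
    obtain ⟨n, hn⟩ := Nat.exists_eq_add_of_le hle
    have := hpers' (K i) n i β ν h1 h2 h3 (by
      rw [← hn]; linarith [hε (K 0 + K 1 + K 2)])
    linarith [hK i]
  -- order
  have hord : ∀ i j : Fin 3, v i + 2 * τ < v j → ∀ β ν ν', 1 / 2 ≤ β → β ≤ 3 / 2 → |ν| ≤ N₀ →
      |ν'| ≤ N₀ → (∀ k, P β ν - 4 * ε k ≤ Q k i β ν) → (∀ k, P β ν' - 4 * ε k ≤ Q k j β ν') →
      ν ≤ ν' := by
    intro i j hij β ν ν' h1 h2 h3 h4 hA hB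
    by_contra hlt
    push Not at hlt
    have hx : (v j - v i - 2 * τ) * (ν - ν') ≤ 0 := by
      apply hεlim
      intro k
      obtain ⟨w, hw, hws⟩ := hsub k i β ν h1 h2 h3
      obtain ⟨w', hw', hws'⟩ := hsub k j β ν' h1 h2 h4
      have b1 := hws ν' h4
      have b2 := hws' ν h3
      have b3 := ha k i β ν' h1 h2 h4
      have b4 := ha k j β ν h1 h2 h3
      have b5 := hA k
      have b6 := hB k
      have b7 := (abs_le.1 hw).2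
      have b8 := (abs_le.1 hw').1
      have b9 : 0 < ν - ν' := by linarith
      have b10 : (v j - v i - 2 * τ) * (ν - ν') ≤ (w' - w) * (ν - ν') :=
        mul_le_mul_of_nonneg_right (by linarith) b9.le
      nlinarith
    have hpos : 0 < (v j - v i - 2 * τ) * (ν - ν') := mul_pos (by linarith) (by linarith)
    linarith
  -- closedness
  let box : Set (ℝ × ℝ) := Set.Icc (7 / 8 : ℝ) (9 / 8) ×ˢ Set.Icc (-N₀) N₀
  have hbox : IsCompact box := isCompact_Icc.prod isCompact_Icc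
  let Big : Set (ℝ × ℝ) := Set.Icc (3 / 4 : ℝ) (5 / 4) ×ˢ Set.Icc (-N₀) N₀
  have hcont : ∀ F : ℝ → ℝ → ℝ, (∀ β ν β' ν', 3 / 4 ≤ β → β ≤ 5 / 4 → |ν| ≤ N₀ → 3 / 4 ≤ β' →
      β' ≤ 5 / 4 → |ν'| ≤ N₀ → |F β ν - F β' ν'| ≤ Lip * (|β - β'| + |ν - ν'|)) →
      ContinuousOn (fun z : ℝ × ℝ => F z.1 z.2) box := by
    intro F hF
    have : LipschitzOnWith (Real.toNNReal (2 * Lip)) (fun z : ℝ × ℝ => F z.1 z.2) box := by
      apply LipschitzOnWith.of_dist_le_mul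
      rintro ⟨β, ν⟩ ⟨⟨hx1, hx2⟩, ⟨hx3, hx4⟩⟩ ⟨β', ν'⟩ ⟨⟨hy1, hy2⟩, ⟨hy3, hy4⟩⟩
      simp only at hx1 hx2 hx3 hx4 hy1 hy2 hy3 hy4
      have h := hF β ν β' ν' (by linarith) (by linarith) (abs_le.2 ⟨hx3, hx4⟩) (by linarith)
        (by linarith) (abs_le.2 ⟨hy3, hy4⟩)
      have e1 : |β - β'| ≤ dist (β, ν) (β', ν') := by
        rw [Prod.dist_eq]; exact le_max_left _ _
      have e2 : |ν - ν'| ≤ dist (β, ν) (β', ν') := by
        rw [Prod.dist_eq]; exact le_max_right _ _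
      rw [Real.dist_eq, Real.coe_toNNReal _ (by positivity)]
      simp only
      nlinarith
    exact this.continuousOn
  have hclosed : ∀ i : Fin 3, IsCompact
      {z : ℝ × ℝ | z ∈ box ∧ ∀ k, P z.1 z.2 - 4 * ε k ≤ Q k i z.1 z.2} := by
    intro i
    have : {z : ℝ × ℝ | z ∈ box ∧ ∀ k, P z.1 z.2 - 4 * ε k ≤ Q k i z.1 z.2} =
        box ∩ ⋂ k, (box ∩ (fun z : ℝ × ℝ => Q k i z.1 z.2 - P z.1 z.2) ⁻¹' Set.Ici (-(4 * ε k))) := by
      ext z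
      simp only [Set.mem_ofPred_eq, Set.mem_inter_iff, Set.mem_iInter, Set.mem_preimage, Set.mem_Ici]
      constructor
      · rintro ⟨h1, h2⟩
        exact ⟨h1, fun k => ⟨h1, by linarith [h2 k]⟩⟩
      · rintro ⟨h1, h2⟩
        exact ⟨h1, fun k => by linarith [(h2 k).2]⟩
    rw [this]
    apply hbox.inter_right
    apply isClosed_iInter
    intro k
    apply ContinuousOn.preimage_isClosed_of_isClosed _ hbox.isClosed isClosed_Ici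
    exact (hcont (Q k i) (hLQ k i)).sub (hcont P hLP)
  -- the set of `β` with a point of `A 1`
  let S : Set ℝ := Prod.fst '' {z : ℝ × ℝ | z ∈ box ∧ ∀ k, P z.1 z.2 - 4 * ε k ≤ Q k 1 z.1 z.2}
  have hScomp : IsCompact S := (hclosed 1).image continuous_fst
  have hSne : S.Nonempty := by
    obtain ⟨ν, hν, hν'⟩ := h78
    obtain ⟨i, hi⟩ := hcov (7 / 8) ν (by norm_num) (by norm_num) hν
    have hi1 : i = 1 := by
      by_contra hne
      linarith [hν' i hne, hi 0]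
    subst hi1
    refine ⟨7 / 8, ⟨(7 / 8, ν), ⟨⟨⟨le_rfl, by norm_num⟩, abs_le.1 hν⟩, hi⟩, rfl⟩⟩
  obtain ⟨⟨βs, ν₁⟩, ⟨hb1, hA1⟩, hβs⟩ := hScomp.sSup_mem hSne
  simp only at hβs hA1
  obtain ⟨⟨hβ1, hβ2⟩, hν₁⟩ := hb1
  simp only at hβ1 hβ2 hν₁
  have hmax : ∀ β ν, 7 / 8 ≤ β → β ≤ 9 / 8 → |ν| ≤ N₀ →
      (∀ k, P β ν - 4 * ε k ≤ Q k 1 β ν) → β ≤ βs := by
    intro β ν h1 h2 h3 h4
    rw [hβs]
    exact le_csSup hScomp.bddAbove ⟨(β, ν), ⟨⟨⟨h1, h2⟩, abs_le.1 h3⟩, h4⟩, rfl⟩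
  have hβlt : βs < 9 / 8 := by
    rcases lt_or_eq_of_le hβ2 with h | h
    · exact h
    · exfalso
      have := h98 ν₁ (abs_le.2 hν₁)
      have h0 := hA1 0
      rw [h] at h0
      linarith
  -- the set of `β` with a point of `A 0 ∩ A 2`
  let T : Set ℝ := Prod.fst '' ({z : ℝ × ℝ | z ∈ box ∧ ∀ k, P z.1 z.2 - 4 * ε k ≤ Q k 0 z.1 z.2} ∩
    {z : ℝ × ℝ | z ∈ box ∧ ∀ k, P z.1 z.2 - 4 * ε k ≤ Q k 2 z.1 z.2})
  have hTcomp : IsCompact T :=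
    ((hclosed 0).inter_right (hclosed 2).isClosed).image continuous_fst
  have hTmem : ∀ β, βs < β → β ≤ 9 / 8 → β ∈ T := by
    intro β h1 h2
    have h3 : 7 / 8 ≤ β := by linarith
    have hβ' : 1 / 2 ≤ β := by linarith
    have hβ'' : β ≤ 3 / 2 := by linarith
    -- closed subsets of the segment
    have hcl : ∀ i : Fin 3, IsClosed {ν : ℝ | |ν| ≤ N₀ ∧ ∀ k, P β ν - 4 * ε k ≤ Q k i β ν} := by
      intro i
      have : {ν : ℝ | |ν| ≤ N₀ ∧ ∀ k, P β ν - 4 * ε k ≤ Q k i β ν} =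
          (fun ν => (β, ν)) ⁻¹' {z : ℝ × ℝ | z ∈ box ∧ ∀ k, P z.1 z.2 - 4 * ε k ≤ Q k i z.1 z.2} := by
        ext ν
        simp only [Set.mem_ofPred_eq, Set.mem_preimage, box, Set.mem_prod, Set.mem_Icc]
        constructor
        · rintro ⟨a1, a2⟩; exact ⟨⟨⟨h3, h2⟩, abs_le.1 a1⟩, a2⟩
        · rintro ⟨⟨_, a1⟩, a2⟩; exact ⟨abs_le.2 a1, a2⟩
      rw [this]
      exact (hclosed i).isClosed.preimage (by fun_prop)
    have hpre : IsPreconnected (Set.Icc (-N₀) N₀) := isPreconnected_Icc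
    rw [isPreconnected_closed_iff] at hpre
    have hne0 : (Set.Icc (-N₀) N₀ ∩ {ν : ℝ | |ν| ≤ N₀ ∧ ∀ k, P β ν - 4 * ε k ≤ Q k 0 β ν}).Nonempty := by
      have habs : |(-N₀)| ≤ N₀ := by rw [abs_neg, abs_of_pos hN₀]
      obtain ⟨i, hi⟩ := hcov β (-N₀) hβ' hβ'' habs
      have hi0 : i = 0 := by
        by_contra hne
        linarith [hlo β h3 h2 i hne, hi 0]
      subst hi0
      exact ⟨-N₀, ⟨le_rfl, by linarith⟩, habs, hi⟩
    have hne2 : (Set.Icc (-N₀) N₀ ∩ {ν : ℝ | |ν| ≤ N₀ ∧ ∀ k, P β ν - 4 * ε k ≤ Q k 2 β ν}).Nonempty := by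
      have habs : |N₀| ≤ N₀ := by rw [abs_of_pos hN₀]
      obtain ⟨i, hi⟩ := hcov β N₀ hβ' hβ'' habs
      have hi0 : i = 2 := by
        by_contra hne
        linarith [hhi β h3 h2 i hne, hi 0]
      subst hi0
      exact ⟨N₀, ⟨by linarith, le_rfl⟩, habs, hi⟩
    obtain ⟨ν, hν, ⟨hνa, h0⟩, ⟨_, h2'⟩⟩ := hpre _ _ (hcl 0) (hcl 2) (by
      intro ν hν
      have habs : |ν| ≤ N₀ := abs_le.2 hν
      obtain ⟨i, hi⟩ := hcov β ν hβ' hβ'' habs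
      fin_cases i
      · exact Or.inl ⟨habs, hi⟩
      · exfalso
        have := hmax β ν h3 h2 habs hi
        linarith
      · exact Or.inr ⟨habs, hi⟩) hne0 hne2
    exact ⟨(β, ν), ⟨⟨⟨⟨h3, h2⟩, hν⟩, h0⟩, ⟨⟨⟨h3, h2⟩, hν⟩, h2'⟩⟩, rfl⟩
  have hβT : βs ∈ T := by
    have : βs ∈ closure (Set.Ioc βs (9 / 8)) := by
      rw [closure_Ioc hβlt.ne]
      exact ⟨le_rfl, hβlt.le⟩
    exact hTcomp.isClosed.closure_subset_iff.2 (fun β hβ => hTmem β hβ.1 hβ.2) this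
  obtain ⟨⟨β', νs⟩, ⟨⟨hb0, hA0⟩, ⟨_, hA2⟩⟩, hβeq⟩ := hβT
  simp only at hβeq hA0 hA2
  subst hβeq
  obtain ⟨_, hνs⟩ := hb0
  simp only at hνs
  have hβa : 1 / 2 ≤ β' := by linarith
  have hβb : β' ≤ 3 / 2 := by linarith
  have hνsa : |νs| ≤ N₀ := abs_le.2 hνs
  have hle1 := hord 0 1 hv01 β' νs ν₁ hβa hβb hνsa (abs_le.2 hν₁) hA0 hA1
  have hle2 := hord 1 2 hv12 β' ν₁ νs hβa hβb (abs_le.2 hν₁) hνsa hA1 hA2
  have hνeq : ν₁ = νs := le_antisymm hle2 hle1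
  subst hνeq
  have hall : ∀ k i, P β' ν₁ - 4 * ε k ≤ Q k i β' ν₁ := by
    intro k i
    fin_cases i
    · exact hA0 k
    · exact hA1 k
    · exact hA2 k
  refine ⟨β', ν₁, hβ1, hβ2, hνsa, hall, ?_⟩
  intro k i u hu
  -- slopes
  have hκpos : ∀ k, 0 < κ k := fun k => by linarith [hκ k, hε k]
  have hκle : ∀ k, κ k ≤ Lip / 2 := by
    intro k
    induction k with
    | zero => exact hκ0
    | succ k ih => exact (hκ1 k).trans ih
  set r : ℕ → ℝ := fun k => κ k / (4 * Lip) with hrdef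
  have hr : ∀ k, 0 < r k := fun k => div_pos (hκpos k) (by linarith)
  have hr8 : ∀ k, r k ≤ 1 / 8 := by
    intro k
    rw [hrdef]
    simp only
    rw [div_le_iff₀ (by linarith)]
    linarith [hκle k]
  have hr1 : ∀ k, r (k + 1) ≤ r k := fun k =>
    div_le_div_of_nonneg_right (hκ1 k) (by linarith)
  have hclose : ∀ k β, |β - β'| ≤ r k → |Q (k + 1) i β ν₁ - Q k i β ν₁| ≤ ε k := by
    intro k β hβ
    have hβ8 := hβ.trans (hr8 k)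
    have hb' := abs_le.1 hβ8
    have g1 : 3 / 4 ≤ β := by linarith
    have g2 : β ≤ 5 / 4 := by linarith
    have g3 : 1 / 2 ≤ β := by linarith
    have g4 : β ≤ 3 / 2 := by linarith
    have l1 := (abs_le.1 (hLQ k i β ν₁ β' ν₁ g1 g2 hνsa (by linarith) (by linarith) hνsa)).1
    have l2 := (abs_le.1 (hLP β ν₁ β' ν₁ g1 g2 hνsa (by linarith) (by linarith) hνsa)).2
    rw [sub_self, abs_zero, add_zero] at l1 l2
    have l3 : Lip * |β - β'| ≤ κ k / 4 := by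
      calc Lip * |β - β'| ≤ Lip * r k := mul_le_mul_of_nonneg_left hβ hLip.le
        _ = κ k / 4 := by rw [hrdef]; field_simp
    have l4 := hall k i
    have l5 := hκ k
    have l6 : P β ν₁ - κ k ≤ Q k i β ν₁ := by linarith
    have l7 := hc2 k i β ν₁ g3 g4 hνsa
    rw [max_eq_left l6] at l7
    have l8 := hc1 k i β ν₁ g3 g4 hνsa
    rw [abs_le]; constructor <;> linarith
  have hsum : ∑ j ∈ Finset.range k, 2 * ε j / r j ≤ 8 * Lip * σ := by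
    have : ∑ j ∈ Finset.range k, 2 * ε j / r j = 8 * Lip * ∑ j ∈ Finset.range k, ε j / κ j := by
      rw [Finset.mul_sum]
      apply Finset.sum_congr rfl
      intro j _
      rw [hrdef]
      simp only
      have := (hκpos j).ne'
      field_simp
      ring
    rw [this]
    exact mul_le_mul_of_nonneg_left (hσ k) (by linarith)
  have hconv1 : ∀ k, ConvexOn ℝ (Set.Icc 0 (1 / 8)) (fun x => Q k i (β' + x) ν₁) := by
    intro k
    refine ⟨convex_Icc _ _, ?_⟩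
    intro x hx y hy a b ha' hb' hab
    have h := (hconv k i ν₁ hνsa).2
      (show β' + x ∈ Set.Icc (1 / 2 : ℝ) (3 / 2) from ⟨by linarith [hx.1], by linarith [hx.2]⟩)
      (show β' + y ∈ Set.Icc (1 / 2 : ℝ) (3 / 2) from ⟨by linarith [hy.1], by linarith [hy.2]⟩)
      ha' hb' hab
    simp only [smul_eq_mul] at h ⊢
    have e : a * (β' + x) + b * (β' + y) = β' + (a * x + b * y) := by
      have : a = 1 - b := by linarith
      subst this; ring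
    rw [e] at h
    exact h
  have hconv2 : ∀ k, ConvexOn ℝ (Set.Icc 0 (1 / 8)) (fun x => Q k i (β' - x) ν₁) := by
    intro k
    refine ⟨convex_Icc _ _, ?_⟩
    intro x hx y hy a b ha' hb' hab
    have h := (hconv k i ν₁ hνsa).2
      (show β' - x ∈ Set.Icc (1 / 2 : ℝ) (3 / 2) from ⟨by linarith [hx.2], by linarith [hx.1]⟩)
      (show β' - y ∈ Set.Icc (1 / 2 : ℝ) (3 / 2) from ⟨by linarith [hy.2], by linarith [hy.1]⟩)
      ha' hb' hab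
    simp only [smul_eq_mul] at h ⊢
    have e : a * (β' - x) + b * (β' - y) = β' - (a * x + b * y) := by
      have : a = 1 - b := by linarith
      subst this; ring
    rw [e] at h
    exact h
  have hR := triple_slope (fun k x => Q k i (β' + x) ν₁) r ε hconv1 hr hr8 hr1 (by
    intro k x h0 h1
    exact hclose k (β' + x) (by rw [add_sub_cancel_left, abs_of_nonneg h0]; exact h1)) k u (by
    intro x h0 h1
    have := hu (β' + x) (by linarith) (by linarith)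
    simp only [add_zero]
    rw [add_sub_cancel_left] at this
    exact this)
  have hL := triple_slope (fun k x => Q k i (β' - x) ν₁) r ε hconv2 hr hr8 hr1 (by
    intro k x h0 h1
    apply hclose k (β' - x)
    rw [show β' - x - β' = -x by ring, abs_neg, abs_of_nonneg h0]; exact h1) k (-u) (by
    intro x h0 h1
    have := hu (β' - x) (by linarith) (by linarith)
    simp only [sub_zero]
    rw [show β' - x - β' = -x by ring] at this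
    linarith)
  simp only [add_zero, sub_zero] at hR hL
  have g0 := abs_le.1 (hg i β' ν₁ hβa hβb hνsa)
  have g1 := abs_le.1 (hg i (β' + 1 / 8) ν₁ (by linarith) (by linarith) hνsa)
  have g2 := abs_le.1 (hg i (β' - 1 / 8) ν₁ (by linarith) (by linarith) hνsa)
  rw [abs_le]
  constructor
  · nlinarith [g0.1, g0.2, g2.1, g2.2]
  · nlinarith [g0.1, g0.2, g1.1, g1.2]

end Crest.Agent.R149
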