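import Mathlib

/-!
PIECE W (abstract window analysis, at a fixed `(β, ν)`).  Pure real analysis.

`τ_k = τ (1 - 1/2^(k+1))`, `τ_{k+1} - τ_k = τ/2^(k+2)`; window `win k i = {n | d k n ≤ D, |d k n - v i| ≤ τ_k}`;
`m_k = θ b_k / 4^k`.  Induction on `k`: `n` outside all windows of level `k` (and `d k n ≤ D`) has
`V k n ≤ P - m_k`.  [step: `(MU)` gives `n'` at level `k` with
`V (k+1) n ≤ V k n' - (b_{k+1}/4)(d k n' - d (k+1) n)² + ε_k`; if `n'` is outside the windows:
`≤ P - m_k + ε_k ≤ P - m_{k+1}`; if `n'` is in a window then `|d k n' - d (k+1) n| ≥ τ/2^(k+2)` and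
`V ≤ P + 2 ε_k - b_{k+1} τ²/(64·4^k) ≤ P - m_{k+1}`.]
-/

set_option autoImplicit false

namespace Crest.Agent.R149

/-- the window `i` at level `k` -/
def win (d : ℕ → ℕ → ℝ) (D : ℝ) (v : Fin 3 → ℝ) (τ : ℝ) (k : ℕ) (i : Fin 3) : Set ℕ :=
  {n | d k n ≤ D ∧ |d k n - v i| ≤ τ * (1 - 1 / 2 ^ (k + 1))}

/-- the maximum of `V k` over the window -/
noncomputable def Qw (d : ℕ → ℕ → ℝ) (D : ℝ) (v : Fin 3 → ℝ) (τ : ℝ) (V : ℕ → ℕ → ℝ) (k : ℕ)
    (i : Fin 3) : ℝ :=
  sSup (V k '' win d D v τ k i)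

theorem windows (d : ℕ → ℕ → ℝ) (D : ℝ) (v : Fin 3 → ℝ) (τ : ℝ) (V : ℕ → ℕ → ℝ) (P θ : ℝ)
    (b ε : ℕ → ℝ) (hτ : 0 < τ) (hθ : 0 < θ) (hθτ : θ ≤ τ ^ 2 / 32)
    (hb : ∀ k, 0 < b k) (hbm : ∀ k, b (k + 1) ≤ b k) (hε : ∀ k, 0 < ε k)
    (hεb : ∀ k, 256 * ε k ≤ θ * b (k + 1) / 4 ^ k)
    (hsep : ∀ i j, i ≠ j → 4 * τ ≤ |v i - v j|)
    (hfin : ∀ k, {n | d k n ≤ D}.Finite)
    (hne : ∀ i, (win d D v τ 0 i).Nonempty)
    (MU : ∀ k N, d (k + 1) N ≤ D → ∃ n, d k n ≤ D ∧
      V (k + 1) N ≤ V k n - b (k + 1) / 4 * (d k n - d (k + 1) N) ^ 2 + ε k)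
    (ML : ∀ k n, d k n ≤ D → ∃ N, d (k + 1) N ≤ D ∧ |d (k + 1) N - d k n| ≤ τ / 2 ^ (k + 2) ∧
      V k n - ε k ≤ V (k + 1) N)
    (PU : ∀ k, ∃ n, d k n ≤ D ∧ P ≤ V k n + ε k)
    (PL : ∀ k n, d k n ≤ D → V k n - ε k ≤ P)
    (gap : ∀ n, d 0 n ≤ D → (∀ i, n ∉ win d D v τ 0 i) → V 0 n ≤ P - θ * b 0) :
    (∀ k i, (win d D v τ k i).Nonempty) ∧
    (∀ k i, ∃ n ∈ win d D v τ k i, Qw d D v τ V k i = V k n) ∧
    (∀ k i, ∀ n ∈ win d D v τ k i, V k n ≤ Qw d D v τ V k i) ∧
    (∀ k i, Qw d D v τ V k i ≤ P + ε k) ∧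
    (∀ k, ∃ i, P ≤ Qw d D v τ V k i + ε k) ∧
    (∀ k i, Qw d D v τ V k i - ε k ≤ Qw d D v τ V (k + 1) i) ∧
    (∀ k i, Qw d D v τ V (k + 1) i ≤
      max (Qw d D v τ V k i) (P - θ * b (k + 1) / 4 ^ (k + 1)) + ε k) := by
  classical
  -- window radius step
  have hstep : ∀ k : ℕ, τ * (1 - 1 / 2 ^ (k + 1 + 1)) = τ * (1 - 1 / 2 ^ (k + 1)) + τ / 2 ^ (k + 2) := by
    intro k
    have h2 : (2:ℝ) ^ (k + 1 + 1) = 2 * 2 ^ (k + 1) := by rw [pow_succ]; ring
    have h3 : (2:ℝ) ^ (k + 2) = 2 * 2 ^ (k + 1) := h2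
    rw [h2]
    have : (2:ℝ) ^ (k + 1) ≠ 0 := by positivity
    field_simp
    ring
  have hle : ∀ k : ℕ, τ * (1 - 1 / 2 ^ (k + 1)) ≤ τ := by
    intro k
    have : (0:ℝ) ≤ 1 / 2 ^ (k + 1) := by positivity
    nlinarith
  -- sub-facts on windows
  have hfinw : ∀ k i, (win d D v τ k i).Finite := fun k i => (hfin k).subset fun n hn => hn.1
  have hne' : ∀ k i, (win d D v τ k i).Nonempty := by
    intro k
    induction k with
    | zero => exact hne
    | succ k ih =>
      intro i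
      obtain ⟨n, hn1, hn2⟩ := ih i
      obtain ⟨N, hN1, hN2, _⟩ := ML k n hn1
      refine ⟨N, hN1, ?_⟩
      rw [hstep k]
      calc |d (k + 1) N - v i| = |(d (k + 1) N - d k n) + (d k n - v i)| := by ring_nf
        _ ≤ |d (k + 1) N - d k n| + |d k n - v i| := abs_add_le _ _
        _ ≤ _ := by linarith
  have hatt : ∀ k i, ∃ n ∈ win d D v τ k i, Qw d D v τ V k i = V k n := by
    intro k i
    have h1 : (V k '' win d D v τ k i).Finite := (hfinw k i).image _
    have h2 : (V k '' win d D v τ k i).Nonempty := (hne' k i).image _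
    obtain ⟨n, hn, he⟩ := h2.csSup_mem h1
    exact ⟨n, hn, he.symm⟩
  have hub : ∀ k i, ∀ n ∈ win d D v τ k i, V k n ≤ Qw d D v τ V k i := by
    intro k i n hn
    exact le_csSup ((hfinw k i).image _).bddAbove ⟨n, hn, rfl⟩
  have hpow : ∀ k : ℕ, (0:ℝ) < 4 ^ k := fun k => by positivity
  have h22 : ∀ k : ℕ, (2:ℝ) ^ (k + 2) * 2 ^ (k + 2) = 16 * 4 ^ k := by
    intro k
    have : (4:ℝ) ^ k = 2 ^ k * 2 ^ k := by rw [← mul_pow]; norm_num
    rw [this, pow_add]; ring
  -- normalised masses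
  have hm1 : ∀ k : ℕ, θ * b (k + 1) / 4 ^ (k + 1) = (θ * b (k + 1) / 4 ^ k) / 4 := by
    intro k; rw [pow_succ, div_div]
  have hmpos : ∀ k : ℕ, 0 < θ * b (k + 1) / 4 ^ k := fun k => by
    have := hb (k + 1); positivity
  have hmle : ∀ k : ℕ, θ * b (k + 1) / 4 ^ k ≤ θ * b k / 4 ^ k := by
    intro k
    gcongr
    exact hbm k
  have hout : ∀ k n, d k n ≤ D → (∀ i, n ∉ win d D v τ k i) → V k n ≤ P - θ * b k / 4 ^ k := by
    intro k
    induction k with
    | zero =>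
      intro n h1 h2
      have := gap n h1 h2
      simpa using this
    | succ k ih =>
      intro N hN1 hN2
      obtain ⟨n, hn1, hn2⟩ := MU k N hN1
      have hεk := hεb k
      have hmk := hmle k
      have hmp := hmpos k
      rw [hm1]
      by_cases hc : ∀ i, n ∉ win d D v τ k i
      · have h1 := ih n hn1 hc
        have h2 : 0 ≤ b (k + 1) / 4 * (d k n - d (k + 1) N) ^ 2 := by
          have := hb (k + 1); positivity
        linarith
      · push Not at hc
        obtain ⟨i, hi⟩ := hc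
        have h1 : |d k n - v i| ≤ τ * (1 - 1 / 2 ^ (k + 1)) := hi.2
        have h2 : τ * (1 - 1 / 2 ^ (k + 1 + 1)) < |d (k + 1) N - v i| := by
          by_contra hcon
          exact hN2 i ⟨hN1, not_lt.mp hcon⟩
        rw [hstep k] at h2
        have h3 : τ / 2 ^ (k + 2) ≤ |d k n - d (k + 1) N| := by
          have : |d (k + 1) N - v i| ≤ |d k n - d (k + 1) N| + |d k n - v i| := by
            calc |d (k + 1) N - v i| = |(d (k + 1) N - d k n) + (d k n - v i)| := by ring_nf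
              _ ≤ |d (k + 1) N - d k n| + |d k n - v i| := abs_add_le _ _
              _ = _ := by rw [abs_sub_comm]
          linarith
        have h4 : τ ^ 2 / (16 * 4 ^ k) ≤ (d k n - d (k + 1) N) ^ 2 := by
          rw [← sq_abs (d k n - d (k + 1) N)]
          have h5 : 0 ≤ τ / 2 ^ (k + 2) := by positivity
          calc τ ^ 2 / (16 * 4 ^ k) = (τ / 2 ^ (k + 2)) ^ 2 := by
                rw [div_pow, sq (2 ^ (k + 2) : ℝ), h22]
            _ ≤ _ := pow_le_pow_left₀ h5 h3 2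
        have h6 : V k n ≤ P + ε k := by have := PL k n hn1; linarith
        have h7 : b (k + 1) / 4 * (τ ^ 2 / (16 * 4 ^ k)) ≤ b (k + 1) / 4 * (d k n - d (k + 1) N) ^ 2 :=
          mul_le_mul_of_nonneg_left h4 (by have := hb (k + 1); positivity)
        have h8 : (θ * b (k + 1) / 4 ^ k) / 2 ≤ b (k + 1) / 4 * (τ ^ 2 / (16 * 4 ^ k)) := by
          have e1 : b (k + 1) / 4 * (τ ^ 2 / (16 * 4 ^ k)) = (τ ^ 2 / 32 * b (k + 1) / 4 ^ k) / 2 := by
            field_simp; ring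
          rw [e1]
          have := hb (k + 1)
          gcongr
        linarith
  refine ⟨hne', hatt, hub, ?_, ?_, ?_, ?_⟩
  · intro k i
    obtain ⟨n, hn, he⟩ := hatt k i
    rw [he]
    have := PL k n hn.1
    linarith
  · intro k
    obtain ⟨n, hn1, hn2⟩ := PU k
    by_cases hc : ∀ i, n ∉ win d D v τ k i
    · exfalso
      have h1 := hout k n hn1 hc
      have h2 := hεb k
      have h3 := hmle k
      have h4 := hmpos k
      linarith
    · push Not at hc
      obtain ⟨i, hi⟩ := hc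
      exact ⟨i, by have := hub k i n hi; linarith⟩
  · intro k i
    obtain ⟨n, hn, he⟩ := hatt k i
    obtain ⟨N, hN1, hN2, hN3⟩ := ML k n hn.1
    have hN : N ∈ win d D v τ (k + 1) i := by
      refine ⟨hN1, ?_⟩
      have h2 : |d k n - v i| ≤ τ * (1 - 1 / 2 ^ (k + 1)) := hn.2
      rw [hstep k]
      calc |d (k + 1) N - v i| = |(d (k + 1) N - d k n) + (d k n - v i)| := by ring_nf
        _ ≤ |d (k + 1) N - d k n| + |d k n - v i| := abs_add_le _ _
        _ ≤ _ := by linarith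
    have := hub (k + 1) i N hN
    rw [he]; linarith
  · intro k i
    obtain ⟨N, hN, he⟩ := hatt (k + 1) i
    rw [he]
    obtain ⟨n, hn1, hn2⟩ := MU k N hN.1
    have hεk := hεb k
    have hmk := hmle k
    have hmp := hmpos k
    have hsq : 0 ≤ b (k + 1) / 4 * (d k n - d (k + 1) N) ^ 2 := by
      have := hb (k + 1); positivity
    have hQ1 := le_max_left (Qw d D v τ V k i) (P - θ * b (k + 1) / 4 ^ (k + 1))
    have hQ2 := le_max_right (Qw d D v τ V k i) (P - θ * b (k + 1) / 4 ^ (k + 1))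
    have hm1k := hm1 k
    by_cases hc : ∀ j, n ∉ win d D v τ k j
    · have h1 := hout k n hn1 hc
      linarith
    · push Not at hc
      obtain ⟨j, hj⟩ := hc
      by_cases hij : j = i
      · subst hij
        have := hub k j n hj
        linarith
      · have h1 : |d k n - v j| ≤ τ := le_trans hj.2 (hle k)
        have h2 : |d (k + 1) N - v i| ≤ τ := le_trans hN.2 (hle (k + 1))
        have h3 := hsep j i hij
        have h4 : 2 * τ ≤ |d k n - d (k + 1) N| := by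
          have : |v j - v i| ≤ |d k n - v j| + |d k n - d (k + 1) N| + |d (k + 1) N - v i| := by
            calc |v j - v i| = |-(d k n - v j) + (d k n - d (k + 1) N) + (d (k + 1) N - v i)| := by ring_nf
              _ ≤ |-(d k n - v j) + (d k n - d (k + 1) N)| + |d (k + 1) N - v i| := abs_add_le _ _
              _ ≤ |-(d k n - v j)| + |d k n - d (k + 1) N| + |d (k + 1) N - v i| := by
                  gcongr; exact abs_add_le _ _
              _ = _ := by rw [abs_neg]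
          linarith
        have h5 : 4 * τ ^ 2 ≤ (d k n - d (k + 1) N) ^ 2 := by
          rw [← sq_abs (d k n - d (k + 1) N)]
          calc 4 * τ ^ 2 = (2 * τ) ^ 2 := by ring
            _ ≤ _ := pow_le_pow_left₀ (by positivity) h4 2
        have h6 : V k n ≤ P + ε k := by have := PL k n hn1; linarith
        have h7 : b (k + 1) / 4 * (4 * τ ^ 2) ≤ b (k + 1) / 4 * (d k n - d (k + 1) N) ^ 2 :=
          mul_le_mul_of_nonneg_left h5 (by have := hb (k + 1); positivity)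
        have h8 : θ * b (k + 1) / 4 ^ k ≤ b (k + 1) / 4 * (4 * τ ^ 2) := by
          have h9 : θ * b (k + 1) / 4 ^ k ≤ θ * b (k + 1) := by
            apply div_le_self
            · have := hb (k + 1); positivity
            · exact one_le_pow₀ (by norm_num)
          have h10 : θ * b (k + 1) ≤ τ ^ 2 * b (k + 1) := by
            have := hb (k + 1)
            have h11 : θ ≤ τ ^ 2 := by nlinarith [sq_nonneg τ]
            exact mul_le_mul_of_nonneg_right h11 this.le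
          linarith
        linarith

end Crest.Agent.R149
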