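import Crest.Agent.R149.LevelsU
import Crest.Agent.R149.LevelsL
import Crest.Agent.R149.Windows
import Crest.Agent.R149.Triple
import Crest.Agent.R149.Kink
import Crest.Agent.R149.BaseLevel
import Crest.Agent.R149.Scales
import Crest.Agent.R149.ConvAux

/-!
Auxiliary facts for `Main.lean` (helper50).
-/

set_option autoImplicit false

namespace Crest.Agent.R149

open MeasureTheory Crest.ProbabilityR.Continuum
open scoped ENNReal BigOperators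

/-- The level inequalities, collected. -/
structure LevelFacts (φ₀ : ℝ → ℝ) (a : ℝ) (x0 : ℕ) (δ νm C : ℝ) (G : ℝ → ℝ → ℝ) : Prop where
  MU : ∀ (k : ℕ) (β ν : ℝ), 1 / 2 ≤ β → β ≤ 3 / 2 → |ν| ≤ νm → ∀ N : ℕ,
    dens x0 (k + 1) N ≤ rmax δ → ∃ n : ℕ, dens x0 k n ≤ rmax δ ∧
        Vk φ₀ a x0 (k + 1) β ν N ≤ Vk φ₀ a x0 k β ν n
          - β * bs a x0 (k + 1) / 2 * (dens x0 k n - dens x0 (k + 1) N) ^ 2 + eps C x0 k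
  ML : ∀ (k : ℕ) (β ν : ℝ), 1 / 2 ≤ β → β ≤ 3 / 2 → |ν| ≤ νm → ∀ n : ℕ, dens x0 k n ≤ rmax δ →
        Vk φ₀ a x0 k β ν n - eps C x0 k ≤
          Vk φ₀ a x0 (k + 1) β ν ((ls x0 k - 2) ^ 3 * n)
  MUl : ∀ (k : ℕ) (β ν : ℝ), 1 / 2 ≤ β → β ≤ 3 / 2 → |ν| ≤ νm → ∀ ρ : ℝ, 0 ≤ ρ →
        ∃ n : ℕ, dens x0 k n ≤ rmax δ ∧ ν * ρ + G β ρ ≤ Vk φ₀ a x0 k β ν n + eps C x0 k
  MLl : ∀ (k : ℕ) (β ν : ℝ), 1 / 2 ≤ β → β ≤ 3 / 2 → |ν| ≤ νm → ∀ n : ℕ, dens x0 k n ≤ rmax δ →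
        Vk φ₀ a x0 k β ν n - eps C x0 k ≤
          ν * ((n : ℝ) / ((ls x0 k : ℝ) + 2) ^ 3) + G β ((n : ℝ) / ((ls x0 k : ℝ) + 2) ^ 3)

/-- the pressure -/
noncomputable def Press (G : ℝ → ℝ → ℝ) (β ν : ℝ) : ℝ :=
  sSup ((fun ρ : ℝ => ν * ρ + G β ρ) '' Set.Ici 0)

theorem ls_pos {x0 : ℕ} (h : 2 ≤ x0) (k : ℕ) : (0 : ℝ) < ls x0 k := by
  have := xs_pos h k
  unfold ls; push_cast; positivity

theorem xs_two {x0 : ℕ} (h : 2 ≤ x0) (k : ℕ) : (2 : ℝ) ≤ xs x0 k := by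
  have := le_xs (x0 := x0) (by omega) k
  have h3 : 2 ≤ xs x0 k := by omega
  exact_mod_cast h3

theorem ls_ge {x0 : ℕ} (h : 2 ≤ x0) (k : ℕ) : 4 ≤ ls x0 k := by
  have h3 : 2 ≤ xs x0 k := le_trans h (le_xs (x0 := x0) (by omega) k)
  unfold ls
  calc 4 = 2 ^ 2 := by norm_num
    _ ≤ (xs x0 k) ^ 2 := Nat.pow_le_pow_left h3 2
    _ ≤ (xs x0 k) ^ 48 := Nat.pow_le_pow_right (by omega) (by norm_num)

theorem fin_dens {x0 : ℕ} (h : 2 ≤ x0) (k : ℕ) (D : ℝ) : {n | dens x0 k n ≤ D}.Finite := by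
  have hl := ls_pos h k
  refine (Set.finite_Iic ⌊D * (ls x0 k : ℝ) ^ 3⌋₊).subset (fun n hn => ?_)
  have hn' : dens x0 k n ≤ D := hn
  unfold dens at hn'
  rw [div_le_iff₀ (by positivity)] at hn'
  exact Nat.le_floor hn'

theorem rmax_pos {δ : ℝ} (hδ : 0 < δ) : 0 < rmax δ := by unfold rmax; positivity

theorem dens_zero (x0 k : ℕ) : dens x0 k 0 = 0 := by unfold dens; simp

theorem dens_nonneg (x0 k n : ℕ) : 0 ≤ dens x0 k n := by unfold dens; positivity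

theorem press_upper {φ₀ : ℝ → ℝ} {a δ νm C : ℝ} {x0 : ℕ} {G : ℝ → ℝ → ℝ} (hδ : 0 < δ)
    (h2 : 2 ≤ x0) (hF : LevelFacts φ₀ a x0 δ νm C G) {β ν : ℝ} (h1 : 1 / 2 ≤ β) (h1' : β ≤ 3 / 2)
    (hν : |ν| ≤ νm) (k : ℕ) :
    ∃ n : ℕ, dens x0 k n ≤ rmax δ ∧ ∀ ρ : ℝ, 0 ≤ ρ →
      ν * ρ + G β ρ ≤ Vk φ₀ a x0 k β ν n + eps C x0 k := by
  obtain ⟨n, hn, hmax⟩ := Set.exists_max_image {n | dens x0 k n ≤ rmax δ}
    (Vk φ₀ a x0 k β ν) (fin_dens h2 k _) ⟨0, by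
      show dens x0 k 0 ≤ rmax δ
      rw [dens_zero]; exact (rmax_pos hδ).le⟩
  refine ⟨n, hn, fun ρ hρ => ?_⟩
  obtain ⟨n', hn', h3⟩ := hF.MUl k β ν h1 h1' hν ρ hρ
  have := hmax n' hn'
  linarith

theorem press_le {φ₀ : ℝ → ℝ} {a δ νm C : ℝ} {x0 : ℕ} {G : ℝ → ℝ → ℝ} (hδ : 0 < δ)
    (h2 : 2 ≤ x0) (hF : LevelFacts φ₀ a x0 δ νm C G) {β ν : ℝ} (h1 : 1 / 2 ≤ β) (h1' : β ≤ 3 / 2)
    (hν : |ν| ≤ νm) (k : ℕ) :
    ∃ n : ℕ, dens x0 k n ≤ rmax δ ∧ Press G β ν ≤ Vk φ₀ a x0 k β ν n + eps C x0 k := by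
  obtain ⟨n, hn, hb⟩ := press_upper hδ h2 hF h1 h1' hν k
  refine ⟨n, hn, csSup_le ⟨_, 0, Set.mem_Ici.mpr le_rfl, rfl⟩ ?_⟩
  rintro _ ⟨ρ, hρ, rfl⟩
  exact hb ρ hρ

theorem le_press {φ₀ : ℝ → ℝ} {a δ νm C : ℝ} {x0 : ℕ} {G : ℝ → ℝ → ℝ} (hδ : 0 < δ)
    (h2 : 2 ≤ x0) (hF : LevelFacts φ₀ a x0 δ νm C G) {β ν : ℝ} (h1 : 1 / 2 ≤ β) (h1' : β ≤ 3 / 2)
    (hν : |ν| ≤ νm) {ρ : ℝ} (hρ : 0 ≤ ρ) : ν * ρ + G β ρ ≤ Press G β ν := by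
  obtain ⟨n, hn, hb⟩ := press_upper hδ h2 hF h1 h1' hν 0
  refine le_csSup ⟨Vk φ₀ a x0 0 β ν n + eps C x0 0, ?_⟩ ⟨ρ, hρ, rfl⟩
  rintro _ ⟨ρ', hρ', rfl⟩
  exact hb ρ' hρ'

theorem press_ge {φ₀ : ℝ → ℝ} {a δ νm C : ℝ} {x0 : ℕ} {G : ℝ → ℝ → ℝ} (hδ : 0 < δ)
    (h2 : 2 ≤ x0) (hF : LevelFacts φ₀ a x0 δ νm C G) {β ν : ℝ} (h1 : 1 / 2 ≤ β) (h1' : β ≤ 3 / 2)
    (hν : |ν| ≤ νm) (k n : ℕ) (hn : dens x0 k n ≤ rmax δ) :
    Vk φ₀ a x0 k β ν n - eps C x0 k ≤ Press G β ν := by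
  refine le_trans (hF.MLl k β ν h1 h1' hν n hn) ?_
  have hl := ls_pos h2 k
  exact le_press hδ h2 hF h1 h1' hν (by positivity)

/-- density shift from the level `k` to the level `k+1` and to infinity -/
theorem dens_shift {x0 : ℕ} (h : 2 ≤ x0) (k n : ℕ) {D τ' : ℝ} (hD : dens x0 k n ≤ D)
    (hτ : 20 * D / (ls x0 k : ℝ) ≤ τ') :
    dens x0 (k + 1) ((ls x0 k - 2) ^ 3 * n) ≤ dens x0 k n ∧
    |dens x0 (k + 1) ((ls x0 k - 2) ^ 3 * n) - dens x0 k n| ≤ τ' ∧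
    (n : ℝ) / ((ls x0 k : ℝ) + 2) ^ 3 ≤ dens x0 k n ∧
    |(n : ℝ) / ((ls x0 k : ℝ) + 2) ^ 3 - dens x0 k n| ≤ τ' := by
  have hl := ls_pos h k
  have hl4 : (4 : ℝ) ≤ ls x0 k := by exact_mod_cast ls_ge h k
  have hcast : ((ls x0 k - 2 : ℕ) : ℝ) = (ls x0 k : ℝ) - 2 := by
    rw [Nat.cast_sub (by have := ls_ge h k; omega)]; norm_num
  have hD0 : 0 ≤ D := le_trans (dens_nonneg x0 k n) hD
  set l : ℝ := (ls x0 k : ℝ) with hldef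
  have e1 : dens x0 (k + 1) ((ls x0 k - 2) ^ 3 * n) = dens x0 k n * ((l - 2) / l) ^ 3 := by
    unfold dens
    rw [ls_succ]
    push_cast
    rw [hcast, ← hldef]
    field_simp
  have e2 : (n : ℝ) / (l + 2) ^ 3 = dens x0 k n * (l / (l + 2)) ^ 3 := by
    unfold dens
    rw [← hldef]
    field_simp
  have hd := dens_nonneg x0 k n
  have q1 : 1 - 6 / l ≤ ((l - 2) / l) ^ 3 := by
    have : (l - 2) / l = 1 - 2 / l := by field_simp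
    rw [this]
    have h3 : 0 ≤ 2 / l := by positivity
    have h4 : 2 / l ≤ 1 := by rw [div_le_one hl]; linarith
    have h5 : 6 / l = 3 * (2 / l) := by ring
    rw [h5]
    nlinarith [mul_nonneg h3 h3, mul_nonneg (mul_nonneg h3 h3) (sub_nonneg.mpr h4)]
  have q1' : ((l - 2) / l) ^ 3 ≤ 1 := by
    apply pow_le_one₀
    · apply div_nonneg <;> linarith
    · rw [div_le_one hl]; linarith
  have q2 : 1 - 6 / l ≤ (l / (l + 2)) ^ 3 := by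
    refine le_trans q1 ?_
    apply pow_le_pow_left₀
    · apply div_nonneg <;> linarith
    · rw [div_le_div_iff₀ hl (by linarith)]
      nlinarith
  have q2' : (l / (l + 2)) ^ 3 ≤ 1 := by
    apply pow_le_one₀
    · positivity
    · rw [div_le_one (by linarith)]; linarith
  have h6 : dens x0 k n * (6 / l) ≤ τ' := by
    refine le_trans ?_ hτ
    rw [mul_div_assoc', div_le_div_iff_of_pos_right hl]
    nlinarith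
  refine ⟨?_, ?_, ?_, ?_⟩
  · rw [e1]; nlinarith
  · rw [e1, abs_sub_comm, abs_of_nonneg (by nlinarith)]
    nlinarith
  · rw [e2]; nlinarith
  · rw [e2, abs_sub_comm, abs_of_nonneg (by nlinarith)]
    nlinarith

/-- convexity in `β` of `Vk` -/
theorem Vk_convex {φ₀ : ℝ → ℝ} {δ c η a : ℝ} (hφ : CoreHyp φ₀ δ c η) (ha : 0 < a)
    (hc : 1024 * a / δ ^ 3 ≤ c) {x0 : ℕ} (h : 2 ≤ x0) (k : ℕ) (ν : ℝ) (n : ℕ) :
    ConvexOn ℝ (Set.Ioi 0) (fun β => Vk φ₀ a x0 k β ν n) := by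
  have hl := ls_pos h k
  have hst : ∀ s : Multiset Pt, -(c / 2) * (Multiset.card s : ℝ) ≤
      En (fun r => φ₀ r - Tk a x0 k r) s := by
    intro s
    have := stable_of_core hφ ha hc h (lam := 1) (by norm_num) (by norm_num)
      (T := Tk a x0 k) (fun r => Tk_le_Tfull ha h k r) s
    simpa only [one_mul] using this
  have h1 := logZ_convex (φ := fun r => φ₀ r - Tk a x0 k r)
    (hφ.meas.sub (measurable_Tk a x0 k)) hst hl n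
  have e : (fun β => Vk φ₀ a x0 k β ν n) = fun β =>
      (1 / (ls x0 k : ℝ) ^ 3) * Real.log (partitionFn (fun r => φ₀ r - Tk a x0 k r) (ls x0 k) n β) +
      ((bs a x0 k * (n : ℝ) ^ 2 / (2 * (ls x0 k : ℝ) ^ 3)) / (ls x0 k : ℝ) ^ 3 * β +
        ν * n / (ls x0 k : ℝ) ^ 3) := by
    funext β
    unfold Vk
    field_simp
    ring
  rw [e]
  refine (h1.smul (by positivity : (0 : ℝ) ≤ 1 / (ls x0 k : ℝ) ^ 3)).add ?_
  refine ⟨convex_Ioi 0, fun x _ y _ s t _ _ hst => ?_⟩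
  simp only [smul_eq_mul]
  have : t = 1 - s := by linarith
  subst this
  apply le_of_eq
  ring

theorem Vk_linear (φ₀ : ℝ → ℝ) (a : ℝ) (x0 k : ℕ) (β ν ν' : ℝ) (n : ℕ) :
    Vk φ₀ a x0 k β ν' n = Vk φ₀ a x0 k β ν n + dens x0 k n * (ν' - ν) := by
  unfold Vk dens
  ring

end Crest.Agent.R149
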