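import Crest.Agent.R149.MainAux

/-!
The core of the main theorem (helper50).
-/

set_option autoImplicit false

namespace Crest.Agent.R149

open MeasureTheory Crest.ProbabilityR.Continuum
open scoped ENNReal BigOperators

/-- level-0 facts -/
structure BaseFacts (φ₀ : ℝ → ℝ) (a : ℝ) (x0 : ℕ) (δ : ℝ) (m : ℕ) (p Λ τ γ ε₁ : ℝ) : Prop where
  up : ∀ β ν : ℝ, 1 / 2 ≤ β → β ≤ 3 / 2 → |ν| ≤ 2 * Λ →
    ∀ n : ℕ, dens x0 0 n ≤ rmax δ → ∀ i : Fin 3, |dens x0 0 n - vv m p i| ≤ τ / 2 →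
      Vk φ₀ a x0 0 β ν n ≤ ν * vv m p i + β * ss m p Λ i - tt m p Λ i + ε₁ * Λ
  out : ∀ β ν : ℝ, 1 / 2 ≤ β → β ≤ 3 / 2 → |ν| ≤ 2 * Λ →
    ∀ n : ℕ, dens x0 0 n ≤ rmax δ → (∀ i : Fin 3, τ / 2 < |dens x0 0 n - vv m p i|) →
      ∃ i : Fin 3,
        Vk φ₀ a x0 0 β ν n ≤ ν * vv m p i + β * ss m p Λ i - tt m p Λ i - 4 * γ * Λ
  low : ∀ β ν : ℝ, 1 / 2 ≤ β → β ≤ 3 / 2 → |ν| ≤ 2 * Λ →
    ∀ i : Fin 3, ∃ n : ℕ, dens x0 0 n ≤ rmax δ ∧ |dens x0 0 n - vv m p i| ≤ τ / 2 ∧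
      ν * vv m p i + β * ss m p Λ i - tt m p Λ i - γ * Λ ≤ Vk φ₀ a x0 0 β ν n

/-- the window maxima as functions of `(β,ν)` -/
noncomputable def QQ (φ₀ : ℝ → ℝ) (a : ℝ) (x0 : ℕ) (δ : ℝ) (m : ℕ) (p τ : ℝ) (k : ℕ) (i : Fin 3)
    (β ν : ℝ) : ℝ :=
  Qw (dens x0) (rmax δ) (vv m p) τ (fun k n => Vk φ₀ a x0 k β ν n) k i

/-- conclusions of the window analysis -/
structure WinFacts (φ₀ : ℝ → ℝ) (a : ℝ) (x0 : ℕ) (δ : ℝ) (m : ℕ) (p τ θ C : ℝ) (G : ℝ → ℝ → ℝ)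
    (β ν : ℝ) : Prop where
  att : ∀ k i, ∃ n ∈ win (dens x0) (rmax δ) (vv m p) τ k i,
    QQ φ₀ a x0 δ m p τ k i β ν = Vk φ₀ a x0 k β ν n
  mem : ∀ k i, ∀ n ∈ win (dens x0) (rmax δ) (vv m p) τ k i,
    Vk φ₀ a x0 k β ν n ≤ QQ φ₀ a x0 δ m p τ k i β ν
  ha : ∀ k i, QQ φ₀ a x0 δ m p τ k i β ν ≤ Press G β ν + eps C x0 k
  hb : ∀ k, ∃ i, Press G β ν ≤ QQ φ₀ a x0 δ m p τ k i β ν + eps C x0 k
  hc1 : ∀ k i, QQ φ₀ a x0 δ m p τ k i β ν - eps C x0 k ≤ QQ φ₀ a x0 δ m p τ (k + 1) i β ν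
  hc2 : ∀ k i, QQ φ₀ a x0 δ m p τ (k + 1) i β ν ≤
    max (QQ φ₀ a x0 δ m p τ k i β ν) (Press G β ν - kappa θ a x0 k) + eps C x0 k

theorem vv_sep {m : ℕ} (hm : 2 ≤ m) {p τ : ℝ} (hp : 0 < p) (hτ : 4 * τ ≤ p) (i j : Fin 3)
    (hij : i ≠ j) : 4 * τ ≤ |vv m p i - vv m p j| := by
  have hm' : (2 : ℝ) ≤ m := by exact_mod_cast hm
  have h1 : p ≤ m * p := by nlinarith
  have h2 : p ≤ m * p - p := by nlinarith
  have key : ∀ x y : ℝ, p ≤ x - y → 4 * τ ≤ |x - y| ∧ 4 * τ ≤ |y - x| := by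
    intro x y hxy
    rw [abs_sub_comm y x, abs_of_nonneg (by linarith)]
    constructor <;> linarith
  have k10 := key p 0 (by linarith)
  have k20 := key (m * p) 0 (by linarith)
  have k21 := key (m * p) p (by linarith)
  fin_cases i <;> fin_cases j
  · exact absurd rfl hij
  · exact k10.2
  · exact k20.2
  · exact k10.1
  · exact absurd rfl hij
  · exact k21.2
  · exact k20.1
  · exact k21.1
  · exact absurd rfl hij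

theorem winFacts {φ₀ : ℝ → ℝ} {a : ℝ} {x0 : ℕ} {δ : ℝ} {m : ℕ} {p Λ τ γ ε₁ θ C : ℝ}
    {G : ℝ → ℝ → ℝ} (hδ : 0 < δ) (ha : 0 < a) (h2 : 2 ≤ x0) (hm : 2 ≤ m) (hp : 0 < p)
    (hC : 0 < C)
    (hτ : 0 < τ) (hτp : 4 * τ ≤ p) (hγ : 0 < γ)
    (hθ : 0 < θ) (hθτ : θ ≤ τ ^ 2 / 32) (hθa : θ * a ≤ 2 * γ * Λ)
    (hε0 : eps C x0 0 ≤ γ * Λ)
    (hs1 : ∀ k, 256 * eps C x0 k ≤ θ * bs a x0 (k + 1) / 4 ^ k)
    (hs2 : ∀ k, 20 * rmax δ / (ls x0 k : ℝ) ≤ τ / 2 ^ (k + 2))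
    (hF : LevelFacts φ₀ a x0 δ (2 * Λ) C G) (hB : BaseFacts φ₀ a x0 δ m p Λ τ γ ε₁)
    {β ν : ℝ} (h1 : 1 / 2 ≤ β) (h1' : β ≤ 3 / 2) (hν : |ν| ≤ 2 * Λ) :
    WinFacts φ₀ a x0 δ m p τ θ C G β ν := by
  have hb0 : bs a x0 0 = a := bs_zero (by omega)
  have hw := windows (dens x0) (rmax δ) (vv m p) τ (fun k n => Vk φ₀ a x0 k β ν n) (Press G β ν) θ
    (bs a x0) (eps C x0) hτ hθ hθτ (fun k => bs_pos ha (by omega) k)
    (fun k => bs_succ_le ha (by omega) k) (fun k => eps_pos hC h2 k) hs1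
    (fun i j hij => vv_sep hm hp hτp i j hij) (fun k => fin_dens h2 k _)
    (fun i => ?_) (fun k N hN => ?_) (fun k n hn => ?_) (fun k => ?_) (fun k n hn => ?_)
    (fun n hn hout => ?_)
  · obtain ⟨w1, w2, w3, w4, w5, w6, w7⟩ := hw
    exact ⟨fun k i => w2 k i, fun k i n hn => w3 k i n hn, fun k i => w4 k i, fun k => w5 k,
      fun k i => w6 k i, fun k i => w7 k i⟩
  · obtain ⟨n, hn, hn', _⟩ := hB.low β ν h1 h1' hν i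
    refine ⟨n, hn, ?_⟩
    have : τ * (1 - 1 / 2 ^ (0 + 1)) = τ / 2 := by norm_num; ring
    rw [this]; exact hn'
  · obtain ⟨n, hn, h3⟩ := hF.MU k β ν h1 h1' hν N hN
    refine ⟨n, hn, le_trans h3 ?_⟩
    have hb := bs_pos ha (x0 := x0) (by omega) (k + 1)
    have h4 : bs a x0 (k + 1) / 4 * (dens x0 k n - dens x0 (k + 1) N) ^ 2 ≤
        β * bs a x0 (k + 1) / 2 * (dens x0 k n - dens x0 (k + 1) N) ^ 2 := by
      apply mul_le_mul_of_nonneg_right _ (sq_nonneg _)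
      nlinarith
    linarith
  · obtain ⟨d1, d2, _, _⟩ := dens_shift h2 k n hn (hs2 k)
    exact ⟨(ls x0 k - 2) ^ 3 * n, le_trans d1 hn, d2, hF.ML k β ν h1 h1' hν n hn⟩
  · exact press_le hδ h2 hF h1 h1' hν k
  · exact press_ge hδ h2 hF h1 h1' hν k n hn
  · have hout' : ∀ i : Fin 3, τ / 2 < |dens x0 0 n - vv m p i| := by
      intro i
      by_contra hcon
      push Not at hcon
      refine hout i ⟨hn, ?_⟩
      have : τ * (1 - 1 / 2 ^ (0 + 1)) = τ / 2 := by norm_num; ring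
      rw [this]; exact hcon
    obtain ⟨i, hi⟩ := hB.out β ν h1 h1' hν n hn hout'
    obtain ⟨n', hn', _, h3⟩ := hB.low β ν h1 h1' hν i
    have h4 := press_ge hδ h2 hF h1 h1' hν 0 n' hn'
    show Vk φ₀ a x0 0 β ν n ≤ Press G β ν - θ * bs a x0 0
    rw [hb0]
    linarith

theorem eps_le {C : ℝ} (hC : 0 < C) {x0 : ℕ} (h : 2 ≤ x0) (k : ℕ) :
    eps C x0 k ≤ eps C x0 0 * (1 / 2) ^ k := by
  induction k with
  | zero => simp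
  | succ k ih =>
    have := eps_succ hC h k
    rw [pow_succ]
    linarith

theorem exists_eps_lt {C : ℝ} (hC : 0 < C) {x0 : ℕ} (h : 2 ≤ x0) {e : ℝ} (he : 0 < e) :
    ∃ k, eps C x0 k < e := by
  have h0 := eps_pos hC h 0
  obtain ⟨k, hk⟩ := exists_pow_lt_of_lt_one (div_pos he h0) (by norm_num : (1 / 2 : ℝ) < 1)
  refine ⟨k, lt_of_le_of_lt (eps_le hC h k) ?_⟩
  rw [lt_div_iff₀ h0] at hk
  linarith

end Crest.Agent.R149
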