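import Crest.Agent.R149.MainCore

/-!
The core of the main theorem (helper50), second part: triple point and kink.
-/

set_option autoImplicit false

namespace Crest.Agent.R149

open MeasureTheory Crest.ProbabilityR.Continuum
open scoped ENNReal BigOperators

/-- mean-field pressure of the phase `i` -/
noncomputable def hh (m : ℕ) (p Λ : ℝ) (i : Fin 3) (β ν : ℝ) : ℝ :=
  ν * vv m p i + β * ss m p Λ i - tt m p Λ i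

theorem hh_abs {m : ℕ} (hm : 2 ≤ m) {p Λ : ℝ} (hp : 0 < p) (hΛ : 0 < Λ) (i : Fin 3) {β ν : ℝ}
    (h1 : 1 / 2 ≤ β) (h1' : β ≤ 3 / 2) (hν : |ν| ≤ 2 * Λ) :
    |hh m p Λ i β ν| ≤ 9 / 2 * Λ * (m * p) := by
  have hm' : (2 : ℝ) ≤ m := by exact_mod_cast hm
  have hν' := abs_le.mp hν
  have h2 : p ≤ m * p := by nlinarith
  have h3 : 0 < Λ * p := by positivity
  have h4 : Λ * p ≤ Λ * (m * p) := mul_le_mul_of_nonneg_left h2 hΛ.le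
  have h5 : 0 ≤ Λ * p / m := by positivity
  have h6 : Λ * p / m ≤ Λ * p := div_le_self h3.le (by linarith)
  rw [abs_le]
  fin_cases i <;> simp only [hh, vv, ss, tt, Fin.zero_eta, Fin.mk_one, Fin.reduceFinMk,
    Matrix.cons_val_zero, Matrix.cons_val_one, Matrix.cons_val]
  · constructor <;> nlinarith
  · constructor <;> nlinarith
  · constructor <;> nlinarith

section

variable {φ₀ : ℝ → ℝ} {a : ℝ} {x0 : ℕ} {δ : ℝ} {m : ℕ} {p Λ τ γ ε₁ θ C : ℝ} {G : ℝ → ℝ → ℝ}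

theorem QQ_zero_bounds (hτ : 0 < τ) (hγε : γ ≤ ε₁) (hΛ : 0 < Λ)
    (hB : BaseFacts φ₀ a x0 δ m p Λ τ γ ε₁)
    {β ν : ℝ} (h1 : 1 / 2 ≤ β) (h1' : β ≤ 3 / 2) (hν : |ν| ≤ 2 * Λ)
    (hW : WinFacts φ₀ a x0 δ m p τ θ C G β ν) (i : Fin 3) :
    QQ φ₀ a x0 δ m p τ 0 i β ν ≤ hh m p Λ i β ν + ε₁ * Λ ∧
    hh m p Λ i β ν - γ * Λ ≤ QQ φ₀ a x0 δ m p τ 0 i β ν := by
  have e0 : τ * (1 - 1 / 2 ^ (0 + 1)) = τ / 2 := by norm_num; ring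
  constructor
  · obtain ⟨n, hn, e⟩ := hW.att 0 i
    rw [e]
    obtain ⟨hn1, hn2⟩ := hn
    rw [e0] at hn2
    exact hB.up β ν h1 h1' hν n hn1 i hn2
  · obtain ⟨n, hn1, hn2, h3⟩ := hB.low β ν h1 h1' hν i
    refine le_trans h3 (hW.mem 0 i n ⟨hn1, ?_⟩)
    rw [e0]; exact hn2

theorem QQ_lower (hC : 0 < C) (h2 : 2 ≤ x0) {β ν : ℝ}
    (hW : WinFacts φ₀ a x0 δ m p τ θ C G β ν) (k : ℕ) (i : Fin 3) :
    QQ φ₀ a x0 δ m p τ 0 i β ν - 2 * eps C x0 0 + 2 * eps C x0 k ≤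
      QQ φ₀ a x0 δ m p τ k i β ν := by
  induction k with
  | zero => linarith
  | succ k ih =>
    have h3 := hW.hc1 k i
    have h4 := eps_succ hC h2 k
    linarith

theorem press_bound (hτ : 0 < τ) (hγ : 0 < γ) (hγε : γ ≤ ε₁) (hΛ : 0 < Λ) (hC : 0 < C)
    (h2 : 2 ≤ x0)
    (hB : BaseFacts φ₀ a x0 δ m p Λ τ γ ε₁)
    {β ν : ℝ} (h1 : 1 / 2 ≤ β) (h1' : β ≤ 3 / 2) (hν : |ν| ≤ 2 * Λ)
    (hW : WinFacts φ₀ a x0 δ m p τ θ C G β ν) :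
    ∃ i, Press G β ν ≤ hh m p Λ i β ν + ε₁ * Λ + eps C x0 0 := by
  obtain ⟨i, hi⟩ := hW.hb 0
  have h3 := (QQ_zero_bounds hτ hγε hΛ hB h1 h1' hν hW i).1
  exact ⟨i, by linarith⟩

theorem QQ_bound (hm : 2 ≤ m) (hp : 0 < p) (hτ : 0 < τ) (hγ : 0 < γ) (hγε : γ ≤ ε₁)
    (hε₁ : ε₁ ≤ p / 1000) (hΛ : 0 < Λ)
    (hC : 0 < C) (h2 : 2 ≤ x0) (hε0 : eps C x0 0 ≤ γ * Λ)
    (hB : BaseFacts φ₀ a x0 δ m p Λ τ γ ε₁)
    {β ν : ℝ} (h1 : 1 / 2 ≤ β) (h1' : β ≤ 3 / 2) (hν : |ν| ≤ 2 * Λ)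
    (hW : WinFacts φ₀ a x0 δ m p τ θ C G β ν) (k : ℕ) (i : Fin 3) :
    |QQ φ₀ a x0 δ m p τ k i β ν| ≤ 5 * Λ * (m * p) := by
  have hm' : (2 : ℝ) ≤ m := by exact_mod_cast hm
  have q1 : p ≤ m * p := by nlinarith
  have q2 : Λ * p ≤ Λ * (m * p) := mul_le_mul_of_nonneg_left q1 hΛ.le
  have q3 : ε₁ * Λ ≤ Λ * p / 1000 := by nlinarith
  have q4 : γ * Λ ≤ ε₁ * Λ := mul_le_mul_of_nonneg_right hγε hΛ.le
  have q5 : 0 < Λ * p := by positivity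
  have hek : eps C x0 k ≤ eps C x0 0 := by
    refine le_trans (eps_le hC h2 k) ?_
    have := (eps_pos hC h2 0).le
    have h5 : (1 / 2 : ℝ) ^ k ≤ 1 := pow_le_one₀ (by norm_num) (by norm_num)
    nlinarith
  have hek0 := eps_pos hC h2 k
  rw [abs_le]
  constructor
  · have h3 := QQ_lower hC h2 hW k i
    have h4 := (QQ_zero_bounds hτ hγε hΛ hB h1 h1' hν hW i).2
    have h5 := abs_le.mp (hh_abs hm hp hΛ i h1 h1' hν)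
    linarith [h5.1]
  · have h3 := hW.ha k i
    obtain ⟨j, hj⟩ := press_bound hτ hγ hγε hΛ hC h2 hB h1 h1' hν hW
    have h5 := abs_le.mp (hh_abs hm hp hΛ j h1 h1' hν)
    linarith [h5.2]

/-- strict domination of one phase by another at level 0 -/
theorem QQ_dom (hτ : 0 < τ) (hγε : γ ≤ ε₁) (hΛ : 0 < Λ)
    (hε0 : eps C x0 0 ≤ γ * Λ)
    (hB : BaseFacts φ₀ a x0 δ m p Λ τ γ ε₁)
    {β ν : ℝ} (h1 : 1 / 2 ≤ β) (h1' : β ≤ 3 / 2) (hν : |ν| ≤ 2 * Λ)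
    (hW : WinFacts φ₀ a x0 δ m p τ θ C G β ν) {i j : Fin 3}
    (hij : hh m p Λ i β ν + 7 * ε₁ * Λ < hh m p Λ j β ν) :
    QQ φ₀ a x0 δ m p τ 0 i β ν < Press G β ν - 4 * eps C x0 0 := by
  have h3 := (QQ_zero_bounds hτ hγε hΛ hB h1 h1' hν hW i).1
  have h4 := (QQ_zero_bounds hτ hγε hΛ hB h1 h1' hν hW j).2
  have h5 := hW.ha 0 j
  have q4 : γ * Λ ≤ ε₁ * Λ := mul_le_mul_of_nonneg_right hγε hΛ.le
  nlinarith

end

end Crest.Agent.R149
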