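import Crest.Agent.R149.MainCore2

/-!
The core of the main theorem (helper50), third part.
-/

set_option autoImplicit false

namespace Crest.Agent.R149

open MeasureTheory Crest.ProbabilityR.Continuum
open scoped ENNReal BigOperators

structure Setup (φ₀ : ℝ → ℝ) (a : ℝ) (x0 : ℕ) (δ c η : ℝ) (m : ℕ) (p Λ τ γ ε₁ θ C : ℝ)
    (G : ℝ → ℝ → ℝ) : Prop where
  hφ : CoreHyp φ₀ δ c η
  ha : 0 < a
  hca : 1024 * a / δ ^ 3 ≤ c
  h2 : 2 ≤ x0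
  hm : 2 ≤ m
  hp : 0 < p
  hΛ : 0 < Λ
  hC : 0 < C
  hτ : 0 < τ
  hτ1 : τ ≤ p / 1000
  hγ : 0 < γ
  hγε : γ ≤ ε₁
  hε₁ : ε₁ ≤ p / 1000
  hθ : 0 < θ
  hθτ : θ ≤ τ ^ 2 / 32
  hθa : θ * a ≤ 2 * γ * Λ
  hε0 : eps C x0 0 ≤ γ * Λ
  hs1 : ∀ k, 256 * eps C x0 k ≤ θ * bs a x0 (k + 1) / 4 ^ k
  hs2 : ∀ k, 20 * rmax δ / (ls x0 k : ℝ) ≤ τ / 2 ^ (k + 2)
  hs3 : ∀ n, ∑ k ∈ Finset.range n, eps C x0 k / kappa θ a x0 k ≤
    ε₁ * Λ / (8 * (40 * Λ * (m * p) + 2 * (m * p)))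
  hs4 : kappa θ a x0 0 ≤ θ * a / 4
  hF : LevelFacts φ₀ a x0 δ (2 * Λ) C G
  hB : BaseFacts φ₀ a x0 δ m p Λ τ γ ε₁
  hconc : ∀ β : ℝ, 0 < β → ConcaveOn ℝ (Set.Ici 0) (G β)
  hconv : ∀ ρ : ℝ, 0 ≤ ρ → ConvexOn ℝ (Set.Ioi 0) (fun β => G β ρ)

section

variable {φ₀ : ℝ → ℝ} {a : ℝ} {x0 : ℕ} {δ c η : ℝ} {m : ℕ} {p Λ τ γ ε₁ θ C : ℝ} {G : ℝ → ℝ → ℝ}

theorem Setup.W (S : Setup φ₀ a x0 δ c η m p Λ τ γ ε₁ θ C G)
    {β ν : ℝ} (h1 : 1 / 2 ≤ β) (h1' : β ≤ 3 / 2) (hν : |ν| ≤ 2 * Λ) :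
    WinFacts φ₀ a x0 δ m p τ θ C G β ν :=
  winFacts S.hφ.δpos S.ha S.h2 S.hm S.hp S.hC S.hτ (by have := S.hτ1; have := S.hp; linarith)
    S.hγ S.hθ S.hθτ S.hθa S.hε0 S.hs1 S.hs2 S.hF S.hB h1 h1' hν

theorem Setup.win_le (S : Setup φ₀ a x0 δ c η m p Λ τ γ ε₁ θ C G) {k n : ℕ} {i : Fin 3}
    (hn : n ∈ win (dens x0) (rmax δ) (vv m p) τ k i) : |dens x0 k n - vv m p i| ≤ τ := by
  have hτ := S.hτ
  refine le_trans hn.2 ?_
  have : (0 : ℝ) ≤ 1 / 2 ^ (k + 1) := by positivity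
  nlinarith

theorem Setup.sub (S : Setup φ₀ a x0 δ c η m p Λ τ γ ε₁ θ C G) (k : ℕ) (i : Fin 3) {β ν : ℝ}
    (h1 : 1 / 2 ≤ β) (h1' : β ≤ 3 / 2) (hν : |ν| ≤ 2 * Λ) :
    ∃ w, |w - vv m p i| ≤ τ ∧ ∀ ν', |ν'| ≤ 2 * Λ →
      QQ φ₀ a x0 δ m p τ k i β ν + w * (ν' - ν) ≤ QQ φ₀ a x0 δ m p τ k i β ν' := by
  obtain ⟨n, hn, e⟩ := (S.W h1 h1' hν).att k i
  refine ⟨dens x0 k n, S.win_le hn, fun ν' hν' => ?_⟩
  have h3 := (S.W h1 h1' hν').mem k i n hn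
  rw [Vk_linear φ₀ a x0 k β ν ν' n] at h3
  rw [e]; exact h3

theorem Setup.conv (S : Setup φ₀ a x0 δ c η m p Λ τ γ ε₁ θ C G) (k : ℕ) (i : Fin 3) {ν : ℝ}
    (hν : |ν| ≤ 2 * Λ) :
    ConvexOn ℝ (Set.Icc (1 / 2) (3 / 2)) (fun β => QQ φ₀ a x0 δ m p τ k i β ν) := by
  refine ⟨convex_Icc _ _, fun x hx y hy s t hs ht hst => ?_⟩
  simp only [smul_eq_mul]
  have hz : s * x + t * y ∈ Set.Icc (1 / 2 : ℝ) (3 / 2) := by
    have := (convex_Icc (1 / 2 : ℝ) (3 / 2)) hx hy hs ht hst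
    simpa only [smul_eq_mul] using this
  obtain ⟨n, hn, e⟩ := (S.W hz.1 hz.2 hν).att k i
  rw [e]
  have hcv := (Vk_convex S.hφ S.ha S.hca S.h2 k ν n).2
    (show x ∈ Set.Ioi (0 : ℝ) from lt_of_lt_of_le (by norm_num) hx.1)
    (show y ∈ Set.Ioi (0 : ℝ) from lt_of_lt_of_le (by norm_num) hy.1) hs ht hst
  simp only [smul_eq_mul] at hcv
  refine le_trans hcv ?_
  have h3 := (S.W hx.1 hx.2 hν).mem k i n hn
  have h4 := (S.W hy.1 hy.2 hν).mem k i n hn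
  exact add_le_add (mul_le_mul_of_nonneg_left h3 hs) (mul_le_mul_of_nonneg_left h4 ht)

theorem Setup.vle (S : Setup φ₀ a x0 δ c η m p Λ τ γ ε₁ θ C G) (i : Fin 3) :
    0 ≤ vv m p i ∧ vv m p i ≤ m * p := by
  have hm' : (2 : ℝ) ≤ m := by exact_mod_cast S.hm
  have hp := S.hp
  have q1 : p ≤ m * p := by nlinarith
  fin_cases i <;> simp only [vv, Fin.zero_eta, Fin.mk_one, Fin.reduceFinMk,
    Matrix.cons_val_zero, Matrix.cons_val_one, Matrix.cons_val]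
  · constructor <;> linarith
  · constructor <;> linarith
  · constructor <;> linarith

theorem Setup.lipQ (S : Setup φ₀ a x0 δ c η m p Λ τ γ ε₁ θ C G) (k : ℕ) (i : Fin 3)
    (β ν β' ν' : ℝ) (h1 : 3 / 4 ≤ β) (h1' : β ≤ 5 / 4) (hν : |ν| ≤ 2 * Λ)
    (h2 : 3 / 4 ≤ β') (h2' : β' ≤ 5 / 4) (hν' : |ν'| ≤ 2 * Λ) :
    |QQ φ₀ a x0 δ m p τ k i β ν - QQ φ₀ a x0 δ m p τ k i β' ν'| ≤
      (40 * Λ * (m * p) + 2 * (m * p)) * (|β - β'| + |ν - ν'|) := by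
  have hm' : (2 : ℝ) ≤ m := by exact_mod_cast S.hm
  have hp := S.hp
  have hΛ := S.hΛ
  have q1 : p ≤ m * p := by nlinarith
  have hmp : 0 < m * p := by linarith
  have hτ := S.hτ
  have hτ1 := S.hτ1
  have hv := S.vle i
  -- β direction
  have a1 : |QQ φ₀ a x0 δ m p τ k i β ν - QQ φ₀ a x0 δ m p τ k i β' ν| ≤
      8 * (5 * Λ * (m * p)) * |β - β'| :=
    lip_of_convex (S.conv k i hν) (fun x hx hx' => QQ_bound S.hm S.hp S.hτ S.hγ S.hγε S.hε₁ S.hΛ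
      S.hC S.h2 S.hε0 S.hB hx hx' hν (S.W hx hx' hν) k i) h1 h1' h2 h2'
  -- ν direction
  have a2 : |QQ φ₀ a x0 δ m p τ k i β' ν - QQ φ₀ a x0 δ m p τ k i β' ν'| ≤
      2 * (m * p) * |ν - ν'| := by
    obtain ⟨w, hw, hw2⟩ := S.sub k i (β := β') (ν := ν) (by linarith) (by linarith) hν
    obtain ⟨w', hw', hw2'⟩ := S.sub k i (β := β') (ν := ν') (by linarith) (by linarith) hν'
    have b1 := hw2 ν' hν'
    have b2 := hw2' ν hν
    have c1 := abs_le.mp hw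
    have c2 := abs_le.mp hw'
    have d1 : |w| ≤ 2 * (m * p) := by rw [abs_le]; constructor <;> linarith
    have d2 : |w'| ≤ 2 * (m * p) := by rw [abs_le]; constructor <;> linarith
    have f1 : |w * (ν' - ν)| ≤ 2 * (m * p) * |ν - ν'| := by
      rw [abs_mul, abs_sub_comm ν' ν]
      exact mul_le_mul_of_nonneg_right d1 (abs_nonneg _)
    have f2 : |w' * (ν - ν')| ≤ 2 * (m * p) * |ν - ν'| := by
      rw [abs_mul]
      exact mul_le_mul_of_nonneg_right d2 (abs_nonneg _)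
    have g1 := abs_le.mp f1
    have g2 := abs_le.mp f2
    rw [abs_le]
    constructor <;> linarith
  have a3 := abs_sub_le (QQ φ₀ a x0 δ m p τ k i β ν) (QQ φ₀ a x0 δ m p τ k i β' ν)
    (QQ φ₀ a x0 δ m p τ k i β' ν')
  have p1 : 0 ≤ 2 * (m * p) * |β - β'| := by positivity
  have p2 : 0 ≤ 40 * Λ * (m * p) * |ν - ν'| := by positivity
  linarith

theorem Setup.lipP (S : Setup φ₀ a x0 δ c η m p Λ τ γ ε₁ θ C G)
    (β ν β' ν' : ℝ) (h1 : 3 / 4 ≤ β) (h1' : β ≤ 5 / 4) (hν : |ν| ≤ 2 * Λ)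
    (h2 : 3 / 4 ≤ β') (h2' : β' ≤ 5 / 4) (hν' : |ν'| ≤ 2 * Λ) :
    |Press G β ν - Press G β' ν'| ≤
      (40 * Λ * (m * p) + 2 * (m * p)) * (|β - β'| + |ν - ν'|) := by
  have key : ∀ (β ν β' ν' : ℝ), 3 / 4 ≤ β → β ≤ 5 / 4 → |ν| ≤ 2 * Λ → 3 / 4 ≤ β' → β' ≤ 5 / 4 →
      |ν'| ≤ 2 * Λ → Press G β ν - Press G β' ν' ≤
      (40 * Λ * (m * p) + 2 * (m * p)) * (|β - β'| + |ν - ν'|) := by
    intro β ν β' ν' h1 h1' hν h2 h2' hν'
    refine le_of_forall_pos_le_add (fun e he => ?_)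
    obtain ⟨k, hk⟩ := exists_eps_lt S.hC S.h2 (half_pos he)
    obtain ⟨i, hi⟩ := (S.W (β := β) (ν := ν) (by linarith) (by linarith) hν).hb k
    have h3 := (S.W (β := β') (ν := ν') (by linarith) (by linarith) hν').ha k i
    have h4 := abs_le.mp (S.lipQ k i β ν β' ν' h1 h1' hν h2 h2' hν')
    linarith [h4.2]
  rw [abs_le]
  constructor
  · have := key β' ν' β ν h2 h2' hν' h1 h1' hν
    rw [abs_sub_comm β' β, abs_sub_comm ν' ν] at this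
    linarith
  · exact key β ν β' ν' h1 h1' hν h2 h2' hν'

/-- the triple point -/
theorem Setup.triple_point (S : Setup φ₀ a x0 δ c η m p Λ τ γ ε₁ θ C G) :
    ∃ βs νs : ℝ, 7 / 8 ≤ βs ∧ βs ≤ 9 / 8 ∧ |νs| ≤ 2 * Λ ∧
      (∀ k i, Press G βs νs - 4 * eps C x0 k ≤ QQ φ₀ a x0 δ m p τ k i βs νs) ∧
      ∀ k i u, (∀ β, 3 / 4 ≤ β → β ≤ 5 / 4 →
        QQ φ₀ a x0 δ m p τ k i βs νs + u * (β - βs) ≤ QQ φ₀ a x0 δ m p τ k i β νs) →
        |u - ss m p Λ i| ≤ 17 * ε₁ * Λ := by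
  have hm' : (2 : ℝ) ≤ m := by exact_mod_cast S.hm
  have hp := S.hp
  have hΛ := S.hΛ
  have hC := S.hC
  have h2 := S.h2
  have q1 : p ≤ m * p := by nlinarith
  have q2 : p ≤ (m - 1) * p := by nlinarith
  have hmp : 0 < m * p := by linarith
  have hτ := S.hτ
  have hτ1 := S.hτ1
  have hε₁ : 0 < ε₁ := lt_of_lt_of_le S.hγ S.hγε
  have hε₁' := S.hε₁
  have qΛ : 0 < Λ * p := by positivity
  have qe : 7 * ε₁ * Λ ≤ 7 * (Λ * p / 1000) := by nlinarith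
  have qm : Λ * p / m ≤ Λ * p / 2 := by
    apply div_le_div_of_nonneg_left qΛ.le (by norm_num) hm'
  have qm0 : 0 < Λ * p / m := by positivity
  have qmm : Λ * p / m * m = Λ * p := by field_simp
  have q3 : Λ * p ≤ Λ * ((m - 1) * p) := mul_le_mul_of_nonneg_left q2 hΛ.le
  set Lip : ℝ := 40 * Λ * (m * p) + 2 * (m * p) with hLip
  have hLip0 : 0 < Lip := by positivity
  have hθa := S.hθa
  have hγε := S.hγε
  have hκ0 : kappa θ a x0 0 ≤ Lip / 2 := by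
    have h3 := S.hs4
    have h4 : γ * Λ ≤ ε₁ * Λ := mul_le_mul_of_nonneg_right hγε hΛ.le
    have h5 : 0 < Λ * (m * p) := by positivity
    have h6 : Λ * p ≤ Λ * (m * p) := mul_le_mul_of_nonneg_left q1 hΛ.le
    nlinarith
  have hhi : ∀ i β ν, hh m p Λ i β ν = ν * vv m p i + β * ss m p Λ i - tt m p Λ i :=
    fun i β ν => rfl
  -- explicit values
  have e0 : ∀ β ν, hh m p Λ 0 β ν = 0 := by
    intro β ν; simp [hh, vv, ss, tt]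
  have e1 : ∀ β ν, hh m p Λ 1 β ν = ν * p + β * (Λ * p / m) := by
    intro β ν; simp [hh, vv, ss, tt]
  have e2 : ∀ β ν, hh m p Λ 2 β ν = ν * (m * p) + β * (Λ * m * p) - Λ * (m - 1) * p := by
    intro β ν; simp [hh, vv, ss, tt]
  have hN : |(2 * Λ)| ≤ 2 * Λ := by rw [abs_of_pos (by linarith)]
  have hN' : |-(2 * Λ)| ≤ 2 * Λ := by rw [abs_neg]; exact hN
  have dom := fun {β ν : ℝ} (h1 : 1 / 2 ≤ β) (h1' : β ≤ 3 / 2) (hν : |ν| ≤ 2 * Λ)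
    (i j : Fin 3) (hij : hh m p Λ i β ν + 7 * ε₁ * Λ < hh m p Λ j β ν) =>
    QQ_dom S.hτ S.hγε S.hΛ S.hε0 S.hB h1 h1' hν (S.W h1 h1' hν) hij
  have ht := triple (Press G) (QQ φ₀ a x0 δ m p τ) (vv m p) (ss m p Λ) (tt m p Λ) τ (2 * Λ)
    (ε₁ * Λ) Lip (ε₁ * Λ / (8 * Lip)) (eps C x0) (kappa θ a x0) hτ (by linarith) hLip0
    (by simp [vv]; linarith) (by simp [vv]; linarith)
    (fun k => eps_pos hC h2 k) (fun k => eps_succ hC h2 k) (fun k => ?_)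
    (fun k => kappa_succ S.hθ S.ha h2 k) hκ0 S.hs3
    (fun k i β ν h1 h1' hν => (S.W h1 h1' hν).ha k i)
    (fun k β ν h1 h1' hν => (S.W h1 h1' hν).hb k)
    (fun k i β ν h1 h1' hν => (S.W h1 h1' hν).hc1 k i)
    (fun k i β ν h1 h1' hν => (S.W h1 h1' hν).hc2 k i)
    (fun k i β ν h1 h1' hν => S.sub k i h1 h1' hν)
    (fun k i ν hν => S.conv k i hν)
    (fun k i β ν β' ν' h1 h1' hν h2 h2' hν' => S.lipQ k i β ν β' ν' h1 h1' hν h2 h2' hν')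
    (fun β ν β' ν' h1 h1' hν h2 h2' hν' => S.lipP β ν β' ν' h1 h1' hν h2 h2' hν')
    (fun i β ν h1 h1' hν => ?_)
    (fun β h1 h1' i hi => ?_) (fun β h1 h1' i hi => ?_) ?_ (fun ν hν => ?_)
  · obtain ⟨βs, νs, k1, k2, k3, k4, k5⟩ := ht
    refine ⟨βs, νs, k1, k2, k3, k4, fun k i u hu => ?_⟩
    have := k5 k i u hu
    have e : 16 * (ε₁ * Λ) + 8 * Lip * (ε₁ * Λ / (8 * Lip)) = 17 * ε₁ * Λ := by
      field_simp
      ring
    rw [e] at this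
    exact this
  · -- 8 ε ≤ κ
    have h3 := S.hs1 k
    have e : kappa θ a x0 k = θ * bs a x0 (k + 1) / 4 ^ k / 4 := by
      unfold kappa; rw [pow_succ]; field_simp
    have h4 := eps_pos hC h2 k
    rw [e]
    linarith
  · have h3 := QQ_zero_bounds S.hτ S.hγε S.hΛ S.hB h1 h1' hν (S.W h1 h1' hν) i
    rw [hhi] at h3
    have q4 : γ * Λ ≤ ε₁ * Λ := mul_le_mul_of_nonneg_right hγε hΛ.le
    rw [abs_le]
    constructor
    · linarith [h3.2]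
    · linarith [h3.1]
  · -- ν = -2Λ : phase 0 dominates
    refine dom (by linarith) (by linarith) hN' i 0 ?_
    fin_cases i
    · exact absurd rfl hi
    · show hh m p Λ 1 β (-(2 * Λ)) + 7 * ε₁ * Λ < hh m p Λ 0 β (-(2 * Λ))
      rw [e0, e1]
      nlinarith
    · show hh m p Λ 2 β (-(2 * Λ)) + 7 * ε₁ * Λ < hh m p Λ 0 β (-(2 * Λ))
      rw [e0, e2]
      have h6 : Λ * p ≤ Λ * (m * p) := mul_le_mul_of_nonneg_left q1 hΛ.le
      nlinarith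
  · -- ν = 2Λ : phase 2 dominates
    refine dom (by linarith) (by linarith) hN i 2 ?_
    have h6 : Λ * p ≤ Λ * (m * p) := mul_le_mul_of_nonneg_left q1 hΛ.le
    fin_cases i
    · show hh m p Λ 0 β (2 * Λ) + 7 * ε₁ * Λ < hh m p Λ 2 β (2 * Λ)
      rw [e0, e2]
      nlinarith
    · show hh m p Λ 1 β (2 * Λ) + 7 * ε₁ * Λ < hh m p Λ 2 β (2 * Λ)
      rw [e1, e2]
      nlinarith
    · exact absurd rfl hi
  · -- β = 7/8
    refine ⟨-(7 / 8) * (Λ / m) + Λ / 16, ?_, fun i hi => ?_⟩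
    · have h7 : Λ / m ≤ Λ / 2 := div_le_div_of_nonneg_left hΛ.le (by norm_num) hm'
      have h8 : 0 < Λ / m := by positivity
      rw [abs_le]
      constructor <;> linarith
    have h7 : Λ / m ≤ Λ / 2 := div_le_div_of_nonneg_left hΛ.le (by norm_num) hm'
    have h8 : 0 < Λ / m := by positivity
    have hν : |-(7 / 8) * (Λ / m) + Λ / 16| ≤ 2 * Λ := by
      rw [abs_le]
      constructor <;> linarith
    refine dom (by norm_num) (by norm_num) hν i 1 ?_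
    have e3 : (-(7 / 8) * (Λ / m) + Λ / 16) * p = -(7 / 8) * (Λ * p / m) + Λ * p / 16 := by ring
    have e4 : (-(7 / 8) * (Λ / m) + Λ / 16) * (m * p) = -(7 / 8) * (Λ * p) + Λ * (m * p) / 16 := by
      field_simp
    fin_cases i
    · show hh m p Λ 0 _ _ + 7 * ε₁ * Λ < hh m p Λ 1 _ _
      rw [e0, e1, e3]
      linarith
    · exact absurd rfl hi
    · show hh m p Λ 2 _ _ + 7 * ε₁ * Λ < hh m p Λ 1 _ _
      rw [e2, e1, e3, e4]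
      nlinarith
  · -- β = 9/8
    rcases le_or_gt (ν + 9 / 8 * (Λ / m)) (-(Λ / 16)) with h | h
    · refine dom (by norm_num) (by norm_num) hν 1 0 ?_
      rw [e0, e1]
      have e5 : ν * p + 9 / 8 * (Λ * p / m) = (ν + 9 / 8 * (Λ / m)) * p := by ring
      rw [e5]
      nlinarith
    · refine dom (by norm_num) (by norm_num) hν 1 2 ?_
      rw [e1, e2]
      have e5 : ν * (m * p) + 9 / 8 * (Λ * m * p) - Λ * (m - 1) * p -
          (ν * p + 9 / 8 * (Λ * p / m)) =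
          ((m - 1) * p) * ((ν + 9 / 8 * (Λ / m)) + Λ / 8) := by
        field_simp
        ring
      have h9 : Λ / 16 < (ν + 9 / 8 * (Λ / m)) + Λ / 8 := by linarith
      have h10 : p * (Λ / 16) ≤ ((m - 1) * p) * ((ν + 9 / 8 * (Λ / m)) + Λ / 8) :=
        mul_le_mul q2 h9.le (by positivity) (by linarith)
      linarith

end

end Crest.Agent.R149
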