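import Crest.Agent.R149.MainCore3

/-!
The core of the main theorem (helper50), fourth part: the kink.
-/

set_option autoImplicit false

namespace Crest.Agent.R149

open MeasureTheory Crest.ProbabilityR.Continuum
open scoped ENNReal BigOperators

section

variable {φ₀ : ℝ → ℝ} {a : ℝ} {x0 : ℕ} {δ c η : ℝ} {m : ℕ} {p Λ τ γ ε₁ θ C : ℝ} {G : ℝ → ℝ → ℝ}

theorem noncoll (hm : 2 ≤ m) (hp : 0 < p) (hΛ : 0 < Λ) (hτ : 0 < τ) (hτ1 : τ ≤ p / 1000)
    (hε₁ : ε₁ ≤ p / 1000) (w u : Fin 3 → ℝ) (hw : ∀ i, |w i - vv m p i| ≤ τ)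
    (hu : ∀ i, |u i - ss m p Λ i| ≤ 17 * ε₁ * Λ) :
    u 1 + Λ * p / 100 ≤ ((w 2 - w 1) * u 0 + (w 1 - w 0) * u 2) / (w 2 - w 0) := by
  have hm' : (2 : ℝ) ≤ m := by exact_mod_cast hm
  have q1 : p ≤ m * p := by nlinarith
  have q2 : p ≤ (m - 1) * p := by nlinarith
  have qΛ : 0 < Λ * p := by positivity
  have qm : Λ * p / m ≤ Λ * p / 2 := by
    apply div_le_div_of_nonneg_left qΛ.le (by norm_num) hm'
  have qm0 : 0 < Λ * p / m := by positivity
  have w0 := abs_le.mp (hw 0)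
  have w1 := abs_le.mp (hw 1)
  have w2 := abs_le.mp (hw 2)
  have u0 := abs_le.mp (hu 0)
  have u1 := abs_le.mp (hu 1)
  have u2 := abs_le.mp (hu 2)
  have v0 : vv m p 0 = 0 := rfl
  have v1 : vv m p 1 = p := rfl
  have v2 : vv m p 2 = m * p := rfl
  have s0 : ss m p Λ 0 = 0 := rfl
  have s1 : ss m p Λ 1 = Λ * p / m := rfl
  have s2 : ss m p Λ 2 = Λ * m * p := rfl
  rw [v0] at w0
  rw [v1] at w1
  rw [v2] at w2
  rw [s0] at u0
  rw [s1] at u1
  rw [s2] at u2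
  have he : 17 * ε₁ * Λ ≤ 17 / 1000 * (Λ * p) := by nlinarith
  set e : ℝ := 2 * (17 * ε₁ * Λ) + Λ * p / 100 with hedef
  have d1 : p - 2 * τ ≤ w 1 - w 0 := by linarith
  have d2 : 0 < w 2 - w 1 := by linarith
  have d3 : w 2 - w 1 ≤ m * p - p + 2 * τ := by linarith
  have hB : Λ * m * p - Λ * p / m - e ≤ u 2 - (u 1 + Λ * p / 100) := by linarith
  have hA : (u 1 + Λ * p / 100) - u 0 ≤ Λ * p / m + e := by linarith
  have hε0 : 0 ≤ 17 * ε₁ * Λ := le_trans (abs_nonneg _) (hu 0)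
  have he0 : 0 < e := by rw [hedef]; linarith
  have hBpos : 0 ≤ Λ * m * p - Λ * p / m - e := by
    have h8 : Λ * p ≤ Λ * (m * p) := mul_le_mul_of_nonneg_left q1 hΛ.le
    have h9 : Λ * m * p = Λ * (m * p) := by ring
    rw [h9, hedef]
    linarith
  rw [le_div_iff₀ (by linarith)]
  have f1 : (p - 2 * τ) * (Λ * m * p - Λ * p / m - e) ≤
      (w 1 - w 0) * (u 2 - (u 1 + Λ * p / 100)) :=
    mul_le_mul d1 hB hBpos (by linarith)
  have f2 : (w 2 - w 1) * ((u 1 + Λ * p / 100) - u 0) ≤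
      (m * p - p + 2 * τ) * (Λ * p / m + e) := by
    calc (w 2 - w 1) * ((u 1 + Λ * p / 100) - u 0) ≤ (w 2 - w 1) * (Λ * p / m + e) :=
          mul_le_mul_of_nonneg_left hA d2.le
      _ ≤ (m * p - p + 2 * τ) * (Λ * p / m + e) :=
          mul_le_mul_of_nonneg_right d3 (by linarith)
  have f3 : (m * p - p + 2 * τ) * (Λ * p / m + e) ≤
      (p - 2 * τ) * (Λ * m * p - Λ * p / m - e) := by
    have g1 : (p - 2 * τ) * (Λ * m * p - Λ * p / m - e) -
        (m * p - p + 2 * τ) * (Λ * p / m + e) =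
        (m * p) * ((p - 2 * τ) * Λ - (Λ * p / m + e)) := by ring
    have g2 : 0 ≤ (p - 2 * τ) * Λ - (Λ * p / m + e) := by
      have g0 : τ * Λ ≤ p / 1000 * Λ := mul_le_mul_of_nonneg_right hτ1 hΛ.le
      have g00 : (p - 2 * τ) * Λ = Λ * p - 2 * (τ * Λ) := by ring
      have g01 : p / 1000 * Λ = Λ * p / 1000 := by ring
      rw [hedef, g00]
      rw [g01] at g0
      linarith
    have g3 : 0 ≤ (m * p) * ((p - 2 * τ) * Λ - (Λ * p / m + e)) :=
      mul_nonneg (by linarith) g2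
    linarith
  have f4 := f2.trans (f3.trans f1)
  have f5 : ((w 2 - w 1) * u 0 + (w 1 - w 0) * u 2) - (u 1 + Λ * p / 100) * (w 2 - w 0) =
      (w 1 - w 0) * (u 2 - (u 1 + Λ * p / 100)) -
        (w 2 - w 1) * ((u 1 + Λ * p / 100) - u 0) := by ring
  linarith

theorem Setup.kink (S : Setup φ₀ a x0 δ c η m p Λ τ γ ε₁ θ C G) :
    ∃ βs : ℝ, 7 / 8 ≤ βs ∧ βs ≤ 9 / 8 ∧ ∀ ρ : ℝ, 3 * p / 2 < ρ → ρ < 11 * p / 6 →
      ∃ Dl Dr : ℝ, HasDerivWithinAt (fun β => G β ρ) Dl (Set.Iio βs) βs ∧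
        HasDerivWithinAt (fun β => G β ρ) Dr (Set.Ioi βs) βs ∧ Dl < Dr := by
  obtain ⟨βs, νs, k1, k2, k3, k4, k5⟩ := S.triple_point
  refine ⟨βs, k1, k2, fun ρ hρ hρ' => ?_⟩
  have hm' : (2 : ℝ) ≤ m := by exact_mod_cast S.hm
  have hp := S.hp
  have hΛ := S.hΛ
  have hC := S.hC
  have h2 := S.h2
  have q1 : 2 * p ≤ m * p := by nlinarith
  have hτ := S.hτ
  have hτ1 := S.hτ1
  have v0 : vv m p 0 = 0 := rfl
  have v1 : vv m p 1 = p := rfl
  have v2 : vv m p 2 = m * p := rfl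
  refine Crest.Agent.R149.kink G βs νs (Press G βs νs) (vv m p) (ss m p Λ) τ (17 * ε₁ * Λ)
    (Λ * p / 100) k1 k2 hτ (by positivity) (by rw [v0, v1]; linarith) (by rw [v1, v2]; linarith)
    (by rw [v0]) S.hconc S.hconv
    (fun ρ hρ => le_press S.hφ.δpos h2 S.hF (by linarith) (by linarith) k3 hρ)
    (fun i e he => ?_)
    (fun w u hw hu => noncoll S.hm hp hΛ hτ hτ1 S.hε₁ w u hw hu)
    ρ (by rw [v0]; linarith) (by rw [v2]; linarith)
  obtain ⟨k, hk⟩ := exists_eps_lt hC h2 (show 0 < e / 5 by positivity)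
  have hW := S.W (β := βs) (ν := νs) (by linarith) (by linarith) k3
  obtain ⟨n, hn, hatt⟩ := hW.att k i
  obtain ⟨u, hu⟩ := subgrad_of_convex (Vk_convex S.hφ S.ha S.hca h2 k νs n)
    (show 0 < βs by linarith)
  have hn1 : dens x0 k n ≤ rmax δ := hn.1
  obtain ⟨_, _, d3, d4⟩ := dens_shift h2 k n hn1 (S.hs2 k)
  have hl := ls_pos h2 k
  refine ⟨(n : ℝ) / ((ls x0 k : ℝ) + 2) ^ 3, u, by positivity, ?_, ?_, fun β hβ hβ' => ?_⟩
  · have h3 := hn.2
    have h4 := abs_sub_le ((n : ℝ) / ((ls x0 k : ℝ) + 2) ^ 3) (dens x0 k n) (vv m p i)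
    refine le_trans h4 ?_
    refine le_trans (add_le_add d4 h3) ?_
    have e3 : τ / 2 ^ (k + 2) = τ * (1 / 2 ^ (k + 1)) / 2 := by
      rw [pow_succ (2 : ℝ) (k + 1)]; field_simp
    rw [e3]
    have : (0 : ℝ) ≤ τ * (1 / 2 ^ (k + 1)) := by positivity
    linarith
  · refine k5 k i u (fun β hβ hβ' => ?_)
    have h3 := (S.W (β := β) (ν := νs) (by linarith) (by linarith) k3).mem k i n hn
    have h4 := hu β (by linarith)
    rw [hatt]
    linarith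
  · have h3 := S.hF.MLl k β νs (by linarith) (by linarith) k3 n hn1
    have h4 := hu β (by linarith)
    have h5 := k4 k i
    rw [hatt] at h5
    linarith

end

end Crest.Agent.R149
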